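import Vale.Agent.Lib.P358.AnaDefs

/-!
# Convexity of `f(w) = scal γ (1-w) w`; homogeneity and subadditivity of `Φ` (P358 library)

Paper proof of `scal_convex`: let `κ = γ(1-γ) ∈ [0, 1/4]`. If `κ = 0` then `f ≡ 0`.  Otherwise on `(0,1)`:
`u = √(1 - 4κ w²) ∈ (0,1)`, `λ± = (1 ± u)/2`, `f = η(λ₊) + η(λ₋)`, `L = log((1+u)/(1-u))`,
`f' = 2 κ w L / u`, `f'' = 2κ (L - 2u)/u³ ≥ 0` because `L ≥ 2u` on `[0,1)` (artanh u ≥ u).
Use `convexOn_of_deriv2_nonneg` (continuity on `[0,1]` from continuity of `negMulLog` and `sqrt`).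

`PhiAD_smul`: `lamP γ (c a) (c b) = c lamP γ a b` (same for `lamM`) and `η(c μ) = c η(μ) + μ η(c)`,
`lamP + lamM = a + b`.  `PhiAD_add`: with `a+b = S > 0`, `a'+b' = S' > 0`:
`Φ(a,b) = S f(b/S)` (`η(1) = 0`, homogeneity) and convexity of `f`. The cases `S = 0` or `S' = 0` are
trivial since `PhiAD γ 0 0 = 0`.
-/

namespace Vale.Agent.Lib.P358

open Real MeasureTheory Set

noncomputable section

lemma lamP_normal (γ w : ℝ) :
    lamP γ (1 - w) w = (1 + Real.sqrt (1 - 4 * (γ * (1 - γ)) * w ^ 2)) / 2 := by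
  show ((1 - w + w) + Real.sqrt ((1 - w + w) ^ 2 - 4 * (γ * (1 - γ)) * w ^ 2)) / 2 = _
  rw [show 1 - w + w = 1 by ring, one_pow]

lemma lamM_normal (γ w : ℝ) :
    lamM γ (1 - w) w = (1 - Real.sqrt (1 - 4 * (γ * (1 - γ)) * w ^ 2)) / 2 := by
  show ((1 - w + w) - Real.sqrt ((1 - w + w) ^ 2 - 4 * (γ * (1 - γ)) * w ^ 2)) / 2 = _
  rw [show 1 - w + w = 1 by ring, one_pow]

/-- `artanh u ≥ u`. -/
lemma two_mul_le_log_sub {u : ℝ} (h0 : 0 ≤ u) (h1 : u < 1) :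
    2 * u ≤ Real.log (1 + u) - Real.log (1 - u) := by
  have hs := Real.hasSum_log_sub_log_of_abs_lt_one (x := u) (by rwa [abs_of_nonneg h0])
  have := le_hasSum hs 0 (fun k _ => by positivity)
  simpa using this

lemma aux_eq1 (κ w u P M : ℝ) (hu : u ≠ 0) :
    (-Real.log P - 1) * (-(4 * κ * w) / u / 2) + (-Real.log M - 1) * (-(-(4 * κ * w) / u) / 2)
      = 2 * κ * w * (Real.log P - Real.log M) / u := by
  field_simp
  ring

lemma aux_eq2 (κ w u : ℝ) (hκ : κ ≠ 0) (hw : w ≠ 0) (hu : u ≠ 0) (hp : 1 + u ≠ 0) (hm : 1 - u ≠ 0)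
    (h : u ^ 2 = 1 - 4 * κ * w ^ 2) :
    -(4 * κ * w) / u / 2 / ((1 + u) / 2) - -(-(4 * κ * w) / u) / 2 / ((1 - u) / 2)
      = -2 / (w * u) := by
  field_simp
  linear_combination (-2 : ℝ) * h

lemma aux_eq3 (κ w u L : ℝ) (hw : w ≠ 0) (hu : u ≠ 0) (h : u ^ 2 = 1 - 4 * κ * w ^ 2) :
    ((2 * κ * 1 * L + 2 * κ * w * (-2 / (w * u))) * u - 2 * κ * w * L * (-(4 * κ * w) / u)) / u ^ 2
      = 2 * κ * (L - 2 * u) / u ^ 3 := by
  field_simp
  linear_combination (κ * L) * h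

/-- Core calculus for the convexity of `f`. -/
lemma conv_core {κ : ℝ} (hκ0 : 0 < κ) (hκ1 : κ ≤ 1 / 4) :
    ConvexOn ℝ (Icc 0 1) (fun w : ℝ => negMulLog ((1 + Real.sqrt (1 - 4 * κ * w ^ 2)) / 2)
      + negMulLog ((1 - Real.sqrt (1 - 4 * κ * w ^ 2)) / 2)) := by
  set uf : ℝ → ℝ := fun w => Real.sqrt (1 - 4 * κ * w ^ 2) with huf
  set Lf : ℝ → ℝ := fun w => Real.log ((1 + uf w) / 2) - Real.log ((1 - uf w) / 2) with hLf
  have basics : ∀ w ∈ Ioo (0 : ℝ) 1, 0 < uf w ∧ uf w < 1 ∧ uf w ^ 2 = 1 - 4 * κ * w ^ 2 ∧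
      HasDerivAt uf (-(4 * κ * w) / uf w) w := by
    rintro w ⟨hw0, hw1⟩
    have hw2 : 0 < w ^ 2 := by positivity
    have hw3 : w ^ 2 < 1 := by nlinarith
    have hpos : 0 < 1 - 4 * κ * w ^ 2 := by nlinarith
    have hlt : 1 - 4 * κ * w ^ 2 < 1 := by nlinarith [mul_pos hκ0 hw2]
    refine ⟨Real.sqrt_pos.2 hpos, ?_, Real.sq_sqrt hpos.le, ?_⟩
    · exact (Real.sqrt_lt' one_pos).2 (by simpa using hlt)
    · have h1 : HasDerivAt (fun w : ℝ => 1 - 4 * κ * w ^ 2) (-(4 * κ * (2 * w))) w := by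
        simpa using ((hasDerivAt_pow 2 w).const_mul (4 * κ)).const_sub 1
      have h2 := h1.sqrt hpos.ne'
      have hne : Real.sqrt (1 - 4 * κ * w ^ 2) ≠ 0 := (Real.sqrt_pos.2 hpos).ne'
      convert h2 using 1
      have hufw : uf w = Real.sqrt (1 - 4 * κ * w ^ 2) := rfl
      rw [hufw]
      field_simp
  have hderiv1 : ∀ w ∈ Ioo (0 : ℝ) 1, HasDerivAt (fun w : ℝ => negMulLog ((1 + uf w) / 2)
      + negMulLog ((1 - uf w) / 2)) (2 * κ * w * Lf w / uf w) w := by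
    intro w hw
    obtain ⟨hu0, hu1, hu2, hu⟩ := basics w hw
    have hp : (1 + uf w) / 2 ≠ 0 := by positivity
    have hm : (1 - uf w) / 2 ≠ 0 := by
      have : 0 < 1 - uf w := by linarith
      positivity
    have h1 := (Real.hasDerivAt_negMulLog hp).comp w ((hu.const_add 1).div_const 2)
    have h2 := (Real.hasDerivAt_negMulLog hm).comp w ((hu.const_sub 1).div_const 2)
    have h3 : HasDerivAt (fun w : ℝ => negMulLog ((1 + uf w) / 2) + negMulLog ((1 - uf w) / 2)) _ w :=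
      h1.add h2
    refine h3.congr_deriv ?_
    exact aux_eq1 κ w (uf w) _ _ hu0.ne'
  have hderiv2 : ∀ w ∈ Ioo (0 : ℝ) 1, HasDerivAt (fun w : ℝ => 2 * κ * w * Lf w / uf w)
      (2 * κ * (Lf w - 2 * uf w) / uf w ^ 3) w := by
    intro w hw
    obtain ⟨hu0, hu1, hu2, hu⟩ := basics w hw
    have hw0 : 0 < w := hw.1
    have hm : 0 < 1 - uf w := by linarith
    have hp' : (1 + uf w) / 2 ≠ 0 := by positivity
    have hm' : (1 - uf w) / 2 ≠ 0 := by positivity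
    have hL : HasDerivAt Lf (-2 / (w * uf w)) w := by
      have h1 := ((hu.const_add 1).div_const 2).log hp'
      have h2 := ((hu.const_sub 1).div_const 2).log hm'
      have h3 : HasDerivAt Lf _ w := h1.sub h2
      refine h3.congr_deriv ?_
      exact aux_eq2 κ w (uf w) hκ0.ne' hw0.ne' hu0.ne' (by positivity) hm.ne' (by linarith)
    have h3 := ((hasDerivAt_id w).const_mul (2 * κ)).mul hL
    have h4 := h3.div hu hu0.ne'
    have h5 : HasDerivAt (fun w : ℝ => 2 * κ * w * Lf w / uf w) _ w := h4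
    refine h5.congr_deriv ?_
    exact aux_eq3 κ w (uf w) (Lf w) hw0.ne' hu0.ne' (by linarith)
  refine convexOn_of_hasDerivWithinAt2_nonneg (convex_Icc 0 1) ?_ ?_ ?_ ?_
    (f' := fun w => 2 * κ * w * Lf w / uf w)
    (f'' := fun w => 2 * κ * (Lf w - 2 * uf w) / uf w ^ 3)
  · have : Continuous (fun w : ℝ => negMulLog ((1 + Real.sqrt (1 - 4 * κ * w ^ 2)) / 2)
      + negMulLog ((1 - Real.sqrt (1 - 4 * κ * w ^ 2)) / 2)) := by
      have hη := Real.continuous_negMulLog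
      fun_prop
    exact this.continuousOn
  · rw [interior_Icc]
    intro w hw
    exact (hderiv1 w hw).hasDerivWithinAt
  · rw [interior_Icc]
    intro w hw
    exact (hderiv2 w hw).hasDerivWithinAt
  · rw [interior_Icc]
    intro w hw
    obtain ⟨hu0, hu1, hu2, hu⟩ := basics w hw
    have hL : 2 * uf w ≤ Lf w := by
      have := two_mul_le_log_sub hu0.le hu1
      simp only [hLf]
      rw [Real.log_div (by positivity) (by norm_num), Real.log_div (by linarith) (by norm_num)]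
      linarith
    have : 0 ≤ Lf w - 2 * uf w := by linarith
    positivity

/-- Normalised scalar function `f(w) = scal γ (1-w) w`, convex on `[0,1]`. -/
theorem scal_convex {γ : ℝ} (hγ0 : 0 ≤ γ) (hγ1 : γ ≤ 1) :
    ConvexOn ℝ (Icc 0 1) (fun w => scal γ (1 - w) w) := by
  have hf : (fun w => scal γ (1 - w) w) = fun w : ℝ =>
      negMulLog ((1 + Real.sqrt (1 - 4 * (γ * (1 - γ)) * w ^ 2)) / 2)
        + negMulLog ((1 - Real.sqrt (1 - 4 * (γ * (1 - γ)) * w ^ 2)) / 2) := by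
    funext w
    simp only [scal, lamP_normal, lamM_normal]
  rw [hf]
  have hκ1 : γ * (1 - γ) ≤ 1 / 4 := by nlinarith [sq_nonneg (γ - 1 / 2)]
  have hκ0' : 0 ≤ γ * (1 - γ) := mul_nonneg hγ0 (by linarith)
  rcases hκ0'.eq_or_lt with h | h
  · rw [← h]
    have : (fun w : ℝ => negMulLog ((1 + Real.sqrt (1 - 4 * 0 * w ^ 2)) / 2)
        + negMulLog ((1 - Real.sqrt (1 - 4 * 0 * w ^ 2)) / 2)) = fun _ => 0 := by
      funext w
      norm_num [Real.negMulLog]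
    rw [this]
    exact convexOn_const 0 (convex_Icc 0 1)
  · exact conv_core h hκ1

lemma sqrt_scale {c : ℝ} (hc : 0 ≤ c) (y : ℝ) : Real.sqrt (c ^ 2 * y) = c * Real.sqrt y := by
  rw [Real.sqrt_mul (sq_nonneg c), Real.sqrt_sq hc]

lemma lamP_smul (γ : ℝ) {c : ℝ} (hc : 0 ≤ c) (a b : ℝ) :
    lamP γ (c * a) (c * b) = c * lamP γ a b := by
  unfold lamP
  rw [show (c * a + c * b) ^ 2 - 4 * (γ * (1 - γ)) * (c * b) ^ 2
    = c ^ 2 * ((a + b) ^ 2 - 4 * (γ * (1 - γ)) * b ^ 2) by ring, sqrt_scale hc]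
  ring

lemma lamM_smul (γ : ℝ) {c : ℝ} (hc : 0 ≤ c) (a b : ℝ) :
    lamM γ (c * a) (c * b) = c * lamM γ a b := by
  unfold lamM
  rw [show (c * a + c * b) ^ 2 - 4 * (γ * (1 - γ)) * (c * b) ^ 2
    = c ^ 2 * ((a + b) ^ 2 - 4 * (γ * (1 - γ)) * b ^ 2) by ring, sqrt_scale hc]
  ring

theorem PhiAD_smul {γ c a b : ℝ} (hγ0 : 0 ≤ γ) (hγ1 : γ ≤ 1) (hc : 0 ≤ c) (ha : 0 ≤ a) (hb : 0 ≤ b) :
    PhiAD γ (c * a) (c * b) = c * PhiAD γ a b := by
  clear hγ0 hγ1 ha hb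
  unfold PhiAD scal
  rw [lamP_smul γ hc, lamM_smul γ hc, ← mul_add c a b]
  rw [Real.negMulLog_mul, Real.negMulLog_mul, Real.negMulLog_mul]
  have hs : lamP γ a b + lamM γ a b = a + b := by
    unfold lamP lamM
    ring
  rw [← hs]
  ring

/-- `Φ(1-w, w) = f(w)`. -/
theorem PhiAD_normal (γ w : ℝ) : PhiAD γ (1 - w) w = scal γ (1 - w) w := by
  simp [PhiAD]

lemma PhiAD_zero (γ : ℝ) : PhiAD γ 0 0 = 0 := by
  simp [PhiAD, scal, lamP, lamM]

lemma PhiAD_eq_mul {γ a b : ℝ} (hγ0 : 0 ≤ γ) (hγ1 : γ ≤ 1) (ha : 0 ≤ a) (hb : 0 ≤ b)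
    (hS : 0 < a + b) : PhiAD γ a b = (a + b) * scal γ (1 - b / (a + b)) (b / (a + b)) := by
  have h1 : a = (a + b) * (1 - b / (a + b)) := by
    field_simp
    ring
  have h2 : b = (a + b) * (b / (a + b)) := by
    field_simp
  have h0 : 0 ≤ 1 - b / (a + b) := by
    rw [sub_nonneg, div_le_one hS]
    linarith
  have h3 := PhiAD_smul hγ0 hγ1 hS.le h0 (div_nonneg hb hS.le)
  rw [← h1, ← h2, PhiAD_normal] at h3
  exact h3

theorem PhiAD_add {γ a b a' b' : ℝ} (hγ0 : 0 ≤ γ) (hγ1 : γ ≤ 1) (ha : 0 ≤ a) (hb : 0 ≤ b)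
    (ha' : 0 ≤ a') (hb' : 0 ≤ b') :
    PhiAD γ (a + a') (b + b') ≤ PhiAD γ a b + PhiAD γ a' b' := by
  rcases (add_nonneg ha hb).eq_or_lt with hS | hS
  · have h1 : a = 0 := by linarith
    have h2 : b = 0 := by linarith
    subst h1
    subst h2
    simp [PhiAD_zero]
  rcases (add_nonneg ha' hb').eq_or_lt with hS' | hS'
  · have h1 : a' = 0 := by linarith
    have h2 : b' = 0 := by linarith
    subst h1
    subst h2
    simp [PhiAD_zero]
  set S := a + b with hSd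
  set S' := a' + b' with hSd'
  have hT : 0 < (a + a') + (b + b') := by linarith
  have hwm : b / S ∈ Icc (0 : ℝ) 1 :=
    ⟨div_nonneg hb hS.le, by rw [div_le_one hS]; linarith⟩
  have hwm' : b' / S' ∈ Icc (0 : ℝ) 1 :=
    ⟨div_nonneg hb' hS'.le, by rw [div_le_one hS']; linarith⟩
  have ha0 : 0 ≤ S / (S + S') := by positivity
  have hb0 : 0 ≤ S' / (S + S') := by positivity
  have hab : S / (S + S') + S' / (S + S') = 1 := by field_simp
  have hconv := (scal_convex hγ0 hγ1).2 hwm hwm' ha0 hb0 hab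
  simp only [smul_eq_mul] at hconv
  have hW : S / (S + S') * (b / S) + S' / (S + S') * (b' / S') = (b + b') / (a + a' + (b + b')) := by
    have : a + a' + (b + b') = S + S' := by rw [hSd, hSd']; ring
    rw [this]
    field_simp
  rw [hW] at hconv
  rw [PhiAD_eq_mul hγ0 hγ1 (add_nonneg ha ha') (add_nonneg hb hb') hT,
    PhiAD_eq_mul hγ0 hγ1 ha hb hS, PhiAD_eq_mul hγ0 hγ1 ha' hb' hS']
  have hTS : a + a' + (b + b') = S + S' := by rw [hSd, hSd']; ring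
  rw [hTS] at hconv ⊢
  have hST : 0 < S + S' := by positivity
  rw [← hSd, ← hSd']
  calc (S + S') * scal γ (1 - (b + b') / (S + S')) ((b + b') / (S + S'))
      ≤ (S + S') * (S / (S + S') * scal γ (1 - b / S) (b / S)
          + S' / (S + S') * scal γ (1 - b' / S') (b' / S')) :=
        mul_le_mul_of_nonneg_left hconv hST.le
    _ = _ := by
        field_simp

end

end Vale.Agent.Lib.P358
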