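import Mathlib

/-!
# Scalar functions for the amplitude-damping two-letter inequality (P358 library)

Parameters `x Z Y > 0`.  `Dc x Z Y c s = (s + Z c)(s + Y c) + x s c`.
-/

namespace Vale.Agent.Lib.P358

open Real MeasureTheory Set

noncomputable section

/-- `D_c(s) = (s + Z c)(s + Y c) + x s c`. -/
def Dc (x Z Y c s : ℝ) : ℝ := (s + Z * c) * (s + Y * c) + x * s * c

/-- The trial amplitude `A(c,s) = (s + Y c) / D_c(s)`. -/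
def trialA (x Z Y c s : ℝ) : ℝ := (s + Y * c) / Dc x Z Y c s

/-- The dual trial amplitude `A'(c,s) = (s + Z c) / D_c(s)`. -/
def trialB (x Z Y c s : ℝ) : ℝ := (s + Z * c) / Dc x Z Y c s

/-- The kernel `K(a,b;s) = s [Z a A(a,s)² / (s + Y b) + Y b A'(b,s)² / (s + Z a)]`. -/
def kern (x Z Y a b s : ℝ) : ℝ :=
  s * (Z * a * (trialA x Z Y a s) ^ 2 / (s + Y * b) + Y * b * (trialB x Z Y b s) ^ 2 / (s + Z * a))

/-- The reference integrand `Ψ_c(s) = Z c A(c,s) + Y c A'(c,s)`. -/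
def refPsi (x Z Y c s : ℝ) : ℝ := Z * c * trialA x Z Y c s + Y * c * trialB x Z Y c s

/-- The constant `Q₀ = ∫₀^∞ (Ψ₁(s) - (Z+Y)/(1+s)) ds`. -/
def Q0 (x Z Y : ℝ) : ℝ := ∫ s in Ioi (0 : ℝ), (refPsi x Z Y 1 s - (Z + Y) / (1 + s))

/-- The constant `Λ = Z ∫₀^∞ (u+Y)²/D₁(u)² du`. -/
def kernConst (x Z Y : ℝ) : ℝ := Z * ∫ u in Ioi (0 : ℝ), (u + Y) ^ 2 / (Dc x Z Y 1 u) ^ 2

/-- Larger root of `λ² - (x+b) λ + γ(1-γ) b²`. -/
def lamP (γ x b : ℝ) : ℝ := ((x + b) + Real.sqrt ((x + b) ^ 2 - 4 * (γ * (1 - γ)) * b ^ 2)) / 2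

/-- Smaller root of `λ² - (x+b) λ + γ(1-γ) b²`. -/
def lamM (γ x b : ℝ) : ℝ := ((x + b) - Real.sqrt ((x + b) ^ 2 - 4 * (γ * (1 - γ)) * b ^ 2)) / 2

/-- The scalar entropy `S_un(g g*)` with `g = [[√x, √(γ b)], [√((1-γ) b), 0]]`. -/
def scal (γ x b : ℝ) : ℝ := negMulLog (lamP γ x b) + negMulLog (lamM γ x b)

/-- The homogeneous version of `f(w) = scal γ (1-w) w`: `Φ(a,b) = (a+b) f(b/(a+b))`. -/
def PhiAD (γ a b : ℝ) : ℝ := scal γ a b - negMulLog (a + b)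

end

end Vale.Agent.Lib.P358
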