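import Vale.Agent.Lib.P358.AnaDefs

/-!
# The kernel integral does not depend on `a, b` (P358 library)
-/

namespace Vale.Agent.Lib.P358

open Real MeasureTheory Set

noncomputable section

private lemma Dc_pos {x Z Y c s : ℝ} (hx : 0 < x) (hZ : 0 < Z) (hY : 0 < Y) (hc : 0 < c)
    (hs : 0 < s) : 0 < Dc x Z Y c s := by
  unfold Dc; positivity

private lemma Dc_ge {x Z Y c s : ℝ} (hx : 0 < x) (hc : 0 < c) (hs : 0 < s) :
    (s + Z * c) * (s + Y * c) ≤ Dc x Z Y c s := by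
  unfold Dc
  have : 0 ≤ x * s * c := by positivity
  linarith

/-- Inversion substitution on the half-line. -/
private lemma integral_inv_sub {K : ℝ} (hK : 0 < K) (g : ℝ → ℝ) :
    ∫ s in Ioi (0 : ℝ), g s = ∫ v in Ioi (0 : ℝ), (K / v ^ 2) * g (K / v) := by
  have himg : (fun v : ℝ => K / v) '' Ioi 0 = Ioi 0 := by
    ext y
    constructor
    · rintro ⟨v, hv, rfl⟩
      exact div_pos hK hv
    · intro hy
      refine ⟨K / y, div_pos hK hy, ?_⟩
      have hy' : (y : ℝ) ≠ 0 := ne_of_gt hy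
      field_simp
  have hderiv : ∀ v ∈ Ioi (0 : ℝ),
      HasDerivWithinAt (fun v : ℝ => K / v) (-(K / v ^ 2)) (Ioi 0) v := by
    intro v hv
    have hv' : (v : ℝ) ≠ 0 := ne_of_gt hv
    have := (hasDerivAt_inv hv').const_mul K
    have h2 : HasDerivAt (fun v : ℝ => K / v) (K * (-(v ^ 2)⁻¹)) v := by
      simpa [div_eq_mul_inv] using this
    have h3 : K * (-(v ^ 2)⁻¹) = -(K / v ^ 2) := by
      field_simp
    rw [h3] at h2
    exact h2.hasDerivWithinAt
  have hinj : InjOn (fun v : ℝ => K / v) (Ioi 0) := by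
    intro u hu v hv huv
    have hu' : (u : ℝ) ≠ 0 := ne_of_gt hu
    have hv' : (v : ℝ) ≠ 0 := ne_of_gt hv
    simp only at huv
    field_simp at huv
    linarith
  have := MeasureTheory.integral_image_eq_integral_abs_deriv_smul
    (s := Ioi (0 : ℝ)) measurableSet_Ioi hderiv hinj g
  rw [himg] at this
  rw [this]
  refine setIntegral_congr_fun measurableSet_Ioi ?_
  intro v hv
  have hv' : (0 : ℝ) < v := hv
  simp only [smul_eq_mul]
  rw [abs_neg, abs_of_pos (by positivity)]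

/-- Rational functions dominated by `C/(s+c)²` are integrable on the half-line. -/
private lemma integrableOn_of_bound {f : ℝ → ℝ} (hf : Measurable f) {c C : ℝ} (hc : 0 < c)
    (h0 : ∀ s, 0 < s → 0 ≤ f s) (h1 : ∀ s, 0 < s → f s ≤ C / (s + c) ^ 2) :
    IntegrableOn f (Ioi 0) := by
  have hbase : IntegrableOn (fun s : ℝ => (s + c) ^ (-2 : ℝ)) (Ioi 0) :=
    integrableOn_add_rpow_Ioi_of_lt (by norm_num) (by linarith)
  have hbase2 : IntegrableOn (fun s : ℝ => C * (s + c) ^ (-2 : ℝ)) (Ioi 0) :=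
    hbase.const_mul C
  refine Integrable.mono' hbase2 hf.aestronglyMeasurable ?_
  rw [ae_restrict_iff' measurableSet_Ioi]
  refine Filter.Eventually.of_forall ?_
  intro s hs
  have hs' : (0 : ℝ) < s := hs
  have hsc : 0 < s + c := by linarith
  rw [Real.norm_eq_abs, abs_of_nonneg (h0 s hs')]
  have : (s + c) ^ (-2 : ℝ) = ((s + c) ^ 2)⁻¹ := by
    rw [Real.rpow_neg hsc.le]
    norm_num
  rw [this]
  have := h1 s hs'
  rwa [div_eq_mul_inv] at this

private def T1 (x Z Y a b s : ℝ) : ℝ := s * (Z * a * (trialA x Z Y a s) ^ 2 / (s + Y * b))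
private def T2 (x Z Y a b s : ℝ) : ℝ := s * (Y * b * (trialB x Z Y b s) ^ 2 / (s + Z * a))

private lemma kern_eq (x Z Y a b s : ℝ) : kern x Z Y a b s = T1 x Z Y a b s + T2 x Z Y a b s := by
  unfold kern T1 T2; ring

private lemma measurable_T1 (x Z Y a b : ℝ) : Measurable (T1 x Z Y a b) := by
  unfold T1 trialA Dc; fun_prop

private lemma measurable_T2 (x Z Y a b : ℝ) : Measurable (T2 x Z Y a b) := by
  unfold T2 trialB Dc; fun_prop

private lemma T1_nonneg {x Z Y a b s : ℝ} (hx : 0 < x) (hZ : 0 < Z) (hY : 0 < Y) (ha : 0 < a)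
    (hb : 0 < b) (hs : 0 < s) : 0 ≤ T1 x Z Y a b s := by
  have := Dc_pos hx hZ hY ha hs
  unfold T1 trialA; positivity

private lemma T2_nonneg {x Z Y a b s : ℝ} (hx : 0 < x) (hZ : 0 < Z) (hY : 0 < Y) (ha : 0 < a)
    (hb : 0 < b) (hs : 0 < s) : 0 ≤ T2 x Z Y a b s := by
  have := Dc_pos hx hZ hY hb hs
  unfold T2 trialB; positivity

private lemma trialA_le {x Z Y c s : ℝ} (hx : 0 < x) (hZ : 0 < Z) (hY : 0 < Y) (hc : 0 < c)
    (hs : 0 < s) : trialA x Z Y c s ≤ 1 / (s + Z * c) := by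
  unfold trialA
  have hD := Dc_pos hx hZ hY hc hs
  have hge := Dc_ge (Z := Z) (Y := Y) hx hc hs
  have h1 : 0 < s + Z * c := by positivity
  rw [div_le_div_iff₀ hD h1]
  nlinarith

private lemma trialB_le {x Z Y c s : ℝ} (hx : 0 < x) (hZ : 0 < Z) (hY : 0 < Y) (hc : 0 < c)
    (hs : 0 < s) : trialB x Z Y c s ≤ 1 / (s + Y * c) := by
  unfold trialB
  have hD := Dc_pos hx hZ hY hc hs
  have hge := Dc_ge (Z := Z) (Y := Y) hx hc hs
  have h1 : 0 < s + Y * c := by positivity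
  rw [div_le_div_iff₀ hD h1]
  nlinarith

private lemma T1_le {x Z Y a b s : ℝ} (hx : 0 < x) (hZ : 0 < Z) (hY : 0 < Y) (ha : 0 < a)
    (hb : 0 < b) (hs : 0 < s) : T1 x Z Y a b s ≤ (Z * a) / (s + Z * a) ^ 2 := by
  unfold T1
  have hA := trialA_le (x := x) (Z := Z) (Y := Y) hx hZ hY ha hs
  have hA0 : 0 ≤ trialA x Z Y a s := by
    have := Dc_pos hx hZ hY ha hs
    unfold trialA; positivity
  have hsq : trialA x Z Y a s ^ 2 ≤ (1 / (s + Z * a)) ^ 2 := pow_le_pow_left₀ hA0 hA 2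
  have hpos : 0 < s + Y * b := by positivity
  have hposZ : 0 < s + Z * a := by positivity
  have h1 : s * (Z * a * trialA x Z Y a s ^ 2 / (s + Y * b)) =
      (s / (s + Y * b)) * (Z * a * trialA x Z Y a s ^ 2) := by
    field_simp
  rw [h1]
  have h2 : s / (s + Y * b) ≤ 1 := by
    rw [div_le_one hpos]
    nlinarith [mul_pos hY hb]
  have h3 : Z * a * trialA x Z Y a s ^ 2 ≤ Z * a * (1 / (s + Z * a)) ^ 2 :=
    mul_le_mul_of_nonneg_left hsq (by positivity)
  have h4 : Z * a * (1 / (s + Z * a)) ^ 2 = Z * a / (s + Z * a) ^ 2 := by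
    field_simp
  have h5 : 0 ≤ Z * a * trialA x Z Y a s ^ 2 := by positivity
  calc s / (s + Y * b) * (Z * a * trialA x Z Y a s ^ 2)
      ≤ 1 * (Z * a * trialA x Z Y a s ^ 2) := mul_le_mul_of_nonneg_right h2 h5
    _ = Z * a * trialA x Z Y a s ^ 2 := one_mul _
    _ ≤ _ := by rw [← h4]; exact h3

private lemma T2_le {x Z Y a b s : ℝ} (hx : 0 < x) (hZ : 0 < Z) (hY : 0 < Y) (ha : 0 < a)
    (hb : 0 < b) (hs : 0 < s) : T2 x Z Y a b s ≤ (Y * b) / (s + Y * b) ^ 2 := by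
  unfold T2
  have hA := trialB_le (x := x) (Z := Z) (Y := Y) hx hZ hY hb hs
  have hA0 : 0 ≤ trialB x Z Y b s := by
    have := Dc_pos hx hZ hY hb hs
    unfold trialB; positivity
  have hsq : trialB x Z Y b s ^ 2 ≤ (1 / (s + Y * b)) ^ 2 := pow_le_pow_left₀ hA0 hA 2
  have hpos : 0 < s + Z * a := by positivity
  have hposZ : 0 < s + Y * b := by positivity
  have h1 : s * (Y * b * trialB x Z Y b s ^ 2 / (s + Z * a)) =
      (s / (s + Z * a)) * (Y * b * trialB x Z Y b s ^ 2) := by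
    field_simp
  rw [h1]
  have h2 : s / (s + Z * a) ≤ 1 := by
    rw [div_le_one hpos]
    nlinarith [mul_pos hZ ha]
  have h3 : Y * b * trialB x Z Y b s ^ 2 ≤ Y * b * (1 / (s + Y * b)) ^ 2 :=
    mul_le_mul_of_nonneg_left hsq (by positivity)
  have h4 : Y * b * (1 / (s + Y * b)) ^ 2 = Y * b / (s + Y * b) ^ 2 := by
    field_simp
  have h5 : 0 ≤ Y * b * trialB x Z Y b s ^ 2 := by positivity
  calc s / (s + Z * a) * (Y * b * trialB x Z Y b s ^ 2)
      ≤ 1 * (Y * b * trialB x Z Y b s ^ 2) := mul_le_mul_of_nonneg_right h2 h5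
    _ = Y * b * trialB x Z Y b s ^ 2 := one_mul _
    _ ≤ _ := by rw [← h4]; exact h3

private lemma T1_integrable {x Z Y a b : ℝ} (hx : 0 < x) (hZ : 0 < Z) (hY : 0 < Y) (ha : 0 < a)
    (hb : 0 < b) : IntegrableOn (T1 x Z Y a b) (Ioi 0) :=
  integrableOn_of_bound (measurable_T1 x Z Y a b) (c := Z * a) (C := Z * a) (by positivity)
    (fun _ hs => T1_nonneg hx hZ hY ha hb hs) (fun _ hs => T1_le hx hZ hY ha hb hs)

private lemma T2_integrable {x Z Y a b : ℝ} (hx : 0 < x) (hZ : 0 < Z) (hY : 0 < Y) (ha : 0 < a)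
    (hb : 0 < b) : IntegrableOn (T2 x Z Y a b) (Ioi 0) :=
  integrableOn_of_bound (measurable_T2 x Z Y a b) (c := Y * b) (C := Y * b) (by positivity)
    (fun _ hs => T2_nonneg hx hZ hY ha hb hs) (fun _ hs => T2_le hx hZ hY ha hb hs)

theorem kern_integrable {x Z Y a b : ℝ} (hx : 0 < x) (hZ : 0 < Z) (hY : 0 < Y) (ha : 0 < a)
    (hb : 0 < b) : IntegrableOn (kern x Z Y a b) (Ioi 0) := by
  have := (T1_integrable hx hZ hY ha hb).add (T2_integrable hx hZ hY ha hb)
  refine this.congr_fun ?_ measurableSet_Ioi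
  intro s _
  simp [kern_eq]

/-- After `s = a u`: first part. -/
private def F1 (x Z Y r u : ℝ) : ℝ := Z * u * (u + Y) ^ 2 / ((Dc x Z Y 1 u) ^ 2 * (u + Y * r))
/-- After `s = (b Y Z) / v`: second part. -/
private def F2 (x Z Y r u : ℝ) : ℝ := Z * (Y * r) * (u + Y) ^ 2 / ((Dc x Z Y 1 u) ^ 2 * (u + Y * r))

private lemma Dc_scale (x Z Y c u : ℝ) : Dc x Z Y c (c * u) = c ^ 2 * Dc x Z Y 1 u := by
  unfold Dc; ring

private lemma integral_T1 {x Z Y a b : ℝ} (hx : 0 < x) (hZ : 0 < Z) (hY : 0 < Y) (ha : 0 < a)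
    (hb : 0 < b) : ∫ s in Ioi (0 : ℝ), T1 x Z Y a b s = ∫ u in Ioi (0 : ℝ), F1 x Z Y (b / a) u := by
  have h := MeasureTheory.integral_comp_mul_left_Ioi (T1 x Z Y a b) (0 : ℝ) ha
  rw [mul_zero] at h
  have h2 : ∫ s in Ioi (0 : ℝ), T1 x Z Y a b s = a * ∫ u in Ioi (0 : ℝ), T1 x Z Y a b (a * u) := by
    rw [h, smul_eq_mul]; field_simp
  rw [h2, ← integral_const_mul]
  refine setIntegral_congr_fun measurableSet_Ioi ?_
  intro u hu
  have hu' : (0 : ℝ) < u := hu
  have hD := Dc_pos hx hZ hY one_pos hu'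
  simp only [T1, trialA, F1, Dc_scale]
  have h3 : u + Y * (b / a) ≠ 0 := by positivity
  have h4 : a * u + Y * b ≠ 0 := by positivity
  have h5 : a * u + Y * a = a * (u + Y) := by ring
  rw [h5]
  have h6 : a * u + Y * b = a * (u + Y * (b / a)) := by field_simp
  rw [h6]
  field_simp

private lemma integral_T2 {x Z Y a b : ℝ} (hx : 0 < x) (hZ : 0 < Z) (hY : 0 < Y) (ha : 0 < a)
    (hb : 0 < b) : ∫ s in Ioi (0 : ℝ), T2 x Z Y a b s = ∫ u in Ioi (0 : ℝ), F2 x Z Y (b / a) u := by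
  rw [integral_inv_sub (K := b * (Y * Z)) (by positivity)]
  refine setIntegral_congr_fun measurableSet_Ioi ?_
  intro v hv
  have hv' : (0 : ℝ) < v := hv
  have hD := Dc_pos hx hZ hY one_pos hv'
  simp only [T2, trialB, F2]
  have hDK : Dc x Z Y b (b * (Y * Z) / v) = b ^ 2 * (Y * Z) / v ^ 2 * Dc x Z Y 1 v := by
    unfold Dc; field_simp; ring
  rw [hDK]
  have h3 : v + Y * (b / a) ≠ 0 := by positivity
  have e1 : b * (Y * Z) / v + Z * b = Z * b * (v + Y) / v := by field_simp; ring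
  have e2 : b * (Y * Z) / v + Z * a = Z * a * (v + Y * (b / a)) / v := by field_simp; ring
  rw [e1, e2]
  field_simp

private lemma F1_add_F2 {x Z Y r u : ℝ} (hx : 0 < x) (hZ : 0 < Z) (hY : 0 < Y) (hr : 0 < r)
    (hu : 0 < u) : F1 x Z Y r u + F2 x Z Y r u = Z * ((u + Y) ^ 2 / (Dc x Z Y 1 u) ^ 2) := by
  have hD := Dc_pos hx hZ hY one_pos hu
  have h3 : u + Y * r ≠ 0 := by positivity
  unfold F1 F2
  field_simp

private lemma F1_integrable {x Z Y r : ℝ} (hx : 0 < x) (hZ : 0 < Z) (hY : 0 < Y) (hr : 0 < r) :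
    IntegrableOn (F1 x Z Y r) (Ioi 0) := by
  refine integrableOn_of_bound (c := Z * 1) (C := Z) ?_ (by positivity) ?_ ?_
  · unfold F1 Dc; fun_prop
  · intro s hs
    have := Dc_pos hx hZ hY one_pos hs
    unfold F1; positivity
  · intro s hs
    have hA := trialA_le (x := x) (Z := Z) (Y := Y) hx hZ hY one_pos hs
    have hD := Dc_pos hx hZ hY one_pos hs
    have hA0 : 0 ≤ trialA x Z Y 1 s := by
      unfold trialA
      positivity
    have hsq : trialA x Z Y 1 s ^ 2 ≤ (1 / (s + Z * 1)) ^ 2 := pow_le_pow_left₀ hA0 hA 2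
    have hpos : 0 < s + Y * r := by positivity
    have hposZ : 0 < s + Z * 1 := by positivity
    have e1 : F1 x Z Y r s = (s / (s + Y * r)) * (Z * trialA x Z Y 1 s ^ 2) := by
      unfold F1 trialA
      have e2 : s + Y * 1 = s + Y := by ring
      rw [e2]
      field_simp
    rw [e1]
    have h2 : s / (s + Y * r) ≤ 1 := by
      rw [div_le_one hpos]
      nlinarith [mul_pos hY hr]
    have h5 : 0 ≤ Z * trialA x Z Y 1 s ^ 2 := by positivity
    have h3 : Z * trialA x Z Y 1 s ^ 2 ≤ Z * (1 / (s + Z * 1)) ^ 2 :=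
      mul_le_mul_of_nonneg_left hsq hZ.le
    have h4 : Z * (1 / (s + Z * 1)) ^ 2 = Z / (s + Z * 1) ^ 2 := by
      field_simp
    calc s / (s + Y * r) * (Z * trialA x Z Y 1 s ^ 2)
        ≤ 1 * (Z * trialA x Z Y 1 s ^ 2) := mul_le_mul_of_nonneg_right h2 h5
      _ = Z * trialA x Z Y 1 s ^ 2 := one_mul _
      _ ≤ _ := by rw [← h4]; exact h3

private lemma F2_integrable {x Z Y r : ℝ} (hx : 0 < x) (hZ : 0 < Z) (hY : 0 < Y) (hr : 0 < r) :
    IntegrableOn (F2 x Z Y r) (Ioi 0) := by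
  refine integrableOn_of_bound (c := Z * 1) (C := Z) ?_ (by positivity) ?_ ?_
  · unfold F2 Dc; fun_prop
  · intro s hs
    have := Dc_pos hx hZ hY one_pos hs
    unfold F2; positivity
  · intro s hs
    have hA := trialA_le (x := x) (Z := Z) (Y := Y) hx hZ hY one_pos hs
    have hD := Dc_pos hx hZ hY one_pos hs
    have hA0 : 0 ≤ trialA x Z Y 1 s := by
      unfold trialA
      positivity
    have hsq : trialA x Z Y 1 s ^ 2 ≤ (1 / (s + Z * 1)) ^ 2 := pow_le_pow_left₀ hA0 hA 2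
    have hpos : 0 < s + Y * r := by positivity
    have hposZ : 0 < s + Z * 1 := by positivity
    have e1 : F2 x Z Y r s = ((Y * r) / (s + Y * r)) * (Z * trialA x Z Y 1 s ^ 2) := by
      unfold F2 trialA
      have e2 : s + Y * 1 = s + Y := by ring
      rw [e2]
      field_simp
    rw [e1]
    have h2 : (Y * r) / (s + Y * r) ≤ 1 := by
      rw [div_le_one hpos]
      nlinarith [mul_pos hY hr]
    have h5 : 0 ≤ Z * trialA x Z Y 1 s ^ 2 := by positivity
    have h3 : Z * trialA x Z Y 1 s ^ 2 ≤ Z * (1 / (s + Z * 1)) ^ 2 :=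
      mul_le_mul_of_nonneg_left hsq hZ.le
    have h4 : Z * (1 / (s + Z * 1)) ^ 2 = Z / (s + Z * 1) ^ 2 := by
      field_simp
    calc (Y * r) / (s + Y * r) * (Z * trialA x Z Y 1 s ^ 2)
        ≤ 1 * (Z * trialA x Z Y 1 s ^ 2) := mul_le_mul_of_nonneg_right h2 h5
      _ = Z * trialA x Z Y 1 s ^ 2 := one_mul _
      _ ≤ _ := by rw [← h4]; exact h3

/-- **Key identity**: the integral of the kernel does not depend on `a, b`. -/
theorem kern_integral {x Z Y a b : ℝ} (hx : 0 < x) (hZ : 0 < Z) (hY : 0 < Y) (ha : 0 < a)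
    (hb : 0 < b) : ∫ s in Ioi (0 : ℝ), kern x Z Y a b s = kernConst x Z Y := by
  have hr : 0 < b / a := by positivity
  have e1 : ∫ s in Ioi (0 : ℝ), kern x Z Y a b s =
      ∫ s in Ioi (0 : ℝ), (T1 x Z Y a b s + T2 x Z Y a b s) :=
    setIntegral_congr_fun measurableSet_Ioi (fun s _ => kern_eq x Z Y a b s)
  rw [e1, integral_add (T1_integrable hx hZ hY ha hb) (T2_integrable hx hZ hY ha hb),
    integral_T1 hx hZ hY ha hb, integral_T2 hx hZ hY ha hb,
    ← integral_add (F1_integrable hx hZ hY hr) (F2_integrable hx hZ hY hr)]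
  unfold kernConst
  rw [← integral_const_mul]
  exact setIntegral_congr_fun measurableSet_Ioi (fun u hu => F1_add_F2 hx hZ hY hr hu)

end

end Vale.Agent.Lib.P358
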