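import Vale.Agent.Lib.P358.AnaDefs

/-!
# The reference integral and the derivative of the scalar entropy (P358 library)

Facts: `Dc x Z Y 1 s = (s + L₊)(s + L₋)`, with `L₊ + L₋ = x + Z + Y`, `L₊ L₋ = Z Y`, and
`refPsi x Z Y 1 s = ((Z+Y) s + 2 Z Y) / D₁(s) = P/(s+L₊) + M/(s+L₋)`, `P + M = Z + Y`,
`P L₋ + M L₊ = 2 Z Y`, so (`∫₀^∞ (1/(μ+s) - 1/(1+s)) ds = - log μ`) `Q0 x Z Y = -P log L₊ - M log L₋`.
With `Z = γ b, Y = (1-γ) b`, we have `L₊ = lamP γ x b`, `L₋ = lamM γ x b`, discriminant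
`(x+b)² - 4γ(1-γ)b² > 0` for `x > 0`.  Implicit differentiation of `λ² - (x+b) λ + γ(1-γ) b² = 0` gives
`b ∂_b L₊ = (b L₊ - 2γ(1-γ)b²)/(L₊ - L₋) = P`, likewise `b ∂_b L₋ = M`. With `negMulLog' = -log - 1` and
`P + M = b`: `b ∂_b scal = -P log L₊ - M log L₋ - b = Q0 - b`.

Scaling `refPsi_integral`: `D_c(c u) = c² D₁(u)`, so `refPsi x Z Y c (c u) = refPsi x Z Y 1 u`;
the substitution `s = c u` gives
`∫(refPsi c s - (Z+Y) c/(1+s)) ds = c ∫(refPsi 1 u - (Z+Y)/(1/c+u)... ) du`, and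
`∫ (1/(1/c + u) - 1/(1+u)) du = log c`, so the value is `c Q0 + (Z+Y) c (-log c)`.
-/

namespace Vale.Agent.Lib.P358

open Real MeasureTheory Set Filter Topology

noncomputable section

private lemma scalar_tendsto {μ : ℝ} (hμ : 0 < μ) :
    Tendsto (fun s : ℝ => Real.log (μ + s) - Real.log (1 + s)) atTop (𝓝 0) := by
  have h1 : Tendsto (fun s : ℝ => 1 + (μ - 1) / (1 + s)) atTop (𝓝 (1 + 0)) := by
    refine tendsto_const_nhds.add (tendsto_const_nhds.div_atTop ?_)
    exact tendsto_atTop_add_const_left _ _ tendsto_id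
  have h2 : Tendsto (fun s : ℝ => Real.log (1 + (μ - 1) / (1 + s))) atTop (𝓝 (Real.log (1 + 0))) :=
    (Real.continuousAt_log (by norm_num)).tendsto.comp h1
  simp only [add_zero, Real.log_one] at h2
  refine h2.congr' ?_
  filter_upwards [eventually_gt_atTop 0] with s hs
  have h1s : 0 < 1 + s := by linarith
  have hms : 0 < μ + s := by linarith
  rw [← Real.log_div hms.ne' h1s.ne']
  congr 1
  field_simp
  ring

private lemma scalar_hasDeriv {μ : ℝ} (hμ : 0 < μ) {s : ℝ} (hs : s ∈ Ici (0 : ℝ)) :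
    HasDerivAt (fun s : ℝ => Real.log (μ + s) - Real.log (1 + s)) (1 / (μ + s) - 1 / (1 + s)) s := by
  have hs' : 0 ≤ s := hs
  have h1 : HasDerivAt (fun s : ℝ => μ + s) 1 s := by simpa using (hasDerivAt_id s).const_add μ
  have h2 : HasDerivAt (fun s : ℝ => 1 + s) 1 s := by simpa using (hasDerivAt_id s).const_add 1
  exact (h1.log (by positivity)).sub (h2.log (by positivity))

private lemma scalar_integrable {μ : ℝ} (hμ : 0 < μ) :
    IntegrableOn (fun s : ℝ => 1 / (μ + s) - 1 / (1 + s)) (Ioi 0) := by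
  rcases le_total μ 1 with h | h
  · refine integrableOn_Ioi_deriv_of_nonneg' (fun s hs => scalar_hasDeriv hμ hs) (fun s hs => ?_)
      (scalar_tendsto hμ)
    have hs' : 0 < s := hs
    have : 1 / (1 + s) ≤ 1 / (μ + s) :=
      one_div_le_one_div_of_le (by linarith) (by linarith)
    linarith
  · refine integrableOn_Ioi_deriv_of_nonpos' (fun s hs => scalar_hasDeriv hμ hs) (fun s hs => ?_)
      (scalar_tendsto hμ)
    have hs' : 0 < s := hs
    have : 1 / (μ + s) ≤ 1 / (1 + s) :=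
      one_div_le_one_div_of_le (by linarith) (by linarith)
    linarith

private lemma scalar_integral {μ : ℝ} (hμ : 0 < μ) :
    ∫ s in Ioi (0 : ℝ), (1 / (μ + s) - 1 / (1 + s)) = -Real.log μ := by
  have := integral_Ioi_of_hasDerivAt_of_tendsto'
    (fun s hs => scalar_hasDeriv hμ hs) (scalar_integrable hμ) (scalar_tendsto hμ)
  rw [this]
  simp

private lemma refPsi_decomp {x Z Y c s Lp Lm P M : ℝ} (hc : 0 < c) (hs : 0 < s) (hLp : 0 < Lp)
    (hLm : 0 < Lm) (hsum : Lp + Lm = x + Z + Y) (hprod : Lp * Lm = Z * Y) (hPM : P + M = Z + Y)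
    (hPM2 : P * Lm + M * Lp = 2 * Z * Y) :
    refPsi x Z Y c s - (Z + Y) * c / (1 + s) =
      c * P * (1 / (c * Lp + s) - 1 / (1 + s)) + c * M * (1 / (c * Lm + s) - 1 / (1 + s)) := by
  have hD : Dc x Z Y c s = (c * Lp + s) * (c * Lm + s) := by
    unfold Dc
    linear_combination (-c ^ 2) * hprod - c * s * hsum
  have h1 : 0 < c * Lp + s := by positivity
  have h2 : 0 < c * Lm + s := by positivity
  have h3 : 0 < 1 + s := by positivity
  have hpsi : refPsi x Z Y c s = c * P * (1 / (c * Lp + s)) + c * M * (1 / (c * Lm + s)) := by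
    unfold refPsi trialA trialB
    rw [hD]
    field_simp
    linear_combination (-c) * hPM2 - s * hPM
  rw [hpsi]
  have : (Z + Y) * c / (1 + s) = c * (P + M) * (1 / (1 + s)) := by
    rw [hPM]; ring
  rw [this]
  ring

private lemma integral_formula {x Z Y c Lp Lm P M : ℝ} (hc : 0 < c) (hLp : 0 < Lp)
    (hLm : 0 < Lm) (hsum : Lp + Lm = x + Z + Y) (hprod : Lp * Lm = Z * Y) (hPM : P + M = Z + Y)
    (hPM2 : P * Lm + M * Lp = 2 * Z * Y) :
    IntegrableOn (fun s => refPsi x Z Y c s - (Z + Y) * c / (1 + s)) (Ioi 0) ∧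
      ∫ s in Ioi (0 : ℝ), (refPsi x Z Y c s - (Z + Y) * c / (1 + s)) =
        c * P * (-Real.log (c * Lp)) + c * M * (-Real.log (c * Lm)) := by
  have hi1 := (scalar_integrable (mul_pos hc hLp)).const_mul (c * P)
  have hi2 := (scalar_integrable (mul_pos hc hLm)).const_mul (c * M)
  have hcongr : EqOn (fun s => c * P * (1 / (c * Lp + s) - 1 / (1 + s)) +
      c * M * (1 / (c * Lm + s) - 1 / (1 + s)))
      (fun s => refPsi x Z Y c s - (Z + Y) * c / (1 + s)) (Ioi 0) := by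
    intro s hs
    exact (refPsi_decomp hc hs hLp hLm hsum hprod hPM hPM2).symm
  constructor
  · exact IntegrableOn.congr_fun (Integrable.add hi1 hi2) hcongr measurableSet_Ioi
  · rw [← setIntegral_congr_fun measurableSet_Ioi hcongr,
      integral_add hi1 hi2, integral_const_mul, integral_const_mul,
      scalar_integral (mul_pos hc hLp), scalar_integral (mul_pos hc hLm)]

/-- Existence of the roots and residues. -/
private lemma exists_roots {x Z Y : ℝ} (hx : 0 < x) (hZ : 0 < Z) (hY : 0 < Y) :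
    ∃ Lp Lm P M : ℝ, 0 < Lp ∧ 0 < Lm ∧ Lp + Lm = x + Z + Y ∧ Lp * Lm = Z * Y ∧ P + M = Z + Y ∧
      P * Lm + M * Lp = 2 * Z * Y := by
  set S := x + Z + Y with hS
  have hdisc : 0 < S ^ 2 - 4 * (Z * Y) := by
    have : S ^ 2 - 4 * (Z * Y) = x ^ 2 + 2 * x * (Z + Y) + (Z - Y) ^ 2 := by rw [hS]; ring
    rw [this]; positivity
  set r := Real.sqrt (S ^ 2 - 4 * (Z * Y)) with hr
  have hr0 : 0 < r := Real.sqrt_pos.mpr hdisc
  have hr2 : r ^ 2 = S ^ 2 - 4 * (Z * Y) := Real.sq_sqrt hdisc.le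
  have hS0 : 0 < S := by positivity
  have hprod : (S + r) / 2 * ((S - r) / 2) = Z * Y := by nlinarith
  have hLp : 0 < (S + r) / 2 := by positivity
  have hLm : 0 < (S - r) / 2 := by
    by_contra hh
    have hh' : (S - r) / 2 ≤ 0 := not_lt.mp hh
    have : (S + r) / 2 * ((S - r) / 2) ≤ 0 := mul_nonpos_of_nonneg_of_nonpos hLp.le hh'
    have : 0 < Z * Y := by positivity
    linarith
  refine ⟨(S + r) / 2, (S - r) / 2, ((Z + Y) * ((S + r) / 2) - 2 * (Z * Y)) / r,
    (2 * (Z * Y) - (Z + Y) * ((S - r) / 2)) / r, hLp, hLm, by ring, hprod, ?_, ?_⟩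
  · field_simp
    ring
  · field_simp
    ring

theorem refPsi_integrable {x Z Y c : ℝ} (hx : 0 < x) (hZ : 0 < Z) (hY : 0 < Y) (hc : 0 < c) :
    IntegrableOn (fun s => refPsi x Z Y c s - (Z + Y) * c / (1 + s)) (Ioi 0) := by
  obtain ⟨Lp, Lm, P, M, h1, h2, h3, h4, h5, h6⟩ := exists_roots hx hZ hY
  exact (integral_formula hc h1 h2 h3 h4 h5 h6).1

private lemma Q0_formula {x Z Y Lp Lm P M : ℝ} (hLp : 0 < Lp)
    (hLm : 0 < Lm) (hsum : Lp + Lm = x + Z + Y) (hprod : Lp * Lm = Z * Y) (hPM : P + M = Z + Y)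
    (hPM2 : P * Lm + M * Lp = 2 * Z * Y) :
    Q0 x Z Y = P * (-Real.log Lp) + M * (-Real.log Lm) := by
  have := (integral_formula (c := 1) one_pos hLp hLm hsum hprod hPM hPM2).2
  simpa [Q0] using this

/-- Scaling of the reference integral. -/
theorem refPsi_integral {x Z Y c : ℝ} (hx : 0 < x) (hZ : 0 < Z) (hY : 0 < Y) (hc : 0 < c) :
    ∫ s in Ioi (0 : ℝ), (refPsi x Z Y c s - (Z + Y) * c / (1 + s)) =
      c * Q0 x Z Y + (Z + Y) * negMulLog c := by
  obtain ⟨Lp, Lm, P, M, h1, h2, h3, h4, h5, h6⟩ := exists_roots hx hZ hY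
  rw [(integral_formula hc h1 h2 h3 h4 h5 h6).2, Q0_formula h1 h2 h3 h4 h5 h6,
    Real.log_mul hc.ne' h1.ne', Real.log_mul hc.ne' h2.ne', ← h5]
  unfold Real.negMulLog
  ring

/-- Derivative of the scalar entropy in `b`, in terms of `Q₀` with `Z = γ b`, `Y = (1-γ) b`. -/
theorem scal_hasDerivAt {γ x b : ℝ} (hγ0 : 0 < γ) (hγ1 : γ < 1) (hx : 0 < x) (hb : 0 < b) :
    HasDerivAt (fun t => scal γ x t) ((Q0 x (γ * b) ((1 - γ) * b) - b) / b) b := by
  set g := γ * (1 - γ) with hg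
  have hg0 : 0 < g := mul_pos hγ0 (by linarith)
  have hg1 : 4 * g ≤ 1 := by
    have : 0 ≤ (2 * γ - 1) ^ 2 := sq_nonneg _
    rw [hg]; nlinarith
  have hdisc : 0 < (x + b) ^ 2 - 4 * g * b ^ 2 := by
    have h1 : 4 * g * b ^ 2 ≤ b ^ 2 := by
      have : 0 ≤ b ^ 2 := sq_nonneg _
      nlinarith
    nlinarith [mul_pos hx hb, sq_pos_of_pos hx]
  set r := Real.sqrt ((x + b) ^ 2 - 4 * g * b ^ 2) with hr
  have hr0 : 0 < r := Real.sqrt_pos.mpr hdisc
  have hr2 : r ^ 2 = (x + b) ^ 2 - 4 * g * b ^ 2 := Real.sq_sqrt hdisc.le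
  have hr' : Real.sqrt ((x + b) ^ 2 - 4 * (γ * (1 - γ)) * b ^ 2) = r := by rw [hr, hg]
  set Lp := ((x + b) + r) / 2 with hLpdef
  set Lm := ((x + b) - r) / 2 with hLmdef
  have hLpval : lamP γ x b = Lp := by unfold lamP; rw [hr']
  have hLmval : lamM γ x b = Lm := by unfold lamM; rw [hr']
  have hprod : Lp * Lm = g * b ^ 2 := by
    rw [hLpdef, hLmdef]; nlinarith
  have hLp : 0 < Lp := by positivity
  have hLm : 0 < Lm := by
    by_contra hh
    have hh' : Lm ≤ 0 := not_lt.mp hh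
    have : Lp * Lm ≤ 0 := mul_nonpos_of_nonneg_of_nonpos hLp.le hh'
    have : 0 < g * b ^ 2 := by positivity
    linarith
  -- the derivative of the square root
  have hΔ : HasDerivAt (fun t : ℝ => (x + t) ^ 2 - 4 * (γ * (1 - γ)) * t ^ 2)
      (2 * (x + b) - 8 * g * b) b := by
    have h1 : HasDerivAt (fun t : ℝ => (x + t) ^ 2) (2 * (x + b)) b := by
      have := ((hasDerivAt_id' b).const_add x).fun_pow 2
      simpa using this
    have h2 : HasDerivAt (fun t : ℝ => 4 * (γ * (1 - γ)) * t ^ 2) (8 * g * b) b := by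
      have := ((hasDerivAt_id' b).fun_pow 2).const_mul (4 * (γ * (1 - γ)))
      have e : 4 * (γ * (1 - γ)) * (((2 : ℕ) : ℝ) * b ^ (2 - 1) * 1) = 8 * g * b := by
        simp [hg]; ring
      rw [e] at this
      exact this
    exact h1.sub h2
  have hsqrt : HasDerivAt (fun t : ℝ => Real.sqrt ((x + t) ^ 2 - 4 * (γ * (1 - γ)) * t ^ 2))
      ((2 * (x + b) - 8 * g * b) / (2 * r)) b := by
    have := hΔ.sqrt (by rw [← hg]; exact hdisc.ne')
    rwa [← hg, ← hr] at this
  set d := (2 * (x + b) - 8 * g * b) / (2 * r) with hd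
  have hdP : HasDerivAt (fun t : ℝ => lamP γ x t) ((1 + d) / 2) b := by
    have h1 : HasDerivAt (fun t : ℝ => x + t) 1 b := by
      simpa using (hasDerivAt_id b).const_add x
    exact (h1.add hsqrt).div_const 2
  have hdM : HasDerivAt (fun t : ℝ => lamM γ x t) ((1 - d) / 2) b := by
    have h1 : HasDerivAt (fun t : ℝ => x + t) 1 b := by
      simpa using (hasDerivAt_id b).const_add x
    exact (h1.sub hsqrt).div_const 2
  have hP1 : HasDerivAt (fun t : ℝ => negMulLog (lamP γ x t))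
      ((-Real.log Lp - 1) * ((1 + d) / 2)) b := by
    have := (hasDerivAt_negMulLog (x := lamP γ x b) (by rw [hLpval]; exact hLp.ne')).comp b hdP
    rw [hLpval] at this
    exact this
  have hM1 : HasDerivAt (fun t : ℝ => negMulLog (lamM γ x t))
      ((-Real.log Lm - 1) * ((1 - d) / 2)) b := by
    have := (hasDerivAt_negMulLog (x := lamM γ x b) (by rw [hLmval]; exact hLm.ne')).comp b hdM
    rw [hLmval] at this
    exact this
  have hQ : Q0 x (γ * b) ((1 - γ) * b) =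
      (b * ((1 + d) / 2)) * (-Real.log Lp) + (b * ((1 - d) / 2)) * (-Real.log Lm) := by
    refine Q0_formula hLp hLm ?_ ?_ ?_ ?_
    · rw [hLpdef, hLmdef]; ring
    · rw [hprod, hg]; ring
    · ring
    · have hrne : r ≠ 0 := hr0.ne'
      have hdd : d * r = (x + b) - 4 * g * b := by
        rw [hd]; field_simp; ring
      have : b * ((1 + d) / 2) * Lm + b * ((1 - d) / 2) * Lp =
          b * ((Lp + Lm) / 2) - b * d * (Lp - Lm) / 2 := by ring
      rw [this]
      have h3 : Lp - Lm = r := by rw [hLpdef, hLmdef]; ring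
      have h4 : Lp + Lm = x + b := by rw [hLpdef, hLmdef]; ring
      rw [h3, h4]
      have : b * d * r / 2 = b * (d * r) / 2 := by ring
      rw [this, hdd, hg]
      ring
  have hfinal := hP1.add hM1
  have hvalue : (-Real.log Lp - 1) * ((1 + d) / 2) + (-Real.log Lm - 1) * ((1 - d) / 2) =
      (Q0 x (γ * b) ((1 - γ) * b) - b) / b := by
    rw [hQ]
    field_simp
    ring
  rw [← hvalue]
  exact hfinal

theorem scal_continuous : Continuous (fun p : ℝ × ℝ × ℝ => scal p.1 p.2.1 p.2.2) := by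
  unfold scal lamP lamM
  fun_prop

/-- At `b = 0`: `scal γ x 0 = η(x)` for `x ≥ 0`. -/
theorem scal_zero (γ : ℝ) {x : ℝ} (hx : 0 ≤ x) : scal γ x 0 = negMulLog x := by
  unfold scal lamP lamM
  have : Real.sqrt ((x + 0) ^ 2 - 4 * (γ * (1 - γ)) * 0 ^ 2) = x := by
    have e : (x + 0) ^ 2 - 4 * (γ * (1 - γ)) * 0 ^ 2 = x ^ 2 := by ring
    rw [e, Real.sqrt_sq hx]
  rw [this]
  have e1 : (x + 0 + x) / 2 = x := by ring
  have e2 : (x + 0 - x) / 2 = 0 := by ring
  rw [e1, e2]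
  simp

end

end Vale.Agent.Lib.P358
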