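import Vale.Agent.Lib.P358.CoreDiag

/-!
# The two-letter inequality (P358 library)
-/

namespace Vale.Agent.Lib.P358

open Matrix Real Finset Filter Topology
open scoped ComplexOrder

noncomputable section

variable {ι : Type*} [Fintype ι] [DecidableEq ι]

/-- `re tr(X X*) = ∑ ∑ ‖X k l‖²`. -/
theorem trace_mul_conjTranspose_re {n m : Type*} [Fintype n] [Fintype m] (X : Matrix n m ℂ) :
    (trace (X * Xᴴ)).re = ∑ k, ∑ l, ‖X k l‖ ^ 2 := by
  simp only [trace, Matrix.diag, Matrix.mul_apply, conjTranspose_apply, Complex.re_sum]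
  refine Finset.sum_congr rfl fun k _ => Finset.sum_congr rfl fun l _ => ?_
  rw [Complex.star_def, Complex.mul_conj, Complex.normSq_eq_norm_sq]
  exact Complex.ofReal_re _

/-- The two-letter inequality, for invertible `X₁`, `X₀ ≠ 0`, `γ ∈ (0,1)`. -/
theorem core_unit [Nonempty ι] (X₀ X₁ : Matrix ι ι ℂ) (hX₁ : X₁.det ≠ 0) {γ : ℝ} (hγ0 : 0 < γ)
    (hγ1 : γ < 1) (hx : 0 < (trace (X₀ * X₀ᴴ)).re) :
    ent (X₀ * X₀ᴴ) + ent (X₁ * X₁ᴴ) +
        (scal γ (trace (X₀ * X₀ᴴ)).re (trace (X₁ * X₁ᴴ)).re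
          - negMulLog (trace (X₀ * X₀ᴴ)).re - negMulLog (trace (X₁ * X₁ᴴ)).re) ≤
      ent ((fromBlocks X₀ (((Real.sqrt γ : ℝ) : ℂ) • X₁) (((Real.sqrt (1 - γ) : ℝ) : ℂ) • X₁) 0) *
        (fromBlocks X₀ (((Real.sqrt γ : ℝ) : ℂ) • X₁) (((Real.sqrt (1 - γ) : ℝ) : ℂ) • X₁) 0)ᴴ) := by
  have hS : (X₁ * X₁ᴴ).PosDef := by
    refine (posSemidef_self_mul_conjTranspose X₁).posDef_iff_det_ne_zero.mpr ?_
    rw [det_mul, det_conjTranspose]
    exact mul_ne_zero hX₁ (star_ne_zero.mpr hX₁)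
  set h := hS.isHermitian with hh
  set μ := h.eigenvalues with hμdef
  have hμ : ∀ k, 0 < μ k := hS.eigenvalues_pos
  set V : Matrix ι ι ℂ := (h.eigenvectorUnitary : Matrix ι ι ℂ) with hVdef
  have hV : V ∈ unitaryGroup ι ℂ := h.eigenvectorUnitary.2
  have hVV1 : V * Vᴴ = 1 := by
    simpa [star_eq_conjTranspose] using mem_unitaryGroup_iff.mp hV
  have hVV2 : Vᴴ * V = 1 := by
    simpa [star_eq_conjTranspose] using mem_unitaryGroup_iff'.mp hV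
  have hspec : X₁ * X₁ᴴ = V * diagonal (fun i => ((μ i : ℝ) : ℂ)) * Vᴴ := herm_spectral_eq h
  set β := ∑ k, μ k with hβdef
  have hβ : 0 < β := Finset.sum_pos (fun k _ => hμ k) Finset.univ_nonempty
  have htrβ : (trace (X₁ * X₁ᴴ)).re = β := by
    rw [hspec, Matrix.trace_mul_comm, ← Matrix.mul_assoc, hVV2, Matrix.one_mul, trace_diagonal,
      Complex.re_sum]
    simp [hβdef]
  set d : ι → ℝ := fun k => Real.sqrt (μ k / β) with hd
  have hdpos : ∀ k, 0 < d k := fun k => Real.sqrt_pos.mpr (div_pos (hμ k) hβ)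
  have hdsq : ∀ k, d k ^ 2 = μ k / β := fun k => Real.sq_sqrt (div_pos (hμ k) hβ).le
  have hd1 : ∑ k, d k ^ 2 = 1 := by
    simp only [hdsq]
    rw [← Finset.sum_div, div_self hβ.ne']
  set D12 : Matrix ι ι ℂ := diagonal (fun k => ((Real.sqrt (μ k) : ℝ) : ℂ)) with hD12
  set Dinv : Matrix ι ι ℂ := diagonal (fun k => (((Real.sqrt (μ k))⁻¹ : ℝ) : ℂ)) with hDinv
  have hDD : D12 * Dinv = 1 := by
    rw [hD12, hDinv, diagonal_mul_diagonal, ← diagonal_one]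
    congr 1
    funext k
    have : Real.sqrt (μ k) ≠ 0 := (Real.sqrt_pos.mpr (hμ k)).ne'
    rw [← Complex.ofReal_mul, mul_inv_cancel₀ this, Complex.ofReal_one]
  have hDinvH : Dinvᴴ = Dinv := by
    rw [hDinv, diagonal_conjTranspose]
    congr 1
    funext k
    simp
  have hDDD : Dinv * diagonal (fun i => ((μ i : ℝ) : ℂ)) * Dinv = 1 := by
    rw [hDinv, diagonal_mul_diagonal, diagonal_mul_diagonal, ← diagonal_one]
    congr 1
    funext k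
    have h0 : Real.sqrt (μ k) ≠ 0 := (Real.sqrt_pos.mpr (hμ k)).ne'
    have h1 : Real.sqrt (μ k) * Real.sqrt (μ k) = μ k := Real.mul_self_sqrt (hμ k).le
    rw [← Complex.ofReal_mul, ← Complex.ofReal_mul, ← Complex.ofReal_one]
    congr 1
    calc (Real.sqrt (μ k))⁻¹ * μ k * (Real.sqrt (μ k))⁻¹
        = (Real.sqrt (μ k))⁻¹ * (Real.sqrt (μ k) * Real.sqrt (μ k)) * (Real.sqrt (μ k))⁻¹ := by rw [h1]
      _ = 1 := by field_simp
  obtain ⟨W, hW⟩ : ∃ W : Matrix ι ι ℂ, W = Dinv * Vᴴ * X₁ := ⟨_, rfl⟩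
  have hWW : W * Wᴴ = 1 := by
    have : W * Wᴴ = Dinv * (Vᴴ * (X₁ * X₁ᴴ) * V) * Dinv := by
      rw [hW]
      simp only [conjTranspose_mul, conjTranspose_conjTranspose, hDinvH, Matrix.mul_assoc]
    rw [this, hspec]
    have : Vᴴ * (V * diagonal (fun i => ((μ i : ℝ) : ℂ)) * Vᴴ) * V = diagonal (fun i => ((μ i : ℝ) : ℂ)) := by
      calc Vᴴ * (V * diagonal (fun i => ((μ i : ℝ) : ℂ)) * Vᴴ) * V
          = (Vᴴ * V) * diagonal (fun i => ((μ i : ℝ) : ℂ)) * (Vᴴ * V) := by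
            simp only [Matrix.mul_assoc]
        _ = _ := by rw [hVV2, Matrix.one_mul, Matrix.mul_one]
    rw [this, hDDD]
  have hWW' : Wᴴ * W = 1 := mul_eq_one_comm.mp hWW
  have hVX : Vᴴ * X₁ * Wᴴ = D12 := by
    have : Vᴴ * X₁ = D12 * W := by
      rw [hW, ← Matrix.mul_assoc, ← Matrix.mul_assoc, hDD, Matrix.one_mul]
    rw [this, Matrix.mul_assoc, hWW, Matrix.mul_one]
  obtain ⟨Xn, hXn⟩ : ∃ Xn : Matrix ι ι ℂ, Xn = Vᴴ * X₀ * Wᴴ := ⟨_, rfl⟩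
  have hXnXn : Xn * Xnᴴ = Vᴴ * (X₀ * X₀ᴴ) * Vᴴᴴ := by
    rw [hXn, conjTranspose_mul, conjTranspose_mul]
    simp only [conjTranspose_conjTranspose]
    calc Vᴴ * X₀ * Wᴴ * (W * (X₀ᴴ * V)) = Vᴴ * X₀ * (Wᴴ * W) * (X₀ᴴ * V) := by
          simp only [Matrix.mul_assoc]
      _ = Vᴴ * (X₀ * X₀ᴴ) * V := by
          rw [hWW', Matrix.mul_one]
          simp only [Matrix.mul_assoc]
  have hVH : Vᴴ ∈ unitaryGroup ι ℂ := by
    rw [mem_unitaryGroup_iff]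
    simpa [star_eq_conjTranspose] using hVV2
  have hentX : ent (Xn * Xnᴴ) = ent (X₀ * X₀ᴴ) := by
    rw [hXnXn]
    exact ent_unitary_conj _ hVH _ (isHermitian_mul_conjTranspose_self X₀)
  have htrX : (trace (Xn * Xnᴴ)).re = (trace (X₀ * X₀ᴴ)).re := by
    rw [hXnXn, conjTranspose_conjTranspose, Matrix.trace_mul_comm, ← Matrix.mul_assoc, hVV1,
      Matrix.one_mul]
  set x := (trace (X₀ * X₀ᴴ)).re with hxdef
  have hxe : x = ∑ k, ∑ l, ‖Xn k l‖ ^ 2 := by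
    rw [← htrX, trace_mul_conjTranspose_re]
  have hcore := core_diag Xn hdpos hd1 hγ0 hγ1 hβ hx hxe
  have hγ1' : 0 < 1 - γ := sub_pos.mpr hγ1
  -- the block matrices
  set Y := fromBlocks X₀ (((Real.sqrt γ : ℝ) : ℂ) • X₁) (((Real.sqrt (1 - γ) : ℝ) : ℂ) • X₁) 0 with hY
  set Lm : Matrix (ι ⊕ ι) (ι ⊕ ι) ℂ := fromBlocks Vᴴ 0 0 Vᴴ with hLm
  set Rm : Matrix (ι ⊕ ι) (ι ⊕ ι) ℂ := fromBlocks Wᴴ 0 0 Wᴴ with hRm
  have hdiagq : ∀ t : ℝ, 0 < t → ∀ k, Real.sqrt (t * β) * d k = Real.sqrt t * Real.sqrt (μ k) := by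
    intro t ht k
    rw [hd]
    simp only
    rw [← Real.sqrt_mul (by positivity), ← Real.sqrt_mul ht.le]
    congr 1
    field_simp
  have hdg : ∀ t : ℝ, 0 < t → (diagonal fun k => ((Real.sqrt (t * β) * d k : ℝ) : ℂ)) =
      ((Real.sqrt t : ℝ) : ℂ) • D12 := by
    intro t ht
    ext i j
    by_cases hij : i = j
    · subst hij
      simp only [hD12, Matrix.smul_apply, diagonal_apply_eq, smul_eq_mul]
      rw [← Complex.ofReal_mul, hdiagq t ht]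
    · simp [hij, hD12]
  have hblock : bY Xn d (Real.sqrt (γ * β)) (Real.sqrt ((1 - γ) * β)) = Lm * Y * Rm := by
    rw [bY, hLm, hY, hRm, fromBlocks_multiply, fromBlocks_multiply]
    simp only [zero_mul, mul_zero, add_zero, zero_add, mul_smul_comm, smul_mul_assoc, smul_zero]
    rw [hVX, hdg γ hγ0, hdg (1 - γ) hγ1', hXn]
  have hRR : Rm * Rmᴴ = 1 := by
    rw [hRm, fromBlocks_conjTranspose, fromBlocks_multiply]
    simp [conjTranspose_conjTranspose, hWW', fromBlocks_one]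
  have hLU : Lm ∈ unitaryGroup (ι ⊕ ι) ℂ := by
    rw [mem_unitaryGroup_iff, star_eq_conjTranspose, hLm, fromBlocks_conjTranspose, fromBlocks_multiply]
    simp [conjTranspose_conjTranspose, hVV2, fromBlocks_one]
  have hentY : ent (bY Xn d (Real.sqrt (γ * β)) (Real.sqrt ((1 - γ) * β)) *
      (bY Xn d (Real.sqrt (γ * β)) (Real.sqrt ((1 - γ) * β)))ᴴ) = ent (Y * Yᴴ) := by
    have : bY Xn d (Real.sqrt (γ * β)) (Real.sqrt ((1 - γ) * β)) *
        (bY Xn d (Real.sqrt (γ * β)) (Real.sqrt ((1 - γ) * β)))ᴴ = Lm * (Y * Yᴴ) * Lmᴴ := by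
      rw [hblock, conjTranspose_mul, conjTranspose_mul]
      calc Lm * Y * Rm * (Rmᴴ * (Yᴴ * Lmᴴ)) = Lm * Y * (Rm * Rmᴴ) * (Yᴴ * Lmᴴ) := by
            simp only [Matrix.mul_assoc]
        _ = Lm * (Y * Yᴴ) * Lmᴴ := by
            rw [hRR, Matrix.mul_one]
            simp only [Matrix.mul_assoc]
    rw [this]
    exact ent_unitary_conj _ hLU _ (isHermitian_mul_conjTranspose_self Y)
  have hentX₁ : ent (X₁ * X₁ᴴ) = β * ∑ k, negMulLog (d k ^ 2) + negMulLog β := by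
    rw [ent_eq h]
    have : ∀ k, negMulLog (h.eigenvalues k) = β * negMulLog (d k ^ 2) + d k ^ 2 * negMulLog β := by
      intro k
      have hk : h.eigenvalues k = d k ^ 2 * β := by
        rw [hdsq, div_mul_cancel₀ _ hβ.ne']
      rw [hk, Real.negMulLog_mul]
    simp only [this]
    rw [Finset.sum_add_distrib, ← Finset.mul_sum, ← Finset.sum_mul, hd1, one_mul]
  rw [htrβ, hentX₁, ← hentX, ← hentY]
  linarith

/-- `M + ε` is invertible for all small positive `ε`. -/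
theorem det_add_smul_ne_zero (M : Matrix ι ι ℂ) :
    ∀ᶠ ε in 𝓝[>] (0 : ℝ), (M + ((ε : ℝ) : ℂ) • (1 : Matrix ι ι ℂ)).det ≠ 0 := by
  set p := (-M).charpoly with hp
  have hp0 : p ≠ 0 := (charpoly_monic _).ne_zero
  have hfin : {ε : ℝ | p.eval ((ε : ℝ) : ℂ) = 0}.Finite := by
    have := (Polynomial.finite_setOfPred_isRoot hp0).preimage
      (f := fun ε : ℝ => (ε : ℂ)) (Complex.ofReal_injective.injOn)
    exact this
  have hfin' := hfin.subset (Set.sdiff_subset (t := {(0 : ℝ)}))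
  have hcl := hfin'.isClosed
  have hmem : (({ε : ℝ | p.eval ((ε : ℝ) : ℂ) = 0}) \ {(0 : ℝ)})ᶜ ∈ 𝓝 (0 : ℝ) :=
    hcl.isOpen_compl.mem_nhds (by simp)
  filter_upwards [nhdsWithin_le_nhds hmem, self_mem_nhdsWithin] with ε h1 h2
  have hne : ε ≠ 0 := ne_of_gt h2
  have h3 : p.eval ((ε : ℝ) : ℂ) ≠ 0 := by
    intro h
    exact h1 ⟨h, by simpa using hne⟩
  rw [hp, Matrix.eval_charpoly] at h3
  have : Matrix.scalar ι ((ε : ℝ) : ℂ) - -M = M + ((ε : ℝ) : ℂ) • (1 : Matrix ι ι ℂ) := by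
    rw [sub_neg_eq_add, add_comm]
    congr 1
    ext i j
    by_cases hij : i = j
    · subst hij
      simp
    · simp [hij]
  rwa [this] at h3

theorem ent_of_isEmpty {n : Type*} [Fintype n] [DecidableEq n] [IsEmpty n] (A : Matrix n n ℂ) :
    ent A = 0 := by
  unfold ent
  split_ifs <;> simp

theorem tendsto_ent_mul {Z : ℝ → Matrix (ι ⊕ ι) (ι ⊕ ι) ℂ} (hZ : Continuous Z) (l : Filter ℝ) (hl : l ≤ 𝓝 0) :
    Tendsto (fun ε => ent (Z ε * (Z ε)ᴴ)) l (𝓝 (ent (Z 0 * (Z 0)ᴴ))) := by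
  refine tendsto_ent (fun t => posSemidef_self_mul_conjTranspose _) (posSemidef_self_mul_conjTranspose _) ?_
  have : Continuous fun ε => Z ε * (Z ε)ᴴ := hZ.mul hZ.matrix_conjTranspose
  exact (this.tendsto 0).mono_left hl

theorem tendsto_ent_mul' {Z : ℝ → Matrix ι ι ℂ} (hZ : Continuous Z) (l : Filter ℝ) (hl : l ≤ 𝓝 0) :
    Tendsto (fun ε => ent (Z ε * (Z ε)ᴴ)) l (𝓝 (ent (Z 0 * (Z 0)ᴴ))) := by
  refine tendsto_ent (fun t => posSemidef_self_mul_conjTranspose _) (posSemidef_self_mul_conjTranspose _) ?_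
  have : Continuous fun ε => Z ε * (Z ε)ᴴ := hZ.mul hZ.matrix_conjTranspose
  exact (this.tendsto 0).mono_left hl

/-- **Two-letter inequality**.  For square `X₀, X₁`, with
`Y = [[X₀, √γ X₁], [√(1-γ) X₁, 0]]`, `x = ‖X₀‖²`, `β = ‖X₁‖²`:
`S(YY*) ≥ S(X₀X₀*) + S(X₁X₁*) + scal γ x β - η(x) - η(β)`. -/
theorem core_general (X₀ X₁ : Matrix ι ι ℂ) {γ : ℝ} (h0 : 0 ≤ γ) (h1 : γ ≤ 1) :
    ent (X₀ * X₀ᴴ) + ent (X₁ * X₁ᴴ) +
        (scal γ (trace (X₀ * X₀ᴴ)).re (trace (X₁ * X₁ᴴ)).re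
          - negMulLog (trace (X₀ * X₀ᴴ)).re - negMulLog (trace (X₁ * X₁ᴴ)).re) ≤
      ent ((fromBlocks X₀ (((Real.sqrt γ : ℝ) : ℂ) • X₁) (((Real.sqrt (1 - γ) : ℝ) : ℂ) • X₁) 0) *
        (fromBlocks X₀ (((Real.sqrt γ : ℝ) : ℂ) • X₁) (((Real.sqrt (1 - γ) : ℝ) : ℂ) • X₁) 0)ᴴ) := by
  rcases isEmpty_or_nonempty ι with hι | hι
  · simp only [ent_of_isEmpty, trace_eq_zero_of_isEmpty] 
    simp [scal, lamP, lamM]
  set A₀ : ℝ → Matrix ι ι ℂ := fun ε => X₀ + ((ε : ℝ) : ℂ) • (1 : Matrix ι ι ℂ) with hA₀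
  set A₁ : ℝ → Matrix ι ι ℂ := fun ε => X₁ + ((ε : ℝ) : ℂ) • (1 : Matrix ι ι ℂ) with hA₁
  set g : ℝ → ℝ := fun ε => (1 - ε) * γ + ε / 2 with hg
  have cA₀ : Continuous A₀ := by fun_prop
  have cA₁ : Continuous A₁ := by fun_prop
  have cg : Continuous g := by fun_prop
  have cY : Continuous fun ε => fromBlocks (A₀ ε) (((Real.sqrt (g ε) : ℝ) : ℂ) • A₁ ε)
      (((Real.sqrt (1 - g ε) : ℝ) : ℂ) • A₁ ε) (0 : Matrix ι ι ℂ) := by
    refine Continuous.matrix_fromBlocks cA₀ ?_ ?_ continuous_const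
    · exact (Complex.continuous_ofReal.comp (Real.continuous_sqrt.comp cg)).smul cA₁
    · exact (Complex.continuous_ofReal.comp
        (Real.continuous_sqrt.comp (continuous_const.sub cg))).smul cA₁
  have A₀0 : A₀ 0 = X₀ := by simp [hA₀]
  have A₁0 : A₁ 0 = X₁ := by simp [hA₁]
  have g0 : g 0 = γ := by simp [hg]
  have hl : 𝓝[>] (0 : ℝ) ≤ 𝓝 0 := nhdsWithin_le_nhds
  have hR := tendsto_ent_mul cY (𝓝[>] (0 : ℝ)) hl
  simp only [A₀0, A₁0, g0] at hR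
  have hL0 := tendsto_ent_mul' cA₀ (𝓝[>] (0 : ℝ)) hl
  have hL1 := tendsto_ent_mul' cA₁ (𝓝[>] (0 : ℝ)) hl
  rw [A₀0] at hL0
  rw [A₁0] at hL1
  have ct0 : Continuous fun ε => (trace (A₀ ε * (A₀ ε)ᴴ)).re :=
    Complex.continuous_re.comp ((cA₀.mul cA₀.matrix_conjTranspose).matrix_trace)
  have ct1 : Continuous fun ε => (trace (A₁ ε * (A₁ ε)ᴴ)).re :=
    Complex.continuous_re.comp ((cA₁.mul cA₁.matrix_conjTranspose).matrix_trace)
  have cscal : Continuous fun ε => scal (g ε) (trace (A₀ ε * (A₀ ε)ᴴ)).re (trace (A₁ ε * (A₁ ε)ᴴ)).re :=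
    scal_continuous.comp (cg.prodMk (ct0.prodMk ct1))
  have cη0 : Continuous fun ε => negMulLog (trace (A₀ ε * (A₀ ε)ᴴ)).re :=
    continuous_negMulLog.comp ct0
  have cη1 : Continuous fun ε => negMulLog (trace (A₁ ε * (A₁ ε)ᴴ)).re :=
    continuous_negMulLog.comp ct1
  have hrest : Tendsto (fun ε => scal (g ε) (trace (A₀ ε * (A₀ ε)ᴴ)).re (trace (A₁ ε * (A₁ ε)ᴴ)).re -
        negMulLog (trace (A₀ ε * (A₀ ε)ᴴ)).re - negMulLog (trace (A₁ ε * (A₁ ε)ᴴ)).re) (𝓝[>] (0 : ℝ))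
      (𝓝 (scal γ (trace (X₀ * X₀ᴴ)).re (trace (X₁ * X₁ᴴ)).re -
        negMulLog (trace (X₀ * X₀ᴴ)).re - negMulLog (trace (X₁ * X₁ᴴ)).re)) := by
    have key : Continuous (fun ε => scal (g ε) (trace (A₀ ε * (A₀ ε)ᴴ)).re (trace (A₁ ε * (A₁ ε)ᴴ)).re -
        negMulLog (trace (A₀ ε * (A₀ ε)ᴴ)).re - negMulLog (trace (A₁ ε * (A₁ ε)ᴴ)).re) :=
      (cscal.sub cη0).sub cη1
    have := key.tendsto 0 |>.mono_left hl
    beta_reduce at this
    rw [A₀0, A₁0, g0] at this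
    exact this
  have hLall := (hL0.add hL1).add hrest
  refine le_of_tendsto_of_tendsto hLall hR ?_
  have hpos : ∀ᶠ ε in 𝓝[>] (0 : ℝ), ε ∈ Set.Ioo (0 : ℝ) 1 := Ioo_mem_nhdsGT one_pos
  filter_upwards [det_add_smul_ne_zero X₀, det_add_smul_ne_zero X₁, hpos] with ε h₀ h₁ hε
  have hg0 : 0 < g ε := by
    simp only [hg]
    have := hε.1
    have := hε.2
    have : 0 ≤ (1 - ε) * γ := mul_nonneg (by linarith) h0
    linarith
  have hg1 : g ε < 1 := by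
    simp only [hg]
    have h1e := hε.1
    have h2e := hε.2
    have : (1 - ε) * γ ≤ (1 - ε) * 1 := mul_le_mul_of_nonneg_left h1 (by linarith)
    linarith
  have hx : 0 < (trace (A₀ ε * (A₀ ε)ᴴ)).re := by
    have hS : (A₀ ε * (A₀ ε)ᴴ).PosDef := by
      refine (posSemidef_self_mul_conjTranspose (A₀ ε)).posDef_iff_det_ne_zero.mpr ?_
      rw [det_mul, det_conjTranspose]
      exact mul_ne_zero h₀ (star_ne_zero.mpr h₀)
    have := hS.trace_pos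
    exact (Complex.lt_def.mp this).1
  exact core_unit (A₀ ε) (A₁ ε) h₁ hg0 hg1 hx

end

end Vale.Agent.Lib.P358
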