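import Vale.Agent.Lib.P358.EntBasic

/-!
# Continuity of the entropy on positive semidefinite matrices (P358 library)

Plan: the traces `tr A_i` are bounded by some `M` (they converge), so all eigenvalues of `A_i` and of
`A₀` lie in `[0, M]`.  By Weierstrass (`exists_polynomial_near_of_continuousOn`) `negMulLog` is
`ε`-close on `[0, M]` to a real polynomial `p`.  Then `∑ p(λ_j(A)) = re tr p(A)` (spectral theorem)
which is continuous in `A` (polynomial in the entries), and an `ε/3` argument finishes.
(An alternative through the continuity of the continuous functional calculus is welcome too.)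
-/

namespace Vale.Agent.Lib.P358

open Matrix Real Finset
open scoped ComplexOrder

noncomputable section

variable {n : Type*} [Fintype n] [DecidableEq n]

/-- The powers of a Hermitian matrix have trace the power sum of eigenvalues. -/
private theorem trace_pow_eq {A : Matrix n n ℂ} (h : A.IsHermitian) (k : ℕ) :
    trace (A ^ k) = ∑ j, (((h.eigenvalues j) ^ k : ℝ) : ℂ) := by
  set V : Matrix n n ℂ := (h.eigenvectorUnitary : Matrix n n ℂ) with hV
  have hVV : Vᴴ * V = 1 := Matrix.mem_unitaryGroup_iff'.mp h.eigenvectorUnitary.2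
  have hB : A = V * diagonal (fun j => ((h.eigenvalues j : ℝ) : ℂ)) * Vᴴ := by
    have := h.spectral_theorem
    simpa [Unitary.conjStarAlgAut_apply, Function.comp_def, star_eq_conjTranspose] using this
  have hpow : ∀ m : ℕ, A ^ m = V * diagonal (fun j => (((h.eigenvalues j) ^ m : ℝ) : ℂ)) * Vᴴ := by
    intro m
    induction m with
    | zero =>
      simp only [pow_zero]
      have : diagonal (fun _ : n => (((1 : ℝ)) : ℂ)) = (1 : Matrix n n ℂ) := by
        ext i j; by_cases hij : i = j
        · subst hij; simp
        · simp [hij]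
      simp only [this, Matrix.mul_one]
      exact (Matrix.mem_unitaryGroup_iff.mp h.eigenvectorUnitary.2).symm
    | succ m ih =>
      rw [pow_succ, ih]
      calc V * diagonal (fun j => (((h.eigenvalues j) ^ m : ℝ) : ℂ)) * Vᴴ * A
          = V * diagonal (fun j => (((h.eigenvalues j) ^ m : ℝ) : ℂ)) * Vᴴ *
            (V * diagonal (fun j => ((h.eigenvalues j : ℝ) : ℂ)) * Vᴴ) := congrArg _ hB
        _ = V * (diagonal (fun j => (((h.eigenvalues j) ^ m : ℝ) : ℂ)) * (Vᴴ * V) *
              diagonal (fun j => ((h.eigenvalues j : ℝ) : ℂ))) * Vᴴ := by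
            simp only [Matrix.mul_assoc]
        _ = V * diagonal (fun j => (((h.eigenvalues j) ^ (m + 1) : ℝ) : ℂ)) * Vᴴ := by
            rw [hVV, Matrix.mul_one, Matrix.diagonal_mul_diagonal]
            congr 3
            funext j
            push_cast
            ring
  rw [hpow k, Matrix.trace_mul_comm, ← Matrix.mul_assoc, hVV, Matrix.one_mul]
  simp [Matrix.trace_diagonal]

/-- The polynomial trace functional equals the sum over eigenvalues. -/
private theorem re_trace_aeval {A : Matrix n n ℂ} (h : A.IsHermitian) (p : Polynomial ℝ) :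
    (trace (Polynomial.aeval A p)).re = ∑ j, p.eval (h.eigenvalues j) := by
  induction p using Polynomial.induction_on' with
  | add p q hp hq =>
    simp only [map_add, Matrix.trace_add, Complex.add_re, Polynomial.eval_add, Finset.sum_add_distrib,
      hp, hq]
  | monomial k a =>
    simp only [Polynomial.aeval_monomial, Polynomial.eval_monomial]
    rw [Algebra.algebraMap_eq_smul_one, Matrix.smul_mul, Matrix.one_mul, Matrix.trace_smul,
      trace_pow_eq h k, Complex.smul_re, Complex.re_sum, smul_eq_mul, Finset.mul_sum]
    simp only [Complex.ofReal_re]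

/-- Eigenvalue bound. -/
private theorem eig_mem_Icc {A : Matrix n n ℂ} (hA : A.PosSemidef) (j : n) :
    hA.isHermitian.eigenvalues j ∈ Set.Icc (0 : ℝ) (trace A).re := by
  have hnn := hA.eigenvalues_nonneg
  refine ⟨hnn j, ?_⟩
  have htr := hA.isHermitian.trace_eq_sum_eigenvalues
  have hre : (trace A).re = ∑ i, hA.isHermitian.eigenvalues i := by
    rw [htr, Complex.re_sum]
    simp
  rw [hre]
  exact Finset.single_le_sum (f := hA.isHermitian.eigenvalues) (fun i _ => hnn i) (Finset.mem_univ j)

/-- Continuity of entropy along PSD families. -/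
theorem tendsto_ent {ι : Type*} {l : Filter ι} {A : ι → Matrix n n ℂ} {A₀ : Matrix n n ℂ}
    (hA : ∀ i, (A i).PosSemidef) (hA₀ : A₀.PosSemidef)
    (hl : Filter.Tendsto A l (nhds A₀)) :
    Filter.Tendsto (fun i => ent (A i)) l (nhds (ent A₀)) := by
  set M : ℝ := (trace A₀).re + 1 with hM
  have htrc : Filter.Tendsto (fun i => (trace (A i)).re) l (nhds (trace A₀).re) := by
    have hc : Continuous (fun B : Matrix n n ℂ => (trace B).re) :=
      Complex.continuous_re.comp (continuous_id.matrix_trace)
    exact (hc.tendsto A₀).comp hl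
  have hev : ∀ᶠ i in l, (trace (A i)).re < M :=
    htrc.eventually (gt_mem_nhds (by rw [hM]; linarith))
  rw [Metric.tendsto_nhds]
  intro ε hε
  set N : ℝ := (Fintype.card n : ℝ) + 1 with hN
  have hNpos : 0 < N := by positivity
  obtain ⟨p, hp⟩ := exists_polynomial_near_of_continuousOn 0 M negMulLog
    Real.continuous_negMulLog.continuousOn (ε / (3 * N)) (by positivity)
  -- the approximation bound for PSD matrices with trace below `M`
  have happrox : ∀ B : Matrix n n ℂ, B.PosSemidef → (trace B).re ≤ M →
      |ent B - (trace (Polynomial.aeval B p)).re| ≤ ε / 3 := by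
    intro B hB hBM
    rw [ent_eq hB.isHermitian, re_trace_aeval hB.isHermitian, ← Finset.sum_sub_distrib]
    have h1 : ∀ j ∈ (Finset.univ : Finset n),
        |negMulLog (hB.isHermitian.eigenvalues j) - p.eval (hB.isHermitian.eigenvalues j)| ≤
          ε / (3 * N) := by
      intro j _
      have hmem := eig_mem_Icc hB j
      have := hp _ ⟨hmem.1, hmem.2.trans hBM⟩
      rw [abs_sub_comm]
      exact this.le
    calc |∑ j, (negMulLog (hB.isHermitian.eigenvalues j) - p.eval (hB.isHermitian.eigenvalues j))|
        ≤ ∑ j, |negMulLog (hB.isHermitian.eigenvalues j) - p.eval (hB.isHermitian.eigenvalues j)| :=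
          Finset.abs_sum_le_sum_abs _ _
      _ ≤ ∑ _j : n, ε / (3 * N) := Finset.sum_le_sum h1
      _ = (Fintype.card n : ℝ) * (ε / (3 * N)) := by simp
      _ ≤ N * (ε / (3 * N)) := by
          apply mul_le_mul_of_nonneg_right _ (by positivity)
          rw [hN]; linarith
      _ = ε / 3 := by field_simp
  have hcont : Continuous (fun B : Matrix n n ℂ => (trace (Polynomial.aeval B p)).re) :=
    Complex.continuous_re.comp ((p.continuous_aeval).matrix_trace)
  have hlim := (hcont.tendsto A₀).comp hl
  rw [Metric.tendsto_nhds] at hlim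
  have hev2 := hlim (ε / 3) (by positivity)
  filter_upwards [hev, hev2] with i hi1 hi2
  have h1 := happrox (A i) (hA i) hi1.le
  have h2 := happrox A₀ hA₀ (by rw [hM]; linarith)
  rw [Real.dist_eq] at hi2 ⊢
  simp only [Function.comp_apply] at hi2
  rw [abs_le] at h1 h2
  rw [abs_lt] at hi2 ⊢
  constructor <;> linarith [h1.1, h1.2, h2.1, h2.2, hi2.1, hi2.2]

end

end Vale.Agent.Lib.P358
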