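import Vale.Agent.Lib.P358.EntBasic

/-!
# Klein's inequality and concavity of the entropy (P358 library)
-/

namespace Vale.Agent.Lib.P358

open Matrix Real Finset
open scoped ComplexOrder

noncomputable section

variable {n : Type*} [Fintype n] [DecidableEq n]

/-- Explicit form of the spectral theorem. -/
theorem herm_spectral_eq {A : Matrix n n ℂ} (h : A.IsHermitian) :
    A = (h.eigenvectorUnitary : Matrix n n ℂ) *
      diagonal (fun i => ((h.eigenvalues i : ℝ) : ℂ)) * (h.eigenvectorUnitary : Matrix n n ℂ)ᴴ := by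
  conv_lhs => rw [h.spectral_theorem]
  simp [Unitary.conjStarAlgAut_apply, Matrix.star_eq_conjTranspose, Function.comp_def]

/-- Scalar inequality behind Klein: `η(a) + a log b - b + a ≤ 0`. -/
theorem negMulLog_add_mul_log_le {a b : ℝ} (ha : 0 ≤ a) (hb : 0 < b) :
    negMulLog a + a * Real.log b - b + a ≤ 0 := by
  rcases ha.eq_or_lt with rfl | ha
  · simp [negMulLog]; exact hb.le
  · have h := Real.log_le_sub_one_of_pos (div_pos hb ha)
    rw [Real.log_div hb.ne' ha.ne'] at h
    have h2 : a * (Real.log b - Real.log a) ≤ a * (b / a - 1) :=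
      mul_le_mul_of_nonneg_left h ha.le
    have h3 : a * (b / a - 1) = b - a := by field_simp
    rw [h3] at h2
    simp only [negMulLog]
    nlinarith

/-- Double sum form of the trace of a product of two spectral forms. -/
theorem trace_spectral_mul (W V : Matrix n n ℂ) (a d : n → ℝ) :
    trace ((W * diagonal (fun i => ((a i : ℝ) : ℂ)) * Wᴴ) *
        (V * diagonal (fun j => ((d j : ℝ) : ℂ)) * Vᴴ)) =
      ∑ i, ∑ j, ((a i * d j * ‖(Wᴴ * V) i j‖ ^ 2 : ℝ) : ℂ) := by
  set U := Wᴴ * V with hU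
  have hUs : Uᴴ = Vᴴ * W := by simp [hU, conjTranspose_mul]
  have h1 : (W * diagonal (fun i => ((a i : ℝ) : ℂ)) * Wᴴ) *
      (V * diagonal (fun j => ((d j : ℝ) : ℂ)) * Vᴴ) =
      W * (diagonal (fun i => ((a i : ℝ) : ℂ)) * U * diagonal (fun j => ((d j : ℝ) : ℂ)) * Vᴴ) := by
    simp only [hU, Matrix.mul_assoc]
  rw [h1, Matrix.trace_mul_comm]
  have h2 : (diagonal (fun i => ((a i : ℝ) : ℂ)) * U * diagonal (fun j => ((d j : ℝ) : ℂ)) * Vᴴ) * W
      = diagonal (fun i => ((a i : ℝ) : ℂ)) * U * diagonal (fun j => ((d j : ℝ) : ℂ)) * Uᴴ := by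
    rw [hUs]; simp only [Matrix.mul_assoc]
  rw [h2, Matrix.trace]
  refine Finset.sum_congr rfl fun i _ => ?_
  rw [Matrix.diag_apply, Matrix.mul_apply]
  refine Finset.sum_congr rfl fun j _ => ?_
  rw [Matrix.mul_diagonal, Matrix.diagonal_mul, Matrix.conjTranspose_apply]
  have h3 : U i j * star (U i j) = ((‖U i j‖ ^ 2 : ℝ) : ℂ) := by
    rw [Complex.star_def, Complex.mul_conj, Complex.normSq_eq_norm_sq]
  push_cast at h3 ⊢
  calc (a i : ℂ) * U i j * (d j : ℂ) * star (U i j)
      = (a i : ℂ) * (d j : ℂ) * (U i j * star (U i j)) := by ring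
    _ = _ := by rw [h3]

/-- Row sums of the squared moduli of a unitary matrix. -/
theorem unitary_row_sum {U : Matrix n n ℂ} (hU : U ∈ unitaryGroup n ℂ) (i : n) :
    ∑ j, ‖U i j‖ ^ 2 = 1 := by
  have h : U * Uᴴ = 1 := (Matrix.mem_unitaryGroup_iff).1 hU
  have h2 := congrFun (congrFun h i) i
  simp only [Matrix.mul_apply, Matrix.conjTranspose_apply, Matrix.one_apply_eq] at h2
  have h3 : ∀ j, U i j * star (U i j) = ((‖U i j‖ ^ 2 : ℝ) : ℂ) := fun j => by
    rw [Complex.star_def, Complex.mul_conj, Complex.normSq_eq_norm_sq]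
  simp only [h3] at h2
  exact_mod_cast h2

/-- Column sums of the squared moduli of a unitary matrix. -/
theorem unitary_col_sum {U : Matrix n n ℂ} (hU : U ∈ unitaryGroup n ℂ) (j : n) :
    ∑ i, ‖U i j‖ ^ 2 = 1 := by
  have h : Uᴴ * U = 1 := (Matrix.mem_unitaryGroup_iff').1 hU
  have h2 := congrFun (congrFun h j) j
  simp only [Matrix.mul_apply, Matrix.conjTranspose_apply, Matrix.one_apply_eq] at h2
  have h3 : ∀ i, star (U i j) * U i j = ((‖U i j‖ ^ 2 : ℝ) : ℂ) := fun i => by
    rw [mul_comm, Complex.star_def, Complex.mul_conj, Complex.normSq_eq_norm_sq]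
  simp only [h3] at h2
  exact_mod_cast h2

/-- **Klein's inequality** against an arbitrary spectral representation `V diag(b) V*`, `b > 0`:
`S(A) ≤ -tr(A V diag(log b) V*) + ∑ b_j - tr A`.

Paper proof: write `A = W diag(a) W*`, `a ≥ 0`; `P_ij = |(W* V)_ij|²` is doubly stochastic.
For all `i, j`: `η(a_i) + a_i log b_j - b_j + a_i ≤ 0` (scalar inequality `Real.add_one_le_exp`/
`Real.log_le_sub_one_of_pos`, with `η(0) = 0`).  Multiply by `P_ij`, sum, use row and column sums. -/
theorem ent_le_cross_unitary {A : Matrix n n ℂ} (hA : A.PosSemidef) (V : Matrix n n ℂ)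
    (hV : V ∈ unitaryGroup n ℂ) (b : n → ℝ) (hb : ∀ j, 0 < b j) :
    ent A ≤ -(trace (A * (V * diagonal (fun j => ((Real.log (b j) : ℝ) : ℂ)) * Vᴴ))).re
      + ∑ j, b j - (trace A).re := by
  have hH := hA.1
  set W : Matrix n n ℂ := (hH.eigenvectorUnitary : Matrix n n ℂ) with hW
  set a : n → ℝ := hH.eigenvalues with ha
  have hWmem : W ∈ unitaryGroup n ℂ := hH.eigenvectorUnitary.2
  have hspec : A = W * diagonal (fun i => ((a i : ℝ) : ℂ)) * Wᴴ := herm_spectral_eq hH
  have ha0 : ∀ i, 0 ≤ a i := fun i => hA.eigenvalues_nonneg i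
  set U := Wᴴ * V with hU
  have hUmem : U ∈ unitaryGroup n ℂ := by
    have : Wᴴ ∈ unitaryGroup n ℂ := by
      rw [← Matrix.star_eq_conjTranspose]; exact Unitary.star_mem hWmem
    exact Submonoid.mul_mem _ this hV
  have htr : (trace (A * (V * diagonal (fun j => ((Real.log (b j) : ℝ) : ℂ)) * Vᴴ))).re =
      ∑ i, ∑ j, a i * Real.log (b j) * ‖U i j‖ ^ 2 := by
    conv_lhs => rw [hspec]
    rw [trace_spectral_mul]
    simp only [Complex.re_sum, Complex.ofReal_re]
    rfl
  have htrA : (trace A).re = ∑ i, a i := by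
    rw [hH.trace_eq_sum_eigenvalues]
    simp [ha]
  have hent : ent A = ∑ i, negMulLog (a i) := ent_eq hH
  rw [htr, htrA, hent]
  -- termwise
  have key : ∀ i j, ‖U i j‖ ^ 2 * (negMulLog (a i) + a i * Real.log (b j) - b j + a i) ≤ 0 :=
    fun i j => mul_nonpos_of_nonneg_of_nonpos (by positivity)
      (negMulLog_add_mul_log_le (ha0 i) (hb j))
  have hsum : ∑ i, ∑ j, ‖U i j‖ ^ 2 * (negMulLog (a i) + a i * Real.log (b j) - b j + a i) ≤ 0 :=
    Finset.sum_nonpos fun i _ => Finset.sum_nonpos fun j _ => key i j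
  have e1 : ∑ i, ∑ j, ‖U i j‖ ^ 2 * negMulLog (a i) = ∑ i, negMulLog (a i) := by
    refine Finset.sum_congr rfl fun i _ => ?_
    rw [← Finset.sum_mul, unitary_row_sum hUmem i, one_mul]
  have e2 : ∑ i, ∑ j, ‖U i j‖ ^ 2 * a i = ∑ i, a i := by
    refine Finset.sum_congr rfl fun i _ => ?_
    rw [← Finset.sum_mul, unitary_row_sum hUmem i, one_mul]
  have e3 : ∑ i, ∑ j, ‖U i j‖ ^ 2 * b j = ∑ j, b j := by
    rw [Finset.sum_comm]
    refine Finset.sum_congr rfl fun j _ => ?_
    rw [← Finset.sum_mul, unitary_col_sum hUmem j, one_mul]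
  have e4 : ∑ i, ∑ j, ‖U i j‖ ^ 2 * (negMulLog (a i) + a i * Real.log (b j) - b j + a i) =
      ∑ i, ∑ j, ‖U i j‖ ^ 2 * negMulLog (a i) +
        ∑ i, ∑ j, a i * Real.log (b j) * ‖U i j‖ ^ 2 -
        ∑ i, ∑ j, ‖U i j‖ ^ 2 * b j + ∑ i, ∑ j, ‖U i j‖ ^ 2 * a i := by
    simp only [← Finset.sum_add_distrib, ← Finset.sum_sub_distrib]
    refine Finset.sum_congr rfl fun i _ => Finset.sum_congr rfl fun j _ => ?_
    ring
  rw [e4, e1, e2, e3] at hsum
  linarith

/-- **Klein's inequality**: for `A ⪰ 0`, `B ≻ 0`: `S(A) ≤ -tr(A log B) + tr B - tr A`. -/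
theorem ent_le_cross {A B : Matrix n n ℂ} (hA : A.PosSemidef) (hB : B.PosDef) :
    ent A ≤ -(trace (A * logm B)).re + (trace B).re - (trace A).re := by
  have hH := hB.1
  have h := ent_le_cross_unitary hA (hH.eigenvectorUnitary : Matrix n n ℂ)
    hH.eigenvectorUnitary.2 hH.eigenvalues (fun j => hB.eigenvalues_pos j)
  have hl : logm B = (hH.eigenvectorUnitary : Matrix n n ℂ) *
      diagonal (fun i => ((Real.log (hH.eigenvalues i) : ℝ) : ℂ)) *
        (hH.eigenvectorUnitary : Matrix n n ℂ)ᴴ := by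
    simp [logm, hH]
  have htrB : (trace B).re = ∑ i, hH.eigenvalues i := by
    rw [hH.trace_eq_sum_eigenvalues]; simp
  rw [hl, htrB]
  exact h

/-- Entropy against a diagonal reference (the case `V = 1` of Klein). -/
theorem ent_le_diag_cross {A : Matrix n n ℂ} (hA : A.PosSemidef) (σ : n → ℝ) (hσ : ∀ i, 0 < σ i) :
    ent A ≤ -∑ i, (A i i).re * Real.log (σ i) + ∑ i, σ i - (trace A).re := by
  have h := ent_le_cross_unitary hA (1 : Matrix n n ℂ) (Submonoid.one_mem _) σ hσ
  have e : (trace (A * ((1 : Matrix n n ℂ) * diagonal (fun j => ((Real.log (σ j) : ℝ) : ℂ)) *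
      (1 : Matrix n n ℂ)ᴴ))).re = ∑ i, (A i i).re * Real.log (σ i) := by
    simp [Matrix.trace, Matrix.mul_diagonal, Complex.re_sum]
  rw [e] at h
  exact h

/-- Concavity of the entropy on positive semidefinite matrices.

Paper proof: `Ā = ∑ p_i A_i = V diag(λ) V*` (its own spectral theorem), apply `ent_le_cross_unitary`
with `A_i` and `b = λ + ε`, multiply by `p_i`, sum: `∑ p_i S(A_i) ≤ -∑ λ_j log(λ_j+ε) + ε dim`; let
`ε → 0+` (the terms with `λ_j = 0` vanish). -/
theorem ent_sum_ge {ι : Type*} [Fintype ι] (p : ι → ℝ) (hp : ∀ i, 0 ≤ p i) (hp1 : ∑ i, p i = 1)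
    (A : ι → Matrix n n ℂ) (hA : ∀ i, (A i).PosSemidef) :
    ∑ i, p i * ent (A i) ≤ ent (∑ i, ((p i : ℝ) : ℂ) • A i) := by
  classical
  set B : Matrix n n ℂ := ∑ i, ((p i : ℝ) : ℂ) • A i with hBdef
  have hBpsd : B.PosSemidef := by
    refine Matrix.posSemidef_sum _ fun i _ => ?_
    have : (0 : ℂ) ≤ ((p i : ℝ) : ℂ) := by exact_mod_cast hp i
    exact (hA i).smul this
  have hH := hBpsd.1
  set V : Matrix n n ℂ := (hH.eigenvectorUnitary : Matrix n n ℂ) with hVdef
  have hVmem : V ∈ unitaryGroup n ℂ := hH.eigenvectorUnitary.2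
  set l : n → ℝ := hH.eigenvalues with hl
  have hl0 : ∀ j, 0 ≤ l j := fun j => hBpsd.eigenvalues_nonneg j
  have hspec : B = V * diagonal (fun i => ((l i : ℝ) : ℂ)) * Vᴴ := herm_spectral_eq hH
  have hent : ent B = ∑ j, negMulLog (l j) := ent_eq hH
  have htrB : (trace B).re = ∑ j, l j := by
    rw [hH.trace_eq_sum_eigenvalues]; simp [hl]
  refine le_of_forall_pos_le_add fun ε hε => ?_
  -- reference spectrum
  set δ : ℝ := ε / (Fintype.card n + 1) with hδ
  have hδpos : 0 < δ := by positivity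
  set b : n → ℝ := fun j => if l j = 0 then δ else l j with hb
  have hbpos : ∀ j, 0 < b j := by
    intro j
    simp only [hb]
    split_ifs with h
    · exact hδpos
    · exact lt_of_le_of_ne (hl0 j) (Ne.symm h)
  have hsumb : ∑ j, b j ≤ ∑ j, l j + ε := by
    have h1 : ∀ j, b j ≤ l j + δ := by
      intro j
      simp only [hb]
      split_ifs with h
      · rw [h]; linarith
      · linarith
    calc ∑ j, b j ≤ ∑ j, (l j + δ) := Finset.sum_le_sum fun j _ => h1 j
      _ = ∑ j, l j + Fintype.card n * δ := by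
        rw [Finset.sum_add_distrib]; simp
      _ ≤ ∑ j, l j + ε := by
        have : Fintype.card n * δ ≤ ε := by
          rw [hδ]
          have hc : (0 : ℝ) < Fintype.card n + 1 := by positivity
          rw [mul_div_assoc', div_le_iff₀ hc]
          nlinarith
        linarith
  set D : Matrix n n ℂ := V * diagonal (fun j => ((Real.log (b j) : ℝ) : ℂ)) * Vᴴ with hD
  have hi : ∀ i, p i * ent (A i) ≤
      p i * (-(trace (A i * D)).re + ∑ j, b j - (trace (A i)).re) := fun i =>
    mul_le_mul_of_nonneg_left (ent_le_cross_unitary (hA i) V hVmem b hbpos) (hp i)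
  have hsum := Finset.sum_le_sum fun i (_ : i ∈ (Finset.univ : Finset ι)) => hi i
  have e1 : ∑ i, p i * (-(trace (A i * D)).re + ∑ j, b j - (trace (A i)).re) =
      -(trace (B * D)).re + ∑ j, b j - (trace B).re := by
    have h1 : (trace (B * D)).re = ∑ i, p i * (trace (A i * D)).re := by
      rw [hBdef, Finset.sum_mul, Matrix.trace_sum, Complex.re_sum]
      refine Finset.sum_congr rfl fun i _ => ?_
      rw [Matrix.smul_mul, Matrix.trace_smul, smul_eq_mul, Complex.re_ofReal_mul]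
    have h2 : (trace B).re = ∑ i, p i * (trace (A i)).re := by
      rw [hBdef, Matrix.trace_sum, Complex.re_sum]
      refine Finset.sum_congr rfl fun i _ => ?_
      rw [Matrix.trace_smul, smul_eq_mul, Complex.re_ofReal_mul]
    rw [h1, h2]
    have h3 : ∑ i, p i * ∑ j, b j = ∑ j, b j := by
      rw [← Finset.sum_mul, hp1, one_mul]
    calc ∑ i, p i * (-(trace (A i * D)).re + ∑ j, b j - (trace (A i)).re)
        = -∑ i, p i * (trace (A i * D)).re + ∑ i, p i * ∑ j, b j
            - ∑ i, p i * (trace (A i)).re := by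
          rw [← Finset.sum_neg_distrib, ← Finset.sum_add_distrib, ← Finset.sum_sub_distrib]
          refine Finset.sum_congr rfl fun i _ => ?_
          ring
      _ = _ := by rw [h3]
  have e2 : (trace (B * D)).re = -∑ j, negMulLog (l j) := by
    have hVV : Vᴴ * V = 1 := (Matrix.mem_unitaryGroup_iff').1 hVmem
    have h1 : B * D = V * (diagonal (fun i => ((l i : ℝ) : ℂ)) *
        diagonal (fun j => ((Real.log (b j) : ℝ) : ℂ))) * Vᴴ := by
      conv_lhs => rw [hspec, hD]
      calc V * diagonal (fun i => ((l i : ℝ) : ℂ)) * Vᴴ *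
            (V * diagonal (fun j => ((Real.log (b j) : ℝ) : ℂ)) * Vᴴ)
          = V * diagonal (fun i => ((l i : ℝ) : ℂ)) * (Vᴴ * V) *
            diagonal (fun j => ((Real.log (b j) : ℝ) : ℂ)) * Vᴴ := by
            simp only [Matrix.mul_assoc]
        _ = _ := by rw [hVV]; simp only [Matrix.mul_one, Matrix.mul_assoc]
    rw [h1, Matrix.trace_mul_comm, ← Matrix.mul_assoc, hVV,
      Matrix.one_mul, Matrix.diagonal_mul_diagonal, Matrix.trace_diagonal, Complex.re_sum,
      ← Finset.sum_neg_distrib]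
    refine Finset.sum_congr rfl fun j _ => ?_
    simp only [negMulLog]
    have : ((l j : ℂ) * ((Real.log (b j) : ℝ) : ℂ)).re = l j * Real.log (b j) := by
      rw [Complex.re_ofReal_mul, Complex.ofReal_re]
    rw [this]
    by_cases h : l j = 0
    · simp [h]
    · simp [hb, h]
  rw [e1, e2, htrB, neg_neg] at hsum
  rw [hent]
  linarith

end

end Vale.Agent.Lib.P358
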