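import Vale.Agent.Lib.P358.Trial
import Vale.Agent.Lib.P358.EntCont
import Vale.Agent.Lib.P358.EntKlein

/-!
# Monotonicity along the path: the two-letter inequality for diagonal `X₁` (P358 library)
-/

namespace Vale.Agent.Lib.P358

open Matrix Real Finset Filter Topology
open scoped ComplexOrder

noncomputable section

/-- A continuous function with an upper touching function of nonnegative derivative at each point
of `(a, b]` satisfies `L a ≤ L b`. -/
theorem mono_of_touching {L : ℝ → ℝ} {a b : ℝ} (hab : a ≤ b) (hL : ContinuousOn L (Set.Icc a b))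
    (htouch : ∀ τ ∈ Set.Ioc a b, ∃ (g : ℝ → ℝ) (g' : ℝ), HasDerivAt g g' τ ∧ 0 ≤ g' ∧ g τ = L τ ∧
      ∀ τ' ∈ Set.Icc a b, L τ' ≤ g τ') : L a ≤ L b := by
  -- reflect: `h u = L (a + b - u)` on `[a, b]`
  set h : ℝ → ℝ := fun u => L (a + b - u) with hh
  have hrefl : ∀ u ∈ Set.Icc a b, a + b - u ∈ Set.Icc a b := by
    intro u hu
    constructor <;> linarith [hu.1, hu.2]
  have hcont : ContinuousOn h (Set.Icc a b) := by
    refine hL.comp (by fun_prop) hrefl
  have key := image_le_of_liminf_slope_right_le_deriv_boundary (f := h) (a := a) (b := b) hcont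
    (B := fun _ => L b) (B' := fun _ => 0) ?_ continuousOn_const ?_ ?_
    (Set.right_mem_Icc.mpr hab)
  · simpa [hh] using key
  · simp [hh]
  · intro x _
    exact hasDerivWithinAt_const _ _ _
  · intro x hx r hr
    have hτ : a + b - x ∈ Set.Ioc a b := by
      constructor <;> linarith [hx.1, hx.2]
    obtain ⟨g, g', hg, hg'0, hgτ, hgle⟩ := htouch _ hτ
    have hgt : HasDerivAt (fun u => g (a + b - u)) (-g') x := hg.comp_const_sub _ _
    have hsl := hasDerivAt_iff_tendsto_slope.mp hgt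
    have hsl' : Tendsto (slope (fun u => g (a + b - u)) x) (𝓝[>] x) (𝓝 (-g')) :=
      hsl.mono_left (nhdsWithin_mono _ (fun y hy => ne_of_gt hy))
    have hev1 : ∀ᶠ z in 𝓝[>] x, slope (fun u => g (a + b - u)) x z < r :=
      hsl'.eventually_lt_const (by have hr' : (0 : ℝ) < r := hr; linarith)
    have hev2 : ∀ᶠ z in 𝓝[>] x, z ∈ Set.Ioo x b := Ioo_mem_nhdsGT hx.2
    refine Filter.Eventually.frequently ?_
    filter_upwards [hev1, hev2] with z hz1 hz2
    refine lt_of_le_of_lt ?_ hz1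
    rw [slope_def_field, slope_def_field]
    have hzx : 0 < z - x := sub_pos.mpr hz2.1
    refine div_le_div_of_nonneg_right ?_ hzx.le
    have hz3 : a + b - z ∈ Set.Icc a b := by
      constructor <;> linarith [hx.1, hz2.1, hz2.2]
    have := hgle _ hz3
    simp only [hh]
    rw [hgτ]
    linarith

section Path

variable {ι : Type*} [Fintype ι] [DecidableEq ι]

/-- Decomposition of the path of block matrices. -/
theorem bY_path (X : Matrix ι ι ℂ) (d : ι → ℝ) (p₁ p₂ τ : ℝ) :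
    bY X d (τ * p₁) (τ * p₂) = bY X d 0 0 + (τ : ℂ) • bY 0 d p₁ p₂ := by
  simp only [bY, fromBlocks_smul, fromBlocks_add]
  congr 1
  · simp
  · ext i j
    by_cases h : i = j
    · subst h
      simp
      ring
    · simp [h]
  · ext i j
    by_cases h : i = j
    · subst h
      simp
      ring
    · simp [h]
  · simp

/-- The path `A(τ) = Y(τ) Y(τ)*`. -/
def pathA (X : Matrix ι ι ℂ) (d : ι → ℝ) (p₁ p₂ τ : ℝ) : Matrix (ι ⊕ ι) (ι ⊕ ι) ℂ :=
  bY X d (τ * p₁) (τ * p₂) * (bY X d (τ * p₁) (τ * p₂))ᴴ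

theorem pathA_expand (X : Matrix ι ι ℂ) (d : ι → ℝ) (p₁ p₂ τ : ℝ) :
    pathA X d p₁ p₂ τ =
      bY X d 0 0 * (bY X d 0 0)ᴴ +
        (τ : ℂ) • (bY 0 d p₁ p₂ * (bY X d 0 0)ᴴ + bY X d 0 0 * (bY 0 d p₁ p₂)ᴴ) +
        ((τ ^ 2 : ℝ) : ℂ) • (bY 0 d p₁ p₂ * (bY 0 d p₁ p₂)ᴴ) := by
  rw [pathA, bY_path, conjTranspose_add, conjTranspose_smul]
  simp only [add_mul, mul_add, smul_mul_assoc, mul_smul_comm, smul_add, smul_smul]
  simp only [Complex.star_def, Complex.conj_ofReal]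
  push_cast
  rw [pow_two]
  abel

theorem pathA_posSemidef (X : Matrix ι ι ℂ) (d : ι → ℝ) (p₁ p₂ τ : ℝ) :
    (pathA X d p₁ p₂ τ).PosSemidef :=
  Matrix.posSemidef_self_mul_conjTranspose _

theorem pathA_continuous (X : Matrix ι ι ℂ) (d : ι → ℝ) (p₁ p₂ : ℝ) :
    Continuous (pathA X d p₁ p₂) := by
  have : pathA X d p₁ p₂ = fun τ : ℝ => bY X d 0 0 * (bY X d 0 0)ᴴ +
        (τ : ℂ) • (bY 0 d p₁ p₂ * (bY X d 0 0)ᴴ + bY X d 0 0 * (bY 0 d p₁ p₂)ᴴ) +
        ((τ ^ 2 : ℝ) : ℂ) • (bY 0 d p₁ p₂ * (bY 0 d p₁ p₂)ᴴ) := by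
    funext τ
    exact pathA_expand X d p₁ p₂ τ
  rw [this]
  fun_prop

/-- The derivative of `τ ↦ re tr (A(τ) M)`. -/
theorem pathA_trace_hasDerivAt (X : Matrix ι ι ℂ) (d : ι → ℝ) (p₁ p₂ τ : ℝ)
    (M : Matrix (ι ⊕ ι) (ι ⊕ ι) ℂ) :
    HasDerivAt (fun t => (trace (pathA X d p₁ p₂ t * M)).re)
      ((trace ((bY 0 d p₁ p₂ * (bY X d (τ * p₁) (τ * p₂))ᴴ +
        bY X d (τ * p₁) (τ * p₂) * (bY 0 d p₁ p₂)ᴴ) * M)).re) τ := by
  set W := bY 0 d p₁ p₂ with hW
  set X0 := bY X d 0 0 with hX0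
  have hexp : (fun t => (trace (pathA X d p₁ p₂ t * M)).re) = fun t : ℝ =>
      (trace (X0 * X0ᴴ * M)).re + t * (trace ((W * X0ᴴ + X0 * Wᴴ) * M)).re +
        t ^ 2 * (trace (W * Wᴴ * M)).re := by
    funext t
    rw [pathA_expand, add_mul, add_mul, trace_add, trace_add, smul_mul_assoc, smul_mul_assoc, trace_smul,
      trace_smul, smul_eq_mul, smul_eq_mul, Complex.add_re, Complex.add_re, Complex.re_ofReal_mul,
      Complex.re_ofReal_mul]
  rw [hexp, bY_path, conjTranspose_add, conjTranspose_smul]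
  have hval : (trace ((W * (X0ᴴ + star (τ : ℂ) • Wᴴ) + (X0 + (τ : ℂ) • W) * Wᴴ) * M)).re =
      (0 + (1 * (trace ((W * X0ᴴ + X0 * Wᴴ) * M)).re + τ * 0)) +
        ((2 * τ) * (trace (W * Wᴴ * M)).re + τ ^ 2 * 0) := by
    have : W * (X0ᴴ + star (τ : ℂ) • Wᴴ) + (X0 + (τ : ℂ) • W) * Wᴴ =
        (W * X0ᴴ + X0 * Wᴴ) + ((2 * τ : ℝ) : ℂ) • (W * Wᴴ) := by
      simp only [mul_add, add_mul, smul_mul_assoc, mul_smul_comm, Complex.star_def, Complex.conj_ofReal]
      push_cast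
      rw [two_mul, add_smul]
      abel
    rw [this, add_mul, trace_add, smul_mul_assoc, trace_smul, smul_eq_mul, Complex.add_re,
      Complex.re_ofReal_mul]
    ring
  rw [hval]
  refine HasDerivAt.add (HasDerivAt.add (hasDerivAt_const _ _) ?_) ?_
  · exact (hasDerivAt_id τ).mul (hasDerivAt_const _ _)
  · have h2 : HasDerivAt (fun t : ℝ => t ^ 2) (2 * τ) τ := by
      simpa using hasDerivAt_pow 2 τ
    exact h2.mul (hasDerivAt_const _ _)

/-- The identity `τ Ȧ(τ) = C(τ)`. -/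
theorem mul_deriv_eq_bC (X : Matrix ι ι ℂ) (d : ι → ℝ) (p₁ p₂ τ : ℝ) :
    ((τ : ℝ) : ℂ) • (bY 0 d p₁ p₂ * (bY X d (τ * p₁) (τ * p₂))ᴴ +
        bY X d (τ * p₁) (τ * p₂) * (bY 0 d p₁ p₂)ᴴ) =
      bC X d (τ * p₁) (τ * p₂) := by
  have hW : bY 0 d (τ * p₁) (τ * p₂) = (τ : ℂ) • bY 0 d p₁ p₂ := by
    have := bY_path (0 : Matrix ι ι ℂ) d p₁ p₂ τ
    rw [this]
    simp [bY]
  rw [bC, hW, conjTranspose_smul]
  simp only [smul_add, smul_mul_assoc, mul_smul_comm, Complex.star_def, Complex.conj_ofReal]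

/-- **The two-letter inequality, diagonal case.** -/
theorem core_diag (X : Matrix ι ι ℂ) {d : ι → ℝ} {γ β x : ℝ} (hd : ∀ k, 0 < d k)
    (hd1 : ∑ k, d k ^ 2 = 1) (hγ0 : 0 < γ) (hγ1 : γ < 1) (hβ : 0 < β) (hx : 0 < x)
    (hxe : x = ∑ k, ∑ l, ‖X k l‖ ^ 2) :
    ent (X * Xᴴ) - negMulLog x ≤
      ent (bY X d (Real.sqrt (γ * β)) (Real.sqrt ((1 - γ) * β)) *
          (bY X d (Real.sqrt (γ * β)) (Real.sqrt ((1 - γ) * β)))ᴴ) -
        scal γ x β - β * ∑ k, negMulLog (d k ^ 2) := by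
  set p₁ := Real.sqrt (γ * β) with hp₁
  set p₂ := Real.sqrt ((1 - γ) * β) with hp₂
  have hγ1' : 0 < 1 - γ := sub_pos.mpr hγ1
  have hp₁pos : 0 < p₁ := Real.sqrt_pos.mpr (mul_pos hγ0 hβ)
  have hp₂pos : 0 < p₂ := Real.sqrt_pos.mpr (mul_pos hγ1' hβ)
  have hp₁sq : p₁ ^ 2 = γ * β := Real.sq_sqrt (mul_pos hγ0 hβ).le
  have hp₂sq : p₂ ^ 2 = (1 - γ) * β := Real.sq_sqrt (mul_pos hγ1' hβ).le
  set H := ∑ k, negMulLog (d k ^ 2) with hH
  set L : ℝ → ℝ := fun τ => ent (pathA X d p₁ p₂ τ) - scal γ x (τ ^ 2 * β) - τ ^ 2 * β * H with hL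
  have hcont : Continuous L := by
    have h1 : Continuous fun τ => ent (pathA X d p₁ p₂ τ) := by
      rw [continuous_iff_continuousAt]
      intro τ
      exact tendsto_ent (fun t => pathA_posSemidef X d p₁ p₂ t) (pathA_posSemidef X d p₁ p₂ τ)
        ((pathA_continuous X d p₁ p₂).tendsto τ)
    have h2 : Continuous fun τ : ℝ => scal γ x (τ ^ 2 * β) := by
      have := scal_continuous.comp
        (show Continuous fun τ : ℝ => (γ, x, τ ^ 2 * β) by fun_prop)
      exact this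
    exact (h1.sub h2).sub (by fun_prop)
  have hmono : L 0 ≤ L 1 := by
    refine mono_of_touching zero_le_one hcont.continuousOn ?_
    intro τ hτ
    have hτ0 : 0 < τ := hτ.1
    have hq : 0 < τ * p₁ := mul_pos hτ0 hp₁pos
    have hr : 0 < τ * p₂ := mul_pos hτ0 hp₂pos
    have hPD : (pathA X d p₁ p₂ τ).PosDef := bY_posDef X hd hq hr
    set M := logm (pathA X d p₁ p₂ τ) with hM
    set b := τ ^ 2 * β with hb
    have hbpos : 0 < b := by positivity
    set Ad := bY 0 d p₁ p₂ * (bY X d (τ * p₁) (τ * p₂))ᴴ +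
        bY X d (τ * p₁) (τ * p₂) * (bY 0 d p₁ p₂)ᴴ with hAd
    have hscal : HasDerivAt (fun t : ℝ => scal γ x (t ^ 2 * β))
        (((Q0 x (γ * b) ((1 - γ) * b) - b) / b) * (2 * τ * β)) τ := by
      have h1 := scal_hasDerivAt hγ0 hγ1 hx hbpos
      have h2 : HasDerivAt (fun t : ℝ => t ^ 2 * β) (2 * τ * β) τ := by
        have : HasDerivAt (fun t : ℝ => t ^ 2) (2 * τ) τ := by
          simpa using hasDerivAt_pow 2 τ
        exact this.mul_const β
      exact HasDerivAt.comp (h₂ := fun t => scal γ x t) τ h1 h2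
    refine ⟨fun t => -(trace (pathA X d p₁ p₂ t * M)).re + (trace (pathA X d p₁ p₂ τ)).re -
        (trace (pathA X d p₁ p₂ t)).re - scal γ x (t ^ 2 * β) - t ^ 2 * β * H,
      -(trace (Ad * M)).re - (trace Ad).re - ((Q0 x (γ * b) ((1 - γ) * b) - b) / b) * (2 * τ * β) -
        2 * τ * β * H, ?_, ?_, ?_, ?_⟩
    · have h1 := (pathA_trace_hasDerivAt X d p₁ p₂ τ M).neg
      have h2 := pathA_trace_hasDerivAt X d p₁ p₂ τ 1
      simp only [Matrix.mul_one] at h2
      have h3 : HasDerivAt (fun t : ℝ => t ^ 2 * β * H) (2 * τ * β * H) τ := by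
        have : HasDerivAt (fun t : ℝ => t ^ 2) (2 * τ) τ := by
          simpa using hasDerivAt_pow 2 τ
        exact (this.mul_const β).mul_const H
      have h4 := ((h1.add_const (trace (pathA X d p₁ p₂ τ)).re).sub h2).sub hscal |>.sub h3
      exact h4
    · -- nonnegativity of the derivative
      have hst := static_bound X hd hd1 hq hr hx hxe
      have hZ : (τ * p₁) ^ 2 = γ * b := by
        rw [mul_pow, hp₁sq, hb]; ring
      have hY : (τ * p₂) ^ 2 = (1 - γ) * b := by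
        rw [mul_pow, hp₂sq, hb]; ring
      rw [hZ, hY] at hst
      have hbC : bC X d (τ * p₁) (τ * p₂) = ((τ : ℝ) : ℂ) • Ad := (mul_deriv_eq_bC X d p₁ p₂ τ).symm
      have e1 : (trace (bC X d (τ * p₁) (τ * p₂) * logm (bY X d (τ * p₁) (τ * p₂) *
          (bY X d (τ * p₁) (τ * p₂))ᴴ))).re = τ * (trace (Ad * M)).re := by
        rw [hbC, smul_mul_assoc, trace_smul, smul_eq_mul, Complex.re_ofReal_mul]
        rfl
      have e2 : τ * (trace Ad).re = 2 * b := by
        have := trace_bC X d (τ * p₁) (τ * p₂)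
        rw [hbC, trace_smul, smul_eq_mul, Complex.re_ofReal_mul, hZ, hY, hd1] at this
        rw [this]
        ring
      rw [e1] at hst
      have hbne : b ≠ 0 := hbpos.ne'
      have e3 : τ * (((Q0 x (γ * b) ((1 - γ) * b) - b) / b) * (2 * τ * β)) =
          2 * (Q0 x (γ * b) ((1 - γ) * b) - b) := by
        have : τ * (2 * τ * β) = 2 * b := by rw [hb]; ring
        calc τ * (((Q0 x (γ * b) ((1 - γ) * b) - b) / b) * (2 * τ * β))
            = ((Q0 x (γ * b) ((1 - γ) * b) - b) / b) * (τ * (2 * τ * β)) := by ring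
          _ = 2 * (Q0 x (γ * b) ((1 - γ) * b) - b) := by
            rw [this]; field_simp
      have e4 : τ * (2 * τ * β * H) = 2 * b * H := by
        rw [hb]; ring
      have hpos : 0 ≤ τ * (-(trace (Ad * M)).re - (trace Ad).re -
          ((Q0 x (γ * b) ((1 - γ) * b) - b) / b) * (2 * τ * β) - 2 * τ * β * H) := by
        have : τ * (-(trace (Ad * M)).re - (trace Ad).re -
          ((Q0 x (γ * b) ((1 - γ) * b) - b) / b) * (2 * τ * β) - 2 * τ * β * H) =
            -(τ * (trace (Ad * M)).re) - τ * (trace Ad).re -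
              τ * (((Q0 x (γ * b) ((1 - γ) * b) - b) / b) * (2 * τ * β)) -
              τ * (2 * τ * β * H) := by ring
        rw [this, e2, e3, e4]
        have hsum : γ * b + (1 - γ) * b = b := by ring
        rw [hsum] at hst
        linarith
      exact nonneg_of_mul_nonneg_right hpos hτ0 |> fun h => h
    · -- value at the point
      have : ent (pathA X d p₁ p₂ τ) = -(trace (pathA X d p₁ p₂ τ * M)).re :=
        ent_eq_neg_trace_mul_logm hPD.isHermitian
      simp only [hL]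
      rw [this]
      ring
    · -- Klein
      intro τ' _
      have := ent_le_cross (pathA_posSemidef X d p₁ p₂ τ') hPD
      simp only [hL]
      linarith
  -- evaluate the endpoints
  have h0 : L 0 = ent (X * Xᴴ) - negMulLog x := by
    have hA0 : pathA X d p₁ p₂ 0 = fromBlocks (X * Xᴴ) 0 0 (0 : Matrix ι ι ℂ) := by
      rw [pathA, bY_conjTranspose, bY, bY]
      simp [fromBlocks_multiply]
    simp only [hL]
    rw [hA0, ent_fromBlocks_diag (isHermitian_mul_conjTranspose_self X) isHermitian_zero, ent_zero]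
    have : (0 : ℝ) ^ 2 * β = 0 := by ring
    rw [this, scal_zero γ hx.le]
    ring
  have h1 : L 1 = ent (bY X d p₁ p₂ * (bY X d p₁ p₂)ᴴ) - scal γ x β - β * H := by
    simp only [hL, pathA, one_mul, one_pow]
  rw [h0, h1] at hmono
  exact hmono

end Path

end

end Vale.Agent.Lib.P358
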