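import Mathlib

/-!
# Definitions for P358: amplitude damping channel, tensor powers, Holevo quantity

All statements of the P358 hand-ins are phrased with the definitions of this file.
-/

namespace Vale.Agent.Lib.P358

open Matrix Real Finset
open scoped ComplexOrder

noncomputable section

/-- Unnormalised von Neumann entropy in nats: sum of `negMulLog` over the eigenvalues of a
Hermitian matrix (and `0` for a non-Hermitian matrix, a case that never occurs for states). -/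
def ent {n : Type*} [Fintype n] [DecidableEq n] (A : Matrix n n ℂ) : ℝ :=
  if h : A.IsHermitian then ∑ i, negMulLog (h.eigenvalues i) else 0

/-- Von Neumann entropy in bits. -/
def vnEntropy {n : Type*} [Fintype n] [DecidableEq n] (A : Matrix n n ℂ) : ℝ :=
  ent A / Real.log 2

/-- Binary entropy in nats. -/
def h2 (t : ℝ) : ℝ := negMulLog t + negMulLog (1 - t)

/-- Kraus operators of the amplitude damping channel `A_{γ,0}`:
`K₀ = diag(1, √(1-γ))`, `K₁ = √γ |0⟩⟨1|`. -/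
def krausAD (γ : ℝ) : Fin 2 → Matrix (Fin 2) (Fin 2) ℂ :=
  ![!![1, 0; 0, ((Real.sqrt (1 - γ) : ℝ) : ℂ)], !![0, ((Real.sqrt γ : ℝ) : ℂ); 0, 0]]

/-- Kraus operators of the `n`-fold tensor power: `K_e = ⊗ᵢ K_{e i}`. -/
def krausPow (γ : ℝ) (n : ℕ) (e : Fin n → Fin 2) :
    Matrix (Fin n → Fin 2) (Fin n → Fin 2) ℂ :=
  Matrix.of fun z w => ∏ i, krausAD γ (e i) (z i) (w i)

/-- The `n`-fold tensor power of the amplitude damping channel. -/
def adPow (γ : ℝ) (n : ℕ) (ρ : Matrix (Fin n → Fin 2) (Fin n → Fin 2) ℂ) :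
    Matrix (Fin n → Fin 2) (Fin n → Fin 2) ℂ :=
  ∑ e, krausPow γ n e * ρ * (krausPow γ n e)ᴴ

/-- Density matrices. -/
def IsDensity {n : Type*} [Fintype n] (ρ : Matrix n n ℂ) : Prop :=
  ρ.PosSemidef ∧ trace ρ = 1

/-- Holevo quantity of the ensemble `(q, ρ)` for `A_{γ,0}^{⊗n}`, in bits. -/
def holevoQuantity (γ : ℝ) (n m : ℕ) (q : Fin m → ℝ)
    (ρ : Fin m → Matrix (Fin n → Fin 2) (Fin n → Fin 2) ℂ) : ℝ :=
  vnEntropy (adPow γ n (∑ a, ((q a : ℝ) : ℂ) • ρ a)) - ∑ a, q a * vnEntropy (adPow γ n (ρ a))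

/-- The set of all Holevo quantities of finite ensembles for `A_{γ,0}^{⊗n}`. -/
def holevoSet (γ : ℝ) (n : ℕ) : Set ℝ :=
  {χ | ∃ (m : ℕ) (q : Fin m → ℝ) (ρ : Fin m → Matrix (Fin n → Fin 2) (Fin n → Fin 2) ℂ),
      (∀ a, 0 ≤ q a) ∧ ∑ a, q a = 1 ∧ (∀ a, IsDensity (ρ a)) ∧ χ = holevoQuantity γ n m q ρ}

/-- Holevo capacity of `A_{γ,0}^{⊗n}`. -/
def chiPow (γ : ℝ) (n : ℕ) : ℝ := sSup (holevoSet γ n)

end

end Vale.Agent.Lib.P358
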