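import Vale.Agent.Lib.P358.Defs

/-!
# Unnormalised von Neumann entropy of Hermitian matrices: basic facts (P358 library)

`ent A = ∑ i, negMulLog (λ_i A)` for Hermitian `A` (and `0` otherwise).

Tools: `Matrix.IsHermitian.charpoly_eq`, `Matrix.IsHermitian.roots_charpoly_eq_eigenvalues`,
`Matrix.IsHermitian.spectral_theorem`, `Matrix.IsHermitian.eigenvectorUnitary`,
`Matrix.charpoly_mul_comm`, `Matrix.charpoly_reindex`, `Matrix.IsHermitian.trace_eq_sum_eigenvalues`,
`Real.negMulLog_mul`.
-/

namespace Vale.Agent.Lib.P358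

open Matrix Real Finset
open scoped ComplexOrder

noncomputable section

variable {n m : Type*} [Fintype n] [DecidableEq n] [Fintype m] [DecidableEq m]

theorem ent_eq {A : Matrix n n ℂ} (h : A.IsHermitian) :
    ent A = ∑ i, negMulLog (h.eigenvalues i) := by
  simp [ent, h]

/-- Matrix logarithm through the spectral decomposition. -/
def logm (B : Matrix n n ℂ) : Matrix n n ℂ :=
  if h : B.IsHermitian then
    (h.eigenvectorUnitary : Matrix n n ℂ) * diagonal (fun i => ((Real.log (h.eigenvalues i) : ℝ) : ℂ)) *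
      (h.eigenvectorUnitary : Matrix n n ℂ)ᴴ
  else 0

/-- If a Hermitian matrix has characteristic polynomial `∏ (X - μ_i)`, its entropy is `∑ η(μ_i)`
(compare root multisets of the characteristic polynomial). -/
theorem ent_of_charpoly {A : Matrix n n ℂ} (h : A.IsHermitian) (μ : n → ℝ)
    (hc : A.charpoly = ∏ i, (Polynomial.X - Polynomial.C ((μ i : ℝ) : ℂ))) :
    ent A = ∑ i, negMulLog (μ i) := by
  have h1 : Multiset.map (fun i => ((h.eigenvalues i : ℝ) : ℂ)) Finset.univ.val =
      Multiset.map (fun i => ((μ i : ℝ) : ℂ)) Finset.univ.val := by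
    have ha := congrArg Polynomial.roots h.charpoly_eq
    rw [hc, Polynomial.roots_prod _ _ (by simp [Finset.prod_ne_zero_iff, Polynomial.X_sub_C_ne_zero]),
      Polynomial.roots_prod _ _ (by simp [Finset.prod_ne_zero_iff, Polynomial.X_sub_C_ne_zero])] at ha
    simpa using ha.symm
  have h2 := congrArg (Multiset.map Complex.re) h1
  simp only [Multiset.map_map, Function.comp_def, Complex.ofReal_re] at h2
  have h3 := congrArg (Multiset.map negMulLog) h2
  simp only [Multiset.map_map, Function.comp_def] at h3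
  have h4 := congrArg Multiset.sum h3
  rw [ent_eq h]
  exact h4

/-- Entropy of `V diag(μ) V*`. -/
theorem ent_unitary_diag (V : Matrix n n ℂ) (hV : V ∈ unitaryGroup n ℂ) (μ : n → ℝ) :
    ent (V * diagonal (fun i => ((μ i : ℝ) : ℂ)) * Vᴴ) = ∑ i, negMulLog (μ i) := by
  have hVV : Vᴴ * V = 1 := by
    have := (mem_unitaryGroup_iff'.mp hV)
    simpa [star_eq_conjTranspose] using this
  have hH : (V * diagonal (fun i => ((μ i : ℝ) : ℂ)) * Vᴴ).IsHermitian := by
    unfold Matrix.IsHermitian
    rw [conjTranspose_mul, conjTranspose_mul, conjTranspose_conjTranspose, diagonal_conjTranspose]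
    have : star (fun i => ((μ i : ℝ) : ℂ)) = (fun i => ((μ i : ℝ) : ℂ)) := by
      funext i; simp
    rw [this, Matrix.mul_assoc]
  refine ent_of_charpoly hH μ ?_
  rw [charpoly_mul_comm, ← Matrix.mul_assoc, hVV, Matrix.one_mul, charpoly_diagonal]

/-- Unitary invariance. -/
theorem ent_unitary_conj (V : Matrix n n ℂ) (hV : V ∈ unitaryGroup n ℂ) (A : Matrix n n ℂ)
    (hA : A.IsHermitian) : ent (V * A * Vᴴ) = ent A := by
  have hVV : Vᴴ * V = 1 := by
    have := (mem_unitaryGroup_iff'.mp hV)
    simpa [star_eq_conjTranspose] using this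
  have hH : (V * A * Vᴴ).IsHermitian := by
    unfold Matrix.IsHermitian
    rw [conjTranspose_mul, conjTranspose_mul, conjTranspose_conjTranspose, hA.eq, Matrix.mul_assoc]
  rw [ent_eq hA]
  refine ent_of_charpoly hH hA.eigenvalues ?_
  rw [charpoly_mul_comm, ← Matrix.mul_assoc, hVV, Matrix.one_mul, hA.charpoly_eq]
  rfl

/-- Reindexing invariance. -/
theorem ent_reindex (e : n ≃ m) (A : Matrix n n ℂ) :
    ent (Matrix.reindex e e A) = ent A := by
  by_cases hA : A.IsHermitian
  · have hH : (Matrix.reindex e e A).IsHermitian := by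
      unfold Matrix.IsHermitian at hA ⊢
      ext i j
      have := congrFun (congrFun hA (e.symm i)) (e.symm j)
      simpa [conjTranspose_apply, reindex_apply, submatrix_apply] using this
    have h1 : ent (Matrix.reindex e e A) = ∑ i : m, negMulLog (hA.eigenvalues (e.symm i)) := by
      refine ent_of_charpoly hH (fun i => hA.eigenvalues (e.symm i)) ?_
      rw [charpoly_reindex, hA.charpoly_eq]
      exact (Equiv.prod_comp e.symm (fun i => (Polynomial.X - Polynomial.C ((hA.eigenvalues i : ℝ) : ℂ)))).symm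
    rw [h1, ent_eq hA]
    exact Equiv.sum_comp e.symm (fun i => negMulLog (hA.eigenvalues i))
  · have hH : ¬ (Matrix.reindex e e A).IsHermitian := by
      intro h
      apply hA
      unfold Matrix.IsHermitian at h ⊢
      ext i j
      have := congrFun (congrFun h (e i)) (e j)
      simpa [conjTranspose_apply, reindex_apply, submatrix_apply] using this
    rw [ent, dif_neg hH, ent, dif_neg hA]

/-- `YY*` and `Y*Y` have the same entropy (square case). -/
theorem ent_mul_conjTranspose_comm (Y : Matrix n n ℂ) : ent (Y * Yᴴ) = ent (Yᴴ * Y) := by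
  have h1 : (Y * Yᴴ).IsHermitian := isHermitian_mul_conjTranspose_self Y
  have h2 : (Yᴴ * Y).IsHermitian := isHermitian_conjTranspose_mul_self Y
  rw [ent_eq h2]
  refine ent_of_charpoly h1 h2.eigenvalues ?_
  rw [charpoly_mul_comm, h2.charpoly_eq]
  rfl

/-- Scaling: `η(c μ) = c η(μ) + μ η(c)`. -/
theorem ent_smul {A : Matrix n n ℂ} (hA : A.IsHermitian) {c : ℝ} (hc : 0 ≤ c) :
    ent ((c : ℂ) • A) = c * ent A + negMulLog c * (trace A).re := by
  set V : Matrix n n ℂ := (hA.eigenvectorUnitary : Matrix n n ℂ) with hVdef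
  have hV : V ∈ unitaryGroup n ℂ := hA.eigenvectorUnitary.2
  have hspec : A = V * diagonal (fun i => ((hA.eigenvalues i : ℝ) : ℂ)) * Vᴴ := by
    conv_lhs => rw [hA.spectral_theorem]
    simp [Unitary.conjStarAlgAut_apply, star_eq_conjTranspose, hVdef, Function.comp_def]
  have h1 : (c : ℂ) • A = V * diagonal (fun i => (((c * hA.eigenvalues i : ℝ)) : ℂ)) * Vᴴ := by
    conv_lhs => rw [hspec]
    have hd : diagonal (fun i => (((c * hA.eigenvalues i : ℝ)) : ℂ))
        = (c : ℂ) • diagonal (fun i => ((hA.eigenvalues i : ℝ) : ℂ)) := by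
      ext i j
      by_cases hij : i = j
      · subst hij; simp
      · simp [diagonal, hij]
    rw [hd, Matrix.mul_smul, Matrix.smul_mul]
  have hre : (trace A).re = ∑ i, hA.eigenvalues i := by
    rw [hA.trace_eq_sum_eigenvalues]
    simp
  rw [h1, ent_unitary_diag V hV, ent_eq hA, hre, Finset.mul_sum, Finset.mul_sum,
    ← Finset.sum_add_distrib]
  refine Finset.sum_congr rfl fun i _ => ?_
  rw [Real.negMulLog_mul]
  ring

/-- Block-diagonal additivity. -/
theorem ent_fromBlocks_diag {P : Matrix n n ℂ} {Q : Matrix m m ℂ} (hP : P.IsHermitian)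
    (hQ : Q.IsHermitian) : ent (fromBlocks P 0 0 Q) = ent P + ent Q := by
  have hH : (fromBlocks P 0 0 Q).IsHermitian := by
    unfold Matrix.IsHermitian at hP hQ ⊢
    rw [fromBlocks_conjTranspose, hP, hQ]
    simp
  have h1 : ent (fromBlocks P 0 0 Q) =
      ∑ i : n ⊕ m, negMulLog (Sum.elim hP.eigenvalues hQ.eigenvalues i) := by
    refine ent_of_charpoly hH _ ?_
    rw [charpoly_fromBlocks_zero₁₂, hP.charpoly_eq, hQ.charpoly_eq, Fintype.prod_sum_type]
    simp
  rw [h1, Fintype.sum_sum_type, ent_eq hP, ent_eq hQ]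
  simp

theorem ent_zero : ent (0 : Matrix n n ℂ) = 0 := by
  have h := ent_unitary_diag (1 : Matrix n n ℂ) (one_mem _) (fun _ => 0)
  simpa using h

/-- Entropy of a positive definite matrix through its logarithm: `S(B) = -tr(B log B)`. -/
theorem ent_eq_neg_trace_mul_logm {B : Matrix n n ℂ} (hB : B.IsHermitian) :
    ent B = -(trace (B * logm B)).re := by
  set V : Matrix n n ℂ := (hB.eigenvectorUnitary : Matrix n n ℂ) with hVdef
  have hV : V ∈ unitaryGroup n ℂ := hB.eigenvectorUnitary.2
  have hVV : Vᴴ * V = 1 := by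
    have := (mem_unitaryGroup_iff'.mp hV)
    simpa [star_eq_conjTranspose] using this
  have hspec : B = V * diagonal (fun i => ((hB.eigenvalues i : ℝ) : ℂ)) * Vᴴ := by
    conv_lhs => rw [hB.spectral_theorem]
    simp [Unitary.conjStarAlgAut_apply, star_eq_conjTranspose, hVdef, Function.comp_def]
  have hlog : logm B = V * diagonal (fun i => ((Real.log (hB.eigenvalues i) : ℝ) : ℂ)) * Vᴴ := by
    simp [logm, hB, hVdef]
  have hmul : B * logm B =
      V * diagonal (fun i => (((hB.eigenvalues i * Real.log (hB.eigenvalues i) : ℝ)) : ℂ)) * Vᴴ := by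
    rw [hlog]
    calc B * (V * diagonal (fun i => ((Real.log (hB.eigenvalues i) : ℝ) : ℂ)) * Vᴴ)
        = V * diagonal (fun i => ((hB.eigenvalues i : ℝ) : ℂ)) * Vᴴ *
          (V * diagonal (fun i => ((Real.log (hB.eigenvalues i) : ℝ) : ℂ)) * Vᴴ) :=
            congrArg (· * (V * diagonal (fun i => ((Real.log (hB.eigenvalues i) : ℝ) : ℂ)) * Vᴴ)) hspec
      _ = V * diagonal (fun i => ((hB.eigenvalues i : ℝ) : ℂ)) * (Vᴴ * V) *
          diagonal (fun i => ((Real.log (hB.eigenvalues i) : ℝ) : ℂ)) * Vᴴ := by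
            simp only [Matrix.mul_assoc]
      _ = V * (diagonal (fun i => ((hB.eigenvalues i : ℝ) : ℂ)) *
          diagonal (fun i => ((Real.log (hB.eigenvalues i) : ℝ) : ℂ))) * Vᴴ := by
            rw [hVV]; simp only [Matrix.mul_assoc, Matrix.mul_one]
      _ = _ := by
            rw [diagonal_mul_diagonal]
            simp only [Complex.ofReal_mul]
  rw [hmul, trace_mul_comm, ← Matrix.mul_assoc, hVV, Matrix.one_mul, trace_diagonal, ent_eq hB]
  simp only [Complex.re_sum, Complex.ofReal_re]
  rw [← Finset.sum_neg_distrib]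
  refine Finset.sum_congr rfl fun i _ => ?_
  simp [Real.negMulLog]

end

end Vale.Agent.Lib.P358
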