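import Vale.Agent.Lib.P358.EntBasic

/-!
# Integral representation of the matrix logarithm (P358 library)

Paper proof: `B = V diag(μ) V*` with `μ > 0`; with `C' = V* C V` we get
`tr(C (B+s)⁻¹) = ∑_j C'_jj / (μ_j + s)`, `tr(C log B) = ∑_j C'_jj log μ_j`, `tr C = ∑_j C'_jj`,
and the scalar fact `∫₀^∞ (1/(μ+s) - 1/(1+s)) ds = - log μ` (antiderivative `log((μ+s)/(1+s))`,
`MeasureTheory.integral_Ioi_of_hasDerivAt_of_tendsto`; integrable since the integrand is
`(1-μ)/((μ+s)(1+s))`, which is `O(1/s²)`).
-/

namespace Vale.Agent.Lib.P358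

open Matrix Real Finset
open scoped ComplexOrder

noncomputable section

variable {n : Type*} [Fintype n] [DecidableEq n]

open MeasureTheory Filter Topology Set in
private theorem scalar_hasDerivAt {μ : ℝ} (hμ : 0 < μ) {s : ℝ} (hs : 0 < s) :
    HasDerivAt (fun x : ℝ => Real.log (μ + x) - Real.log (1 + x))
      (1 / (μ + s) - 1 / (1 + s)) s := by
  have h1 : HasDerivAt (fun x : ℝ => Real.log (μ + x)) (1 / (μ + s)) s := by
    have := ((hasDerivAt_id s).const_add μ).log (by simp; positivity)
    simpa using this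
  have h2 : HasDerivAt (fun x : ℝ => Real.log (1 + x)) (1 / (1 + s)) s := by
    have := ((hasDerivAt_id s).const_add (1 : ℝ)).log (by simp; positivity)
    simpa using this
  exact h1.sub h2

open MeasureTheory Filter Topology Set in
private theorem scalar_tendsto {μ : ℝ} (hμ : 0 < μ) :
    Tendsto (fun x : ℝ => Real.log (μ + x) - Real.log (1 + x)) atTop (𝓝 0) := by
  have key : Tendsto (fun x : ℝ => (μ + x) / (1 + x)) atTop (𝓝 1) := by
    have h1 : Tendsto (fun x : ℝ => 1 + (μ - 1) / (1 + x)) atTop (𝓝 (1 + 0)) := by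
      apply Tendsto.const_add
      apply Tendsto.div_atTop tendsto_const_nhds
      exact tendsto_atTop_add_const_left _ _ tendsto_id
    simp only [add_zero] at h1
    refine h1.congr' ?_
    filter_upwards [eventually_gt_atTop (0 : ℝ)] with x hx
    have : (1 + x) ≠ 0 := by positivity
    field_simp
    ring
  have h2 : Tendsto (fun x : ℝ => Real.log ((μ + x) / (1 + x))) atTop (𝓝 (Real.log 1)) :=
    (Real.continuousAt_log one_ne_zero).tendsto.comp key
  rw [Real.log_one] at h2
  refine h2.congr' ?_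
  filter_upwards [eventually_gt_atTop (0 : ℝ)] with x hx
  rw [Real.log_div (by positivity) (by positivity)]

open MeasureTheory Filter Topology Set in
private theorem scalar_contWithin {μ : ℝ} (hμ : 0 < μ) :
    ContinuousWithinAt (fun x : ℝ => Real.log (μ + x) - Real.log (1 + x)) (Ici 0) 0 := by
  apply ContinuousAt.continuousWithinAt
  apply ContinuousAt.sub
  · apply ContinuousAt.log (by fun_prop) (by simp; positivity)
  · apply ContinuousAt.log (by fun_prop) (by simp)

open MeasureTheory Filter Topology Set in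
private theorem scalar_integrableOn {μ : ℝ} (hμ : 0 < μ) :
    IntegrableOn (fun s : ℝ => 1 / (μ + s) - 1 / (1 + s)) (Ioi 0) := by
  rcases le_total μ 1 with h | h
  · refine integrableOn_Ioi_deriv_of_nonneg (scalar_contWithin hμ)
      (fun s hs => scalar_hasDerivAt hμ hs) ?_ (scalar_tendsto hμ)
    intro s hs
    have hs' : 0 < s := hs
    have : 1 / (1 + s) ≤ 1 / (μ + s) := one_div_le_one_div_of_le (by positivity) (by linarith)
    linarith
  · refine integrableOn_Ioi_deriv_of_nonpos (scalar_contWithin hμ)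
      (fun s hs => scalar_hasDerivAt hμ hs) ?_ (scalar_tendsto hμ)
    intro s hs
    have hs' : 0 < s := hs
    have : 1 / (μ + s) ≤ 1 / (1 + s) := one_div_le_one_div_of_le (by positivity) (by linarith)
    linarith

open MeasureTheory Filter Topology Set in
private theorem scalar_integral {μ : ℝ} (hμ : 0 < μ) :
    ∫ s in Ioi (0 : ℝ), (1 / (μ + s) - 1 / (1 + s)) = - Real.log μ := by
  have := integral_Ioi_of_hasDerivAt_of_tendsto (scalar_contWithin hμ)
      (fun s hs => scalar_hasDerivAt hμ hs) (scalar_integrableOn hμ) (scalar_tendsto hμ)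
  rw [this]
  simp

/-- Diagonalized resolvent. -/
private theorem resolvent_eq {B : Matrix n n ℂ} (h : B.IsHermitian) {s : ℝ}
    (hs : ∀ j, h.eigenvalues j + s ≠ 0) :
    (B + (s : ℂ) • (1 : Matrix n n ℂ))⁻¹ =
      (h.eigenvectorUnitary : Matrix n n ℂ) *
        diagonal (fun j => ((1 / (h.eigenvalues j + s) : ℝ) : ℂ)) *
        (h.eigenvectorUnitary : Matrix n n ℂ)ᴴ := by
  set V : Matrix n n ℂ := (h.eigenvectorUnitary : Matrix n n ℂ) with hV
  have hVV : Vᴴ * V = 1 := by
    have := h.eigenvectorUnitary.2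
    exact (Matrix.mem_unitaryGroup_iff'.mp this)
  have hVV' : V * Vᴴ = 1 := by
    have := h.eigenvectorUnitary.2
    exact (Matrix.mem_unitaryGroup_iff.mp this)
  have hB : B = V * diagonal (fun j => ((h.eigenvalues j : ℝ) : ℂ)) * Vᴴ := by
    have := h.spectral_theorem
    simpa [Unitary.conjStarAlgAut_apply, Function.comp_def, star_eq_conjTranspose] using this
  have hsum : B + (s : ℂ) • (1 : Matrix n n ℂ) =
      V * diagonal (fun j => ((h.eigenvalues j + s : ℝ) : ℂ)) * Vᴴ := by
    have hd : diagonal (fun j => ((h.eigenvalues j + s : ℝ) : ℂ)) =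
        diagonal (fun j => ((h.eigenvalues j : ℝ) : ℂ)) + (s : ℂ) • (1 : Matrix n n ℂ) := by
      ext i j
      by_cases hij : i = j
      · subst hij; simp
      · simp [hij]
    rw [hd, Matrix.mul_add, Matrix.add_mul, ← hB, Matrix.mul_smul, Matrix.smul_mul, Matrix.mul_one,
      hVV']
  apply Matrix.inv_eq_right_inv
  rw [hsum]
  calc V * diagonal (fun j => ((h.eigenvalues j + s : ℝ) : ℂ)) * Vᴴ *
        (V * diagonal (fun j => ((1 / (h.eigenvalues j + s) : ℝ) : ℂ)) * Vᴴ)
      = V * (diagonal (fun j => ((h.eigenvalues j + s : ℝ) : ℂ)) * (Vᴴ * V) *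
          diagonal (fun j => ((1 / (h.eigenvalues j + s) : ℝ) : ℂ))) * Vᴴ := by
        simp only [Matrix.mul_assoc]
    _ = V * 1 * Vᴴ := by
        rw [hVV, Matrix.mul_one, Matrix.diagonal_mul_diagonal]
        congr 2
        rw [← Matrix.diagonal_one]
        congr 1
        funext j
        have hj := hs j
        have hc : ((h.eigenvalues j + s : ℝ) : ℂ) ≠ 0 := by exact_mod_cast hj
        push_cast
        push_cast at hc
        field_simp
    _ = 1 := by rw [Matrix.mul_one, hVV']

/-- Trace against `V D V*` with diagonal `D`. -/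
private theorem trace_mul_conj_diag (C V : Matrix n n ℂ) (d : n → ℂ) :
    trace (C * (V * diagonal d * Vᴴ)) = ∑ j, (Vᴴ * C * V) j j * d j := by
  have : C * (V * diagonal d * Vᴴ) = (C * V * diagonal d) * Vᴴ := by
    simp only [Matrix.mul_assoc]
  rw [this, Matrix.trace_mul_comm]
  have h2 : Vᴴ * (C * V * diagonal d) = (Vᴴ * C * V) * diagonal d := by
    simp only [Matrix.mul_assoc]
  rw [h2]
  simp only [Matrix.trace, Matrix.diag_apply, Matrix.mul_diagonal]

private theorem trace_eq_sum_conj (C : Matrix n n ℂ) {V : Matrix n n ℂ} (hVV' : V * Vᴴ = 1) :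
    trace C = ∑ j, (Vᴴ * C * V) j j := by
  have : trace (Vᴴ * C * V) = trace C := by
    rw [Matrix.trace_mul_comm, ← Matrix.mul_assoc, hVV', Matrix.one_mul]
  rw [← this]
  rfl

open MeasureTheory in
/-- Integral representation of the logarithm of a positive definite matrix tested against `C`:
`-re tr(C log B) = ∫₀^∞ (re tr(C (B+s)⁻¹) - re tr C /(1+s)) ds`, with integrability. -/
theorem neg_trace_mul_logm_eq_integral {B : Matrix n n ℂ} (hB : B.PosDef) (C : Matrix n n ℂ) :
    MeasureTheory.IntegrableOn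
      (fun s : ℝ => (trace (C * (B + (s : ℂ) • (1 : Matrix n n ℂ))⁻¹)).re - (trace C).re / (1 + s))
      (Set.Ioi 0) ∧
    -(trace (C * logm B)).re =
      ∫ s in Set.Ioi (0 : ℝ),
        ((trace (C * (B + (s : ℂ) • (1 : Matrix n n ℂ))⁻¹)).re - (trace C).re / (1 + s)) := by
  have h : B.IsHermitian := hB.isHermitian
  set V : Matrix n n ℂ := (h.eigenvectorUnitary : Matrix n n ℂ) with hV
  have hVV' : V * Vᴴ = 1 := by
    have := h.eigenvectorUnitary.2
    exact (Matrix.mem_unitaryGroup_iff.mp this)
  set μ : n → ℝ := h.eigenvalues with hμ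
  have hμpos : ∀ j, 0 < μ j := hB.eigenvalues_pos
  set c : n → ℝ := fun j => ((Vᴴ * C * V) j j).re with hc
  -- the integrand in diagonal form
  have hform : ∀ s : ℝ, s ∈ Set.Ioi (0 : ℝ) →
      (trace (C * (B + (s : ℂ) • (1 : Matrix n n ℂ))⁻¹)).re - (trace C).re / (1 + s) =
        ∑ j, c j * (1 / (μ j + s) - 1 / (1 + s)) := by
    intro s hs
    have hs' : 0 < s := hs
    have hne : ∀ j, h.eigenvalues j + s ≠ 0 := fun j => (add_pos (hμpos j) hs').ne'
    rw [resolvent_eq h hne, trace_mul_conj_diag, trace_eq_sum_conj C hVV', Complex.re_sum,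
      Complex.re_sum, Finset.sum_div, ← Finset.sum_sub_distrib]
    refine Finset.sum_congr rfl fun j _ => ?_
    rw [Complex.re_mul_ofReal]
    simp only [hc, hμ]
    ring
  have hintegr : IntegrableOn (fun s : ℝ => ∑ j, c j * (1 / (μ j + s) - 1 / (1 + s))) (Set.Ioi 0) := by
    have : (fun s : ℝ => ∑ j, c j * (1 / (μ j + s) - 1 / (1 + s))) =
        ∑ j, (fun s : ℝ => c j * (1 / (μ j + s) - 1 / (1 + s))) := by
      funext s; simp
    rw [this]
    exact integrable_finsetSum' _ fun j _ => (scalar_integrableOn (hμpos j)).const_mul (c j)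
  have hval : -(trace (C * logm B)).re = ∑ j, -(c j * Real.log (μ j)) := by
    have hl : logm B = V * diagonal (fun j => ((Real.log (μ j) : ℝ) : ℂ)) * Vᴴ := by
      simp [logm, h, hV, hμ]
    rw [hl, trace_mul_conj_diag, Complex.re_sum, ← Finset.sum_neg_distrib]
    refine Finset.sum_congr rfl fun j _ => ?_
    rw [Complex.re_mul_ofReal]
  constructor
  · exact hintegr.congr_fun (fun s hs => (hform s hs).symm) measurableSet_Ioi
  · rw [setIntegral_congr_fun measurableSet_Ioi hform, hval]
    have : ∫ s in Set.Ioi (0 : ℝ), ∑ j, c j * (1 / (μ j + s) - 1 / (1 + s)) =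
        ∑ j, ∫ s in Set.Ioi (0 : ℝ), c j * (1 / (μ j + s) - 1 / (1 + s)) := by
      rw [integral_finsetSum]
      exact fun j _ => (scalar_integrableOn (hμpos j)).const_mul (c j)
    rw [this]
    refine Finset.sum_congr rfl fun j _ => ?_
    rw [integral_const_mul, scalar_integral (hμpos j)]
    ring

end

end Vale.Agent.Lib.P358
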