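import Vale.Agent.Lib.P358.GAnaScale

/-!
# The cross kernel (P358 library): JOB G2

Claim: `∫₀^∞ F(a,s) H(c,s) ds ≤ κ₀/a + κ₁/c` with `κ₀, κ₁ ≥ 0`, `κ₀ + κ₁ = J`.

Paper proof.  Write `D(t) = gDen x y u v 1 t`.

*Case `u ≤ v`.* For `r, t > 0` we have the pointwise tangent bound
`F(r,t) ≤ k₀(t)/r + k₁(t)`, where
`k₁(t) = t ((t+v)² + y (v-u)) / D(t)²  ≥ 0`,
`k₀(t) = F(1,t) - k₁(t) = ((u+x)(t+v)² + y (t² + 2 u t + u v)) / D(t)²  ≥ 0`.
Indeed `r ↦ r F(r,t) = N(r)/E(r)`, `N(r) = t r + v r²`, `E(r) = Den(r,t) = t² + P t r + D r²`, and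
`N(r)/E(r) - k₀ - r k₁ = (r-1)² (α r + δ) / (E(r) D(t)²)` with
`α = -D t ((t+v)²+y(v-u)) ≤ 0`, `δ = t² ((v-P) t² - 2 D t - v D) ≤ 0`
(`v - P = -(u+x+y) < 0`), where `D = gD x y u v`; verify by `field_simp; ring`.

Substituting `s = c t`: `Den(a, c t) = c² Den(a/c, t)`, so `F(a, c t) = F(a/c, t)/c`,
`H(c, c t) = H(1, t)/c`, hence
`∫ F(a,s) H(c,s) ds = (1/c) ∫ F(a/c,t) H(1,t) dt ≤ (1/c) ∫ (k₀(t) c/a + k₁(t)) H(1,t) dt
 = κ₀/a + κ₁/c`, with `κᵢ = ∫ kᵢ(t) H(1,t) dt`; `H(1,t) > 0`; `k₀ + k₁ = F(1,·)`, so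
`κ₀ + κ₁ = J`.  Integrability: `k₁(t) = O(1/(1+t))`, `k₀(t) = O(1/(1+t)²)`, `H(1,t) = O(1/(1+t))`.

*Case `v < u`.* Apply the first case to the swapped parameters `(y,x,v,u)` and exchange `a, c`:
`gH y x v u = gF x y u v` (`gDen_swap`) and `gF y x v u = gH x y u v` by definition; `gJ` is symmetric.
-/
namespace Vale.Agent.Lib.P358

open Real MeasureTheory Set

noncomputable section

variable {x y u v : ℝ}

/-- The slope part of the tangent bound. -/
def gK1 (x y u v t : ℝ) : ℝ := t * ((t + v) ^ 2 + y * (v - u)) / gDen x y u v 1 t ^ 2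

/-- The value part of the tangent bound. -/
def gK0 (x y u v t : ℝ) : ℝ :=
  ((u + x) * (t + v) ^ 2 + y * (t ^ 2 + 2 * u * t + u * v)) / gDen x y u v 1 t ^ 2

private lemma gK0_add_gK1 (hx : 0 < x) (hy : 0 < y) (hu : 0 < u) (hv : 0 < v) {t : ℝ} (ht : 0 < t) :
    gK0 x y u v t + gK1 x y u v t = gF x y u v 1 t := by
  have hD := gDen_pos hx hy hu hv one_pos ht.le
  have hD' := hD.ne'
  unfold gK0 gK1 gF
  field_simp
  unfold gDen gP gD
  ring

private lemma gK0_nonneg (hx : 0 < x) (hy : 0 < y) (hu : 0 < u) (hv : 0 < v) {t : ℝ} (ht : 0 < t) :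
    0 ≤ gK0 x y u v t := by
  unfold gK0
  positivity

private lemma gK1_nonneg (hy : 0 < y) (hv : 0 < v) (huv : u ≤ v) {t : ℝ} (ht : 0 < t) :
    0 ≤ gK1 x y u v t := by
  unfold gK1
  have : 0 ≤ v - u := sub_nonneg.mpr huv
  positivity

/-- The pointwise tangent bound. -/
private lemma gF_tangent (hx : 0 < x) (hy : 0 < y) (hu : 0 < u) (hv : 0 < v) (huv : u ≤ v) {r t : ℝ}
    (hr : 0 < r) (ht : 0 < t) :
    gF x y u v r t ≤ gK0 x y u v t / r + gK1 x y u v t := by
  have hD := gDen_pos hx hy hu hv one_pos ht.le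
  have hE := gDen_pos hx hy hu hv hr ht.le
  have hDD : 0 < gD x y u v := by unfold gD; positivity
  have hP : 0 ≤ gP x y u v - v := by unfold gP; linarith
  have hvu : 0 ≤ v - u := sub_nonneg.mpr huv
  have key : gK0 x y u v t / r + gK1 x y u v t - gF x y u v r t =
      (r - 1) ^ 2 * (gD x y u v * t * ((t + v) ^ 2 + y * (v - u)) * r +
        t ^ 2 * ((gP x y u v - v) * t ^ 2 + 2 * gD x y u v * t + v * gD x y u v)) /
      (r * gDen x y u v r t * gDen x y u v 1 t ^ 2) := by
    have hD' := hD.ne'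
    have hE' := hE.ne'
    unfold gK0 gK1 gF
    field_simp
    unfold gDen gP gD
    ring
  have h0 : 0 ≤ gK0 x y u v t / r + gK1 x y u v t - gF x y u v r t := by
    rw [key]
    positivity
  linarith

private lemma gF_scale (hx : 0 < x) (hy : 0 < y) (hu : 0 < u) (hv : 0 < v) {a c t : ℝ} (ha : 0 < a)
    (hc : 0 < c) (ht : 0 < t) : gF x y u v a (c * t) = gF x y u v (a / c) t / c := by
  have h1 : gDen x y u v a (c * t) = c ^ 2 * gDen x y u v (a / c) t := by
    unfold gDen
    field_simp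
  have hD := gDen_pos hx hy hu hv (div_pos ha hc) ht.le
  unfold gF
  rw [h1]
  have hD' := hD.ne'
  field_simp

private lemma measurable_gF (x y u v a : ℝ) : Measurable (gF x y u v a) := by
  unfold gF gDen
  fun_prop

private lemma gH_eq (x y u v c s : ℝ) : gH x y u v c s = gF y x v u c s := rfl

private lemma cross_case (hx : 0 < x) (hy : 0 < y) (hu : 0 < u) (hv : 0 < v) (huv : u ≤ v) :
    ∃ κ₀ κ₁ : ℝ, 0 ≤ κ₀ ∧ 0 ≤ κ₁ ∧ κ₀ + κ₁ = gJ x y u v ∧
      ∀ a c : ℝ, 0 < a → 0 < c →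
        ∫ s in Ioi (0 : ℝ), gF x y u v a s * gH x y u v c s ≤ κ₀ / a + κ₁ / c := by
  set H : ℝ → ℝ := fun t => gH x y u v 1 t with hH
  have hHpos : ∀ t, 0 < t → 0 < H t := fun t ht => gF_pos hy hx hv hu one_pos ht.le
  have hFH : IntegrableOn (fun t => gF x y u v 1 t * H t) (Ioi 0) :=
    gCross_integrable hx hy hu hv one_pos one_pos
  have hmeasD : Measurable (gDen x y u v 1) := by
    unfold gDen
    fun_prop
  have hmeasH : Measurable H := measurable_gF y x v u 1
  have hm0 : Measurable (fun t => gK0 x y u v t * H t) := by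
    unfold gK0
    exact (Measurable.div (by fun_prop) (hmeasD.pow_const 2)).mul hmeasH
  have hm1 : Measurable (fun t => gK1 x y u v t * H t) := by
    unfold gK1
    exact (Measurable.div (by fun_prop) (hmeasD.pow_const 2)).mul hmeasH
  have hI0 : IntegrableOn (fun t => gK0 x y u v t * H t) (Ioi 0) := by
    refine Integrable.mono' hFH hm0.aestronglyMeasurable ?_
    refine (ae_restrict_iff' measurableSet_Ioi).mpr (Filter.Eventually.of_forall fun t ht => ?_)
    have ht0 : (0 : ℝ) < t := ht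
    have h0 := gK0_nonneg (x := x) hx hy hu hv ht0
    have h1 := gK1_nonneg (x := x) hy hv huv ht0
    have h2 := hHpos t ht0
    rw [Real.norm_of_nonneg (mul_nonneg h0 h2.le), ← gK0_add_gK1 hx hy hu hv ht0]
    exact mul_le_mul_of_nonneg_right (by linarith) h2.le
  have hI1 : IntegrableOn (fun t => gK1 x y u v t * H t) (Ioi 0) := by
    refine Integrable.mono' hFH hm1.aestronglyMeasurable ?_
    refine (ae_restrict_iff' measurableSet_Ioi).mpr (Filter.Eventually.of_forall fun t ht => ?_)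
    have ht0 : (0 : ℝ) < t := ht
    have h0 := gK0_nonneg (x := x) hx hy hu hv ht0
    have h1 := gK1_nonneg (x := x) hy hv huv ht0
    have h2 := hHpos t ht0
    rw [Real.norm_of_nonneg (mul_nonneg h1 h2.le), ← gK0_add_gK1 hx hy hu hv ht0]
    exact mul_le_mul_of_nonneg_right (by linarith) h2.le
  refine ⟨∫ t in Ioi (0 : ℝ), gK0 x y u v t * H t, ∫ t in Ioi (0 : ℝ), gK1 x y u v t * H t,
    ?_, ?_, ?_, ?_⟩
  · refine setIntegral_nonneg measurableSet_Ioi fun t ht => ?_
    exact mul_nonneg (gK0_nonneg hx hy hu hv ht) (hHpos t ht).le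
  · refine setIntegral_nonneg measurableSet_Ioi fun t ht => ?_
    exact mul_nonneg (gK1_nonneg hy hv huv ht) (hHpos t ht).le
  · rw [← integral_add hI0 hI1]
    unfold gJ
    refine setIntegral_congr_fun measurableSet_Ioi fun t ht => ?_
    have ht0 : (0 : ℝ) < t := ht
    simp only [hH]
    rw [← add_mul, gK0_add_gK1 hx hy hu hv ht0]
  · intro a c ha hc
    -- the substitution `s = c t`
    have hsub : ∫ s in Ioi (0 : ℝ), gF x y u v a s * gH x y u v c s =
        c * ∫ t in Ioi (0 : ℝ), gF x y u v a (c * t) * gH x y u v c (c * t) := by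
      have := integral_comp_mul_left_Ioi (fun s => gF x y u v a s * gH x y u v c s) (0 : ℝ) hc
      simp only [mul_zero] at this
      rw [this, smul_eq_mul]
      field_simp
    have hscaled : ∫ t in Ioi (0 : ℝ), gF x y u v a (c * t) * gH x y u v c (c * t) =
        (∫ t in Ioi (0 : ℝ), gF x y u v (a / c) t * H t) / c ^ 2 := by
      rw [← integral_div]
      refine setIntegral_congr_fun measurableSet_Ioi fun t ht => ?_
      have ht0 : (0 : ℝ) < t := ht
      simp only [hH, gH_eq]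
      rw [gF_scale hx hy hu hv ha hc ht0, gF_scale hy hx hv hu hc hc ht0, div_self hc.ne']
      field_simp
    have hbound : ∫ t in Ioi (0 : ℝ), gF x y u v (a / c) t * H t ≤
        ∫ t in Ioi (0 : ℝ), ((c / a) * (gK0 x y u v t * H t) + gK1 x y u v t * H t) := by
      refine setIntegral_mono_on (gCross_integrable hx hy hu hv (div_pos ha hc) one_pos)
        ((hI0.const_mul _).add hI1) measurableSet_Ioi fun t ht => ?_
      have ht0 : (0 : ℝ) < t := ht
      have := gF_tangent hx hy hu hv huv (div_pos ha hc) ht0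
      have h2 := hHpos t ht0
      have h3 : gK0 x y u v t / (a / c) = (c / a) * gK0 x y u v t := by
        field_simp
      rw [h3] at this
      calc gF x y u v (a / c) t * H t ≤ ((c / a) * gK0 x y u v t + gK1 x y u v t) * H t :=
            mul_le_mul_of_nonneg_right this h2.le
        _ = _ := by ring
    rw [integral_add (hI0.const_mul _) hI1, integral_const_mul] at hbound
    rw [hsub, hscaled]
    have hc2 : c * ((∫ t in Ioi (0 : ℝ), gF x y u v (a / c) t * H t) / c ^ 2) =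
        (∫ t in Ioi (0 : ℝ), gF x y u v (a / c) t * H t) / c := by
      field_simp
    rw [hc2, div_le_iff₀ hc]
    refine le_trans hbound (le_of_eq ?_)
    field_simp

/-- The cross kernel bound. -/
theorem gCross_bound (hx : 0 < x) (hy : 0 < y) (hu : 0 < u) (hv : 0 < v) :
    ∃ κ₀ κ₁ : ℝ, 0 ≤ κ₀ ∧ 0 ≤ κ₁ ∧ κ₀ + κ₁ = gJ x y u v ∧
      ∀ a c : ℝ, 0 < a → 0 < c →
        ∫ s in Ioi (0 : ℝ), gF x y u v a s * gH x y u v c s ≤ κ₀ / a + κ₁ / c := by
  rcases le_total u v with huv | hvu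
  · exact cross_case hx hy hu hv huv
  · obtain ⟨κ₀, κ₁, h0, h1, hs, hb⟩ := cross_case hy hx hv hu hvu
    refine ⟨κ₁, κ₀, h1, h0, ?_, ?_⟩
    · have hJ : gJ y x v u = gJ x y u v := by
        unfold gJ
        refine integral_congr_ae (Filter.Eventually.of_forall fun t => ?_)
        simp only [gH_eq]
        ring
      rw [add_comm, hs, hJ]
    · intro a c ha hc
      have h := hb c a hc ha
      have hcomm : ∫ s in Ioi (0 : ℝ), gF y x v u c s * gH y x v u a s =
          ∫ s in Ioi (0 : ℝ), gF x y u v a s * gH x y u v c s := by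
        refine integral_congr_ae (Filter.Eventually.of_forall fun t => ?_)
        simp only [gH_eq]
        ring
      rw [hcomm] at h
      linarith

end

end Vale.Agent.Lib.P358
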