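import Mathlib

/-!
# Scalar functions for the core inequality for general `ν` (P358 library)

Parameters `x y u v > 0`; `G = [[x+u, √(xy)], [√(xy), y+v]]`, trace `gP`, determinant `gD`.
`F(a,s) = (s + v a)/(s² + P a s + D a²)`; `H(c,s) = (s + u c)/(s² + P c s + D c²)`: `H` is `F` with
`(x,y,u,v)` swapped to `(y,x,v,u)` (`gP`, `gD` are symmetric under this swap).
-/

namespace Vale.Agent.Lib.P358

open Real MeasureTheory Set

noncomputable section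

/-- `P = u + v + x + y`. -/
def gP (x y u v : ℝ) : ℝ := u + v + x + y

/-- `D = u v + x v + y u`. -/
def gD (x y u v : ℝ) : ℝ := u * v + x * v + y * u

/-- `Den(a,s) = s² + P a s + D a²`. -/
def gDen (x y u v a s : ℝ) : ℝ := s ^ 2 + gP x y u v * a * s + gD x y u v * a ^ 2

/-- `F(a,s) = (s + v a)/Den(a,s)`. -/
def gF (x y u v a s : ℝ) : ℝ := (s + v * a) / gDen x y u v a s

/-- `H(c,s)`: the function `F` with swapped parameters. -/
def gH (x y u v c s : ℝ) : ℝ := gF y x v u c s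

/-- `E₀(a,s) = x a (2 F - (s + x a) F²)`. -/
def gE0 (x y u v a s : ℝ) : ℝ :=
  x * a * (2 * gF x y u v a s - (s + x * a) * gF x y u v a s ^ 2)

/-- `L₀(a,s) = x a F²`. -/
def gL0 (x y u v a s : ℝ) : ℝ := x * a * gF x y u v a s ^ 2

/-- `I₀ = ∫₀^∞ (E₀(1,t) - x/(1+t)) dt`. -/
def gI0 (x y u v : ℝ) : ℝ := ∫ t in Ioi (0 : ℝ), (gE0 x y u v 1 t - x / (1 + t))

/-- `λ₀ = ∫₀^∞ L₀(1,t) dt`. -/
def gLam0 (x y u v : ℝ) : ℝ := ∫ t in Ioi (0 : ℝ), gL0 x y u v 1 t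

/-- `J = ∫₀^∞ F(1,t) H(1,t) dt`. -/
def gJ (x y u v : ℝ) : ℝ := ∫ t in Ioi (0 : ℝ), gF x y u v 1 t * gH x y u v 1 t

/-- `Ψ(t) = ((x+y) t + x v + y u)/Den(1,t) = ⟨w, (t + G)⁻¹ w⟩`, `w = (√x, √y)`. -/
def gPsi (x y u v t : ℝ) : ℝ := ((x + y) * t + (x * v + y * u)) / gDen x y u v 1 t

/-- `Q = ∫₀^∞ (Ψ(t) - (x+y)/(1+t)) dt = -tr(g log G)`, `g = w w*`. -/
def gQ (x y u v : ℝ) : ℝ := ∫ t in Ioi (0 : ℝ), (gPsi x y u v t - (x + y) / (1 + t))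

/-- Larger eigenvalue of `G`. -/
def gMuP (x y u v : ℝ) : ℝ := (gP x y u v + Real.sqrt (gP x y u v ^ 2 - 4 * gD x y u v)) / 2

/-- Smaller eigenvalue of `G`. -/
def gMuM (x y u v : ℝ) : ℝ := (gP x y u v - Real.sqrt (gP x y u v ^ 2 - 4 * gD x y u v)) / 2

/-- Entropy of `G`. -/
def gScal (x y u v : ℝ) : ℝ := negMulLog (gMuP x y u v) + negMulLog (gMuM x y u v)

end

end Vale.Agent.Lib.P358
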