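import Vale.Agent.Lib.P358.GAnaDefs

/-!
# Entropy of the scalar matrix `G` (P358 library): JOB G3

Paper proof.  `Δ = P² - 4 D = (x + u - y - v)² + 4 x y > 0`, `μ± = (P ± √Δ)/2 > 0`
(`μ₊ μ₋ = D > 0`, `μ₊ + μ₋ = P > 0`), `Den(1,t) = (t + μ₊)(t + μ₋)`.
Partial fractions: `Ψ(t) = p₊/(t+μ₊) + p₋/(t+μ₋)`, with `Π = x v + y u`,
`p₊ = ((x+y) μ₊ - Π)/(μ₊ - μ₋)`, `p₋ = (Π - (x+y) μ₋)/(μ₊ - μ₋)`, `p₊ + p₋ = x + y`.
Hence, by the scalar integral `∫₀^∞ (1/(t+μ) - 1/(1+t)) dt = -log μ` (see `scalar_integral` in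
`AnaRef.lean` and `EntInt.lean`), `Q = -p₊ log μ₊ - p₋ log μ₋`.

Derivative along `τ ↦ (τ x, τ y, u, v)`: `P(τ) = u + v + τ (x+y)`, `D(τ) = u v + τ Π`.
`μ±(τ)` differentiable for `τ > 0` (`Δ(τ) > 0`), from `μ² - P μ + D = 0`:
`μ₊' = ((x+y) μ₊ - Π)/(μ₊ - μ₋)`, `μ₋' = (Π - (x+y) μ₋)/(μ₊ - μ₋)`; so `τ μ±' = p±(τ x, τ y, u, v)`.
`d/dτ (η(μ₊)+η(μ₋)) = -μ₊' (log μ₊ + 1) - μ₋' (log μ₋ + 1) = (Q(τ x, τ y, u, v) - τ (x+y))/τ`.
See `scal_hasDerivAt` and `refPsi_integral` in `AnaRef.lean` for the same computation at `ν = 0`.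
-/

namespace Vale.Agent.Lib.P358

open Real MeasureTheory Set Filter Topology

noncomputable section

variable {x y u v : ℝ}

private lemma g_scalar_tendsto {μ : ℝ} (hμ : 0 < μ) :
    Tendsto (fun s : ℝ => Real.log (μ + s) - Real.log (1 + s)) atTop (𝓝 0) := by
  have h1 : Tendsto (fun s : ℝ => 1 + (μ - 1) / (1 + s)) atTop (𝓝 (1 + 0)) := by
    refine tendsto_const_nhds.add (tendsto_const_nhds.div_atTop ?_)
    exact tendsto_atTop_add_const_left _ _ tendsto_id
  have h2 : Tendsto (fun s : ℝ => Real.log (1 + (μ - 1) / (1 + s))) atTop (𝓝 (Real.log (1 + 0))) :=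
    (Real.continuousAt_log (by norm_num)).tendsto.comp h1
  simp only [add_zero, Real.log_one] at h2
  refine h2.congr' ?_
  filter_upwards [eventually_gt_atTop 0] with s hs
  have h1s : 0 < 1 + s := by linarith
  have hms : 0 < μ + s := by linarith
  rw [← Real.log_div hms.ne' h1s.ne']
  congr 1
  field_simp
  ring

private lemma g_scalar_hasDeriv {μ : ℝ} (hμ : 0 < μ) {s : ℝ} (hs : s ∈ Ici (0 : ℝ)) :
    HasDerivAt (fun s : ℝ => Real.log (μ + s) - Real.log (1 + s)) (1 / (μ + s) - 1 / (1 + s)) s := by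
  have hs' : 0 ≤ s := hs
  have h1 : HasDerivAt (fun s : ℝ => μ + s) 1 s := by simpa using (hasDerivAt_id s).const_add μ
  have h2 : HasDerivAt (fun s : ℝ => 1 + s) 1 s := by simpa using (hasDerivAt_id s).const_add 1
  exact (h1.log (by positivity)).sub (h2.log (by positivity))

private lemma g_scalar_integrable {μ : ℝ} (hμ : 0 < μ) :
    IntegrableOn (fun s : ℝ => 1 / (μ + s) - 1 / (1 + s)) (Ioi 0) := by
  rcases le_total μ 1 with h | h
  · refine integrableOn_Ioi_deriv_of_nonneg' (fun s hs => g_scalar_hasDeriv hμ hs) (fun s hs => ?_)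
      (g_scalar_tendsto hμ)
    have hs' : 0 < s := hs
    have : 1 / (1 + s) ≤ 1 / (μ + s) :=
      one_div_le_one_div_of_le (by linarith) (by linarith)
    linarith
  · refine integrableOn_Ioi_deriv_of_nonpos' (fun s hs => g_scalar_hasDeriv hμ hs) (fun s hs => ?_)
      (g_scalar_tendsto hμ)
    have hs' : 0 < s := hs
    have : 1 / (μ + s) ≤ 1 / (1 + s) :=
      one_div_le_one_div_of_le (by linarith) (by linarith)
    linarith

private lemma g_scalar_integral {μ : ℝ} (hμ : 0 < μ) :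
    ∫ s in Ioi (0 : ℝ), (1 / (μ + s) - 1 / (1 + s)) = -Real.log μ := by
  have := integral_Ioi_of_hasDerivAt_of_tendsto'
    (fun s hs => g_scalar_hasDeriv hμ hs) (g_scalar_integrable hμ) (g_scalar_tendsto hμ)
  rw [this]
  simp

/-- Partial fractions of `Ψ`. -/
private lemma gPsi_decomp {Mp Mm Pp Pm t : ℝ} (ht : 0 < t) (hMp : 0 < Mp) (hMm : 0 < Mm)
    (hsum : Mp + Mm = gP x y u v) (hprod : Mp * Mm = gD x y u v)
    (hPs : Pp + Pm = x + y) (hPs2 : Pp * Mm + Pm * Mp = x * v + y * u) :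
    gPsi x y u v t - (x + y) / (1 + t) =
      Pp * (1 / (Mp + t) - 1 / (1 + t)) + Pm * (1 / (Mm + t) - 1 / (1 + t)) := by
  have hD : gDen x y u v 1 t = (Mp + t) * (Mm + t) := by
    unfold gDen
    linear_combination (-t) * hsum - hprod
  have h1 : 0 < Mp + t := by positivity
  have h2 : 0 < Mm + t := by positivity
  have h3 : 0 < 1 + t := by positivity
  have hpsi : gPsi x y u v t = Pp * (1 / (Mp + t)) + Pm * (1 / (Mm + t)) := by
    unfold gPsi
    rw [hD]
    field_simp
    linear_combination (-t) * hPs - hPs2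
  rw [hpsi, ← hPs]
  field_simp
  ring

/-- The integral `gQ` in terms of any roots and residues. -/
theorem gQ_formula {Mp Mm Pp Pm : ℝ} (hMp : 0 < Mp) (hMm : 0 < Mm)
    (hsum : Mp + Mm = gP x y u v) (hprod : Mp * Mm = gD x y u v)
    (hPs : Pp + Pm = x + y) (hPs2 : Pp * Mm + Pm * Mp = x * v + y * u) :
    gQ x y u v = Pp * (-Real.log Mp) + Pm * (-Real.log Mm) := by
  have hi1 := (g_scalar_integrable hMp).const_mul Pp
  have hi2 := (g_scalar_integrable hMm).const_mul Pm
  have hcongr : EqOn (fun s => Pp * (1 / (Mp + s) - 1 / (1 + s)) +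
      Pm * (1 / (Mm + s) - 1 / (1 + s)))
      (fun s => gPsi x y u v s - (x + y) / (1 + s)) (Ioi 0) := by
    intro s hs
    exact (gPsi_decomp hs hMp hMm hsum hprod hPs hPs2).symm
  unfold gQ
  rw [← setIntegral_congr_fun measurableSet_Ioi hcongr,
    integral_add hi1 hi2, integral_const_mul, integral_const_mul,
    g_scalar_integral hMp, g_scalar_integral hMm]

private lemma gDisc_eq (x y u v : ℝ) :
    gP x y u v ^ 2 - 4 * gD x y u v = (x + u - y - v) ^ 2 + 4 * x * y := by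
  unfold gP gD; ring

/-- Derivative of the entropy of `G` along `(τ x, τ y, u, v)`. -/
theorem gScal_hasDerivAt (hx : 0 < x) (hy : 0 < y) (hu : 0 < u) (hv : 0 < v) {τ : ℝ} (hτ : 0 < τ) :
    HasDerivAt (fun t => gScal (t * x) (t * y) u v)
      ((gQ (τ * x) (τ * y) u v - τ * (x + y)) / τ) τ := by
  set Pi0 := x * v + y * u with hPi0
  -- the discriminant at `τ`
  have hdisc : 0 < gP (τ * x) (τ * y) u v ^ 2 - 4 * gD (τ * x) (τ * y) u v := by
    rw [gDisc_eq]
    have : 0 < 4 * (τ * x) * (τ * y) := by positivity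
    nlinarith [sq_nonneg (τ * x + u - τ * y - v)]
  set S := gP (τ * x) (τ * y) u v with hS
  set Dd := gD (τ * x) (τ * y) u v with hDd
  have hS0 : 0 < S := by rw [hS]; unfold gP; positivity
  have hDd0 : 0 < Dd := by rw [hDd]; unfold gD; positivity
  set r := Real.sqrt (S ^ 2 - 4 * Dd) with hr
  have hr0 : 0 < r := Real.sqrt_pos.mpr hdisc
  have hr2 : r ^ 2 = S ^ 2 - 4 * Dd := Real.sq_sqrt hdisc.le
  set Mp := (S + r) / 2 with hMpdef
  set Mm := (S - r) / 2 with hMmdef
  have hprod : Mp * Mm = Dd := by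
    rw [hMpdef, hMmdef]; nlinarith
  have hMp : 0 < Mp := by positivity
  have hMm : 0 < Mm := by
    by_contra hh
    have hh' : Mm ≤ 0 := not_lt.mp hh
    have : Mp * Mm ≤ 0 := mul_nonpos_of_nonneg_of_nonpos hMp.le hh'
    linarith
  have hsum : Mp + Mm = S := by rw [hMpdef, hMmdef]; ring
  have hdiff : Mp - Mm = r := by rw [hMpdef, hMmdef]; ring
  -- derivative of the discriminant along the path
  have hΔ : HasDerivAt (fun t : ℝ => gP (t * x) (t * y) u v ^ 2 - 4 * gD (t * x) (t * y) u v)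
      (2 * S * (x + y) - 4 * Pi0) τ := by
    have hP : HasDerivAt (fun t : ℝ => gP (t * x) (t * y) u v) (x + y) τ := by
      unfold gP
      have h1 : HasDerivAt (fun t : ℝ => t * x) x τ := by
        simpa using (hasDerivAt_id τ).mul_const x
      have h2 : HasDerivAt (fun t : ℝ => t * y) y τ := by
        simpa using (hasDerivAt_id τ).mul_const y
      exact (h1.const_add (u + v)).fun_add h2
    have hD : HasDerivAt (fun t : ℝ => gD (t * x) (t * y) u v) Pi0 τ := by
      unfold gD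
      have h1 : HasDerivAt (fun t : ℝ => t * x * v) (x * v) τ := by
        simpa using ((hasDerivAt_id τ).mul_const x).mul_const v
      have h2 : HasDerivAt (fun t : ℝ => t * y * u) (y * u) τ := by
        simpa using ((hasDerivAt_id τ).mul_const y).mul_const u
      exact (h1.const_add (u * v)).fun_add h2
    have h2 := hP.fun_pow 2
    have h3 := hD.const_mul 4
    refine (h2.sub h3).congr_deriv ?_
    simp only [hS]
    norm_num
  have hsqrt : HasDerivAt (fun t : ℝ => Real.sqrt (gP (t * x) (t * y) u v ^ 2 - 4 * gD (t * x) (t * y) u v))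
      ((2 * S * (x + y) - 4 * Pi0) / (2 * r)) τ := hΔ.sqrt hdisc.ne'
  set d := (2 * S * (x + y) - 4 * Pi0) / (2 * r) with hd
  have hP : HasDerivAt (fun t : ℝ => gP (t * x) (t * y) u v) (x + y) τ := by
    unfold gP
    have h1 : HasDerivAt (fun t : ℝ => t * x) x τ := by
      simpa using (hasDerivAt_id τ).mul_const x
    have h2 : HasDerivAt (fun t : ℝ => t * y) y τ := by
      simpa using (hasDerivAt_id τ).mul_const y
    exact (h1.const_add (u + v)).fun_add h2
  have hdP : HasDerivAt (fun t : ℝ => gMuP (t * x) (t * y) u v) ((x + y + d) / 2) τ := by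
    unfold gMuP
    exact (hP.add hsqrt).div_const 2
  have hdM : HasDerivAt (fun t : ℝ => gMuM (t * x) (t * y) u v) ((x + y - d) / 2) τ := by
    unfold gMuM
    exact (hP.sub hsqrt).div_const 2
  have hMpval : gMuP (τ * x) (τ * y) u v = Mp := rfl
  have hMmval : gMuM (τ * x) (τ * y) u v = Mm := rfl
  have hP1 : HasDerivAt (fun t : ℝ => negMulLog (gMuP (t * x) (t * y) u v))
      ((-Real.log Mp - 1) * ((x + y + d) / 2)) τ := by
    have := (hasDerivAt_negMulLog (x := gMuP (τ * x) (τ * y) u v)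
      (by rw [hMpval]; exact hMp.ne')).comp τ hdP
    rw [hMpval] at this
    exact this
  have hM1 : HasDerivAt (fun t : ℝ => negMulLog (gMuM (t * x) (t * y) u v))
      ((-Real.log Mm - 1) * ((x + y - d) / 2)) τ := by
    have := (hasDerivAt_negMulLog (x := gMuM (τ * x) (τ * y) u v)
      (by rw [hMmval]; exact hMm.ne')).comp τ hdM
    rw [hMmval] at this
    exact this
  have hdd : d * r = S * (x + y) - 2 * Pi0 := by
    rw [hd]; field_simp; ring
  have hQ : gQ (τ * x) (τ * y) u v =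
      (τ * ((x + y + d) / 2)) * (-Real.log Mp) + (τ * ((x + y - d) / 2)) * (-Real.log Mm) := by
    refine gQ_formula hMp hMm hsum hprod ?_ ?_
    · ring
    · have : τ * ((x + y + d) / 2) * Mm + τ * ((x + y - d) / 2) * Mp =
          τ * ((x + y) * (Mp + Mm) / 2) - τ * (d * (Mp - Mm)) / 2 := by ring
      rw [this, hsum, hdiff, hdd]
      rw [hPi0]
      ring
  have hfinal := hP1.add hM1
  refine hfinal.congr_deriv ?_
  rw [hQ]
  field_simp
  ring

theorem gScal_continuous :
    Continuous (fun p : ℝ × ℝ × ℝ × ℝ => gScal p.1 p.2.1 p.2.2.1 p.2.2.2) := by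
  unfold gScal gMuP gMuM gP gD
  refine Continuous.add ?_ ?_
  · exact Real.continuous_negMulLog.comp (by fun_prop)
  · exact Real.continuous_negMulLog.comp (by fun_prop)

theorem gScal_zero (hu : 0 ≤ u) (hv : 0 ≤ v) : gScal 0 0 u v = negMulLog u + negMulLog v := by
  unfold gScal gMuP gMuM gP gD
  have h1 : (u + v + 0 + 0) ^ 2 - 4 * (u * v + 0 * v + 0 * u) = (u - v) ^ 2 := by ring
  rw [h1, Real.sqrt_sq_eq_abs]
  rcases le_total v u with h | h
  · rw [abs_of_nonneg (by linarith)]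
    have e1 : (u + v + 0 + 0 + (u - v)) / 2 = u := by ring
    have e2 : (u + v + 0 + 0 - (u - v)) / 2 = v := by ring
    rw [e1, e2]
  · rw [abs_of_nonpos (by linarith)]
    have e1 : (u + v + 0 + 0 + -(u - v)) / 2 = v := by ring
    have e2 : (u + v + 0 + 0 - -(u - v)) / 2 = u := by ring
    rw [e1, e2, add_comm]

end

end Vale.Agent.Lib.P358
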