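import Vale.Agent.Lib.P358.GAnaDefs

/-!
# Scaling integrals (P358 library): JOB G1

Paper proofs.  All functions are explicit rational functions, with positive denominator for
`a > 0`, `s ≥ 0`, since `gP, gD > 0`.  Since `Den(a, a t) = a² Den(1, t)`:
`F(a, a t) = F(1, t)/a`, so `E₀(a, a t) = E₀(1, t)`, `L₀(a, a t) = L₀(1, t)/a`.

Integrability: `F(a,s) ≤ K/(1+s)` for `s ≥ 0`, so `L₀(a,·)` and `F(a,·) H(c,·)` are `O(1/(1+s)²)`.
`E₀(1,t) - x/(1+t)` is a rational function, continuous on `[0,∞)`, `O(1/(1+t)²)`: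
`E₀(1,t) = x F (2 - (t+x) F)`, `F = (t+v)/Den`, so `t F = 1 + O(1/t)`, `E₀(1,t) = x/t + O(1/t²)`.

`gE0_integral`: `s = a t`: `∫ (E₀(a,s) - x a/(1+s)) ds = a ∫ (E₀(1,t) - x a/(1+a t)) dt
= a I₀ + a x ∫ (1/(1+t) - a/(1+a t)) dt = a I₀ + x a (- log a) = a I₀ + x η(a)`; the last integral
has antiderivative `log((1+t)/(1+a t))`, with limit `-log a` at `∞` and `0` at `0`.
(`MeasureTheory.integral_comp_mul_left_Ioi`, `integral_Ioi_of_hasDerivAt_of_tendsto`.)

`gPsi_eq`: with `F = F(1,t)`, `H = H(1,t)`: `field_simp; ring`, using `gDen y x v u = gDen x y u v`.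
The identity says `(t + G) (√x F, √y H) = (√x, √y)`.
-/

namespace Vale.Agent.Lib.P358

open Real MeasureTheory Set

noncomputable section

variable {x y u v : ℝ}

theorem gP_swap (x y u v : ℝ) : gP y x v u = gP x y u v := by unfold gP; ring

theorem gD_swap (x y u v : ℝ) : gD y x v u = gD x y u v := by unfold gD; ring

theorem gDen_swap (x y u v a s : ℝ) : gDen y x v u a s = gDen x y u v a s := by
  unfold gDen; rw [gP_swap, gD_swap]

theorem gDen_pos (hx : 0 < x) (hy : 0 < y) (hu : 0 < u) (hv : 0 < v) {a s : ℝ} (ha : 0 < a)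
    (hs : 0 ≤ s) : 0 < gDen x y u v a s := by
  unfold gDen gP gD
  positivity

theorem gF_pos (hx : 0 < x) (hy : 0 < y) (hu : 0 < u) (hv : 0 < v) {a s : ℝ} (ha : 0 < a)
    (hs : 0 ≤ s) : 0 < gF x y u v a s := by
  unfold gF
  have := gDen_pos hx hy hu hv ha hs
  positivity

/-- `Den(a,s) ≥ (s + u a)(s + v a)`. -/
private lemma gDen_ge (hx : 0 < x) (hy : 0 < y) (hu : 0 < u) (hv : 0 < v) {a s : ℝ} (ha : 0 < a)
    (hs : 0 ≤ s) : (s + u * a) * (s + v * a) ≤ gDen x y u v a s := by
  have h : gDen x y u v a s - (s + u * a) * (s + v * a) = (x + y) * a * s + (x * v + y * u) * a ^ 2 := by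
    unfold gDen gP gD; ring
  have h2 : 0 ≤ (x + y) * a * s + (x * v + y * u) * a ^ 2 := by positivity
  linarith

private lemma gF_le (hx : 0 < x) (hy : 0 < y) (hu : 0 < u) (hv : 0 < v) {a s : ℝ} (ha : 0 < a)
    (hs : 0 ≤ s) : gF x y u v a s ≤ 1 / (s + u * a) := by
  unfold gF
  have hD := gDen_pos hx hy hu hv ha hs
  have h1 : 0 < s + u * a := by positivity
  rw [div_le_div_iff₀ hD h1]
  have := gDen_ge hx hy hu hv ha hs
  nlinarith

/-- Functions dominated by `C/(s+c)²` are integrable on the half-line. -/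
private lemma integrableOn_of_abs_bound {f : ℝ → ℝ} (hf : Measurable f) {c C : ℝ} (hc : 0 < c)
    (h1 : ∀ s, 0 < s → |f s| ≤ C / (s + c) ^ 2) :
    IntegrableOn f (Ioi 0) := by
  have hbase : IntegrableOn (fun s : ℝ => (s + c) ^ (-2 : ℝ)) (Ioi 0) :=
    integrableOn_add_rpow_Ioi_of_lt (by norm_num) (by linarith)
  have hbase2 : IntegrableOn (fun s : ℝ => C * (s + c) ^ (-2 : ℝ)) (Ioi 0) :=
    hbase.const_mul C
  refine Integrable.mono' hbase2 hf.aestronglyMeasurable ?_
  rw [ae_restrict_iff' measurableSet_Ioi]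
  refine Filter.Eventually.of_forall ?_
  intro s hs
  have hs' : (0 : ℝ) < s := hs
  have hsc : 0 < s + c := by linarith
  rw [Real.norm_eq_abs]
  have : (s + c) ^ (-2 : ℝ) = ((s + c) ^ 2)⁻¹ := by
    rw [Real.rpow_neg hsc.le]
    norm_num
  rw [this]
  have := h1 s hs'
  rwa [div_eq_mul_inv] at this

private lemma measurable_gF (x y u v a : ℝ) : Measurable (fun s => gF x y u v a s) := by
  unfold gF gDen; fun_prop

/-- `F(a,·) H(c,·)` is integrable. -/
theorem gCross_integrable (hx : 0 < x) (hy : 0 < y) (hu : 0 < u) (hv : 0 < v) {a c : ℝ} (ha : 0 < a)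
    (hc : 0 < c) : IntegrableOn (fun s => gF x y u v a s * gH x y u v c s) (Ioi 0) := by
  have hm : 0 < min (u * a) (v * c) := lt_min (by positivity) (by positivity)
  refine integrableOn_of_abs_bound (c := min (u * a) (v * c)) (C := 1) ?_ hm ?_
  · unfold gH
    exact (measurable_gF x y u v a).mul (measurable_gF y x v u c)
  · intro s hs
    have hs0 := hs.le
    have h1 := gF_le hx hy hu hv ha hs0
    have h2 : gH x y u v c s ≤ 1 / (s + v * c) := gF_le hy hx hv hu hc hs0
    have p1 := gF_pos hx hy hu hv ha hs0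
    have p2 : 0 < gH x y u v c s := gF_pos hy hx hv hu hc hs0
    rw [abs_of_pos (mul_pos p1 p2)]
    have hm0 : 0 < s + min (u * a) (v * c) := by linarith
    have h3 : 1 / (s + u * a) ≤ 1 / (s + min (u * a) (v * c)) :=
      one_div_le_one_div_of_le hm0 (by linarith [min_le_left (u * a) (v * c)])
    have h4 : 1 / (s + v * c) ≤ 1 / (s + min (u * a) (v * c)) :=
      one_div_le_one_div_of_le hm0 (by linarith [min_le_right (u * a) (v * c)])
    calc gF x y u v a s * gH x y u v c s
        ≤ (1 / (s + min (u * a) (v * c))) * (1 / (s + min (u * a) (v * c))) :=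
          mul_le_mul (h1.trans h3) (h2.trans h4) p2.le (by positivity)
      _ = 1 / (s + min (u * a) (v * c)) ^ 2 := by field_simp

/-- `F²` is integrable. -/
private lemma gFsq_integrable (hx : 0 < x) (hy : 0 < y) (hu : 0 < u) (hv : 0 < v) {a : ℝ}
    (ha : 0 < a) : IntegrableOn (fun s => gF x y u v a s ^ 2) (Ioi 0) := by
  have hm : 0 < u * a := by positivity
  refine integrableOn_of_abs_bound (c := u * a) (C := 1) ((measurable_gF x y u v a).pow_const 2) hm ?_
  intro s hs
  have hs0 := hs.le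
  have h1 := gF_le hx hy hu hv ha hs0
  have p1 := gF_pos hx hy hu hv ha hs0
  rw [abs_of_pos (by positivity)]
  calc gF x y u v a s ^ 2 ≤ (1 / (s + u * a)) ^ 2 := pow_le_pow_left₀ p1.le h1 2
    _ = 1 / (s + u * a) ^ 2 := by field_simp

/-- `F - 1/(1+s)` is integrable. -/
private lemma gFdiff_integrable (hx : 0 < x) (hy : 0 < y) (hu : 0 < u) (hv : 0 < v) {a : ℝ}
    (ha : 0 < a) : IntegrableOn (fun s => gF x y u v a s - 1 / (1 + s)) (Ioi 0) := by
  have hm : 0 < min (u * a) (v * a) := lt_min (by positivity) (by positivity)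
  set e₁ := 1 + v * a - gP x y u v * a with he₁
  set e₀ := v * a - gD x y u v * a ^ 2 with he₀
  refine integrableOn_of_abs_bound (c := min (u * a) (v * a)) (C := |e₁| + |e₀|) ?_ hm ?_
  · exact (measurable_gF x y u v a).sub (by fun_prop)
  · intro s hs
    have hs0 := hs.le
    have hD := gDen_pos hx hy hu hv ha hs0
    have hge := gDen_ge hx hy hu hv ha hs0
    have h1s : 0 < 1 + s := by linarith
    have hid : gF x y u v a s - 1 / (1 + s) = (s * e₁ + e₀) / (gDen x y u v a s * (1 + s)) := by
      unfold gF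
      rw [div_sub_div _ _ hD.ne' h1s.ne']
      congr 1
      rw [he₁, he₀]
      unfold gDen
      ring
    rw [hid, abs_div, abs_of_pos (mul_pos hD h1s)]
    have hnum : |s * e₁ + e₀| ≤ (|e₁| + |e₀|) * (1 + s) := by
      calc |s * e₁ + e₀| ≤ |s * e₁| + |e₀| := abs_add_le _ _
        _ = s * |e₁| + |e₀| := by rw [abs_mul, abs_of_pos hs]
        _ ≤ (|e₁| + |e₀|) * (1 + s) := by
          have h1 := abs_nonneg e₁
          have h2 := abs_nonneg e₀
          nlinarith [mul_nonneg h2 hs0]
    have hm0 : 0 < s + min (u * a) (v * a) := by linarith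
    have hden : (s + min (u * a) (v * a)) ^ 2 ≤ gDen x y u v a s := by
      have h1 : s + min (u * a) (v * a) ≤ s + u * a := by linarith [min_le_left (u * a) (v * a)]
      have h2 : s + min (u * a) (v * a) ≤ s + v * a := by linarith [min_le_right (u * a) (v * a)]
      calc (s + min (u * a) (v * a)) ^ 2
          = (s + min (u * a) (v * a)) * (s + min (u * a) (v * a)) := by ring
        _ ≤ (s + u * a) * (s + v * a) := mul_le_mul h1 h2 hm0.le (by positivity)
        _ ≤ _ := hge
    have hC : 0 ≤ |e₁| + |e₀| := by positivity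
    rw [div_le_div_iff₀ (mul_pos hD h1s) (by positivity)]
    calc |s * e₁ + e₀| * (s + min (u * a) (v * a)) ^ 2
        ≤ ((|e₁| + |e₀|) * (1 + s)) * gDen x y u v a s :=
          mul_le_mul hnum hden (by positivity) (by positivity)
      _ = (|e₁| + |e₀|) * (gDen x y u v a s * (1 + s)) := by ring

/-- `F (1 - s F)` is integrable. -/
private lemma gFmix_integrable (hx : 0 < x) (hy : 0 < y) (hu : 0 < u) (hv : 0 < v) {a : ℝ}
    (ha : 0 < a) : IntegrableOn (fun s => gF x y u v a s * (1 - s * gF x y u v a s)) (Ioi 0) := by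
  have hm : 0 < u * a := by positivity
  set K := (gP x y u v - v) * a + gD x y u v * a / v with hK
  have hPv : 0 < gP x y u v - v := by unfold gP; linarith
  have hDp : 0 < gD x y u v := by unfold gD; positivity
  have hK0 : 0 < K := by positivity
  refine integrableOn_of_abs_bound (c := u * a) (C := K) ?_ hm ?_
  · exact (measurable_gF x y u v a).mul (measurable_const.sub (measurable_id.mul (measurable_gF x y u v a)))
  · intro s hs
    have hs0 := hs.le
    have hD := gDen_pos hx hy hu hv ha hs0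
    have hge := gDen_ge hx hy hu hv ha hs0
    have h1 := gF_le hx hy hu hv ha hs0
    have p1 := gF_pos hx hy hu hv ha hs0
    have hus : 0 < s + u * a := by positivity
    have hvs : 0 < s + v * a := by positivity
    have hid : 1 - s * gF x y u v a s =
        ((gP x y u v - v) * a * s + gD x y u v * a ^ 2) / gDen x y u v a s := by
      unfold gF
      field_simp
      unfold gDen
      ring
    have hnn : 0 ≤ (gP x y u v - v) * a * s + gD x y u v * a ^ 2 := by positivity
    have hdelta0 : 0 ≤ 1 - s * gF x y u v a s := by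
      rw [hid]; positivity
    have hnum : (gP x y u v - v) * a * s + gD x y u v * a ^ 2 ≤ K * (s + v * a) := by
      have h : K * (s + v * a) - ((gP x y u v - v) * a * s + gD x y u v * a ^ 2) =
          (gD x y u v * a / v) * s + (gP x y u v - v) * a * (v * a) := by
        rw [hK]; field_simp; ring
      have h2 : 0 ≤ (gD x y u v * a / v) * s + (gP x y u v - v) * a * (v * a) := by positivity
      linarith
    have hdelta : 1 - s * gF x y u v a s ≤ K / (s + u * a) := by
      rw [hid, div_le_div_iff₀ hD hus]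
      calc ((gP x y u v - v) * a * s + gD x y u v * a ^ 2) * (s + u * a)
          ≤ (K * (s + v * a)) * (s + u * a) := mul_le_mul_of_nonneg_right hnum hus.le
        _ = K * ((s + u * a) * (s + v * a)) := by ring
        _ ≤ K * gDen x y u v a s := mul_le_mul_of_nonneg_left hge hK0.le
    rw [abs_of_nonneg (mul_nonneg p1.le hdelta0)]
    calc gF x y u v a s * (1 - s * gF x y u v a s)
        ≤ (1 / (s + u * a)) * (K / (s + u * a)) := mul_le_mul h1 hdelta hdelta0 (by positivity)
      _ = K / (s + u * a) ^ 2 := by field_simp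

private lemma gE0_decomp (x y u v a s : ℝ) :
    gE0 x y u v a s - x * a / (1 + s) =
      x * a * ((gF x y u v a s - 1 / (1 + s)) + gF x y u v a s * (1 - s * gF x y u v a s)
        - x * a * gF x y u v a s ^ 2) := by
  unfold gE0
  rw [div_eq_mul_one_div (x * a) (1 + s)]
  ring

theorem gE0_integrable (hx : 0 < x) (hy : 0 < y) (hu : 0 < u) (hv : 0 < v) {a : ℝ} (ha : 0 < a) :
    IntegrableOn (fun s => gE0 x y u v a s - x * a / (1 + s)) (Ioi 0) := by
  have h : IntegrableOn (fun s => x * a * ((gF x y u v a s - 1 / (1 + s)) +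
      gF x y u v a s * (1 - s * gF x y u v a s) - x * a * gF x y u v a s ^ 2)) (Ioi 0) :=
    Integrable.const_mul (((gFdiff_integrable hx hy hu hv ha).add
      (gFmix_integrable hx hy hu hv ha)).sub
      ((gFsq_integrable hx hy hu hv ha).const_mul (x * a))) (x * a)
  exact IntegrableOn.congr_fun h (fun s _ => (gE0_decomp x y u v a s).symm) measurableSet_Ioi

/-- `∫₀^∞ (1/(1+t) - a/(1+a t)) dt = -log a`. -/
private lemma log_integral {a : ℝ} (ha : 0 < a) :
    IntegrableOn (fun t : ℝ => 1 / (1 + t) - a / (1 + a * t)) (Ioi 0) ∧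
      ∫ t in Ioi (0 : ℝ), (1 / (1 + t) - a / (1 + a * t)) = -Real.log a := by
  have hderiv : ∀ t ∈ Ici (0 : ℝ), HasDerivAt (fun t : ℝ => Real.log (1 + t) - Real.log (1 + a * t))
      (1 / (1 + t) - a / (1 + a * t)) t := by
    intro t ht
    have ht' : 0 ≤ t := ht
    have h1 : HasDerivAt (fun t : ℝ => 1 + t) 1 t := by simpa using (hasDerivAt_id t).const_add 1
    have h2 : HasDerivAt (fun t : ℝ => 1 + a * t) a t := by
      simpa using ((hasDerivAt_id t).const_mul a).const_add 1
    exact (h1.log (by positivity)).sub (h2.log (by positivity))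
  have hlim : Filter.Tendsto (fun t : ℝ => Real.log (1 + t) - Real.log (1 + a * t)) Filter.atTop
      (nhds (Real.log (1 / a))) := by
    have h1 : Filter.Tendsto (fun t : ℝ => 1 / a + (1 - 1 / a) / (1 + a * t)) Filter.atTop
        (nhds (1 / a + 0)) := by
      refine tendsto_const_nhds.add (tendsto_const_nhds.div_atTop ?_)
      exact Filter.tendsto_atTop_add_const_left _ _ (Filter.tendsto_id.const_mul_atTop ha)
    have h2 := (Real.continuousAt_log (x := 1 / a + 0) (by simp [ha.ne'])).tendsto.comp h1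
    simp only [add_zero] at h2
    refine h2.congr' ?_
    filter_upwards [Filter.eventually_gt_atTop 0] with t ht
    have h1t : 0 < 1 + t := by linarith
    have hat : 0 < 1 + a * t := by positivity
    simp only [Function.comp]
    rw [← Real.log_div h1t.ne' hat.ne']
    congr 1
    field_simp
    ring
  have hint : IntegrableOn (fun t : ℝ => 1 / (1 + t) - a / (1 + a * t)) (Ioi 0) := by
    rcases le_total a 1 with h | h
    · refine integrableOn_Ioi_deriv_of_nonneg' hderiv (fun t ht => ?_) hlim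
      have ht' : (0 : ℝ) < t := ht
      have h1t : 0 < 1 + t := by linarith
      have hat : 0 < 1 + a * t := by positivity
      rw [sub_nonneg, div_le_div_iff₀ hat h1t]
      nlinarith
    · refine integrableOn_Ioi_deriv_of_nonpos' hderiv (fun t ht => ?_) hlim
      have ht' : (0 : ℝ) < t := ht
      have h1t : 0 < 1 + t := by linarith
      have hat : 0 < 1 + a * t := by positivity
      rw [sub_nonpos, div_le_div_iff₀ h1t hat]
      nlinarith
  refine ⟨hint, ?_⟩
  have := integral_Ioi_of_hasDerivAt_of_tendsto' hderiv hint hlim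
  rw [this]
  simp [Real.log_inv]

private lemma gDen_scale (x y u v a t : ℝ) : gDen x y u v a (a * t) = a ^ 2 * gDen x y u v 1 t := by
  unfold gDen; ring

private lemma gF_scale (hx : 0 < x) (hy : 0 < y) (hu : 0 < u) (hv : 0 < v) {a t : ℝ} (ha : 0 < a)
    (ht : 0 ≤ t) : gF x y u v a (a * t) = gF x y u v 1 t / a := by
  have hD := gDen_pos hx hy hu hv one_pos ht
  unfold gF
  rw [gDen_scale]
  field_simp

private lemma gE0_scale (hx : 0 < x) (hy : 0 < y) (hu : 0 < u) (hv : 0 < v) {a t : ℝ} (ha : 0 < a)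
    (ht : 0 ≤ t) : gE0 x y u v a (a * t) = gE0 x y u v 1 t := by
  unfold gE0
  rw [gF_scale hx hy hu hv ha ht]
  field_simp

private lemma gL0_scale (hx : 0 < x) (hy : 0 < y) (hu : 0 < u) (hv : 0 < v) {a t : ℝ} (ha : 0 < a)
    (ht : 0 ≤ t) : gL0 x y u v a (a * t) = gL0 x y u v 1 t / a := by
  unfold gL0
  rw [gF_scale hx hy hu hv ha ht]
  field_simp

/-- Substitution `s = a t` on the half-line. -/
private lemma integral_sub_scale {a : ℝ} (ha : 0 < a) (g : ℝ → ℝ) :
    ∫ s in Ioi (0 : ℝ), g s = a * ∫ t in Ioi (0 : ℝ), g (a * t) := by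
  have := MeasureTheory.integral_comp_mul_left_Ioi g (0 : ℝ) ha
  rw [this, mul_zero, smul_eq_mul, ← mul_assoc, mul_inv_cancel₀ ha.ne', one_mul]

theorem gE0_integral (hx : 0 < x) (hy : 0 < y) (hu : 0 < u) (hv : 0 < v) {a : ℝ} (ha : 0 < a) :
    ∫ s in Ioi (0 : ℝ), (gE0 x y u v a s - x * a / (1 + s)) =
      a * gI0 x y u v + x * negMulLog a := by
  rw [integral_sub_scale ha]
  have hi1 := gE0_integrable hx hy hu hv one_pos
  have hlog := log_integral ha
  have hi2 := hlog.1.const_mul x
  have hcongr : EqOn (fun t => gE0 x y u v a (a * t) - x * a / (1 + a * t))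
      (fun t => (gE0 x y u v 1 t - x * 1 / (1 + t)) + x * (1 / (1 + t) - a / (1 + a * t)))
      (Ioi 0) := by
    intro t ht
    have ht' : (0 : ℝ) < t := ht
    simp only
    rw [gE0_scale hx hy hu hv ha ht'.le]
    have h1 : 0 < 1 + t := by positivity
    have h2 : 0 < 1 + a * t := by positivity
    field_simp
    ring
  rw [setIntegral_congr_fun measurableSet_Ioi hcongr, integral_add hi1 hi2, integral_const_mul,
    hlog.2]
  unfold gI0 Real.negMulLog
  simp only [mul_one]
  ring

theorem gL0_integrable (hx : 0 < x) (hy : 0 < y) (hu : 0 < u) (hv : 0 < v) {a : ℝ} (ha : 0 < a) :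
    IntegrableOn (fun s => gL0 x y u v a s) (Ioi 0) := by
  have h := (gFsq_integrable hx hy hu hv ha).const_mul (x * a)
  exact h

theorem gL0_integral (hx : 0 < x) (hy : 0 < y) (hu : 0 < u) (hv : 0 < v) {a : ℝ} (ha : 0 < a) :
    ∫ s in Ioi (0 : ℝ), gL0 x y u v a s = gLam0 x y u v := by
  rw [integral_sub_scale ha]
  have hcongr : EqOn (fun t => gL0 x y u v a (a * t)) (fun t => a⁻¹ * gL0 x y u v 1 t) (Ioi 0) := by
    intro t ht
    have ht' : (0 : ℝ) < t := ht
    simp only
    rw [gL0_scale hx hy hu hv ha ht'.le]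
    field_simp
  rw [setIntegral_congr_fun measurableSet_Ioi hcongr, integral_const_mul, ← mul_assoc,
    mul_inv_cancel₀ ha.ne', one_mul]
  rfl

/-- The scalar resolvent identity. -/
theorem gPsi_eq (hx : 0 < x) (hy : 0 < y) (hu : 0 < u) (hv : 0 < v) {t : ℝ} (ht : 0 < t) :
    gPsi x y u v t = gE0 x y u v 1 t - u * gL0 x y u v 1 t + gE0 y x v u 1 t - v * gL0 y x v u 1 t
      - 2 * x * y * (gF x y u v 1 t * gH x y u v 1 t) := by
  have hD := gDen_pos hx hy hu hv one_pos ht.le
  unfold gPsi gE0 gL0 gH gF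
  rw [gDen_swap x y u v 1 t]
  set d := gDen x y u v 1 t with hd
  field_simp
  rw [hd]
  unfold gDen gP gD
  ring

/-- The constant `Q` through the constants `I₀, I₁, λ₀, λ₁, J`. -/
theorem gQ_eq (hx : 0 < x) (hy : 0 < y) (hu : 0 < u) (hv : 0 < v) :
    gQ x y u v = gI0 x y u v - u * gLam0 x y u v + gI0 y x v u - v * gLam0 y x v u
      - 2 * x * y * gJ x y u v := by
  have a1 := gE0_integrable hx hy hu hv one_pos
  have a2 := gE0_integrable hy hx hv hu one_pos
  have b1 := (gL0_integrable hx hy hu hv one_pos).const_mul u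
  have b2 := (gL0_integrable hy hx hv hu one_pos).const_mul v
  have c1 := (gCross_integrable hx hy hu hv one_pos one_pos).const_mul (2 * x * y)
  have hcongr : EqOn (fun t => gPsi x y u v t - (x + y) / (1 + t))
      (fun t => (gE0 x y u v 1 t - x * 1 / (1 + t)) - u * gL0 x y u v 1 t +
        (gE0 y x v u 1 t - y * 1 / (1 + t)) - v * gL0 y x v u 1 t -
        2 * x * y * (gF x y u v 1 t * gH x y u v 1 t)) (Ioi 0) := by
    intro t ht
    have ht' : (0 : ℝ) < t := ht
    simp only
    rw [gPsi_eq hx hy hu hv ht']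
    have h1 : 0 < 1 + t := by positivity
    field_simp
    ring
  have i1 : IntegrableOn (fun t => (gE0 x y u v 1 t - x * 1 / (1 + t)) - u * gL0 x y u v 1 t)
      (Ioi 0) := a1.sub b1
  have i2 : IntegrableOn (fun t => (gE0 x y u v 1 t - x * 1 / (1 + t)) - u * gL0 x y u v 1 t +
      (gE0 y x v u 1 t - y * 1 / (1 + t))) (Ioi 0) := i1.add a2
  have i3 : IntegrableOn (fun t => (gE0 x y u v 1 t - x * 1 / (1 + t)) - u * gL0 x y u v 1 t +
      (gE0 y x v u 1 t - y * 1 / (1 + t)) - v * gL0 y x v u 1 t) (Ioi 0) := i2.sub b2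
  unfold gQ
  rw [setIntegral_congr_fun measurableSet_Ioi hcongr,
    integral_sub i3 c1, integral_sub i2 b2,
    integral_add i1 a2, integral_sub a1 b1, integral_const_mul, integral_const_mul,
    integral_const_mul]
  unfold gI0 gLam0 gJ
  simp only [mul_one]

end

end Vale.Agent.Lib.P358
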