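import Vale.Agent.Lib.P358.GAnaDefs
import Vale.Agent.Lib.P358.AnaConv

/-!
# Convexity for the generalized amplitude damping channel (P358 library): JOB G9

The definitions `gadDet`, `gadScal` are restated here (moved from `GTwo`): JOB G9 does not need `GTwo`.

Normal form: `gadDet γ ν (1-w) w = γ (1-γ) (w-ν)² + γ ν (1-ν)` (`ring`).  So with
`R(w)² = 1 - 4 gadDet = C - d (w-ν)²`, `C = 1 - 4 γ ν (1-ν) ∈ [0,1]`, `d = 4 γ (1-γ)`, and
`f(w) = gadScal γ ν (1-w) w = η((1+R)/2) + η((1-R)/2)`.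

Paper proof of `gad_convex` (compare `conv_core` in `AnaConv.lean`, the case `ν = 0`, `C = 1`).
`d = 0` (`γ ∈ {0,1}`): `f` is constant.  Otherwise on `(0,1)`, `y = w - ν`, `u = R(w)`:
`0 < u`: `u²` is strictly concave in `w`, with `u²(0) = (1-2γν)² ≥ 0`, `u²(1) = (1-2γ(1-ν))² ≥ 0`, so `u² > 0` inside;
`u < 1`: if `γ ν (1-ν) > 0` or `y ≠ 0` then `4 gadDet > 0`; the only bad case is `y = 0`, `C = 1`, i.e.
`ν ∈ {0,1}`, `w = ν` which is not in the open interval `(0,1)`.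
`L = log((1+u)/(1-u))`, `f' = d y L/(2u)`,
`f'' = (d/(2u³)) (C L - 2u (C-u²)/(1-u²)) ≥ 0`, since `(C-u²)/(1-u²) ≤ C` (`C ≤ 1`) and `L ≥ 2u`
(`two_mul_le_log_sub`).  Use `convexOn_of_hasDerivWithinAt2_nonneg`, with continuity on `[0,1]`.
-/

namespace Vale.Agent.Lib.P358

open Real MeasureTheory Set

noncomputable section

/-- The determinant of `T_s = [[p a + q b, κ √(a b)], [., e a + r b]]`. -/
def gadDet (γ ν a b : ℝ) : ℝ :=
  (1 - ν * γ) * (ν * γ) * a ^ 2 + 2 * ((1 - ν) * γ) * (ν * γ) * a * b +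
    ((1 - ν) * γ) * (1 - (1 - ν) * γ) * b ^ 2

/-- The scalar entropy for the generalized amplitude damping channel: `S(T_s)`. -/
def gadScal (γ ν a b : ℝ) : ℝ :=
  negMulLog (((a + b) + Real.sqrt ((a + b) ^ 2 - 4 * gadDet γ ν a b)) / 2) +
    negMulLog (((a + b) - Real.sqrt ((a + b) ^ 2 - 4 * gadDet γ ν a b)) / 2)

/-- `Φ(a,b) = S(T_s(a,b)) - η(a+b)`. -/
def PhiG (γ ν a b : ℝ) : ℝ := gadScal γ ν a b - negMulLog (a + b)

theorem gadDet_normal (γ ν w : ℝ) :
    gadDet γ ν (1 - w) w = γ * (1 - γ) * (w - ν) ^ 2 + γ * ν * (1 - ν) := by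
  unfold gadDet; ring

private lemma gad_disc_normal (γ ν w : ℝ) :
    (1 - w + w) ^ 2 - 4 * gadDet γ ν (1 - w) w =
      1 - 4 * γ * (1 - γ) * (w - ν) ^ 2 - 4 * γ * ν * (1 - ν) := by
  rw [gadDet_normal]; ring

/-- The pure state output entropy, explicitly. -/
theorem gadScal_normal (γ ν w : ℝ) :
    gadScal γ ν (1 - w) w =
      negMulLog ((1 + Real.sqrt (1 - 4 * γ * (1 - γ) * (w - ν) ^ 2 - 4 * γ * ν * (1 - ν))) / 2) +
        negMulLog (1 - (1 + Real.sqrt (1 - 4 * γ * (1 - γ) * (w - ν) ^ 2 - 4 * γ * ν * (1 - ν))) / 2) := by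
  unfold gadScal
  rw [gad_disc_normal, show (1 - w + w) = 1 by ring]
  congr 2
  ring

private lemma gaux_eq1 (d y u P M : ℝ) (hu : u ≠ 0) :
    (-Real.log P - 1) * (-(d * y) / u / 2) + (-Real.log M - 1) * (-(-(d * y) / u) / 2)
      = d * y * (Real.log P - Real.log M) / (2 * u) := by
  field_simp
  ring

private lemma gaux_eq2 (d y u : ℝ) (hu : u ≠ 0) (hp : 1 + u ≠ 0) (hm : 1 - u ≠ 0) :
    -(d * y) / u / 2 / ((1 + u) / 2) - -(-(d * y) / u) / 2 / ((1 - u) / 2)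
      = -(2 * d * y) / (u * (1 - u ^ 2)) := by
  have h : 1 - u ^ 2 = (1 + u) * (1 - u) := by ring
  rw [h]
  field_simp
  ring

private lemma gaux_eq3 (d C y u L : ℝ) (hu : u ≠ 0) (hm : 1 - u ^ 2 ≠ 0)
    (h : u ^ 2 = C - d * y ^ 2) :
    ((d * 1 * L + d * y * (-(2 * d * y) / (u * (1 - u ^ 2)))) * (2 * u)
        - d * y * L * (2 * (-(d * y) / u))) / (2 * u) ^ 2
      = d / (2 * u ^ 3) * (C * L - 2 * u * ((C - u ^ 2) / (1 - u ^ 2))) := by
  have hd : d * y ^ 2 = C - u ^ 2 := by linarith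
  have e1 : (d * 1 * L + d * y * (-(2 * d * y) / (u * (1 - u ^ 2)))) * (2 * u)
        - d * y * L * (2 * (-(d * y) / u))
      = d * (2 * u * L - 4 * (d * y ^ 2) / (1 - u ^ 2) + 2 * (d * y ^ 2) * L / u) := by
    field_simp
    ring
  rw [e1, hd]
  field_simp
  ring

/-- Core calculus for the convexity of `f`, in the normal form `u² = C - d (w-ν)²`. -/
private lemma gconv_core {d C ν : ℝ} (hd : 0 ≤ d) (hC0 : 0 ≤ C) (hC1 : C ≤ 1)
    (hu : ∀ w ∈ Ioo (0 : ℝ) 1, 0 < C - d * (w - ν) ^ 2 ∧ C - d * (w - ν) ^ 2 < 1) :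
    ConvexOn ℝ (Icc 0 1) (fun w : ℝ => negMulLog ((1 + Real.sqrt (C - d * (w - ν) ^ 2)) / 2)
      + negMulLog ((1 - Real.sqrt (C - d * (w - ν) ^ 2)) / 2)) := by
  set uf : ℝ → ℝ := fun w => Real.sqrt (C - d * (w - ν) ^ 2) with huf
  set Lf : ℝ → ℝ := fun w => Real.log ((1 + uf w) / 2) - Real.log ((1 - uf w) / 2) with hLf
  have basics : ∀ w ∈ Ioo (0 : ℝ) 1, 0 < uf w ∧ uf w < 1 ∧ uf w ^ 2 = C - d * (w - ν) ^ 2 ∧
      HasDerivAt uf (-(d * (w - ν)) / uf w) w := by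
    intro w hw
    obtain ⟨hpos, hlt⟩ := hu w hw
    refine ⟨Real.sqrt_pos.2 hpos, ?_, Real.sq_sqrt hpos.le, ?_⟩
    · exact (Real.sqrt_lt' one_pos).2 (by simpa using hlt)
    · have h1 : HasDerivAt (fun w : ℝ => C - d * (w - ν) ^ 2) (-(d * (2 * (w - ν)))) w := by
        have h0 : HasDerivAt (fun w : ℝ => (w - ν) ^ 2) (2 * (w - ν)) w := by
          have h00 := ((hasDerivAt_id' w).sub_const ν).fun_pow 2
          refine h00.congr_deriv ?_
          simp
        simpa using (h0.const_mul d).const_sub C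
      have h2 := h1.sqrt hpos.ne'
      have hne : Real.sqrt (C - d * (w - ν) ^ 2) ≠ 0 := (Real.sqrt_pos.2 hpos).ne'
      convert h2 using 1
      have hufw : uf w = Real.sqrt (C - d * (w - ν) ^ 2) := rfl
      rw [hufw]
      field_simp
  have hderiv1 : ∀ w ∈ Ioo (0 : ℝ) 1, HasDerivAt (fun w : ℝ => negMulLog ((1 + uf w) / 2)
      + negMulLog ((1 - uf w) / 2)) (d * (w - ν) * Lf w / (2 * uf w)) w := by
    intro w hw
    obtain ⟨hu0, hu1, hu2, hu⟩ := basics w hw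
    have hp : (1 + uf w) / 2 ≠ 0 := by positivity
    have hm : (1 - uf w) / 2 ≠ 0 := by
      have : 0 < 1 - uf w := by linarith
      positivity
    have h1 := (Real.hasDerivAt_negMulLog hp).comp w ((hu.const_add 1).div_const 2)
    have h2 := (Real.hasDerivAt_negMulLog hm).comp w ((hu.const_sub 1).div_const 2)
    have h3 : HasDerivAt (fun w : ℝ => negMulLog ((1 + uf w) / 2) + negMulLog ((1 - uf w) / 2)) _ w :=
      h1.add h2
    refine h3.congr_deriv ?_
    exact gaux_eq1 d (w - ν) (uf w) _ _ hu0.ne'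
  have hderiv2 : ∀ w ∈ Ioo (0 : ℝ) 1, HasDerivAt (fun w : ℝ => d * (w - ν) * Lf w / (2 * uf w))
      (d / (2 * uf w ^ 3) * (C * Lf w - 2 * uf w * ((C - uf w ^ 2) / (1 - uf w ^ 2)))) w := by
    intro w hw
    obtain ⟨hu0, hu1, hu2, hu⟩ := basics w hw
    have hm : 0 < 1 - uf w := by linarith
    have hp' : (1 + uf w) / 2 ≠ 0 := by positivity
    have hm' : (1 - uf w) / 2 ≠ 0 := by positivity
    have hm2 : 1 - uf w ^ 2 ≠ 0 := by
      have : 0 < 1 - uf w ^ 2 := by nlinarith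
      exact this.ne'
    have hL : HasDerivAt Lf (-(2 * d * (w - ν)) / (uf w * (1 - uf w ^ 2))) w := by
      have h1 := ((hu.const_add 1).div_const 2).log hp'
      have h2 := ((hu.const_sub 1).div_const 2).log hm'
      have h3 : HasDerivAt Lf _ w := h1.sub h2
      refine h3.congr_deriv ?_
      exact gaux_eq2 d (w - ν) (uf w) hu0.ne' (by positivity) hm.ne'
    have h3' : HasDerivAt (fun w : ℝ => d * (w - ν)) (d * 1) w :=
      ((hasDerivAt_id w).sub_const ν).const_mul d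
    have h3 := h3'.mul hL
    have h4 := h3.div (hu.const_mul 2) (by positivity : (2 * uf w) ≠ 0)
    have h5 : HasDerivAt (fun w : ℝ => d * (w - ν) * Lf w / (2 * uf w)) _ w := h4
    refine h5.congr_deriv ?_
    exact gaux_eq3 d C (w - ν) (uf w) (Lf w) hu0.ne' hm2 (by linarith)
  refine convexOn_of_hasDerivWithinAt2_nonneg (convex_Icc 0 1) ?_ ?_ ?_ ?_
    (f' := fun w => d * (w - ν) * Lf w / (2 * uf w))
    (f'' := fun w => d / (2 * uf w ^ 3) * (C * Lf w - 2 * uf w * ((C - uf w ^ 2) / (1 - uf w ^ 2))))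
  · have : Continuous (fun w : ℝ => negMulLog ((1 + Real.sqrt (C - d * (w - ν) ^ 2)) / 2)
      + negMulLog ((1 - Real.sqrt (C - d * (w - ν) ^ 2)) / 2)) := by
      have hη := Real.continuous_negMulLog
      fun_prop
    exact this.continuousOn
  · rw [interior_Icc]
    intro w hw
    exact (hderiv1 w hw).hasDerivWithinAt
  · rw [interior_Icc]
    intro w hw
    exact (hderiv2 w hw).hasDerivWithinAt
  · rw [interior_Icc]
    intro w hw
    obtain ⟨hu0, hu1, hu2, hu⟩ := basics w hw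
    have hL : 2 * uf w ≤ Lf w := by
      have := two_mul_le_log_sub hu0.le hu1
      simp only [hLf]
      rw [Real.log_div (by positivity) (by norm_num), Real.log_div (by linarith) (by norm_num)]
      linarith
    have h1u : 0 < 1 - uf w ^ 2 := by nlinarith
    have hfrac : (C - uf w ^ 2) / (1 - uf w ^ 2) ≤ C := by
      rw [div_le_iff₀ h1u]
      nlinarith [sq_nonneg (uf w)]
    have hmain : 0 ≤ C * Lf w - 2 * uf w * ((C - uf w ^ 2) / (1 - uf w ^ 2)) := by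
      have h2 : 2 * uf w * ((C - uf w ^ 2) / (1 - uf w ^ 2)) ≤ 2 * uf w * C :=
        mul_le_mul_of_nonneg_left hfrac (by positivity)
      have h3 : C * (2 * uf w) ≤ C * Lf w := mul_le_mul_of_nonneg_left hL hC0
      nlinarith
    positivity

/-- Convexity of `f(w) = S(A_{γ,ν}(ψ_w))`. -/
theorem gad_convex {γ ν : ℝ} (hγ0 : 0 ≤ γ) (hγ1 : γ ≤ 1) (hν0 : 0 ≤ ν) (hν1 : ν ≤ 1) :
    ConvexOn ℝ (Icc 0 1) (fun w => gadScal γ ν (1 - w) w) := by
  have hf : (fun w => gadScal γ ν (1 - w) w) = fun w : ℝ =>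
      negMulLog ((1 + Real.sqrt ((1 - 4 * γ * ν * (1 - ν)) - (4 * γ * (1 - γ)) * (w - ν) ^ 2)) / 2)
        + negMulLog ((1 - Real.sqrt ((1 - 4 * γ * ν * (1 - ν)) - (4 * γ * (1 - γ)) * (w - ν) ^ 2)) / 2) := by
    funext w
    unfold gadScal
    rw [gad_disc_normal, show (1 - w + w) = 1 by ring,
      show 1 - 4 * γ * (1 - γ) * (w - ν) ^ 2 - 4 * γ * ν * (1 - ν)
        = (1 - 4 * γ * ν * (1 - ν)) - (4 * γ * (1 - γ)) * (w - ν) ^ 2 by ring]
  rw [hf]
  have hν4 : ν * (1 - ν) ≤ 1 / 4 := by nlinarith [sq_nonneg (ν - 1 / 2)]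
  have hνp : 0 ≤ ν * (1 - ν) := mul_nonneg hν0 (by linarith)
  have hd0 : 0 ≤ 4 * γ * (1 - γ) := by
    have : 0 ≤ γ * (1 - γ) := mul_nonneg hγ0 (by linarith)
    linarith
  have hC1 : 1 - 4 * γ * ν * (1 - ν) ≤ 1 := by
    have : 0 ≤ γ * (ν * (1 - ν)) := mul_nonneg hγ0 hνp
    nlinarith
  have hC0 : 0 ≤ 1 - 4 * γ * ν * (1 - ν) := by
    have : γ * (ν * (1 - ν)) ≤ 1 * (1 / 4) := mul_le_mul hγ1 hν4 hνp (by norm_num)
    nlinarith
  rcases hd0.eq_or_lt with h | hdpos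
  · -- `d = 0`: the function is constant
    rw [← h]
    have : (fun w : ℝ => negMulLog ((1 + Real.sqrt ((1 - 4 * γ * ν * (1 - ν)) - 0 * (w - ν) ^ 2)) / 2)
        + negMulLog ((1 - Real.sqrt ((1 - 4 * γ * ν * (1 - ν)) - 0 * (w - ν) ^ 2)) / 2))
        = fun _ => negMulLog ((1 + Real.sqrt (1 - 4 * γ * ν * (1 - ν))) / 2)
          + negMulLog ((1 - Real.sqrt (1 - 4 * γ * ν * (1 - ν))) / 2) := by
      funext w
      simp
    rw [this]
    exact convexOn_const _ (convex_Icc 0 1)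
  · refine gconv_core hd0 hC0 hC1 ?_
    rintro w ⟨hw0, hw1⟩
    have hγp : 0 < γ := by
      by_contra hc
      have : γ = 0 := le_antisymm (not_lt.1 hc) hγ0
      rw [this] at hdpos
      simp at hdpos
    have hγq : 0 < 1 - γ := by
      by_contra hc
      have : 1 - γ = 0 := le_antisymm (not_lt.1 hc) (by linarith)
      rw [this] at hdpos
      simp at hdpos
    constructor
    · -- `u² = (1-w) (1-2γν)² + w (1-2γ(1-ν))² + d w (1-w)`
      have hid : (1 - 4 * γ * ν * (1 - ν)) - (4 * γ * (1 - γ)) * (w - ν) ^ 2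
          = (1 - w) * (1 - 2 * γ * ν) ^ 2 + w * (1 - 2 * γ * (1 - ν)) ^ 2
            + (4 * γ * (1 - γ)) * (w * (1 - w)) := by ring
      rw [hid]
      have h1 : 0 ≤ (1 - w) * (1 - 2 * γ * ν) ^ 2 :=
        mul_nonneg (by linarith) (sq_nonneg _)
      have h2 : 0 ≤ w * (1 - 2 * γ * (1 - ν)) ^ 2 := mul_nonneg hw0.le (sq_nonneg _)
      have h3 : 0 < (4 * γ * (1 - γ)) * (w * (1 - w)) :=
        mul_pos hdpos (mul_pos hw0 (by linarith))
      linarith
    · -- `u < 1`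
      have hkey : 0 < (4 * γ * (1 - γ)) * (w - ν) ^ 2 + 4 * γ * (ν * (1 - ν)) := by
        by_cases hy : w = ν
        · have hν0' : 0 < ν := by rw [← hy]; exact hw0
          have hν1' : 0 < 1 - ν := by rw [← hy]; linarith
          have : 0 < 4 * γ * (ν * (1 - ν)) := by positivity
          have h' : 0 ≤ (4 * γ * (1 - γ)) * (w - ν) ^ 2 := mul_nonneg hd0 (sq_nonneg _)
          linarith
        · have hy' : 0 < (w - ν) ^ 2 := by
            have : w - ν ≠ 0 := sub_ne_zero.2 hy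
            positivity
          have h1 : 0 < (4 * γ * (1 - γ)) * (w - ν) ^ 2 := mul_pos hdpos hy'
          have h2 : 0 ≤ 4 * γ * (ν * (1 - ν)) := by positivity
          linarith
      nlinarith

private lemma gad_sqrt_scale {c : ℝ} (hc : 0 ≤ c) (y : ℝ) :
    Real.sqrt (c ^ 2 * y) = c * Real.sqrt y := by
  rw [Real.sqrt_mul (sq_nonneg c), Real.sqrt_sq hc]

theorem PhiG_smul (γ ν : ℝ) {c : ℝ} (hc : 0 ≤ c) (a b : ℝ) :
    PhiG γ ν (c * a) (c * b) = c * PhiG γ ν a b := by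
  unfold PhiG gadScal
  have hdisc : (c * a + c * b) ^ 2 - 4 * gadDet γ ν (c * a) (c * b)
      = c ^ 2 * ((a + b) ^ 2 - 4 * gadDet γ ν a b) := by
    unfold gadDet; ring
  rw [hdisc, gad_sqrt_scale hc]
  set s := Real.sqrt ((a + b) ^ 2 - 4 * gadDet γ ν a b) with hs
  have e1 : (c * a + c * b + c * s) / 2 = c * ((a + b + s) / 2) := by ring
  have e2 : (c * a + c * b - c * s) / 2 = c * ((a + b - s) / 2) := by ring
  have e3 : c * a + c * b = c * (a + b) := by ring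
  rw [e1, e2, e3, Real.negMulLog_mul, Real.negMulLog_mul, Real.negMulLog_mul]
  ring

theorem PhiG_normal (γ ν w : ℝ) : PhiG γ ν (1 - w) w = gadScal γ ν (1 - w) w := by
  simp [PhiG]

theorem PhiG_zero (γ ν : ℝ) : PhiG γ ν 0 0 = 0 := by
  simp [PhiG, gadScal, gadDet]

private lemma PhiG_eq_mul (γ ν : ℝ) {a b : ℝ} (hS : 0 < a + b) :
    PhiG γ ν a b = (a + b) * gadScal γ ν (1 - b / (a + b)) (b / (a + b)) := by
  have h1 : a = (a + b) * (1 - b / (a + b)) := by
    field_simp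
    ring
  have h2 : b = (a + b) * (b / (a + b)) := by
    field_simp
  have h3 := PhiG_smul γ ν hS.le (1 - b / (a + b)) (b / (a + b))
  rw [← h1, ← h2, PhiG_normal] at h3
  exact h3

theorem PhiG_add {γ ν a b a' b' : ℝ} (hγ0 : 0 ≤ γ) (hγ1 : γ ≤ 1) (hν0 : 0 ≤ ν) (hν1 : ν ≤ 1)
    (ha : 0 ≤ a) (hb : 0 ≤ b) (ha' : 0 ≤ a') (hb' : 0 ≤ b') :
    PhiG γ ν (a + a') (b + b') ≤ PhiG γ ν a b + PhiG γ ν a' b' := by
  rcases (add_nonneg ha hb).eq_or_lt with hS | hS
  · have h1 : a = 0 := by linarith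
    have h2 : b = 0 := by linarith
    subst h1
    subst h2
    simp [PhiG_zero]
  rcases (add_nonneg ha' hb').eq_or_lt with hS' | hS'
  · have h1 : a' = 0 := by linarith
    have h2 : b' = 0 := by linarith
    subst h1
    subst h2
    simp [PhiG_zero]
  set S := a + b with hSd
  set S' := a' + b' with hSd'
  have hT : 0 < (a + a') + (b + b') := by linarith
  have hwm : b / S ∈ Icc (0 : ℝ) 1 :=
    ⟨div_nonneg hb hS.le, by rw [div_le_one hS]; linarith⟩
  have hwm' : b' / S' ∈ Icc (0 : ℝ) 1 :=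
    ⟨div_nonneg hb' hS'.le, by rw [div_le_one hS']; linarith⟩
  have ha0 : 0 ≤ S / (S + S') := by positivity
  have hb0 : 0 ≤ S' / (S + S') := by positivity
  have hab : S / (S + S') + S' / (S + S') = 1 := by field_simp
  have hconv := (gad_convex hγ0 hγ1 hν0 hν1).2 hwm hwm' ha0 hb0 hab
  simp only [smul_eq_mul] at hconv
  have hW : S / (S + S') * (b / S) + S' / (S + S') * (b' / S') = (b + b') / (a + a' + (b + b')) := by
    have : a + a' + (b + b') = S + S' := by rw [hSd, hSd']; ring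
    rw [this]
    field_simp
  rw [hW] at hconv
  rw [PhiG_eq_mul γ ν hT, PhiG_eq_mul γ ν hS, PhiG_eq_mul γ ν hS']
  have hTS : a + a' + (b + b') = S + S' := by rw [hSd, hSd']; ring
  rw [hTS] at hconv ⊢
  have hST : 0 < S + S' := by positivity
  rw [← hSd, ← hSd']
  calc (S + S') * gadScal γ ν (1 - (b + b') / (S + S')) ((b + b') / (S + S'))
      ≤ (S + S') * (S / (S + S') * gadScal γ ν (1 - b / S) (b / S)
          + S' / (S + S') * gadScal γ ν (1 - b' / S') (b' / S')) :=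
        mul_le_mul_of_nonneg_left hconv hST.le
    _ = _ := by
        field_simp

end

end Vale.Agent.Lib.P358
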