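import Vale.Agent.Lib.P358.GStatic
import Vale.Agent.Lib.P358.GAnaScal
import Vale.Agent.Lib.P358.Core

/-!
# The core inequality (P358 library): JOB G6 (`g_core_normal`), JOB G7 (`g_core_pd`, `g_core`)

Homogeneous entropy: `entE X = ent X - η(re tr X)`.

Paper proof of `g_core_normal`.  Path `T(τ) = τ C + N`, `C = gC α β M`, `N = gN N₀ N₁`, positive
definite for `τ ≥ 0`, and `τ C + N = gC (τ α) (τ β) (τ M) + N`.  Let `E = x ∑ η(α_k/x) + y ∑ η(β_l/y)`,
`L(τ) = ent T(τ) - gScal (τ x) (τ y) u v - τ E`.  Then `L` is continuous on `[0,1]` (`tendsto_ent`,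
`gScal_continuous`), `L 0 = (ent N₀ - η u) + (ent N₁ - η v)` (`ent_fromBlocks_diag`, `gScal_zero`),
`L 1` is the right side minus `gScal x y u v` minus `E`.  `L 0 ≤ L 1` by `mono_of_touching` (`CoreDiag`):
at `τ ∈ (0,1]`, the upper touching function, from Klein's inequality `ent_le_cross` with `B = T(τ)`, is
`g(τ') = -re tr(T(τ') logm T(τ)) + re tr T(τ) - re tr T(τ') - gScal (τ' x) (τ' y) u v - τ' E`, with equality at
`τ' = τ` (`ent_eq_neg_trace_mul_logm`), and derivative
`g'(τ) = -re tr(C logm T(τ)) - (x+y) - (Q(τ x, τ y, u, v) - τ (x+y))/τ - E` (`gScal_hasDerivAt`).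
Then `τ g'(τ) ≥ 0` is `g_static` for the data `(τ α, τ β, τ M, N₀, N₁)`:
`∑ τ α_k = τ x`, `τ α_k/(τ x) = α_k/x`, `gC (τ α) (τ β) (τ M) = τ C`.

Paper proof of `g_core_pd`.  Let `V_A`, `V_C` be the eigenvector unitaries of `A`, `C`, eigenvalues `α`,
`β` (positive), `𝐕 = diag(V_A, V_C)`.  `𝐕* [[A+N₀, M], [M*, C+N₁]] 𝐕 = gC α β M' + gN N₀' N₁'`, where
`M' = V_A* M V_C`, `N₀' = V_A* N₀ V_A`, `N₁' = V_C* N₁ V_C`; entropies (`ent_unitary_conj`) and traces are
unchanged; `x = ∑ α = tr A`; `entE A = x ∑ η(α_k/x)` (`ent_eq`, `negMulLog_mul`).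

Paper proof of `g_core` (PSD data).  Apply `g_core_pd` to `A + ε, C + ε, N₀ + ε, N₁ + ε`, `M`, `ε > 0` (the block matrix is
`[[A,M],[M*,C]] + ε` ⪰ 0), and let `ε → 0+` (`tendsto_ent`, `gScal_continuous`, continuity of `negMulLog`). If `ι` is empty
everything vanishes (`ent_of_isEmpty`).
-/

namespace Vale.Agent.Lib.P358

open Matrix Real Finset Filter Topology
open scoped ComplexOrder

noncomputable section

variable {ι : Type*} [Fintype ι] [DecidableEq ι]

/-- Homogeneous entropy: `entE X = S(X) - η(tr X)`, i.e. `(tr X) S(X / tr X)`. -/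
def entE {n : Type*} [Fintype n] [DecidableEq n] (X : Matrix n n ℂ) : ℝ :=
  ent X - negMulLog (trace X).re

theorem gC_smul (α β : ι → ℝ) (M : Matrix ι ι ℂ) (τ : ℝ) :
    gC (fun k => τ * α k) (fun l => τ * β l) ((τ : ℂ) • M) = (τ : ℂ) • gC α β M := by
  have h1 : (diagonal fun k => (((τ * α k : ℝ)) : ℂ)) = (τ : ℂ) • diagonal fun k => ((α k : ℝ) : ℂ) := by
    ext i j
    by_cases hij : i = j
    · subst hij; simp
    · simp [hij]
  have h2 : (diagonal fun k => (((τ * β k : ℝ)) : ℂ)) = (τ : ℂ) • diagonal fun k => ((β k : ℝ) : ℂ) := by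
    ext i j
    by_cases hij : i = j
    · subst hij; simp
    · simp [hij]
  simp only [gC, fromBlocks_smul, h1, h2, conjTranspose_smul, Complex.star_def, Complex.conj_ofReal]

theorem trace_gC (α β : ι → ℝ) (M : Matrix ι ι ℂ) :
    (trace (gC α β M)).re = ∑ k, α k + ∑ l, β l := by
  simp [gC, trace, Fintype.sum_sum_type, Complex.re_sum]

theorem ent_gN {N₀ N₁ : Matrix ι ι ℂ} (h₀ : N₀.IsHermitian) (h₁ : N₁.IsHermitian) :
    ent (gN N₀ N₁) = ent N₀ + ent N₁ := ent_fromBlocks_diag h₀ h₁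

theorem gC_path_posDef {C N : Matrix (ι ⊕ ι) (ι ⊕ ι) ℂ} (hC : C.PosSemidef) (hN : N.PosDef) {τ : ℝ}
    (hτ : 0 ≤ τ) : ((τ : ℂ) • C + N).PosDef := by
  have h1 : ((τ : ℂ) • C).PosSemidef := hC.smul (by exact_mod_cast hτ)
  exact hN.posSemidef_add h1 |> fun h => by simpa [add_comm] using h

/-- The core inequality, normal form. -/
theorem g_core_normal [Nonempty ι] (α β : ι → ℝ) (M N₀ N₁ : Matrix ι ι ℂ) (hα : ∀ k, 0 < α k)
    (hβ : ∀ l, 0 < β l) (hC : (gC α β M).PosSemidef) (h₀ : N₀.PosDef) (h₁ : N₁.PosDef) :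
    entE N₀ + entE N₁ +
        (∑ k, α k) * ∑ k, negMulLog (α k / ∑ k, α k) +
        (∑ l, β l) * ∑ l, negMulLog (β l / ∑ l, β l) +
        gScal (∑ k, α k) (∑ l, β l) (trace N₀).re (trace N₁).re ≤
      ent (gC α β M + gN N₀ N₁) := by
  set C := gC α β M with hCdef
  set N := gN N₀ N₁ with hNdef
  set x := ∑ k, α k with hx
  set y := ∑ l, β l with hy
  set u := (trace N₀).re with hu
  set v := (trace N₁).re with hv
  have hxpos : 0 < x := Finset.sum_pos (fun k _ => hα k) Finset.univ_nonempty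
  have hypos : 0 < y := Finset.sum_pos (fun k _ => hβ k) Finset.univ_nonempty
  have hupos : 0 < u := (Complex.lt_def.mp h₀.trace_pos).1
  have hvpos : 0 < v := (Complex.lt_def.mp h₁.trace_pos).1
  set E := x * ∑ k, negMulLog (α k / x) + y * ∑ l, negMulLog (β l / y) with hE
  have hNpd : N.PosDef := gN_posDef h₀ h₁
  have hTr : (trace C).re = x + y := trace_gC α β M
  set T : ℝ → Matrix (ι ⊕ ι) (ι ⊕ ι) ℂ := fun τ => (τ : ℂ) • C + N with hT
  have hTpd : ∀ τ, 0 ≤ τ → (T τ).PosDef := fun τ hτ => gC_path_posDef hC hNpd hτ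
  set L : ℝ → ℝ := fun τ => ent (T τ) - gScal (τ * x) (τ * y) u v - τ * E with hL
  have hgc : Continuous fun τ : ℝ => gScal (τ * x) (τ * y) u v :=
    gScal_continuous.comp (by fun_prop : Continuous fun τ : ℝ => (τ * x, τ * y, u, v))
  have hcont : ContinuousOn L (Set.Icc 0 1) := by
    have hent : Continuous fun τ : ℝ => ent (T |τ|) := by
      rw [continuous_iff_continuousAt]
      intro τ
      refine tendsto_ent (fun t => (hTpd |t| (abs_nonneg t)).posSemidef)
        (hTpd |τ| (abs_nonneg τ)).posSemidef ?_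
      have : Continuous fun t : ℝ => T |t| := by
        simp only [hT]
        fun_prop
      exact this.tendsto τ
    have h2 : ContinuousOn (fun τ : ℝ => ent (T |τ|) - gScal (τ * x) (τ * y) u v - τ * E) (Set.Icc 0 1) :=
      ((hent.sub hgc).sub (by fun_prop)).continuousOn
    refine h2.congr fun τ hτ => ?_
    simp only [hL, abs_of_nonneg hτ.1]
  have hmono : L 0 ≤ L 1 := by
    refine mono_of_touching zero_le_one hcont ?_
    intro τ hτ
    have hτ0 : 0 < τ := hτ.1
    have hPD := hTpd τ hτ0.le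
    set M' := logm (T τ) with hM'
    have htr : ∀ t : ℝ, (trace (T t)).re = t * (x + y) + (trace N).re := by
      intro t
      simp only [hT]
      rw [trace_add, trace_smul, smul_eq_mul, Complex.add_re, Complex.re_ofReal_mul, hTr]
    have htrM : ∀ t : ℝ, (trace (T t * M')).re = t * (trace (C * M')).re + (trace (N * M')).re := by
      intro t
      simp only [hT]
      rw [add_mul, trace_add, smul_mul_assoc, trace_smul, smul_eq_mul, Complex.add_re,
        Complex.re_ofReal_mul]
    refine ⟨fun t => -(t * (trace (C * M')).re + (trace (N * M')).re) +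
        (τ * (x + y) + (trace N).re) - (t * (x + y) + (trace N).re) -
        gScal (t * x) (t * y) u v - t * E,
      -(trace (C * M')).re - (x + y) - (gQ (τ * x) (τ * y) u v - τ * (x + y)) / τ - E, ?_, ?_, ?_, ?_⟩
    · have hg := gScal_hasDerivAt hxpos hypos hupos hvpos hτ0
      have h1 : HasDerivAt (fun t : ℝ => -(t * (trace (C * M')).re + (trace (N * M')).re))
          (-(1 * (trace (C * M')).re)) τ :=
        (((hasDerivAt_id τ).mul_const _).add_const _).neg
      have h2 : HasDerivAt (fun t : ℝ => t * (x + y) + (trace N).re) (1 * (x + y)) τ :=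
        ((hasDerivAt_id τ).mul_const _).add_const _
      have h3 : HasDerivAt (fun t : ℝ => t * E) (1 * E) τ := (hasDerivAt_id τ).mul_const _
      have h4 := (((h1.add_const (τ * (x + y) + (trace N).re)).sub h2).sub hg).sub h3
      refine h4.congr_deriv ?_
      ring
    · -- nonnegativity: the static inequality at `τ`
      have hst := g_static (fun k => τ * α k) (fun l => τ * β l) ((τ : ℂ) • M) N₀ N₁
        (fun k => mul_pos hτ0 (hα k)) (fun l => mul_pos hτ0 (hβ l))
        (by rw [gC_smul]; exact hC.smul (by exact_mod_cast hτ0.le)) h₀ h₁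
      rw [gC_smul] at hst
      have hs1 : ∑ k, τ * α k = τ * x := by rw [Finset.mul_sum]
      have hs2 : ∑ l, τ * β l = τ * y := by rw [Finset.mul_sum]
      rw [hs1, hs2] at hst
      have hr1 : ∀ k, τ * α k / (τ * x) = α k / x := fun k => by
        rw [mul_div_mul_left _ _ hτ0.ne']
      have hr2 : ∀ l, τ * β l / (τ * y) = β l / y := fun l => by
        rw [mul_div_mul_left _ _ hτ0.ne']
      simp only [hr1, hr2] at hst
      have e1 : (trace ((τ : ℂ) • C * logm ((τ : ℂ) • C + N))).re = τ * (trace (C * M')).re := by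
        rw [smul_mul_assoc, trace_smul, smul_eq_mul, Complex.re_ofReal_mul]
      rw [e1] at hst
      have hpos : 0 ≤ τ * (-(trace (C * M')).re - (x + y) -
          (gQ (τ * x) (τ * y) u v - τ * (x + y)) / τ - E) := by
        have : τ * (-(trace (C * M')).re - (x + y) -
            (gQ (τ * x) (τ * y) u v - τ * (x + y)) / τ - E) =
            -(τ * (trace (C * M')).re) - gQ (τ * x) (τ * y) u v - τ * E := by
          field_simp
          ring
        rw [this, hE]
        linarith
      exact nonneg_of_mul_nonneg_right hpos hτ0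
    · -- value at the point
      have h1 : ent (T τ) = -(trace (T τ * M')).re := ent_eq_neg_trace_mul_logm hPD.isHermitian
      simp only [hL]
      rw [h1, htrM]
      ring
    · -- Klein
      intro t ht
      have h1 := ent_le_cross (hTpd t ht.1).posSemidef hPD
      rw [htrM, htr, htr] at h1
      simp only [hL]
      linarith
  have h0 : L 0 = entE N₀ + entE N₁ := by
    have hT0 : T 0 = N := by simp [hT]
    have hg0 : gScal (0 * x) (0 * y) u v = negMulLog u + negMulLog v := by
      simp only [zero_mul]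
      exact gScal_zero hupos.le hvpos.le
    simp only [hL]
    rw [hT0, hg0, hNdef, ent_gN h₀.isHermitian h₁.isHermitian]
    simp only [entE]
    ring
  have h1 : L 1 = ent (C + N) - gScal x y u v - E := by
    have hT1 : T 1 = C + N := by simp [hT]
    simp only [hL]
    rw [hT1]
    simp
  rw [h0, h1] at hmono
  rw [hE] at hmono
  linarith


/-- `entE` of a positive definite matrix through the eigenvalues. -/
theorem entE_eq_eigen {A : Matrix ι ι ℂ} (hA : A.IsHermitian) (hne : (trace A).re ≠ 0) :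
    entE A = (trace A).re * ∑ k, negMulLog (hA.eigenvalues k / (trace A).re) := by
  set x := (trace A).re with hx
  have hxs : ∑ k, hA.eigenvalues k = x := by
    rw [hx, hA.trace_eq_sum_eigenvalues, Complex.re_sum]
    simp
  have hk : ∀ k, negMulLog (hA.eigenvalues k) =
      x * negMulLog (hA.eigenvalues k / x) + (hA.eigenvalues k / x) * negMulLog x := by
    intro k
    have : hA.eigenvalues k = (hA.eigenvalues k / x) * x := by field_simp
    conv_lhs => rw [this]
    rw [Real.negMulLog_mul]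
  unfold entE
  rw [ent_eq hA, ← hx, Finset.sum_congr rfl fun k _ => hk k, Finset.sum_add_distrib, ← Finset.mul_sum,
    ← Finset.sum_mul, ← Finset.sum_div, hxs, div_self hne, one_mul]
  ring

theorem entE_unitary_conj {n : Type*} [Fintype n] [DecidableEq n] (V : Matrix n n ℂ)
    (hV : V ∈ unitaryGroup n ℂ) {A : Matrix n n ℂ} (hA : A.IsHermitian) :
    entE (V * A * Vᴴ) = entE A := by
  have hVV : Vᴴ * V = 1 := by
    simpa [star_eq_conjTranspose] using mem_unitaryGroup_iff'.mp hV
  unfold entE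
  rw [ent_unitary_conj V hV A hA, Matrix.trace_mul_comm, ← Matrix.mul_assoc, hVV, Matrix.one_mul]

/-- The core inequality, positive definite data. -/
theorem g_core_pd [Nonempty ι] {A C N₀ N₁ : Matrix ι ι ℂ} (M : Matrix ι ι ℂ) (hA : A.PosDef)
    (hC : C.PosDef) (h₀ : N₀.PosDef) (h₁ : N₁.PosDef)
    (hB : (fromBlocks A M Mᴴ C).PosSemidef) :
    entE A + entE C + entE N₀ + entE N₁ +
        gScal (trace A).re (trace C).re (trace N₀).re (trace N₁).re ≤
      ent (fromBlocks (A + N₀) M Mᴴ (C + N₁)) := by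
  set hHA := hA.isHermitian with hhA
  set hHC := hC.isHermitian with hhC
  set VA : Matrix ι ι ℂ := (hHA.eigenvectorUnitary : Matrix ι ι ℂ) with hVA
  set VC : Matrix ι ι ℂ := (hHC.eigenvectorUnitary : Matrix ι ι ℂ) with hVC
  have hVAm : VA ∈ unitaryGroup ι ℂ := hHA.eigenvectorUnitary.2
  have hVCm : VC ∈ unitaryGroup ι ℂ := hHC.eigenvectorUnitary.2
  have hA1 : VA * VAᴴ = 1 := by simpa [star_eq_conjTranspose] using mem_unitaryGroup_iff.mp hVAm
  have hA2 : VAᴴ * VA = 1 := by simpa [star_eq_conjTranspose] using mem_unitaryGroup_iff'.mp hVAm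
  have hC1 : VC * VCᴴ = 1 := by simpa [star_eq_conjTranspose] using mem_unitaryGroup_iff.mp hVCm
  have hC2 : VCᴴ * VC = 1 := by simpa [star_eq_conjTranspose] using mem_unitaryGroup_iff'.mp hVCm
  set α := hHA.eigenvalues with hα
  set β := hHC.eigenvalues with hβ
  have hαpos : ∀ k, 0 < α k := hA.eigenvalues_pos
  have hβpos : ∀ k, 0 < β k := hC.eigenvalues_pos
  have hAs : VAᴴ * A * VA = diagonal fun k => ((α k : ℝ) : ℂ) := by
    have := herm_spectral_eq hHA
    calc VAᴴ * A * VA = VAᴴ * (VA * diagonal (fun i => ((α i : ℝ) : ℂ)) * VAᴴ) * VA := by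
          congr 2
      _ = (VAᴴ * VA) * diagonal (fun i => ((α i : ℝ) : ℂ)) * (VAᴴ * VA) := by
          simp only [Matrix.mul_assoc]
      _ = _ := by rw [hA2, Matrix.one_mul, Matrix.mul_one]
  have hCs : VCᴴ * C * VC = diagonal fun k => ((β k : ℝ) : ℂ) := by
    have := herm_spectral_eq hHC
    calc VCᴴ * C * VC = VCᴴ * (VC * diagonal (fun i => ((β i : ℝ) : ℂ)) * VCᴴ) * VC := by
          congr 2
      _ = (VCᴴ * VC) * diagonal (fun i => ((β i : ℝ) : ℂ)) * (VCᴴ * VC) := by
          simp only [Matrix.mul_assoc]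
      _ = _ := by rw [hC2, Matrix.one_mul, Matrix.mul_one]
  set W : Matrix (ι ⊕ ι) (ι ⊕ ι) ℂ := fromBlocks VA 0 0 VC with hW
  have hWH : Wᴴ = fromBlocks VAᴴ 0 0 VCᴴ := by
    rw [hW, fromBlocks_conjTranspose]
    simp
  have hWconj : ∀ P Q R S : Matrix ι ι ℂ, Wᴴ * fromBlocks P Q R S * W =
      fromBlocks (VAᴴ * P * VA) (VAᴴ * Q * VC) (VCᴴ * R * VA) (VCᴴ * S * VC) := by
    intro P Q R S
    rw [hWH, hW, fromBlocks_multiply, fromBlocks_multiply]
    simp
  have hWU : Wᴴ ∈ unitaryGroup (ι ⊕ ι) ℂ := by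
    rw [mem_unitaryGroup_iff, star_eq_conjTranspose, conjTranspose_conjTranspose, hWH, hW,
      fromBlocks_multiply]
    simp [hA2, hC2, fromBlocks_one]
  set M' := VAᴴ * M * VC with hM'
  set N₀' := VAᴴ * N₀ * VA with hN₀'
  set N₁' := VCᴴ * N₁ * VC with hN₁'
  have hM'H : M'ᴴ = VCᴴ * Mᴴ * VA := by
    rw [hM', conjTranspose_mul, conjTranspose_mul, conjTranspose_conjTranspose, Matrix.mul_assoc]
  have hblock : gC α β M' = Wᴴ * fromBlocks A M Mᴴ C * W := by
    rw [hWconj, hAs, hCs, gC, hM'H]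
  have hCpsd : (gC α β M').PosSemidef := by
    rw [hblock]
    exact hB.conjTranspose_mul_mul_same W
  have inj : ∀ V : Matrix ι ι ℂ, Vᴴ * V = 1 → V * Vᴴ = 1 → Function.Injective V.mulVec := by
    intro V h _ a b hab
    have := congrArg (fun z => Vᴴ *ᵥ z) hab
    simpa [Matrix.mulVec_mulVec, h] using this
  have hN₀pd : N₀'.PosDef := h₀.conjTranspose_mul_mul_same (inj VA hA2 hA1)
  have hN₁pd : N₁'.PosDef := h₁.conjTranspose_mul_mul_same (inj VC hC2 hC1)
  have key := g_core_normal α β M' N₀' N₁' hαpos hβpos hCpsd hN₀pd hN₁pd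
  -- traces
  have htrA : ∑ k, α k = (trace A).re := by
    rw [hHA.trace_eq_sum_eigenvalues, Complex.re_sum]
    simp [hα]
  have htrC : ∑ k, β k = (trace C).re := by
    rw [hHC.trace_eq_sum_eigenvalues, Complex.re_sum]
    simp [hβ]
  have htrA' : 0 < (trace A).re := (Complex.lt_def.mp hA.trace_pos).1
  have htrC' : 0 < (trace C).re := (Complex.lt_def.mp hC.trace_pos).1
  have htr₀ : (trace N₀').re = (trace N₀).re := by
    rw [hN₀', Matrix.trace_mul_comm, ← Matrix.mul_assoc, hA1, Matrix.one_mul]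
  have htr₁ : (trace N₁').re = (trace N₁).re := by
    rw [hN₁', Matrix.trace_mul_comm, ← Matrix.mul_assoc, hC1, Matrix.one_mul]
  have hVAH : VAᴴ ∈ unitaryGroup ι ℂ := by
    rw [mem_unitaryGroup_iff, star_eq_conjTranspose, conjTranspose_conjTranspose]
    exact hA2
  have hVCH : VCᴴ ∈ unitaryGroup ι ℂ := by
    rw [mem_unitaryGroup_iff, star_eq_conjTranspose, conjTranspose_conjTranspose]
    exact hC2
  have he₀ : entE N₀' = entE N₀ := by
    have := entE_unitary_conj VAᴴ hVAH h₀.isHermitian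
    rwa [conjTranspose_conjTranspose] at this
  have he₁ : entE N₁' = entE N₁ := by
    have := entE_unitary_conj VCᴴ hVCH h₁.isHermitian
    rwa [conjTranspose_conjTranspose] at this
  have hT : gC α β M' + gN N₀' N₁' = Wᴴ * fromBlocks (A + N₀) M Mᴴ (C + N₁) * W := by
    rw [hWconj, gC, gN, fromBlocks_add, Matrix.mul_add, Matrix.add_mul, Matrix.mul_add, Matrix.add_mul,
      hAs, hCs, hM'H]
    simp [hM', hN₀', hN₁']
  have hTH : (fromBlocks (A + N₀) M Mᴴ (C + N₁)).IsHermitian := by
    unfold Matrix.IsHermitian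
    rw [fromBlocks_conjTranspose, conjTranspose_conjTranspose, conjTranspose_add, conjTranspose_add,
      hA.isHermitian.eq, hC.isHermitian.eq, h₀.isHermitian.eq, h₁.isHermitian.eq]
  have hent : ent (gC α β M' + gN N₀' N₁') = ent (fromBlocks (A + N₀) M Mᴴ (C + N₁)) := by
    have := ent_unitary_conj Wᴴ hWU _ hTH
    rwa [conjTranspose_conjTranspose, ← hT] at this
  rw [hent, he₀, he₁, htr₀, htr₁, htrA, htrC] at key
  have heA := entE_eq_eigen hHA htrA'.ne'
  have heC := entE_eq_eigen hHC htrC'.ne'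
  rw [heA, heC]
  linarith

/-- Positive perturbation used for the limit. -/
private def pert (X : Matrix ι ι ℂ) (ε : ℝ) : Matrix ι ι ℂ := X + ((|ε| : ℝ) : ℂ) • (1 : Matrix ι ι ℂ)

private theorem pert_continuous (X : Matrix ι ι ℂ) : Continuous (pert X) := by
  unfold pert
  fun_prop

private theorem pert_zero (X : Matrix ι ι ℂ) : pert X 0 = X := by
  simp [pert]

private theorem pert_psd {X : Matrix ι ι ℂ} (hX : X.PosSemidef) (ε : ℝ) : (pert X ε).PosSemidef := by
  unfold pert
  refine hX.add (PosSemidef.one.smul ?_)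
  exact_mod_cast abs_nonneg ε

private theorem pert_pd {X : Matrix ι ι ℂ} (hX : X.PosSemidef) {ε : ℝ} (hε : ε ≠ 0) :
    (pert X ε).PosDef := by
  unfold pert
  refine Matrix.PosDef.posSemidef_add hX (PosDef.one.smul ?_)
  exact_mod_cast abs_pos.mpr hε

private theorem entE_tendsto {X : Matrix ι ι ℂ} (hX : X.PosSemidef) :
    Tendsto (fun ε => entE (pert X ε)) (𝓝 0) (𝓝 (entE X)) := by
  unfold entE
  refine Tendsto.sub ?_ ?_
  · have h := tendsto_ent (fun ε => pert_psd hX ε) hX
      (l := 𝓝 0) (by simpa [pert_zero] using (pert_continuous X).tendsto 0)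
    exact h
  · have hc : Continuous fun ε => negMulLog (trace (pert X ε)).re :=
      continuous_negMulLog.comp (Complex.continuous_re.comp ((pert_continuous X).matrix_trace))
    simpa [pert_zero] using hc.tendsto 0

/-- **The core inequality.** -/
theorem g_core {A C N₀ N₁ : Matrix ι ι ℂ} (M : Matrix ι ι ℂ) (h₀ : N₀.PosSemidef)
    (h₁ : N₁.PosSemidef) (hB : (fromBlocks A M Mᴴ C).PosSemidef) :
    entE A + entE C + entE N₀ + entE N₁ +
        gScal (trace A).re (trace C).re (trace N₀).re (trace N₁).re ≤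
      ent (fromBlocks (A + N₀) M Mᴴ (C + N₁)) := by
  rcases isEmpty_or_nonempty ι with hι | hι
  · simp [entE, ent_of_isEmpty, gScal, gMuP, gMuM, gP, gD]
  have hA : A.PosSemidef := by
    have := hB.submatrix (Sum.inl : ι → ι ⊕ ι)
    convert this using 1
    ext i j
    simp
  have hC : C.PosSemidef := by
    have := hB.submatrix (Sum.inr : ι → ι ⊕ ι)
    convert this using 1
    ext i j
    simp
  have hB' : ∀ ε : ℝ, (fromBlocks (pert A ε) M Mᴴ (pert C ε)).PosSemidef := by
    intro ε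
    have h1 : fromBlocks (pert A ε) M Mᴴ (pert C ε) = fromBlocks A M Mᴴ C +
        ((|ε| : ℝ) : ℂ) • (1 : Matrix (ι ⊕ ι) (ι ⊕ ι) ℂ) := by
      rw [← fromBlocks_one, fromBlocks_smul, fromBlocks_add]
      simp [pert]
    rw [h1]
    refine hB.add (PosSemidef.one.smul ?_)
    exact_mod_cast abs_nonneg ε
  have hT : ∀ ε : ℝ, (fromBlocks (pert A ε + pert N₀ ε) M Mᴴ (pert C ε + pert N₁ ε)).PosSemidef := by
    intro ε
    have h1 : fromBlocks (pert A ε + pert N₀ ε) M Mᴴ (pert C ε + pert N₁ ε) =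
        fromBlocks (pert A ε) M Mᴴ (pert C ε) + fromBlocks (pert N₀ ε) 0 0 (pert N₁ ε) := by
      rw [fromBlocks_add]
      simp
    rw [h1]
    refine (hB' ε).add ?_
    have : fromBlocks (pert N₀ ε) 0 0 (pert N₁ ε) = gN (pert N₀ ε) (pert N₁ ε) := rfl
    rw [this]
    have h2 : gN (pert N₀ ε) (pert N₁ ε) = fromBlocks N₀ 0 0 N₁ +
        ((|ε| : ℝ) : ℂ) • (1 : Matrix (ι ⊕ ι) (ι ⊕ ι) ℂ) := by
      rw [← fromBlocks_one, fromBlocks_smul, fromBlocks_add]
      simp [pert, gN]
    rw [h2]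
    refine PosSemidef.add ?_ (PosSemidef.one.smul ?_)
    · refine PosSemidef.of_dotProduct_mulVec_nonneg ?_ fun x => ?_
      · unfold Matrix.IsHermitian
        rw [fromBlocks_conjTranspose, h₀.isHermitian.eq, h₁.isHermitian.eq]
        simp
      · have h3 : star x ⬝ᵥ (fromBlocks N₀ 0 0 N₁ *ᵥ x) =
            star (x ∘ Sum.inl) ⬝ᵥ (N₀ *ᵥ (x ∘ Sum.inl)) +
              star (x ∘ Sum.inr) ⬝ᵥ (N₁ *ᵥ (x ∘ Sum.inr)) := by
          simp [dotProduct, Fintype.sum_sum_type, mulVec, fromBlocks_apply₁₁, fromBlocks_apply₂₂]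
        rw [h3]
        exact add_nonneg (h₀.dotProduct_mulVec_nonneg _) (h₁.dotProduct_mulVec_nonneg _)
    · exact_mod_cast abs_nonneg ε
  have hlimR : Tendsto (fun ε => ent (fromBlocks (pert A ε + pert N₀ ε) M Mᴴ (pert C ε + pert N₁ ε)))
      (𝓝 0) (𝓝 (ent (fromBlocks (A + N₀) M Mᴴ (C + N₁)))) := by
    have hz : PosSemidef (fromBlocks (A + N₀) M Mᴴ (C + N₁)) := by
      have := hT 0
      simpa [pert_zero] using this
    refine tendsto_ent hT hz ?_
    have hc : Continuous fun ε => fromBlocks (pert A ε + pert N₀ ε) M Mᴴ (pert C ε + pert N₁ ε) :=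
      Continuous.matrix_fromBlocks ((pert_continuous A).add (pert_continuous N₀)) continuous_const
        continuous_const ((pert_continuous C).add (pert_continuous N₁))
    simpa [pert_zero] using hc.tendsto 0
  have hlimG : Tendsto (fun ε => gScal (trace (pert A ε)).re (trace (pert C ε)).re
      (trace (pert N₀ ε)).re (trace (pert N₁ ε)).re) (𝓝 0)
      (𝓝 (gScal (trace A).re (trace C).re (trace N₀).re (trace N₁).re)) := by
    have htc : ∀ X : Matrix ι ι ℂ, Continuous fun ε => (trace (pert X ε)).re := fun X =>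
      Complex.continuous_re.comp ((pert_continuous X).matrix_trace)
    have hc := gScal_continuous.comp ((htc A).prodMk ((htc C).prodMk ((htc N₀).prodMk (htc N₁))))
    have := hc.tendsto 0
    simpa [Function.comp_def, pert_zero] using this
  have hlimL := (((((entE_tendsto hA).add (entE_tendsto hC)).add (entE_tendsto h₀)).add
    (entE_tendsto h₁)).add hlimG)
  refine le_of_tendsto_of_tendsto (b := 𝓝[≠] (0 : ℝ)) (hlimL.mono_left nhdsWithin_le_nhds)
    (hlimR.mono_left nhdsWithin_le_nhds) ?_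
  filter_upwards [self_mem_nhdsWithin] with ε hε
  exact g_core_pd M (pert_pd hA hε) (pert_pd hC hε) (pert_pd h₀ hε) (pert_pd h₁ hε) (hB' ε)

end

end Vale.Agent.Lib.P358
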