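import Vale.Agent.Lib.P358.Defs

/-!
# Definitions for P358, general parameters: generalized amplitude damping channel

All statements of the P358 hand-ins for general `ν` are phrased with the definitions of this file
(together with `ent`, `vnEntropy`, `h2`, `IsDensity` of `Defs.lean`).
-/

namespace Vale.Agent.Lib.P358

open Matrix Real Finset
open scoped ComplexOrder

noncomputable section

/-- Kraus operators of the generalized amplitude damping channel `A_{γ,ν}`: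
`√(1-ν) diag(1, √(1-γ))`, `√((1-ν)γ) |0⟩⟨1|`, `√ν diag(√(1-γ), 1)`, `√(νγ) |1⟩⟨0|`. -/
def krausGAD (γ ν : ℝ) : Fin 4 → Matrix (Fin 2) (Fin 2) ℂ :=
  ![!![((Real.sqrt (1 - ν) : ℝ) : ℂ), 0; 0, ((Real.sqrt (1 - ν) * Real.sqrt (1 - γ) : ℝ) : ℂ)],
    !![0, ((Real.sqrt (1 - ν) * Real.sqrt γ : ℝ) : ℂ); 0, 0],
    !![((Real.sqrt ν * Real.sqrt (1 - γ) : ℝ) : ℂ), 0; 0, ((Real.sqrt ν : ℝ) : ℂ)],
    !![0, 0; ((Real.sqrt ν * Real.sqrt γ : ℝ) : ℂ), 0]]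

/-- Kraus operators of the `n`-fold tensor power: `K_e = ⊗ᵢ K_{e i}`. -/
def krausPowG (γ ν : ℝ) (n : ℕ) (e : Fin n → Fin 4) :
    Matrix (Fin n → Fin 2) (Fin n → Fin 2) ℂ :=
  Matrix.of fun z w => ∏ i, krausGAD γ ν (e i) (z i) (w i)

/-- The `n`-fold tensor power of the generalized amplitude damping channel. -/
def gadPow (γ ν : ℝ) (n : ℕ) (ρ : Matrix (Fin n → Fin 2) (Fin n → Fin 2) ℂ) :
    Matrix (Fin n → Fin 2) (Fin n → Fin 2) ℂ :=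
  ∑ e, krausPowG γ ν n e * ρ * (krausPowG γ ν n e)ᴴ

/-- Holevo quantity of the ensemble `(q, ρ)` for `A_{γ,ν}^{⊗n}`, in bits. -/
def holevoQuantityG (γ ν : ℝ) (n m : ℕ) (q : Fin m → ℝ)
    (ρ : Fin m → Matrix (Fin n → Fin 2) (Fin n → Fin 2) ℂ) : ℝ :=
  vnEntropy (gadPow γ ν n (∑ a, ((q a : ℝ) : ℂ) • ρ a)) - ∑ a, q a * vnEntropy (gadPow γ ν n (ρ a))

/-- The set of all Holevo quantities of finite ensembles for `A_{γ,ν}^{⊗n}`. -/
def holevoSetG (γ ν : ℝ) (n : ℕ) : Set ℝ :=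
  {χ | ∃ (m : ℕ) (q : Fin m → ℝ) (ρ : Fin m → Matrix (Fin n → Fin 2) (Fin n → Fin 2) ℂ),
      (∀ a, 0 ≤ q a) ∧ ∑ a, q a = 1 ∧ (∀ a, IsDensity (ρ a)) ∧ χ = holevoQuantityG γ ν n m q ρ}

/-- Holevo capacity of `A_{γ,ν}^{⊗n}`. -/
def chiPowG (γ ν : ℝ) (n : ℕ) : ℝ := sSup (holevoSetG γ ν n)

end

end Vale.Agent.Lib.P358
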