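import Vale.Agent.Lib.P358.Letter
import Vale.Agent.Lib.P358.EntKlein

/-!
# The Holevo bound: `χ(A_{γ,0}^{⊗n}) ≤ n χ(A_{γ,0})` (P358 library)

Paper proof of `holevo_le`.  Write each `ρ_a = ∑_i p_{a,i} ψ_{a,i} ψ_{a,i}*` (spectral theorem, unit
vectors), `t_{a,i} = excit ψ_{a,i} / n ∈ [0,1]`.  `adPow` is linear.  By `ent_sum_ge`,
`S(N ρ_a) ≥ ∑_i p_{a,i} S(N ψ_{a,i}ψ_{a,i}*)`, by `ent_outY_ge`, `PhiAD_smul`, `PhiAD_normal`:
`S(N ψψ*) ≥ n f(t)`.  With `w = ∑ q_a p_{a,i} t_{a,i}` and convexity (`scal_convex`, Jensen)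
`∑_a q_a S(N ρ_a) ≥ n f(w)`.  Output: `ρ̄ = ∑ q_a ρ_a`; `E_out = ∑_z wt(z) (N ρ̄)_zz = (1-γ) n w` by
`output_excit` and linearity, the trace is `1` by `output_trace`.  `ent_le_diag_cross` with the
product distribution `σ(z) = t^{wt z} (1-t)^{n - wt z}`, `t ∈ (0,1)`:
`S(N ρ̄) ≤ -E_out log t - (n-E_out) log(1-t)` (`∑σ = 1`);
if `t' = (1-γ) w ∈ (0,1)` take `t = t'`, which gives `n h₂(t')`; if `t' ∈ {0,1}` let `t → t'`.
-/

namespace Vale.Agent.Lib.P358

open Matrix Real Finset
open scoped ComplexOrder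

noncomputable section

/-! ### Linearity of the channel and of the diagonal functionals -/

theorem adPow_sum_smul {ι : Type*} (s : Finset ι) (γ : ℝ) (n : ℕ) (c : ι → ℝ)
    (B : ι → Matrix (Fin n → Fin 2) (Fin n → Fin 2) ℂ) :
    adPow γ n (∑ i ∈ s, ((c i : ℝ) : ℂ) • B i) = ∑ i ∈ s, ((c i : ℝ) : ℂ) • adPow γ n (B i) := by
  simp only [adPow, Matrix.mul_sum, Matrix.sum_mul, Matrix.mul_smul, Matrix.smul_mul,
    Finset.smul_sum]
  rw [Finset.sum_comm]

theorem diagL_sum_smul {ι m : Type*} [Fintype m] (s : Finset ι) (g : m → ℝ) (c : ι → ℝ)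
    (B : ι → Matrix m m ℂ) :
    ∑ z, g z * ((∑ a ∈ s, ((c a : ℝ) : ℂ) • B a) z z).re =
      ∑ a ∈ s, c a * ∑ z, g z * (B a z z).re := by
  simp only [Matrix.sum_apply, Matrix.smul_apply, smul_eq_mul, Complex.re_sum, Complex.re_ofReal_mul,
    Finset.mul_sum]
  rw [Finset.sum_comm]
  refine Finset.sum_congr rfl fun a _ => Finset.sum_congr rfl fun z _ => ?_
  ring

theorem trace_re_eq {m : Type*} [Fintype m] (A : Matrix m m ℂ) :
    (trace A).re = ∑ z, (1 : ℝ) * (A z z).re := by
  simp [Matrix.trace, Complex.re_sum]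

/-! ### Spectral decomposition into pure states -/

theorem exists_pure_decomp {m : Type*} [Fintype m] [DecidableEq m] (ρ : Matrix m m ℂ)
    (hρ : IsDensity ρ) :
    ∃ (p : m → ℝ) (ψ : m → m → ℂ), (∀ i, 0 ≤ p i) ∧ ∑ i, p i = 1 ∧
      (∀ i, ∑ z, ‖ψ i z‖ ^ 2 = 1) ∧
      ρ = ∑ i, ((p i : ℝ) : ℂ) • vecMulVec (ψ i) (star (ψ i)) := by
  have h : ρ.IsHermitian := hρ.1.isHermitian
  refine ⟨h.eigenvalues, fun i z => (h.eigenvectorUnitary : Matrix m m ℂ) z i,
    hρ.1.eigenvalues_nonneg, ?_, ?_, ?_⟩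
  · have := h.trace_eq_sum_eigenvalues
    rw [hρ.2] at this
    have h2 := congrArg Complex.re this
    simp only [Complex.one_re, Complex.re_sum] at h2
    simpa using h2.symm
  · intro i
    have hU := Matrix.mem_unitaryGroup_iff'.1 h.eigenvectorUnitary.2
    have h1 := congrFun (congrFun hU i) i
    simp only [Matrix.mul_apply, Matrix.star_apply, Matrix.one_apply_eq] at h1
    have h2 := congrArg Complex.re h1
    simp only [Complex.one_re, Complex.re_sum] at h2
    rw [← h2]
    refine Finset.sum_congr rfl fun z _ => ?_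
    rw [RCLike.star_def, mul_comm, Complex.mul_conj, Complex.normSq_eq_norm_sq, Complex.ofReal_re]
  · conv_lhs => rw [h.spectral_theorem]
    ext z z'
    simp only [Unitary.conjStarAlgAut_apply, Matrix.mul_apply, Matrix.sum_apply, Matrix.smul_apply,
      vecMulVec_apply, smul_eq_mul, Pi.star_apply, Matrix.star_apply]
    simp only [Function.comp_apply, Matrix.diagonal_apply, mul_ite, mul_zero, Finset.sum_ite_eq',
      Finset.mem_univ, if_true]
    refine Finset.sum_congr rfl fun i _ => ?_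
    simp only [Unitary.coe_star, Matrix.star_apply, Complex.coe_algebraMap]
    ring

/-! ### The upper bound for the output entropy -/

/-- One factor of the product reference distribution. -/
def sigG (t : ℝ) (c : Fin 2) : ℝ := if c = 1 then t else 1 - t

/-- The product reference distribution. -/
def sigmaP (t : ℝ) {n : ℕ} (z : Fin n → Fin 2) : ℝ :=
  ∏ i, sigG t (z i)

theorem sigG_zero (t : ℝ) : sigG t 0 = 1 - t := by simp [sigG]

theorem sigG_one (t : ℝ) : sigG t 1 = t := by simp [sigG]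

theorem sigmaP_pos {t : ℝ} (h0 : 0 < t) (h1 : t < 1) {n : ℕ} (z : Fin n → Fin 2) :
    0 < sigmaP t z := by
  refine Finset.prod_pos fun i _ => ?_
  unfold sigG
  split_ifs
  · exact h0
  · linarith

theorem sigmaP_sum (t : ℝ) (n : ℕ) : ∑ z : Fin n → Fin 2, sigmaP t z = 1 := by
  induction n with
  | zero => simp [sigmaP]
  | succ n ih =>
    rw [sum_cons]
    have h0 : ∀ w : Fin n → Fin 2, sigmaP t (cb 0 w) = (1 - t) * sigmaP t w := by
      intro w
      unfold sigmaP
      rw [Fin.prod_univ_succ]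
      simp only [cb_zero, cb_succ, sigG_zero]
    have h1 : ∀ w : Fin n → Fin 2, sigmaP t (cb 1 w) = t * sigmaP t w := by
      intro w
      unfold sigmaP
      rw [Fin.prod_univ_succ]
      simp only [cb_zero, cb_succ, sigG_one]
    simp only [h0, h1, ← Finset.mul_sum, ih]
    ring

theorem log_sigmaP {t : ℝ} (h0 : 0 < t) (h1 : t < 1) {n : ℕ} (z : Fin n → Fin 2) :
    Real.log (sigmaP t z) = (wt z : ℝ) * Real.log t + ((n : ℝ) - (wt z : ℝ)) * Real.log (1 - t) := by
  induction n with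
  | zero => simp [sigmaP, wt]
  | succ n ih =>
    have hz : z = cb (z 0) (Fin.tail z) := (cb_tail z).symm
    have ih' := ih (Fin.tail z)
    have hs : sigmaP t z = sigG t (z 0) * sigmaP t (Fin.tail z) := by
      unfold sigmaP
      rw [Fin.prod_univ_succ]
      rfl
    have hw : wt z = (z 0).val + wt (Fin.tail z) := by
      rw [hz, wt_cons]; simp
    have hpos : 0 < sigmaP t (Fin.tail z) := sigmaP_pos h0 h1 _
    rw [hs, hw]
    have hcases : z 0 = 0 ∨ z 0 = 1 := by
      have := Fin.isLt (z 0)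
      rcases Nat.lt_or_ge (z 0).val 1 with h | h
      · left; ext; simp; omega
      · right; ext; simp; omega
    rcases hcases with h | h
    · rw [h, sigG_zero, Real.log_mul (by linarith) hpos.ne', ih']
      push_cast
      simp
      ring
    · rw [h, sigG_one, Real.log_mul h0.ne' hpos.ne', ih']
      push_cast
      simp
      ring

theorem diag_bound {n : ℕ} {A : Matrix (Fin n → Fin 2) (Fin n → Fin 2) ℂ} (hA : A.PosSemidef)
    (htr : (trace A).re = 1) {t : ℝ} (h0 : 0 < t) (h1 : t < 1) :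
    ent A ≤ -(∑ z, (wt z : ℝ) * (A z z).re) * Real.log t -
      ((n : ℝ) - ∑ z, (wt z : ℝ) * (A z z).re) * Real.log (1 - t) := by
  have h := ent_le_diag_cross hA (sigmaP t) (sigmaP_pos h0 h1)
  rw [sigmaP_sum, htr] at h
  have h2 : ∑ i, (A i i).re * Real.log (sigmaP t i) =
      (∑ z, (wt z : ℝ) * (A z z).re) * Real.log t +
        ((n : ℝ) - ∑ z, (wt z : ℝ) * (A z z).re) * Real.log (1 - t) := by
    have htr2 : ∑ z, (A z z).re = 1 := by
      rw [← htr, trace_re_eq]; simp
    calc ∑ i, (A i i).re * Real.log (sigmaP t i)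
        = ∑ z, ((wt z : ℝ) * (A z z).re * (Real.log t - Real.log (1 - t)) +
            (A z z).re * ((n : ℝ) * Real.log (1 - t))) := by
          refine Finset.sum_congr rfl fun z _ => ?_
          rw [log_sigmaP h0 h1]; ring
      _ = (∑ z, (wt z : ℝ) * (A z z).re) * (Real.log t - Real.log (1 - t)) +
            (∑ z, (A z z).re) * ((n : ℝ) * Real.log (1 - t)) := by
          rw [Finset.sum_add_distrib, Finset.sum_mul, Finset.sum_mul]
      _ = _ := by rw [htr2]; ring
  rw [h2] at h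
  linarith

theorem ent_le_h2 {n : ℕ} {A : Matrix (Fin n → Fin 2) (Fin n → Fin 2) ℂ} (hA : A.PosSemidef)
    (htr : (trace A).re = 1) {t' : ℝ} (h0 : 0 ≤ t') (h1 : t' ≤ 1)
    (hE : ∑ z, (wt z : ℝ) * (A z z).re = n * t') :
    ent A ≤ n * h2 t' := by
  rcases h0.eq_or_lt with h | h0'
  · subst h
    have hb : ∀ t ∈ Set.Ioo (0 : ℝ) 1, ent A ≤ -((n : ℝ) * Real.log (1 - t)) := by
      intro t ht
      have := diag_bound hA htr ht.1 ht.2
      rw [hE] at this
      simpa using this
    have hlim : Filter.Tendsto (fun t : ℝ => -((n : ℝ) * Real.log (1 - t)))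
        (nhdsWithin 0 (Set.Ioi 0)) (nhds (-((n : ℝ) * Real.log (1 - 0)))) := by
      refine Filter.Tendsto.mono_left ?_ nhdsWithin_le_nhds
      have : ContinuousAt (fun t : ℝ => -((n : ℝ) * Real.log (1 - t))) 0 := by
        refine ContinuousAt.neg (ContinuousAt.mul continuousAt_const ?_)
        exact ContinuousAt.log (continuousAt_const.sub continuousAt_id) (by norm_num)
      exact this
    have hle : ent A ≤ -((n : ℝ) * Real.log (1 - 0)) := by
      refine ge_of_tendsto hlim ?_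
      filter_upwards [Ioo_mem_nhdsGT (show (0 : ℝ) < 1 by norm_num)] with t ht using hb t ht
    simpa [h2] using hle
  · rcases h1.eq_or_lt with h | h1'
    · subst h
      have hb : ∀ t ∈ Set.Ioo (0 : ℝ) 1, ent A ≤ -((n : ℝ) * Real.log t) := by
        intro t ht
        have := diag_bound hA htr ht.1 ht.2
        rw [hE] at this
        simpa using this
      have hlim : Filter.Tendsto (fun t : ℝ => -((n : ℝ) * Real.log t))
          (nhdsWithin 1 (Set.Iio 1)) (nhds (-((n : ℝ) * Real.log 1))) := by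
        refine Filter.Tendsto.mono_left ?_ nhdsWithin_le_nhds
        have : ContinuousAt (fun t : ℝ => -((n : ℝ) * Real.log t)) 1 := by
          refine ContinuousAt.neg (ContinuousAt.mul continuousAt_const ?_)
          exact ContinuousAt.log continuousAt_id (by norm_num)
        exact this
      have hle : ent A ≤ -((n : ℝ) * Real.log 1) := by
        refine ge_of_tendsto hlim ?_
        filter_upwards [Ioo_mem_nhdsLT (show (0 : ℝ) < 1 by norm_num)] with t ht using hb t ht
      simpa [h2] using hle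
    · have := diag_bound hA htr h0' h1'
      rw [hE] at this
      have hh : (n : ℝ) * h2 t' = -((n : ℝ) * t') * Real.log t' -
          ((n : ℝ) - n * t') * Real.log (1 - t') := by
        simp only [h2, Real.negMulLog]
        ring
      rw [hh]
      exact this

/-! ### The lower bound for pure states -/

theorem pure_lower {γ : ℝ} (h0 : 0 ≤ γ) (h1 : γ ≤ 1) {n : ℕ} (hn : 1 ≤ n)
    (ψ : (Fin n → Fin 2) → ℂ) (hψ : nrm2 ψ = 1) :
    (n : ℝ) * scal γ (1 - excit ψ / n) (excit ψ / n) ≤ ent (outY γ n ψ * (outY γ n ψ)ᴴ) := by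
  have hn0 : (0 : ℝ) < n := by exact_mod_cast hn
  have hle := excit_le ψ
  rw [hψ, mul_one] at hle
  have ht0 : 0 ≤ excit ψ / n := div_nonneg (excit_nonneg ψ) hn0.le
  have ht1 : 0 ≤ 1 - excit ψ / n := by
    rw [sub_nonneg, div_le_one hn0]; exact hle
  have h := ent_outY_ge h0 h1 n ψ
  rw [hψ, Real.negMulLog_one, sub_zero, mul_one] at h
  have hsm := PhiAD_smul (γ := γ) (c := n) (a := 1 - excit ψ / n) (b := excit ψ / n) h0 h1 hn0.le
    ht1 ht0
  have e1 : (n : ℝ) * (1 - excit ψ / n) = n - excit ψ := by field_simp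
  have e2 : (n : ℝ) * (excit ψ / n) = excit ψ := by field_simp
  rw [e1, e2, PhiAD_normal] at hsm
  rw [← hsm]
  exact h

/-! ### Main bound -/

/-- Every ensemble on `n` qubits has mean excitation density `w ∈ [0,1]` with
`χ ≤ n (h₂((1-γ)w) - f(w))/log 2`. -/
theorem holevo_le {γ : ℝ} (h0 : 0 ≤ γ) (h1 : γ ≤ 1) {n : ℕ} (hn : 1 ≤ n) {m : ℕ} (q : Fin m → ℝ)
    (ρ : Fin m → Matrix (Fin n → Fin 2) (Fin n → Fin 2) ℂ) (hq : ∀ a, 0 ≤ q a)
    (hq1 : ∑ a, q a = 1) (hρ : ∀ a, IsDensity (ρ a)) :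
    ∃ w ∈ Set.Icc (0 : ℝ) 1, holevoQuantity γ n m q ρ ≤
      n * ((h2 ((1 - γ) * w) - scal γ (1 - w) w) / Real.log 2) := by
  classical
  have hn0 : (0 : ℝ) < n := by exact_mod_cast hn
  choose p ψ hp hp1 hψ hdec using fun a => exists_pure_decomp (ρ a) (hρ a)
  have hnrm : ∀ a i, nrm2 (ψ a i) = 1 := hψ
  -- weights and points
  set t : Fin m → (Fin n → Fin 2) → ℝ := fun a i => excit (ψ a i) / n with ht
  have ht0 : ∀ a i, 0 ≤ t a i := fun a i => div_nonneg (excit_nonneg _) hn0.le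
  have ht1 : ∀ a i, t a i ≤ 1 := fun a i => by
    have := excit_le (ψ a i)
    rw [hnrm, mul_one] at this
    exact (div_le_one hn0).2 this
  set w : ℝ := ∑ a, q a * ∑ i, p a i * t a i with hw
  have hinner0 : ∀ a, 0 ≤ ∑ i, p a i * t a i := fun a =>
    Finset.sum_nonneg fun i _ => mul_nonneg (hp a i) (ht0 a i)
  have hinner1 : ∀ a, ∑ i, p a i * t a i ≤ 1 := fun a => by
    calc ∑ i, p a i * t a i ≤ ∑ i, p a i * 1 :=
          Finset.sum_le_sum fun i _ => mul_le_mul_of_nonneg_left (ht1 a i) (hp a i)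
      _ = 1 := by simpa using hp1 a
  have hw0 : 0 ≤ w := Finset.sum_nonneg fun a _ => mul_nonneg (hq a) (hinner0 a)
  have hw1 : w ≤ 1 := by
    calc w ≤ ∑ a, q a * 1 :=
          Finset.sum_le_sum fun a _ => mul_le_mul_of_nonneg_left (hinner1 a) (hq a)
      _ = 1 := by simpa using hq1
  refine ⟨w, ⟨hw0, hw1⟩, ?_⟩
  -- outputs of the ensemble states
  have hout : ∀ a, adPow γ n (ρ a) =
      ∑ i, ((p a i : ℝ) : ℂ) • (outY γ n (ψ a i) * (outY γ n (ψ a i))ᴴ) := by
    intro a
    conv_lhs => rw [hdec a]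
    rw [adPow_sum_smul]
    simp only [adPow_pure]
  have hYpsd : ∀ a i, (outY γ n (ψ a i) * (outY γ n (ψ a i))ᴴ).PosSemidef := fun a i =>
    Matrix.posSemidef_self_mul_conjTranspose _
  -- lower bound for the conditional entropies
  have hcond : ∀ a, (n : ℝ) * ∑ i, p a i * scal γ (1 - t a i) (t a i) ≤ ent (adPow γ n (ρ a)) := by
    intro a
    have hc := ent_sum_ge (p a) (hp a) (hp1 a) (fun i => outY γ n (ψ a i) * (outY γ n (ψ a i))ᴴ)
      (hYpsd a)
    rw [← hout a] at hc
    refine le_trans ?_ hc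
    rw [Finset.mul_sum]
    refine Finset.sum_le_sum fun i _ => ?_
    have := pure_lower h0 h1 hn (ψ a i) (hnrm a i)
    calc (n : ℝ) * (p a i * scal γ (1 - t a i) (t a i))
        = p a i * ((n : ℝ) * scal γ (1 - t a i) (t a i)) := by ring
      _ ≤ _ := mul_le_mul_of_nonneg_left this (hp a i)
  -- Jensen
  have hjensen : scal γ (1 - w) w ≤ ∑ a, q a * ∑ i, p a i * scal γ (1 - t a i) (t a i) := by
    have hconv := scal_convex h0 h1
    have hJ := hconv.map_sum_le (t := (Finset.univ : Finset (Fin m × (Fin n → Fin 2))))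
      (w := fun j => q j.1 * p j.1 j.2) (p := fun j => t j.1 j.2)
      (fun j _ => mul_nonneg (hq _) (hp _ _))
      (by
        rw [Fintype.sum_prod_type]
        simp only [← Finset.mul_sum, hp1, mul_one, hq1])
      (fun j _ => ⟨ht0 _ _, ht1 _ _⟩)
    simp only [Fintype.sum_prod_type, smul_eq_mul] at hJ
    have e1 : ∑ a, ∑ i, q a * p a i * t a i = w := by
      rw [hw]
      refine Finset.sum_congr rfl fun a _ => ?_
      rw [Finset.mul_sum]
      refine Finset.sum_congr rfl fun i _ => ?_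
      ring
    have e2 : ∑ a, ∑ i, q a * p a i * scal γ (1 - t a i) (t a i) =
        ∑ a, q a * ∑ i, p a i * scal γ (1 - t a i) (t a i) := by
      refine Finset.sum_congr rfl fun a _ => ?_
      rw [Finset.mul_sum]
      refine Finset.sum_congr rfl fun i _ => ?_
      ring
    rw [e1, e2] at hJ
    exact hJ
  -- total output
  set A : Matrix (Fin n → Fin 2) (Fin n → Fin 2) ℂ := adPow γ n (∑ a, ((q a : ℝ) : ℂ) • ρ a) with hA
  have hAeq : A = ∑ a, ((q a : ℝ) : ℂ) •
      ∑ i, ((p a i : ℝ) : ℂ) • (outY γ n (ψ a i) * (outY γ n (ψ a i))ᴴ) := by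
    rw [hA, adPow_sum_smul]
    simp only [hout]
  have hApsd : A.PosSemidef := by
    rw [hAeq]
    refine Matrix.posSemidef_sum _ fun a _ => ?_
    refine Matrix.PosSemidef.smul ?_ (by exact_mod_cast hq a)
    refine Matrix.posSemidef_sum _ fun i _ => ?_
    exact Matrix.PosSemidef.smul (hYpsd a i) (by exact_mod_cast hp a i)
  have hAdiag : ∀ g : (Fin n → Fin 2) → ℝ, ∑ z, g z * (A z z).re =
      ∑ a, q a * ∑ i, p a i * ∑ z, g z *
        ((outY γ n (ψ a i) * (outY γ n (ψ a i))ᴴ) z z).re := by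
    intro g
    rw [hAeq, diagL_sum_smul]
    refine Finset.sum_congr rfl fun a _ => ?_
    rw [diagL_sum_smul]
  have hAtr : (trace A).re = 1 := by
    rw [trace_re_eq, hAdiag]
    have : ∀ a i, ∑ z, (1 : ℝ) * ((outY γ n (ψ a i) * (outY γ n (ψ a i))ᴴ) z z).re = 1 := by
      intro a i
      rw [← trace_re_eq, output_trace h0 h1, hnrm]
    simp only [this, mul_one, hp1, hq1]
  have hAE : ∑ z, (wt z : ℝ) * (A z z).re = n * ((1 - γ) * w) := by
    rw [hAdiag]
    simp only [output_excit h0 h1]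
    rw [hw, Finset.mul_sum, Finset.mul_sum]
    refine Finset.sum_congr rfl fun a _ => ?_
    rw [Finset.mul_sum, Finset.mul_sum, Finset.mul_sum, Finset.mul_sum]
    refine Finset.sum_congr rfl fun i _ => ?_
    have e : excit (ψ a i) = n * t a i := by
      rw [ht]; field_simp
    rw [e]
    ring
  have ht'0 : 0 ≤ (1 - γ) * w := mul_nonneg (sub_nonneg.2 h1) hw0
  have ht'1 : (1 - γ) * w ≤ 1 := by
    calc (1 - γ) * w ≤ 1 * 1 := mul_le_mul (by linarith) hw1 hw0 (by norm_num)
      _ = 1 := by norm_num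
  have hupper := ent_le_h2 hApsd hAtr ht'0 ht'1 hAE
  -- assemble
  have hlow : (n : ℝ) * scal γ (1 - w) w ≤ ∑ a, q a * ent (adPow γ n (ρ a)) := by
    calc (n : ℝ) * scal γ (1 - w) w
        ≤ (n : ℝ) * ∑ a, q a * ∑ i, p a i * scal γ (1 - t a i) (t a i) :=
          mul_le_mul_of_nonneg_left hjensen hn0.le
      _ = ∑ a, q a * ((n : ℝ) * ∑ i, p a i * scal γ (1 - t a i) (t a i)) := by
          rw [Finset.mul_sum]
          refine Finset.sum_congr rfl fun a _ => ?_
          ring
      _ ≤ _ := Finset.sum_le_sum fun a _ => mul_le_mul_of_nonneg_left (hcond a) (hq a)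
  have hlog : 0 < Real.log 2 := Real.log_pos (by norm_num)
  unfold holevoQuantity vnEntropy
  rw [← hA]
  have hsum : ∑ a, q a * (ent (adPow γ n (ρ a)) / Real.log 2) =
      (∑ a, q a * ent (adPow γ n (ρ a))) / Real.log 2 := by
    rw [Finset.sum_div]
    refine Finset.sum_congr rfl fun a _ => ?_
    ring
  rw [hsum, ← sub_div, ← mul_div_assoc]
  refine div_le_div_of_nonneg_right ?_ hlog.le
  rw [mul_sub]
  linarith

end

end Vale.Agent.Lib.P358
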