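import Vale.Agent.Lib.P358.GLetter
import Vale.Agent.Lib.P358.Holevo

/-!
# The Holevo bound for `A_{γ,ν}` (P358 library): JOB G11

Same proof as `holevo_le` in `Holevo.lean` (reuse `exists_pure_decomp`, `ent_le_h2`, `ent_sum_ge`, `trace_re_eq`, ...),
with `ent_outYG_ge`, `outputG_trace`, `outputG_excit`, `gad_convex`, `PhiG_smul`, `PhiG_normal`.
The mean excitation of the output of `ψ` (unit vector) is `(1-γ) excit ψ + n γ ν`, so for the average input with mean excitation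
density `w` it is `n ((1-γ) w + γ ν)`, with `t' = (1-γ) w + γ ν ∈ [0,1]`.
-/

namespace Vale.Agent.Lib.P358

open Matrix Real Finset
open scoped ComplexOrder

noncomputable section

theorem gadPow_sum_smul {ι : Type*} (s : Finset ι) (γ ν : ℝ) (n : ℕ) (c : ι → ℝ)
    (B : ι → Matrix (Fin n → Fin 2) (Fin n → Fin 2) ℂ) :
    gadPow γ ν n (∑ i ∈ s, ((c i : ℝ) : ℂ) • B i) =
      ∑ i ∈ s, ((c i : ℝ) : ℂ) • gadPow γ ν n (B i) := by
  simp only [gadPow, Matrix.mul_sum, Matrix.sum_mul, Matrix.mul_smul, Matrix.smul_mul,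
    Finset.smul_sum]
  rw [Finset.sum_comm]

theorem pure_lowerG {γ ν : ℝ} (hγ0 : 0 ≤ γ) (hγ1 : γ ≤ 1) (hν0 : 0 ≤ ν) (hν1 : ν ≤ 1) {n : ℕ}
    (hn : 1 ≤ n) (ψ : (Fin n → Fin 2) → ℂ) (hψ : nrm2 ψ = 1) :
    (n : ℝ) * gadScal γ ν (1 - excit ψ / n) (excit ψ / n) ≤ ent (outYG γ ν n ψ * (outYG γ ν n ψ)ᴴ) := by
  have hn0 : (0 : ℝ) < n := by exact_mod_cast hn
  have h := ent_outYG_ge hγ0 hγ1 hν0 hν1 n ψ
  rw [hψ, Real.negMulLog_one, sub_zero, mul_one] at h
  have hsm := PhiG_smul γ ν (c := n) hn0.le (1 - excit ψ / n) (excit ψ / n)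
  have e1 : (n : ℝ) * (1 - excit ψ / n) = n - excit ψ := by field_simp
  have e2 : (n : ℝ) * (excit ψ / n) = excit ψ := by field_simp
  rw [e1, e2, PhiG_normal] at hsm
  rw [← hsm]
  exact h

/-- Every ensemble on `n` qubits has mean excitation density `w ∈ [0,1]` with
`χ ≤ n (h₂((1-γ)w + γν) - f(w))/log 2`. -/
theorem holevo_leG {γ ν : ℝ} (hγ0 : 0 ≤ γ) (hγ1 : γ ≤ 1) (hν0 : 0 ≤ ν) (hν1 : ν ≤ 1) {n : ℕ}
    (hn : 1 ≤ n) {m : ℕ} (q : Fin m → ℝ)
    (ρ : Fin m → Matrix (Fin n → Fin 2) (Fin n → Fin 2) ℂ) (hq : ∀ a, 0 ≤ q a)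
    (hq1 : ∑ a, q a = 1) (hρ : ∀ a, IsDensity (ρ a)) :
    ∃ w ∈ Set.Icc (0 : ℝ) 1, holevoQuantityG γ ν n m q ρ ≤
      n * ((h2 ((1 - γ) * w + γ * ν) - gadScal γ ν (1 - w) w) / Real.log 2) := by
  classical
  have hn0 : (0 : ℝ) < n := by exact_mod_cast hn
  choose p ψ hp hp1 hψ hdec using fun a => exists_pure_decomp (ρ a) (hρ a)
  have hnrm : ∀ a i, nrm2 (ψ a i) = 1 := hψ
  -- weights and points
  set t : Fin m → (Fin n → Fin 2) → ℝ := fun a i => excit (ψ a i) / n with ht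
  have ht0 : ∀ a i, 0 ≤ t a i := fun a i => div_nonneg (excit_nonneg _) hn0.le
  have ht1 : ∀ a i, t a i ≤ 1 := fun a i => by
    have := excit_le (ψ a i)
    rw [hnrm, mul_one] at this
    exact (div_le_one hn0).2 this
  set w : ℝ := ∑ a, q a * ∑ i, p a i * t a i with hw
  have hinner0 : ∀ a, 0 ≤ ∑ i, p a i * t a i := fun a =>
    Finset.sum_nonneg fun i _ => mul_nonneg (hp a i) (ht0 a i)
  have hinner1 : ∀ a, ∑ i, p a i * t a i ≤ 1 := fun a => by
    calc ∑ i, p a i * t a i ≤ ∑ i, p a i * 1 :=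
          Finset.sum_le_sum fun i _ => mul_le_mul_of_nonneg_left (ht1 a i) (hp a i)
      _ = 1 := by simpa using hp1 a
  have hw0 : 0 ≤ w := Finset.sum_nonneg fun a _ => mul_nonneg (hq a) (hinner0 a)
  have hw1 : w ≤ 1 := by
    calc w ≤ ∑ a, q a * 1 :=
          Finset.sum_le_sum fun a _ => mul_le_mul_of_nonneg_left (hinner1 a) (hq a)
      _ = 1 := by simpa using hq1
  refine ⟨w, ⟨hw0, hw1⟩, ?_⟩
  -- outputs of the ensemble states
  have hout : ∀ a, gadPow γ ν n (ρ a) =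
      ∑ i, ((p a i : ℝ) : ℂ) • (outYG γ ν n (ψ a i) * (outYG γ ν n (ψ a i))ᴴ) := by
    intro a
    conv_lhs => rw [hdec a]
    rw [gadPow_sum_smul]
    simp only [gadPow_pure]
  have hYpsd : ∀ a i, (outYG γ ν n (ψ a i) * (outYG γ ν n (ψ a i))ᴴ).PosSemidef := fun a i =>
    Matrix.posSemidef_self_mul_conjTranspose _
  -- lower bound for the conditional entropies
  have hcond : ∀ a, (n : ℝ) * ∑ i, p a i * gadScal γ ν (1 - t a i) (t a i) ≤
      ent (gadPow γ ν n (ρ a)) := by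
    intro a
    have hc := ent_sum_ge (p a) (hp a) (hp1 a)
      (fun i => outYG γ ν n (ψ a i) * (outYG γ ν n (ψ a i))ᴴ) (hYpsd a)
    rw [← hout a] at hc
    refine le_trans ?_ hc
    rw [Finset.mul_sum]
    refine Finset.sum_le_sum fun i _ => ?_
    have := pure_lowerG hγ0 hγ1 hν0 hν1 hn (ψ a i) (hnrm a i)
    calc (n : ℝ) * (p a i * gadScal γ ν (1 - t a i) (t a i))
        = p a i * ((n : ℝ) * gadScal γ ν (1 - t a i) (t a i)) := by ring
      _ ≤ _ := mul_le_mul_of_nonneg_left this (hp a i)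
  -- Jensen
  have hjensen : gadScal γ ν (1 - w) w ≤ ∑ a, q a * ∑ i, p a i * gadScal γ ν (1 - t a i) (t a i) := by
    have hconv := gad_convex hγ0 hγ1 hν0 hν1
    have hJ := hconv.map_sum_le (t := (Finset.univ : Finset (Fin m × (Fin n → Fin 2))))
      (w := fun j => q j.1 * p j.1 j.2) (p := fun j => t j.1 j.2)
      (fun j _ => mul_nonneg (hq _) (hp _ _))
      (by
        rw [Fintype.sum_prod_type]
        simp only [← Finset.mul_sum, hp1, mul_one, hq1])
      (fun j _ => ⟨ht0 _ _, ht1 _ _⟩)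
    simp only [Fintype.sum_prod_type, smul_eq_mul] at hJ
    have e1 : ∑ a, ∑ i, q a * p a i * t a i = w := by
      rw [hw]
      refine Finset.sum_congr rfl fun a _ => ?_
      rw [Finset.mul_sum]
      refine Finset.sum_congr rfl fun i _ => ?_
      ring
    have e2 : ∑ a, ∑ i, q a * p a i * gadScal γ ν (1 - t a i) (t a i) =
        ∑ a, q a * ∑ i, p a i * gadScal γ ν (1 - t a i) (t a i) := by
      refine Finset.sum_congr rfl fun a _ => ?_
      rw [Finset.mul_sum]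
      refine Finset.sum_congr rfl fun i _ => ?_
      ring
    rw [e1, e2] at hJ
    exact hJ
  -- total output
  set A : Matrix (Fin n → Fin 2) (Fin n → Fin 2) ℂ :=
    gadPow γ ν n (∑ a, ((q a : ℝ) : ℂ) • ρ a) with hA
  have hAeq : A = ∑ a, ((q a : ℝ) : ℂ) •
      ∑ i, ((p a i : ℝ) : ℂ) • (outYG γ ν n (ψ a i) * (outYG γ ν n (ψ a i))ᴴ) := by
    rw [hA, gadPow_sum_smul]
    simp only [hout]
  have hApsd : A.PosSemidef := by
    rw [hAeq]
    refine Matrix.posSemidef_sum _ fun a _ => ?_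
    refine Matrix.PosSemidef.smul ?_ (by exact_mod_cast hq a)
    refine Matrix.posSemidef_sum _ fun i _ => ?_
    exact Matrix.PosSemidef.smul (hYpsd a i) (by exact_mod_cast hp a i)
  have hAdiag : ∀ g : (Fin n → Fin 2) → ℝ, ∑ z, g z * (A z z).re =
      ∑ a, q a * ∑ i, p a i * ∑ z, g z *
        ((outYG γ ν n (ψ a i) * (outYG γ ν n (ψ a i))ᴴ) z z).re := by
    intro g
    rw [hAeq, diagL_sum_smul]
    refine Finset.sum_congr rfl fun a _ => ?_
    rw [diagL_sum_smul]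
  have hAtr : (trace A).re = 1 := by
    rw [trace_re_eq, hAdiag]
    have : ∀ a i, ∑ z, (1 : ℝ) * ((outYG γ ν n (ψ a i) * (outYG γ ν n (ψ a i))ᴴ) z z).re = 1 := by
      intro a i
      rw [← trace_re_eq, outputG_trace hγ0 hγ1 hν0 hν1, hnrm]
    simp only [this, mul_one, hp1, hq1]
  have hAE : ∑ z, (wt z : ℝ) * (A z z).re = n * ((1 - γ) * w + γ * ν) := by
    rw [hAdiag]
    simp only [outputG_excit hγ0 hγ1 hν0 hν1, hnrm, mul_one]
    have e : ∀ a i, (1 - γ) * excit (ψ a i) + (n : ℝ) * (γ * ν) =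
        (n : ℝ) * (1 - γ) * t a i + (n : ℝ) * (γ * ν) := by
      intro a i
      have e' : excit (ψ a i) = n * t a i := by
        rw [ht]; field_simp
      rw [e']
      ring
    simp only [e]
    have e2 : ∀ a, ∑ i, p a i * ((n : ℝ) * (1 - γ) * t a i + (n : ℝ) * (γ * ν)) =
        (n : ℝ) * (1 - γ) * ∑ i, p a i * t a i + (n : ℝ) * (γ * ν) := by
      intro a
      calc ∑ i, p a i * ((n : ℝ) * (1 - γ) * t a i + (n : ℝ) * (γ * ν))
          = ∑ i, ((n : ℝ) * (1 - γ) * (p a i * t a i) + (n : ℝ) * (γ * ν) * p a i) := by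
            refine Finset.sum_congr rfl fun i _ => ?_
            ring
        _ = (n : ℝ) * (1 - γ) * ∑ i, p a i * t a i + (n : ℝ) * (γ * ν) * ∑ i, p a i := by
            rw [Finset.sum_add_distrib, Finset.mul_sum, Finset.mul_sum]
        _ = _ := by rw [hp1, mul_one]
    simp only [e2]
    calc ∑ a, q a * ((n : ℝ) * (1 - γ) * ∑ i, p a i * t a i + (n : ℝ) * (γ * ν))
        = ∑ a, ((n : ℝ) * (1 - γ) * (q a * ∑ i, p a i * t a i) + (n : ℝ) * (γ * ν) * q a) := by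
          refine Finset.sum_congr rfl fun a _ => ?_
          ring
      _ = (n : ℝ) * (1 - γ) * w + (n : ℝ) * (γ * ν) * ∑ a, q a := by
          rw [Finset.sum_add_distrib, Finset.mul_sum, Finset.mul_sum]
      _ = _ := by rw [hq1]; ring
  have ht'0 : 0 ≤ (1 - γ) * w + γ * ν :=
    add_nonneg (mul_nonneg (sub_nonneg.2 hγ1) hw0) (mul_nonneg hγ0 hν0)
  have ht'1 : (1 - γ) * w + γ * ν ≤ 1 := by
    have h1 : (1 - γ) * w ≤ (1 - γ) * 1 := mul_le_mul_of_nonneg_left hw1 (sub_nonneg.2 hγ1)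
    have h2 : γ * ν ≤ γ * 1 := mul_le_mul_of_nonneg_left hν1 hγ0
    linarith
  have hupper := ent_le_h2 hApsd hAtr ht'0 ht'1 hAE
  -- assemble
  have hlow : (n : ℝ) * gadScal γ ν (1 - w) w ≤ ∑ a, q a * ent (gadPow γ ν n (ρ a)) := by
    calc (n : ℝ) * gadScal γ ν (1 - w) w
        ≤ (n : ℝ) * ∑ a, q a * ∑ i, p a i * gadScal γ ν (1 - t a i) (t a i) :=
          mul_le_mul_of_nonneg_left hjensen hn0.le
      _ = ∑ a, q a * ((n : ℝ) * ∑ i, p a i * gadScal γ ν (1 - t a i) (t a i)) := by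
          rw [Finset.mul_sum]
          refine Finset.sum_congr rfl fun a _ => ?_
          ring
      _ ≤ _ := Finset.sum_le_sum fun a _ => mul_le_mul_of_nonneg_left (hcond a) (hq a)
  have hlog : 0 < Real.log 2 := Real.log_pos (by norm_num)
  unfold holevoQuantityG vnEntropy
  rw [← hA]
  have hsum : ∑ a, q a * (ent (gadPow γ ν n (ρ a)) / Real.log 2) =
      (∑ a, q a * ent (gadPow γ ν n (ρ a))) / Real.log 2 := by
    rw [Finset.sum_div]
    refine Finset.sum_congr rfl fun a _ => ?_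
    ring
  rw [hsum, ← sub_div, ← mul_div_assoc]
  refine div_le_div_of_nonneg_right ?_ hlog.le
  rw [mul_sub]
  linarith

end

end Vale.Agent.Lib.P358
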