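import Vale.Agent.Lib.P358.Core
import Vale.Agent.Lib.P358.AnaConv

/-!
# Induction on the number of letters (P358 library)

`Y_ψ(z,e) = (K_e ψ)(z)`.  Splitting off the first qubit with
`ψ₀ = ψ(0,·)`, `ψ₁ = ψ(1,·)`:
`Y_ψ = [[Y_{ψ₀}, √γ Y_{ψ₁}], [√(1-γ) Y_{ψ₁}, 0]]` (rows `z₀`, columns `e₀`), since
`K₀ = diag(1, √(1-γ))`, `K₁ = √γ |0⟩⟨1|`.  Reindex along
`(Fin (n+1) → Fin 2) ≃ (Fin n → Fin 2) ⊕ (Fin n → Fin 2)`,
use `ent_reindex` and `core_general`.  `tr(Y_ψ Y_ψ*) = ‖ψ‖²` by induction from the block form.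
Recursion: `‖ψ‖² = ‖ψ₀‖²+‖ψ₁‖²`, `excit ψ = excit ψ₀ + excit ψ₁ + ‖ψ₁‖²`.

Induction for `ent_outY_ge`, with `E(ψ) = S(Y_ψ Y_ψ*) - η(‖ψ‖²)`, `x = ‖ψ₀‖²`, `β = ‖ψ₁‖²`:
`core_general` gives `E(ψ) ≥ E(ψ₀) + E(ψ₁) + Φ(x, β)`; use the induction hypothesis for `ψ₀, ψ₁` and
`PhiAD_add` (note `n x - excit ψ₀ ≥ 0` since `wt ≤ n`).  The base case `n = 0`: `Φ(0,0) = 0`,
`Y_ψ` is a `1×1` matrix `(c)`.
-/

namespace Vale.Agent.Lib.P358

open Matrix Real Finset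
open scoped ComplexOrder

noncomputable section

/-- The purifying amplitude matrix: `Y_ψ(z,e) = (K_e ψ)(z)`. -/
def outY (γ : ℝ) (n : ℕ) (ψ : (Fin n → Fin 2) → ℂ) :
    Matrix (Fin n → Fin 2) (Fin n → Fin 2) ℂ :=
  Matrix.of fun z e => ∑ w, krausPow γ n e z w * ψ w

/-- Squared norm. -/
def nrm2 {n : ℕ} (ψ : (Fin n → Fin 2) → ℂ) : ℝ := ∑ z, ‖ψ z‖ ^ 2

/-- Hamming weight. -/
def wt {n : ℕ} (z : Fin n → Fin 2) : ℕ := ∑ i, (z i).val

/-- Mean number of excitations (not normalised). -/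
def excit {n : ℕ} (ψ : (Fin n → Fin 2) → ℂ) : ℝ := ∑ z, (wt z : ℝ) * ‖ψ z‖ ^ 2

/-- `N^{⊗n}(ψψ*) = Y_ψ Y_ψ*`. -/
theorem adPow_pure (γ : ℝ) (n : ℕ) (ψ : (Fin n → Fin 2) → ℂ) :
    adPow γ n (vecMulVec ψ (star ψ)) = outY γ n ψ * (outY γ n ψ)ᴴ := by
  ext z z'
  simp only [adPow, Matrix.sum_apply, Matrix.mul_apply, outY, Matrix.of_apply,
    conjTranspose_apply, vecMulVec_apply, Pi.star_apply, star_sum, star_mul']
  refine Finset.sum_congr rfl fun e _ => ?_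
  rw [Finset.sum_mul_sum, Finset.sum_comm]
  refine Finset.sum_congr rfl fun w' _ => ?_
  rw [Finset.sum_mul]
  refine Finset.sum_congr rfl fun w _ => ?_
  ring

/-! ### Splitting the first qubit -/

/-- Prepending a letter. -/
def cb {n : ℕ} (a : Fin 2) (w : Fin n → Fin 2) : Fin (n + 1) → Fin 2 :=
  Fin.cons (α := fun _ => Fin 2) a w

@[simp] theorem cb_zero {n : ℕ} (a : Fin 2) (w : Fin n → Fin 2) : cb a w 0 = a := rfl

@[simp] theorem cb_succ {n : ℕ} (a : Fin 2) (w : Fin n → Fin 2) (i : Fin n) :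
    cb a w i.succ = w i := rfl

@[simp] theorem tail_cb {n : ℕ} (a : Fin 2) (w : Fin n → Fin 2) :
    Fin.tail (α := fun _ => Fin 2) (cb a w) = w := by
  funext i; rfl

theorem cb_tail {n : ℕ} (f : Fin (n + 1) → Fin 2) : cb (f 0) (Fin.tail f) = f :=
  Fin.cons_self_tail f

/-- The splitting of the first qubit. -/
def splitEquiv (n : ℕ) : (Fin (n + 1) → Fin 2) ≃ (Fin n → Fin 2) ⊕ (Fin n → Fin 2) where
  toFun f := if f 0 = 0 then Sum.inl (Fin.tail f) else Sum.inr (Fin.tail f)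
  invFun := Sum.elim (cb 0) (cb 1)
  left_inv f := by
    by_cases h : f 0 = 0
    · simp only [h, if_true, Sum.elim_inl]
      rw [← h, cb_tail]
    · have h1 : f 0 = 1 := by
        have := Fin.isLt (f 0)
        ext
        simp only [Fin.val_one]
        have h2 : (f 0).val ≠ 0 := fun h3 => h (Fin.ext h3)
        omega
      simp only [h, if_false, Sum.elim_inr]
      rw [← h1, cb_tail]
  right_inv s := by
    rcases s with w | w <;> simp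

theorem sum_cons {n : ℕ} {M : Type*} [AddCommMonoid M] (g : (Fin (n + 1) → Fin 2) → M) :
    ∑ f, g f = ∑ w, g (cb 0 w) + ∑ w, g (cb 1 w) := by
  rw [← Equiv.sum_comp (splitEquiv n).symm g, Fintype.sum_sum_type]
  rfl

theorem krausPow_cons (γ : ℝ) (n : ℕ) (a b c : Fin 2) (e z w : Fin n → Fin 2) :
    krausPow γ (n + 1) (cb b e) (cb a z) (cb c w) =
      krausAD γ b a c * krausPow γ n e z w := by
  simp only [krausPow, Matrix.of_apply, Fin.prod_univ_succ, cb_zero, cb_succ]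

/-- The two parts of a state. -/
def psiC {n : ℕ} (a : Fin 2) (ψ : (Fin (n + 1) → Fin 2) → ℂ) : (Fin n → Fin 2) → ℂ :=
  fun w => ψ (cb a w)

theorem outY_cons (γ : ℝ) (n : ℕ) (ψ : (Fin (n + 1) → Fin 2) → ℂ) (a b : Fin 2)
    (z e : Fin n → Fin 2) :
    outY γ (n + 1) ψ (cb a z) (cb b e) =
      krausAD γ b a 0 * outY γ n (psiC 0 ψ) z e + krausAD γ b a 1 * outY γ n (psiC 1 ψ) z e := by
  simp only [outY, Matrix.of_apply, psiC]
  rw [sum_cons]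
  simp only [krausPow_cons, Finset.mul_sum, mul_assoc]

/-- The block form of `Y_ψ`. -/
def blockY (γ : ℝ) {n : ℕ} (Y₀ Y₁ : Matrix (Fin n → Fin 2) (Fin n → Fin 2) ℂ) :
    Matrix ((Fin n → Fin 2) ⊕ (Fin n → Fin 2)) ((Fin n → Fin 2) ⊕ (Fin n → Fin 2)) ℂ :=
  fromBlocks Y₀ (((Real.sqrt γ : ℝ) : ℂ) • Y₁) (((Real.sqrt (1 - γ) : ℝ) : ℂ) • Y₁) 0

theorem reindex_outY (γ : ℝ) (n : ℕ) (ψ : (Fin (n + 1) → Fin 2) → ℂ) :
    Matrix.reindex (splitEquiv n) (splitEquiv n) (outY γ (n + 1) ψ) =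
      blockY γ (outY γ n (psiC 0 ψ)) (outY γ n (psiC 1 ψ)) := by
  ext s t
  rcases s with z | z <;> rcases t with e | e <;>
    simp only [Matrix.reindex_apply, Matrix.submatrix_apply, splitEquiv, Equiv.coe_fn_symm_mk,
      Sum.elim_inl, Sum.elim_inr, outY_cons, blockY, fromBlocks_apply₁₁, fromBlocks_apply₁₂,
      fromBlocks_apply₂₁, fromBlocks_apply₂₂, Matrix.smul_apply, smul_eq_mul, Matrix.zero_apply]
  all_goals simp [krausAD]

theorem reindex_outY_mul (γ : ℝ) (n : ℕ) (ψ : (Fin (n + 1) → Fin 2) → ℂ) :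
    Matrix.reindex (splitEquiv n) (splitEquiv n) (outY γ (n + 1) ψ * (outY γ (n + 1) ψ)ᴴ) =
      blockY γ (outY γ n (psiC 0 ψ)) (outY γ n (psiC 1 ψ)) *
        (blockY γ (outY γ n (psiC 0 ψ)) (outY γ n (psiC 1 ψ)))ᴴ := by
  rw [← reindex_outY]
  ext i j
  simp [Matrix.reindex_apply, Matrix.mul_apply, Matrix.conjTranspose_apply,
    ← Equiv.sum_comp (splitEquiv n).symm]

theorem nrm2_succ {n : ℕ} (ψ : (Fin (n + 1) → Fin 2) → ℂ) :
    nrm2 ψ = nrm2 (psiC 0 ψ) + nrm2 (psiC 1 ψ) := by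
  simp only [nrm2, psiC]
  exact sum_cons _

theorem wt_cons {n : ℕ} (a : Fin 2) (z : Fin n → Fin 2) :
    wt (cb a z) = a.val + wt z := by
  simp [wt, Fin.sum_univ_succ]

theorem excit_succ {n : ℕ} (ψ : (Fin (n + 1) → Fin 2) → ℂ) :
    excit ψ = excit (psiC 0 ψ) + excit (psiC 1 ψ) + nrm2 (psiC 1 ψ) := by
  simp only [excit, nrm2, psiC]
  rw [sum_cons]
  simp only [wt_cons]
  have h1 : ∀ w : Fin n → Fin 2, (((0 : Fin 2).val + wt w : ℕ) : ℝ) = (wt w : ℝ) := by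
    intro w; simp
  have h2 : ∀ w : Fin n → Fin 2, (((1 : Fin 2).val + wt w : ℕ) : ℝ) = (wt w : ℝ) + 1 := by
    intro w; push_cast; simp; ring
  simp only [h1, h2, add_mul, one_mul, Finset.sum_add_distrib]
  ring

/-! ### Bounds of the excitation number -/

/-- Bounds of the excitation number. -/
theorem excit_nonneg {n : ℕ} (ψ : (Fin n → Fin 2) → ℂ) : 0 ≤ excit ψ := by
  unfold excit
  positivity

theorem wt_le {n : ℕ} (z : Fin n → Fin 2) : wt z ≤ n := by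
  unfold wt
  calc ∑ i, (z i).val ≤ ∑ _i : Fin n, 1 := Finset.sum_le_sum fun i _ => by
        have := (z i).isLt; omega
    _ = n := by simp

theorem excit_le {n : ℕ} (ψ : (Fin n → Fin 2) → ℂ) : excit ψ ≤ n * nrm2 ψ := by
  unfold excit nrm2
  rw [Finset.mul_sum]
  refine Finset.sum_le_sum fun z _ => ?_
  have : (wt z : ℝ) ≤ n := by exact_mod_cast wt_le z
  exact mul_le_mul_of_nonneg_right this (by positivity)

theorem nrm2_nonneg {n : ℕ} (ψ : (Fin n → Fin 2) → ℂ) : 0 ≤ nrm2 ψ := by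
  unfold nrm2
  positivity

/-! ### Diagonal entries -/

/-- The diagonal entries of `Y Y*`, as a real sum of squares. -/
theorem mul_conj_diag {m k : Type*} [Fintype m] [Fintype k] [DecidableEq m] [DecidableEq k]
    (Y : Matrix m k ℂ) (z : m) : ((Y * Yᴴ) z z).re = ∑ e, ‖Y z e‖ ^ 2 := by
  simp only [Matrix.mul_apply, conjTranspose_apply, Complex.re_sum]
  refine Finset.sum_congr rfl fun e _ => ?_
  rw [RCLike.star_def, Complex.mul_conj, Complex.normSq_eq_norm_sq, Complex.ofReal_re]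

theorem sqrt_sq_cast {γ : ℝ} (h0 : 0 ≤ γ) (x : ℂ) :
    ‖((Real.sqrt γ : ℝ) : ℂ) * x‖ ^ 2 = γ * ‖x‖ ^ 2 := by
  rw [norm_mul, mul_pow, Complex.norm_real, Real.norm_eq_abs, sq_abs, Real.sq_sqrt h0]

/-- The sums over the rows of `outY` at level `n + 1`. -/
theorem outY_sq_cons0 {γ : ℝ} (h0 : 0 ≤ γ) (n : ℕ) (ψ : (Fin (n + 1) → Fin 2) → ℂ)
    (z : Fin n → Fin 2) :
    ∑ e, ‖outY γ (n + 1) ψ (cb 0 z) e‖ ^ 2 =
      ∑ e, ‖outY γ n (psiC 0 ψ) z e‖ ^ 2 + γ * ∑ e, ‖outY γ n (psiC 1 ψ) z e‖ ^ 2 := by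
  rw [sum_cons, Finset.mul_sum]
  simp only [outY_cons]
  congr 1
  · refine Finset.sum_congr rfl fun e _ => ?_
    simp [krausAD]
  · refine Finset.sum_congr rfl fun e _ => ?_
    simp [krausAD]
    rw [abs_of_nonneg (Real.sqrt_nonneg _), mul_pow, Real.sq_sqrt h0]

theorem outY_sq_cons1 {γ : ℝ} (h1 : γ ≤ 1) (n : ℕ) (ψ : (Fin (n + 1) → Fin 2) → ℂ)
    (z : Fin n → Fin 2) :
    ∑ e, ‖outY γ (n + 1) ψ (cb 1 z) e‖ ^ 2 =
      (1 - γ) * ∑ e, ‖outY γ n (psiC 1 ψ) z e‖ ^ 2 := by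
  rw [sum_cons, Finset.mul_sum]
  simp only [outY_cons]
  have : ∑ e : Fin n → Fin 2, ‖krausAD γ (1 : Fin 2) (1 : Fin 2) 0 * outY γ n (psiC 0 ψ) z e +
      krausAD γ (1 : Fin 2) (1 : Fin 2) 1 * outY γ n (psiC 1 ψ) z e‖ ^ 2 = 0 := by
    refine Finset.sum_eq_zero fun e _ => ?_
    simp [krausAD]
  rw [this, add_zero]
  refine Finset.sum_congr rfl fun e _ => ?_
  simp [krausAD]
  rw [abs_of_nonneg (Real.sqrt_nonneg _), mul_pow, Real.sq_sqrt (sub_nonneg.2 h1)]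

theorem outY_zero_eq (γ : ℝ) (ψ : (Fin 0 → Fin 2) → ℂ) (z e : Fin 0 → Fin 2) :
    outY γ 0 ψ z e = ψ default := by
  simp only [outY, Matrix.of_apply, krausPow, Fintype.sum_unique, Finset.univ_eq_empty,
    Finset.prod_empty, one_mul]
  exact congrArg ψ (Subsingleton.elim _ _)

/-- Total sum of squares is `nrm2`. -/
theorem outY_total {γ : ℝ} (h0 : 0 ≤ γ) (h1 : γ ≤ 1) (n : ℕ) (ψ : (Fin n → Fin 2) → ℂ) :
    ∑ z, ∑ e, ‖outY γ n ψ z e‖ ^ 2 = nrm2 ψ := by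
  induction n with
  | zero =>
    simp only [outY_zero_eq, nrm2, Fintype.sum_unique]
    congr 2
    exact congrArg ψ (Subsingleton.elim _ _)
  | succ n ih =>
    rw [sum_cons]
    simp only [outY_sq_cons0 h0, outY_sq_cons1 h1]
    rw [nrm2_succ, ← ih (psiC 0 ψ), ← ih (psiC 1 ψ), Finset.sum_add_distrib,
      ← Finset.mul_sum, ← Finset.mul_sum]
    ring

/-- Trace preservation on pure states. -/
theorem output_trace {γ : ℝ} (h0 : 0 ≤ γ) (h1 : γ ≤ 1) (n : ℕ) (ψ : (Fin n → Fin 2) → ℂ) :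
    (trace (outY γ n ψ * (outY γ n ψ)ᴴ)).re = nrm2 ψ := by
  simp only [Matrix.trace, Matrix.diag_apply, Complex.re_sum, mul_conj_diag]
  exact outY_total h0 h1 n ψ

/-- The output excitation number: `Σ_z wt(z) (Y_ψ Y_ψ*)_{zz} = (1-γ) excit ψ`. -/
theorem output_excit {γ : ℝ} (h0 : 0 ≤ γ) (h1 : γ ≤ 1) (n : ℕ) (ψ : (Fin n → Fin 2) → ℂ) :
    ∑ z, (wt z : ℝ) * ((outY γ n ψ * (outY γ n ψ)ᴴ) z z).re = (1 - γ) * excit ψ := by
  simp only [mul_conj_diag]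
  induction n with
  | zero =>
    simp [wt, excit]
  | succ n ih =>
    rw [sum_cons]
    simp only [outY_sq_cons0 h0, outY_sq_cons1 h1, wt_cons]
    have e0 : ∀ w : Fin n → Fin 2, (((0 : Fin 2).val + wt w : ℕ) : ℝ) = (wt w : ℝ) := by
      intro w; simp
    have e1 : ∀ w : Fin n → Fin 2, (((1 : Fin 2).val + wt w : ℕ) : ℝ) = (wt w : ℝ) + 1 := by
      intro w; push_cast; simp; ring
    simp only [e0, e1]
    rw [excit_succ]
    have i0 := ih (psiC 0 ψ)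
    have i1 := ih (psiC 1 ψ)
    have t1 := outY_total h0 h1 n (psiC 1 ψ)
    have key : ∑ z : Fin n → Fin 2, (wt z : ℝ) * (∑ e, ‖outY γ n (psiC 0 ψ) z e‖ ^ 2 +
          γ * ∑ e, ‖outY γ n (psiC 1 ψ) z e‖ ^ 2) +
        ∑ z : Fin n → Fin 2, ((wt z : ℝ) + 1) * ((1 - γ) * ∑ e, ‖outY γ n (psiC 1 ψ) z e‖ ^ 2) =
        ∑ z : Fin n → Fin 2, (wt z : ℝ) * ∑ e, ‖outY γ n (psiC 0 ψ) z e‖ ^ 2 +
        ∑ z : Fin n → Fin 2, (wt z : ℝ) * ∑ e, ‖outY γ n (psiC 1 ψ) z e‖ ^ 2 +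
        (1 - γ) * ∑ z, ∑ e, ‖outY γ n (psiC 1 ψ) z e‖ ^ 2 := by
      rw [Finset.mul_sum, ← Finset.sum_add_distrib, ← Finset.sum_add_distrib,
        ← Finset.sum_add_distrib]
      refine Finset.sum_congr rfl fun z _ => ?_
      ring
    rw [key, i0, i1, t1]
    ring

/-! ### The induction -/

theorem PhiAD_zero_zero (γ : ℝ) : PhiAD γ 0 0 = 0 := by
  simp [PhiAD, scal, lamP, lamM]

/-- Recursive lower bound: for every vector `ψ` on `n` qubits,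
`S_un(Y_ψ Y_ψ*) - η(‖ψ‖²) ≥ Φ(n ‖ψ‖² - e, e)`, where `e = excit ψ`. -/
theorem ent_outY_ge {γ : ℝ} (h0 : 0 ≤ γ) (h1 : γ ≤ 1) (n : ℕ) (ψ : (Fin n → Fin 2) → ℂ) :
    PhiAD γ (n * nrm2 ψ - excit ψ) (excit ψ) ≤
      ent (outY γ n ψ * (outY γ n ψ)ᴴ) - negMulLog (nrm2 ψ) := by
  induction n with
  | zero =>
    have hex : excit ψ = 0 := by simp [excit, wt]
    have hnorm : nrm2 ψ = ‖ψ default‖ ^ 2 := by
      simp only [nrm2, Fintype.sum_unique]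
      congr 2
      exact congrArg ψ (Subsingleton.elim _ _)
    have hmat : outY γ 0 ψ * (outY γ 0 ψ)ᴴ =
        (1 : Matrix (Fin 0 → Fin 2) (Fin 0 → Fin 2) ℂ) *
          diagonal (fun _ => (((‖ψ default‖ ^ 2 : ℝ)) : ℂ)) *
            (1 : Matrix (Fin 0 → Fin 2) (Fin 0 → Fin 2) ℂ)ᴴ := by
      ext z z'
      have hzz : z' = z := Subsingleton.elim _ _
      subst hzz
      rw [Matrix.one_mul, conjTranspose_one, Matrix.mul_one, diagonal_apply_eq]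
      simp only [Matrix.mul_apply, conjTranspose_apply, outY_zero_eq, Fintype.sum_unique]
      rw [RCLike.star_def, Complex.mul_conj, Complex.normSq_eq_norm_sq]
    rw [hmat, ent_unitary_diag _ (Submonoid.one_mem _), hex, hnorm]
    simp [PhiAD_zero_zero]
  | succ n ih =>
    set x := nrm2 (psiC 0 ψ) with hx
    set β := nrm2 (psiC 1 ψ) with hβ
    set e₀ := excit (psiC 0 ψ) with he₀
    set e₁ := excit (psiC 1 ψ) with he₁
    have hx0 : 0 ≤ x := nrm2_nonneg _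
    have hβ0 : 0 ≤ β := nrm2_nonneg _
    have he₀0 : 0 ≤ e₀ := excit_nonneg _
    have he₁0 : 0 ≤ e₁ := excit_nonneg _
    have he₀1 : 0 ≤ n * x - e₀ := sub_nonneg.2 (excit_le _)
    have he₁1 : 0 ≤ n * β - e₁ := sub_nonneg.2 (excit_le _)
    have ih0 := ih (psiC 0 ψ)
    have ih1 := ih (psiC 1 ψ)
    have hcore := core_general (outY γ n (psiC 0 ψ)) (outY γ n (psiC 1 ψ)) h0 h1
    rw [output_trace h0 h1, output_trace h0 h1] at hcore
    have hent : ent (outY γ (n + 1) ψ * (outY γ (n + 1) ψ)ᴴ) =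
        ent (blockY γ (outY γ n (psiC 0 ψ)) (outY γ n (psiC 1 ψ)) *
          (blockY γ (outY γ n (psiC 0 ψ)) (outY γ n (psiC 1 ψ)))ᴴ) := by
      rw [← reindex_outY_mul, ent_reindex]
    rw [hent]
    rw [nrm2_succ, excit_succ]
    have hadd1 := PhiAD_add (γ := γ) h0 h1 he₀1 he₀0 he₁1 he₁0
    have hadd2 := PhiAD_add (γ := γ) h0 h1 (add_nonneg he₀1 he₁1) (add_nonneg he₀0 he₁0) hx0 hβ0
    have harg : ((n + 1 : ℕ) : ℝ) * (x + β) - (e₀ + e₁ + β) =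
        (n * x - e₀ + (n * β - e₁)) + x := by
      push_cast; ring
    rw [harg]
    have hphi : PhiAD γ x β = scal γ x β - negMulLog (x + β) := rfl
    unfold blockY
    linarith

end

end Vale.Agent.Lib.P358
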