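import Vale.Agent.Lib.P358.GTwo
import Vale.Agent.Lib.P358.GDefs
import Vale.Agent.Lib.P358.Letter

/-!
# Induction on the number of letters, general `ν` (P358 library): JOB G10

Same as `Letter.lean` (reuse `cb`, `splitEquiv`, `sum_cons`, `psiC`, `nrm2`, `wt`, `excit`, `nrm2_succ`, `excit_succ`,
`excit_le`, `excit_nonneg`, `nrm2_nonneg`, `mul_conj_diag`), except that `Y_ψ(z,e) = (K_e ψ)(z)` is now rectangular, with
columns `e : Fin n → Fin 4`, and instead of a block form of `Y` we use the block form of `Y Y*`.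

`krausPowG (n+1) (cons b e) (cb a z) (cb c w) = krausGAD b a c * krausPowG n e z w`.
`sum over e₀` of `K_{e₀}(a,c) conj K_{e₀}(a',c')` is the channel coefficient (`krausGAD_coeff`): nonzero are
`(a,a',c,c') = (0,0,0,0) ↦ 1-νγ`, `(0,0,1,1) ↦ (1-ν)γ`, `(1,1,0,0) ↦ νγ`, `(1,1,1,1) ↦ 1-(1-ν)γ`,
`(0,1,0,1) ↦ √(1-γ)`, `(1,0,1,0) ↦ √(1-γ)`.
Hence, with `Y_a = outYG γ ν n (psiC a ψ)`, the reindexed `Y Y*` (`splitEquiv` on rows) is the block matrix of `core_gad`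
(`reindex_outYG_mul`).

Induction as `ent_outY_ge` with `core_gad` and `PhiG_add`.
`outputG_excit`: `∑_z wt(z) (Y Y*)_zz = (1-γ) excit ψ + n γ ν ‖ψ‖²` by induction: with `x = ‖ψ₀‖²`, `β = ‖ψ₁‖²`, the diagonal of
the blocks of `Y Y*` are `(1-νγ) P_zz + (1-ν)γ Q_zz` and `νγ P_zz + (1-(1-ν)γ) Q_zz`.
-/

namespace Vale.Agent.Lib.P358

open Matrix Real Finset
open scoped ComplexOrder

noncomputable section

/-- The purifying amplitude matrix: `Y_ψ(z,e) = (K_e ψ)(z)`. -/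
def outYG (γ ν : ℝ) (n : ℕ) (ψ : (Fin n → Fin 2) → ℂ) :
    Matrix (Fin n → Fin 2) (Fin n → Fin 4) ℂ :=
  Matrix.of fun z e => ∑ w, krausPowG γ ν n e z w * ψ w

/-- `N^{⊗n}(ψψ*) = Y_ψ Y_ψ*`. -/
theorem gadPow_pure (γ ν : ℝ) (n : ℕ) (ψ : (Fin n → Fin 2) → ℂ) :
    gadPow γ ν n (vecMulVec ψ (star ψ)) = outYG γ ν n ψ * (outYG γ ν n ψ)ᴴ := by
  ext z z'
  simp only [gadPow, Matrix.sum_apply, Matrix.mul_apply, outYG, Matrix.of_apply,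
    conjTranspose_apply, vecMulVec_apply, Pi.star_apply, star_sum, star_mul']
  refine Finset.sum_congr rfl fun e _ => ?_
  rw [Finset.sum_mul_sum, Finset.sum_comm]
  refine Finset.sum_congr rfl fun w' _ => ?_
  rw [Finset.sum_mul]
  refine Finset.sum_congr rfl fun w _ => ?_
  ring

/-- Prepending an environment letter. -/
def ce {n : ℕ} (b : Fin 4) (e : Fin n → Fin 4) : Fin (n + 1) → Fin 4 :=
  Fin.cons (α := fun _ => Fin 4) b e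

@[simp] theorem ce_zero {n : ℕ} (b : Fin 4) (e : Fin n → Fin 4) : ce b e 0 = b := rfl

@[simp] theorem ce_succ {n : ℕ} (b : Fin 4) (e : Fin n → Fin 4) (i : Fin n) :
    ce b e i.succ = e i := rfl

theorem sum_ce {n : ℕ} {M : Type*} [AddCommMonoid M] (g : (Fin (n + 1) → Fin 4) → M) :
    ∑ f, g f = ∑ b, ∑ e, g (ce b e) := by
  rw [← Fintype.sum_prod_type']
  exact (Fintype.sum_equiv (Fin.consEquiv (fun _ : Fin (n + 1) => Fin 4)) _ g (fun _ => rfl)).symm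

theorem krausPowG_cons (γ ν : ℝ) (n : ℕ) (a c : Fin 2) (b : Fin 4) (e : Fin n → Fin 4)
    (z w : Fin n → Fin 2) :
    krausPowG γ ν (n + 1) (ce b e) (cb a z) (cb c w) =
      krausGAD γ ν b a c * krausPowG γ ν n e z w := by
  simp only [krausPowG, Matrix.of_apply, Fin.prod_univ_succ, cb_zero, cb_succ, ce_zero, ce_succ]

theorem outYG_cons (γ ν : ℝ) (n : ℕ) (ψ : (Fin (n + 1) → Fin 2) → ℂ) (a : Fin 2) (b : Fin 4)
    (z : Fin n → Fin 2) (e : Fin n → Fin 4) :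
    outYG γ ν (n + 1) ψ (cb a z) (ce b e) =
      krausGAD γ ν b a 0 * outYG γ ν n (psiC 0 ψ) z e +
        krausGAD γ ν b a 1 * outYG γ ν n (psiC 1 ψ) z e := by
  simp only [outYG, Matrix.of_apply, psiC]
  rw [sum_cons]
  simp only [krausPowG_cons, Finset.mul_sum, mul_assoc]

/-- The channel coefficient `∑_b K_b(a,c) conj K_b(a',c')`. -/
def coefG (γ ν : ℝ) (a a' c c' : Fin 2) : ℂ :=
  ∑ b, krausGAD γ ν b a c * star (krausGAD γ ν b a' c')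

/-- The entries of `Y Y*` at level `n + 1`. -/
theorem outYG_mul_cons (γ ν : ℝ) (n : ℕ) (ψ : (Fin (n + 1) → Fin 2) → ℂ) (a a' : Fin 2)
    (z z' : Fin n → Fin 2) :
    (outYG γ ν (n + 1) ψ * (outYG γ ν (n + 1) ψ)ᴴ) (cb a z) (cb a' z') =
      coefG γ ν a a' 0 0 * (outYG γ ν n (psiC 0 ψ) * (outYG γ ν n (psiC 0 ψ))ᴴ) z z' +
      coefG γ ν a a' 0 1 * (outYG γ ν n (psiC 0 ψ) * (outYG γ ν n (psiC 1 ψ))ᴴ) z z' +
      coefG γ ν a a' 1 0 * (outYG γ ν n (psiC 1 ψ) * (outYG γ ν n (psiC 0 ψ))ᴴ) z z' +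
      coefG γ ν a a' 1 1 * (outYG γ ν n (psiC 1 ψ) * (outYG γ ν n (psiC 1 ψ))ᴴ) z z' := by
  simp only [Matrix.mul_apply, conjTranspose_apply, coefG]
  rw [sum_ce]
  simp only [outYG_cons, star_add, star_mul', Finset.sum_mul, Finset.mul_sum]
  simp only [add_mul, mul_add, Finset.sum_add_distrib]
  have e : ∀ (A B : Fin 2), ∑ b : Fin 4, ∑ e : Fin n → Fin 4,
      krausGAD γ ν b a A * outYG γ ν n (psiC A ψ) z e *
        (star (krausGAD γ ν b a' B) * star (outYG γ ν n (psiC B ψ) z' e)) =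
      ∑ e : Fin n → Fin 4, ∑ b : Fin 4, krausGAD γ ν b a A * star (krausGAD γ ν b a' B) *
        (outYG γ ν n (psiC A ψ) z e * star (outYG γ ν n (psiC B ψ) z' e)) := by
    intro A B
    rw [Finset.sum_comm]
    refine Finset.sum_congr rfl fun e _ => Finset.sum_congr rfl fun b _ => ?_
    ring
  simp only [e]
  ring

section Table

variable {γ ν : ℝ}

private theorem sq_cast {t : ℝ} (h : 0 ≤ t) : ((Real.sqrt t : ℝ) : ℂ) * ((Real.sqrt t : ℝ) : ℂ) = ((t : ℝ) : ℂ) := by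
  rw [← Complex.ofReal_mul, Real.mul_self_sqrt h]

theorem coefG_00 (hγ1 : γ ≤ 1) (hγ0 : 0 ≤ γ) (hν0 : 0 ≤ ν) (hν1 : ν ≤ 1) :
    coefG γ ν 0 0 0 0 = ((1 - ν * γ : ℝ) : ℂ) ∧ coefG γ ν 0 0 0 1 = 0 ∧ coefG γ ν 0 0 1 0 = 0 ∧
      coefG γ ν 0 0 1 1 = (((1 - ν) * γ : ℝ) : ℂ) := by
  have h1 := sq_cast (sub_nonneg.2 hν1)
  have h2 := sq_cast (sub_nonneg.2 hγ1)
  push_cast at h1 h2
  have h3 := sq_cast hν0
  have h4 := sq_cast hγ0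
  refine ⟨?_, ?_, ?_, ?_⟩
  · simp [coefG, krausGAD, Fin.sum_univ_four]
    linear_combination h1 + (Real.sqrt ν : ℂ) * (Real.sqrt ν : ℂ) * h2 + (1 - (γ : ℂ)) * h3
  · simp [coefG, krausGAD, Fin.sum_univ_four]
  · simp [coefG, krausGAD, Fin.sum_univ_four]
  · simp [coefG, krausGAD, Fin.sum_univ_four]
    linear_combination (Real.sqrt γ : ℂ) * (Real.sqrt γ : ℂ) * h1 + (1 - (ν : ℂ)) * h4

theorem coefG_01 (hν0 : 0 ≤ ν) (hν1 : ν ≤ 1) :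
    coefG γ ν 0 1 0 0 = 0 ∧ coefG γ ν 0 1 0 1 = ((Real.sqrt (1 - γ) : ℝ) : ℂ) ∧
      coefG γ ν 0 1 1 0 = 0 ∧ coefG γ ν 0 1 1 1 = 0 := by
  have h1 := sq_cast (sub_nonneg.2 hν1)
  have h3 := sq_cast hν0
  push_cast at h1
  refine ⟨?_, ?_, ?_, ?_⟩
  · simp [coefG, krausGAD, Fin.sum_univ_four]
  · simp [coefG, krausGAD, Fin.sum_univ_four]
    linear_combination (Real.sqrt (1 - γ) : ℂ) * h1 + (Real.sqrt (1 - γ) : ℂ) * h3
  · simp [coefG, krausGAD, Fin.sum_univ_four]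
  · simp [coefG, krausGAD, Fin.sum_univ_four]

theorem coefG_10 (hν0 : 0 ≤ ν) (hν1 : ν ≤ 1) :
    coefG γ ν 1 0 0 0 = 0 ∧ coefG γ ν 1 0 0 1 = 0 ∧
      coefG γ ν 1 0 1 0 = ((Real.sqrt (1 - γ) : ℝ) : ℂ) ∧ coefG γ ν 1 0 1 1 = 0 := by
  have h1 := sq_cast (sub_nonneg.2 hν1)
  have h3 := sq_cast hν0
  push_cast at h1
  refine ⟨?_, ?_, ?_, ?_⟩
  · simp [coefG, krausGAD, Fin.sum_univ_four]
  · simp [coefG, krausGAD, Fin.sum_univ_four]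
  · simp [coefG, krausGAD, Fin.sum_univ_four]
    linear_combination (Real.sqrt (1 - γ) : ℂ) * h1 + (Real.sqrt (1 - γ) : ℂ) * h3
  · simp [coefG, krausGAD, Fin.sum_univ_four]

theorem coefG_11 (hγ1 : γ ≤ 1) (hγ0 : 0 ≤ γ) (hν0 : 0 ≤ ν) (hν1 : ν ≤ 1) :
    coefG γ ν 1 1 0 0 = ((ν * γ : ℝ) : ℂ) ∧ coefG γ ν 1 1 0 1 = 0 ∧ coefG γ ν 1 1 1 0 = 0 ∧
      coefG γ ν 1 1 1 1 = ((1 - (1 - ν) * γ : ℝ) : ℂ) := by
  have h1 := sq_cast (sub_nonneg.2 hν1)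
  have h2 := sq_cast (sub_nonneg.2 hγ1)
  push_cast at h1 h2
  have h3 := sq_cast hν0
  have h4 := sq_cast hγ0
  refine ⟨?_, ?_, ?_, ?_⟩
  · simp [coefG, krausGAD, Fin.sum_univ_four]
    linear_combination (Real.sqrt γ : ℂ) * (Real.sqrt γ : ℂ) * h3 + (ν : ℂ) * h4
  · simp [coefG, krausGAD, Fin.sum_univ_four]
  · simp [coefG, krausGAD, Fin.sum_univ_four]
  · simp [coefG, krausGAD, Fin.sum_univ_four]
    linear_combination (Real.sqrt (1 - ν) : ℂ) * (Real.sqrt (1 - ν) : ℂ) * h2 +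
      (1 - (γ : ℂ)) * h1 + h3

end Table

/-- The block form of `Y_ψ Y_ψ*` at `n + 1` letters. -/
theorem reindex_outYG_mul {γ ν : ℝ} (hγ0 : 0 ≤ γ) (hγ1 : γ ≤ 1) (hν0 : 0 ≤ ν) (hν1 : ν ≤ 1) (n : ℕ)
    (ψ : (Fin (n + 1) → Fin 2) → ℂ) :
    Matrix.reindex (splitEquiv n) (splitEquiv n) (outYG γ ν (n + 1) ψ * (outYG γ ν (n + 1) ψ)ᴴ) =
      fromBlocks
        (((1 - ν * γ : ℝ) : ℂ) • (outYG γ ν n (psiC 0 ψ) * (outYG γ ν n (psiC 0 ψ))ᴴ) +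
          (((1 - ν) * γ : ℝ) : ℂ) • (outYG γ ν n (psiC 1 ψ) * (outYG γ ν n (psiC 1 ψ))ᴴ))
        (((Real.sqrt (1 - γ) : ℝ) : ℂ) • (outYG γ ν n (psiC 0 ψ) * (outYG γ ν n (psiC 1 ψ))ᴴ))
        (((Real.sqrt (1 - γ) : ℝ) : ℂ) • (outYG γ ν n (psiC 1 ψ) * (outYG γ ν n (psiC 0 ψ))ᴴ))
        (((ν * γ : ℝ) : ℂ) • (outYG γ ν n (psiC 0 ψ) * (outYG γ ν n (psiC 0 ψ))ᴴ) +
          ((1 - (1 - ν) * γ : ℝ) : ℂ) • (outYG γ ν n (psiC 1 ψ) * (outYG γ ν n (psiC 1 ψ))ᴴ)) := by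
  obtain ⟨a1, a2, a3, a4⟩ := coefG_00 hγ1 hγ0 hν0 hν1
  obtain ⟨b1, b2, b3, b4⟩ := coefG_01 (γ := γ) hν0 hν1
  obtain ⟨c1, c2, c3, c4⟩ := coefG_10 (γ := γ) hν0 hν1
  obtain ⟨d1, d2, d3, d4⟩ := coefG_11 hγ1 hγ0 hν0 hν1
  ext s t
  rcases s with z | z <;> rcases t with z' | z' <;>
    simp only [Matrix.reindex_apply, Matrix.submatrix_apply, splitEquiv, Equiv.coe_fn_symm_mk,
      Sum.elim_inl, Sum.elim_inr, outYG_mul_cons, fromBlocks_apply₁₁, fromBlocks_apply₁₂,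
      fromBlocks_apply₂₁, fromBlocks_apply₂₂, Matrix.smul_apply, Matrix.add_apply, smul_eq_mul,
      a1, a2, a3, a4, b1, b2, b3, b4, c1, c2, c3, c4, d1, d2, d3, d4] <;> ring

theorem outYG_zero_eq (γ ν : ℝ) (ψ : (Fin 0 → Fin 2) → ℂ) (z : Fin 0 → Fin 2) (e : Fin 0 → Fin 4) :
    outYG γ ν 0 ψ z e = ψ default := by
  simp only [outYG, Matrix.of_apply, krausPowG, Fintype.sum_unique, Finset.univ_eq_empty,
    Finset.prod_empty, one_mul]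
  exact congrArg ψ (Subsingleton.elim _ _)

/-- The diagonal of `Y Y*` on the first block. -/
theorem outYG_diag0 {γ ν : ℝ} (hγ0 : 0 ≤ γ) (hγ1 : γ ≤ 1) (hν0 : 0 ≤ ν) (hν1 : ν ≤ 1) (n : ℕ)
    (ψ : (Fin (n + 1) → Fin 2) → ℂ) (z : Fin n → Fin 2) :
    ((outYG γ ν (n + 1) ψ * (outYG γ ν (n + 1) ψ)ᴴ) (cb 0 z) (cb 0 z)).re =
      (1 - ν * γ) * ((outYG γ ν n (psiC 0 ψ) * (outYG γ ν n (psiC 0 ψ))ᴴ) z z).re +
        ((1 - ν) * γ) * ((outYG γ ν n (psiC 1 ψ) * (outYG γ ν n (psiC 1 ψ))ᴴ) z z).re := by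
  obtain ⟨a1, a2, a3, a4⟩ := coefG_00 hγ1 hγ0 hν0 hν1
  rw [outYG_mul_cons, a1, a2, a3, a4]
  simp only [zero_mul, add_zero, Complex.add_re, Complex.re_ofReal_mul]

/-- The diagonal of `Y Y*` on the second block. -/
theorem outYG_diag1 {γ ν : ℝ} (hγ0 : 0 ≤ γ) (hγ1 : γ ≤ 1) (hν0 : 0 ≤ ν) (hν1 : ν ≤ 1) (n : ℕ)
    (ψ : (Fin (n + 1) → Fin 2) → ℂ) (z : Fin n → Fin 2) :
    ((outYG γ ν (n + 1) ψ * (outYG γ ν (n + 1) ψ)ᴴ) (cb 1 z) (cb 1 z)).re =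
      (ν * γ) * ((outYG γ ν n (psiC 0 ψ) * (outYG γ ν n (psiC 0 ψ))ᴴ) z z).re +
        (1 - (1 - ν) * γ) * ((outYG γ ν n (psiC 1 ψ) * (outYG γ ν n (psiC 1 ψ))ᴴ) z z).re := by
  obtain ⟨a1, a2, a3, a4⟩ := coefG_11 hγ1 hγ0 hν0 hν1
  rw [outYG_mul_cons, a1, a2, a3, a4]
  simp only [zero_mul, add_zero, Complex.add_re, Complex.re_ofReal_mul]

/-- Sum of the diagonal of `Y Y*`. -/
theorem outYG_total {γ ν : ℝ} (hγ0 : 0 ≤ γ) (hγ1 : γ ≤ 1) (hν0 : 0 ≤ ν) (hν1 : ν ≤ 1) (n : ℕ)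
    (ψ : (Fin n → Fin 2) → ℂ) :
    ∑ z, ((outYG γ ν n ψ * (outYG γ ν n ψ)ᴴ) z z).re = nrm2 ψ := by
  induction n with
  | zero =>
    simp only [mul_conj_diag, outYG_zero_eq, nrm2, Fintype.sum_unique]
    congr 2
    exact congrArg ψ (Subsingleton.elim _ _)
  | succ n ih =>
    rw [sum_cons]
    simp only [outYG_diag0 hγ0 hγ1 hν0 hν1, outYG_diag1 hγ0 hγ1 hν0 hν1]
    rw [nrm2_succ, ← ih (psiC 0 ψ), ← ih (psiC 1 ψ), Finset.sum_add_distrib, Finset.sum_add_distrib,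
      ← Finset.mul_sum, ← Finset.mul_sum, ← Finset.mul_sum, ← Finset.mul_sum]
    ring

/-- Trace preservation on pure states. -/
theorem outputG_trace {γ ν : ℝ} (hγ0 : 0 ≤ γ) (hγ1 : γ ≤ 1) (hν0 : 0 ≤ ν) (hν1 : ν ≤ 1) (n : ℕ)
    (ψ : (Fin n → Fin 2) → ℂ) :
    (trace (outYG γ ν n ψ * (outYG γ ν n ψ)ᴴ)).re = nrm2 ψ := by
  rw [← outYG_total hγ0 hγ1 hν0 hν1 n ψ]
  simp only [Matrix.trace, Matrix.diag_apply, Complex.re_sum]

/-- The output excitation number. -/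
theorem outputG_excit {γ ν : ℝ} (hγ0 : 0 ≤ γ) (hγ1 : γ ≤ 1) (hν0 : 0 ≤ ν) (hν1 : ν ≤ 1) (n : ℕ)
    (ψ : (Fin n → Fin 2) → ℂ) :
    ∑ z, (wt z : ℝ) * ((outYG γ ν n ψ * (outYG γ ν n ψ)ᴴ) z z).re =
      (1 - γ) * excit ψ + n * (γ * ν) * nrm2 ψ := by
  induction n with
  | zero =>
    simp [wt, excit]
  | succ n ih =>
    rw [sum_cons]
    simp only [outYG_diag0 hγ0 hγ1 hν0 hν1, outYG_diag1 hγ0 hγ1 hν0 hν1, wt_cons]
    have e0 : ∀ w : Fin n → Fin 2, (((0 : Fin 2).val + wt w : ℕ) : ℝ) = (wt w : ℝ) := by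
      intro w; simp
    have e1 : ∀ w : Fin n → Fin 2, (((1 : Fin 2).val + wt w : ℕ) : ℝ) = (wt w : ℝ) + 1 := by
      intro w; push_cast; simp; ring
    simp only [e0, e1]
    rw [excit_succ, nrm2_succ]
    have i0 := ih (psiC 0 ψ)
    have i1 := ih (psiC 1 ψ)
    have t0 := outYG_total hγ0 hγ1 hν0 hν1 n (psiC 0 ψ)
    have t1 := outYG_total hγ0 hγ1 hν0 hν1 n (psiC 1 ψ)
    set d0 : (Fin n → Fin 2) → ℝ := fun z => ((outYG γ ν n (psiC 0 ψ) * (outYG γ ν n (psiC 0 ψ))ᴴ) z z).re with hd0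
    set d1 : (Fin n → Fin 2) → ℝ := fun z => ((outYG γ ν n (psiC 1 ψ) * (outYG γ ν n (psiC 1 ψ))ᴴ) z z).re with hd1
    have key : ∑ z : Fin n → Fin 2, (wt z : ℝ) * ((1 - ν * γ) * d0 z + ((1 - ν) * γ) * d1 z) +
        ∑ z : Fin n → Fin 2, ((wt z : ℝ) + 1) * ((ν * γ) * d0 z + (1 - (1 - ν) * γ) * d1 z) =
        ∑ z : Fin n → Fin 2, (wt z : ℝ) * d0 z + ∑ z : Fin n → Fin 2, (wt z : ℝ) * d1 z +
          (ν * γ) * ∑ z, d0 z + (1 - (1 - ν) * γ) * ∑ z, d1 z := by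
      rw [Finset.mul_sum, Finset.mul_sum, ← Finset.sum_add_distrib, ← Finset.sum_add_distrib,
        ← Finset.sum_add_distrib, ← Finset.sum_add_distrib]
      refine Finset.sum_congr rfl fun z _ => ?_
      ring
    have key' : ∑ z : Fin n → Fin 2, (wt z : ℝ) * ((1 - ν * γ) * d0 z + ((1 - ν) * γ) * d1 z) +
        ∑ z : Fin n → Fin 2, ((wt z : ℝ) + 1) * ((ν * γ) * d0 z + (1 - (1 - ν) * γ) * d1 z) =
        (1 - γ) * (excit (psiC 0 ψ) + excit (psiC 1 ψ) + nrm2 (psiC 1 ψ)) +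
          ((n + 1 : ℕ) : ℝ) * (γ * ν) * (nrm2 (psiC 0 ψ) + nrm2 (psiC 1 ψ)) := by
      rw [key, i0, i1, t0, t1]
      push_cast
      ring
    exact key'

/-- Recursive lower bound: for every vector `ψ` on `n` qubits,
`S_un(Y_ψ Y_ψ*) - η(‖ψ‖²) ≥ Φ(n ‖ψ‖² - e, e)`, where `e = excit ψ`. -/
theorem ent_outYG_ge {γ ν : ℝ} (hγ0 : 0 ≤ γ) (hγ1 : γ ≤ 1) (hν0 : 0 ≤ ν) (hν1 : ν ≤ 1) (n : ℕ)
    (ψ : (Fin n → Fin 2) → ℂ) :
    PhiG γ ν (n * nrm2 ψ - excit ψ) (excit ψ) ≤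
      ent (outYG γ ν n ψ * (outYG γ ν n ψ)ᴴ) - negMulLog (nrm2 ψ) := by
  induction n with
  | zero =>
    have hex : excit ψ = 0 := by simp [excit, wt]
    have hnorm : nrm2 ψ = ‖ψ default‖ ^ 2 := by
      simp only [nrm2, Fintype.sum_unique]
      congr 2
      exact congrArg ψ (Subsingleton.elim _ _)
    have hmat : outYG γ ν 0 ψ * (outYG γ ν 0 ψ)ᴴ =
        (1 : Matrix (Fin 0 → Fin 2) (Fin 0 → Fin 2) ℂ) *
          diagonal (fun _ => (((‖ψ default‖ ^ 2 : ℝ)) : ℂ)) *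
            (1 : Matrix (Fin 0 → Fin 2) (Fin 0 → Fin 2) ℂ)ᴴ := by
      ext z z'
      have hzz : z' = z := Subsingleton.elim _ _
      subst hzz
      rw [Matrix.one_mul, conjTranspose_one, Matrix.mul_one, diagonal_apply_eq]
      simp only [Matrix.mul_apply, conjTranspose_apply, outYG_zero_eq, Fintype.sum_unique]
      rw [RCLike.star_def, Complex.mul_conj, Complex.normSq_eq_norm_sq]
    rw [hmat, ent_unitary_diag _ (Submonoid.one_mem _), hex, hnorm]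
    simp [PhiG_zero]
  | succ n ih =>
    set x := nrm2 (psiC 0 ψ) with hx
    set β := nrm2 (psiC 1 ψ) with hβ
    set e₀ := excit (psiC 0 ψ) with he₀
    set e₁ := excit (psiC 1 ψ) with he₁
    have hx0 : 0 ≤ x := nrm2_nonneg _
    have hβ0 : 0 ≤ β := nrm2_nonneg _
    have he₀0 : 0 ≤ e₀ := excit_nonneg _
    have he₁0 : 0 ≤ e₁ := excit_nonneg _
    have he₀1 : 0 ≤ n * x - e₀ := sub_nonneg.2 (excit_le _)
    have he₁1 : 0 ≤ n * β - e₁ := sub_nonneg.2 (excit_le _)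
    have ih0 := ih (psiC 0 ψ)
    have ih1 := ih (psiC 1 ψ)
    have hcore := core_gad (outYG γ ν n (psiC 0 ψ)) (outYG γ ν n (psiC 1 ψ)) hγ0 hγ1 hν0 hν1
    rw [outputG_trace hγ0 hγ1 hν0 hν1, outputG_trace hγ0 hγ1 hν0 hν1] at hcore
    have hent := congrArg ent (reindex_outYG_mul hγ0 hγ1 hν0 hν1 n ψ)
    rw [ent_reindex] at hent
    rw [hent]
    rw [nrm2_succ, excit_succ]
    have hadd1 := PhiG_add (γ := γ) (ν := ν) hγ0 hγ1 hν0 hν1 he₀1 he₀0 he₁1 he₁0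
    have hadd2 := PhiG_add (γ := γ) (ν := ν) hγ0 hγ1 hν0 hν1 (add_nonneg he₀1 he₁1)
      (add_nonneg he₀0 he₁0) hx0 hβ0
    have harg : ((n + 1 : ℕ) : ℝ) * (x + β) - (e₀ + e₁ + β) =
        (n * x - e₀ + (n * β - e₁)) + x := by
      push_cast; ring
    rw [harg]
    have hphi : PhiG γ ν x β = gadScal γ ν x β - negMulLog (x + β) := rfl
    linarith

end

end Vale.Agent.Lib.P358
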