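import Vale.Agent.Lib.P358.Single

/-!
# Superadditivity of the Holevo capacity of `A_{γ,0}^{⊗n}` (P358 library)

Product ensembles give `χ(N^{⊗a}) + χ(N^{⊗b}) ≤ χ(N^{⊗(a+b)})`, hence `n χ(N) ≤ χ(N^{⊗n})`.
Tools: `ent_kronecker` (additivity of the entropy on Kronecker products), `adPow_reindex_kronecker`
(the channel on `a + b` qubits acts factorwise on product inputs) and `trace_adPow` (trace preservation).
-/

namespace Vale.Agent.Lib.P358

open Matrix Real Finset
open scoped ComplexOrder Kronecker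

noncomputable section

/-- `ent` on Kronecker products of Hermitian matrices. -/
theorem ent_kronecker {n m : Type*} [Fintype n] [DecidableEq n] [Fintype m] [DecidableEq m]
    {A : Matrix n n ℂ} {B : Matrix m m ℂ} (hA : A.IsHermitian) (hB : B.IsHermitian) :
    ent (A ⊗ₖ B) = ent A * (trace B).re + (trace A).re * ent B := by
  set U : Matrix n n ℂ := (hA.eigenvectorUnitary : Matrix n n ℂ) with hU
  set W : Matrix m m ℂ := (hB.eigenvectorUnitary : Matrix m m ℂ) with hW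
  have hUu : U ∈ unitaryGroup n ℂ := hA.eigenvectorUnitary.2
  have hWu : W ∈ unitaryGroup m ℂ := hB.eigenvectorUnitary.2
  have hAs : A = U * diagonal (fun i => ((hA.eigenvalues i : ℝ) : ℂ)) * Uᴴ := by
    have := hA.spectral_theorem
    simpa [Unitary.conjStarAlgAut_apply, star_eq_conjTranspose, Function.comp_def, hU] using this
  have hBs : B = W * diagonal (fun i => ((hB.eigenvalues i : ℝ) : ℂ)) * Wᴴ := by
    have := hB.spectral_theorem
    simpa [Unitary.conjStarAlgAut_apply, star_eq_conjTranspose, Function.comp_def, hW] using this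
  have hUW : (U ⊗ₖ W) ∈ unitaryGroup (n × m) ℂ := by
    rw [mem_unitaryGroup_iff, star_eq_conjTranspose, conjTranspose_kronecker, ← mul_kronecker_mul]
    rw [mem_unitaryGroup_iff, star_eq_conjTranspose] at hUu hWu
    rw [hUu, hWu, one_kronecker_one]
  have hkron : A ⊗ₖ B = (U ⊗ₖ W) *
      diagonal (fun p : n × m => (((hA.eigenvalues p.1 * hB.eigenvalues p.2 : ℝ)) : ℂ)) * (U ⊗ₖ W)ᴴ := by
    have hd : diagonal (fun p : n × m => (((hA.eigenvalues p.1 * hB.eigenvalues p.2 : ℝ)) : ℂ)) =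
        diagonal (fun i => ((hA.eigenvalues i : ℝ) : ℂ)) ⊗ₖ
          diagonal (fun i => ((hB.eigenvalues i : ℝ) : ℂ)) := by
      rw [diagonal_kronecker_diagonal]
      congr 1
      funext p
      push_cast
      rfl
    rw [hd, conjTranspose_kronecker, ← mul_kronecker_mul, ← mul_kronecker_mul, ← hAs, ← hBs]
  rw [hkron, ent_unitary_diag _ hUW, Fintype.sum_prod_type, ent_eq hA, ent_eq hB,
    hA.trace_eq_sum_eigenvalues, hB.trace_eq_sum_eigenvalues]
  simp only [Real.negMulLog_mul, Complex.re_sum]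
  simp only [Finset.sum_add_distrib, Finset.sum_mul, Finset.mul_sum]
  refine congrArg₂ (· + ·) ?_ ?_
  · rw [Finset.sum_comm]
    refine Finset.sum_congr rfl fun i _ => ?_
    refine Finset.sum_congr rfl fun j _ => ?_
    simp [mul_comm]
  · rw [Finset.sum_comm]
    simp

/-! ### The channel on product inputs -/

/-- Splitting the qubits. -/
abbrev splitE (a b : ℕ) : (Fin a → Fin 2) × (Fin b → Fin 2) ≃ (Fin (a + b) → Fin 2) :=
  Fin.appendEquiv a b

theorem krausPow_split (γ : ℝ) (a b : ℕ) (e : Fin a → Fin 2) (e' : Fin b → Fin 2) :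
    krausPow γ (a + b) (splitE a b (e, e')) =
      Matrix.reindex (splitE a b) (splitE a b) (krausPow γ a e ⊗ₖ krausPow γ b e') := by
  ext z w
  obtain ⟨⟨z₁, z₂⟩, rfl⟩ := (splitE a b).surjective z
  obtain ⟨⟨w₁, w₂⟩, rfl⟩ := (splitE a b).surjective w
  simp [krausPow, Fin.prod_univ_add, Fin.appendEquiv]

theorem kronecker_sum_sum {ι κ n m : Type*} [Fintype ι] [Fintype κ]
    (X : ι → Matrix n n ℂ) (Y : κ → Matrix m m ℂ) :
    (∑ i, X i) ⊗ₖ (∑ j, Y j) = ∑ i, ∑ j, (X i ⊗ₖ Y j) := by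
  ext ⟨z, z'⟩ ⟨w, w'⟩
  simp [Matrix.sum_apply, Finset.sum_mul_sum]

theorem adPow_reindex_kronecker (γ : ℝ) (a b : ℕ)
    (ρ : Matrix (Fin a → Fin 2) (Fin a → Fin 2) ℂ) (σ : Matrix (Fin b → Fin 2) (Fin b → Fin 2) ℂ) :
    adPow γ (a + b) (Matrix.reindex (splitE a b) (splitE a b) (ρ ⊗ₖ σ)) =
      Matrix.reindex (splitE a b) (splitE a b) (adPow γ a ρ ⊗ₖ adPow γ b σ) := by
  unfold adPow
  rw [kronecker_sum_sum, ← Equiv.sum_comp (splitE a b), Fintype.sum_prod_type]
  have : ∀ (F : (Fin a → Fin 2) → (Fin b → Fin 2) →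
        Matrix ((Fin a → Fin 2) × (Fin b → Fin 2)) ((Fin a → Fin 2) × (Fin b → Fin 2)) ℂ),
      Matrix.reindex (splitE a b) (splitE a b) (∑ i, ∑ j, F i j) =
        ∑ i, ∑ j, Matrix.reindex (splitE a b) (splitE a b) (F i j) := by
    intro F
    ext z w
    simp [Matrix.sum_apply]
  rw [this]
  refine Finset.sum_congr rfl fun e _ => Finset.sum_congr rfl fun e' _ => ?_
  rw [krausPow_split]
  simp only [Matrix.reindex_apply, conjTranspose_submatrix, submatrix_mul_equiv]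
  rw [conjTranspose_kronecker, ← mul_kronecker_mul, ← mul_kronecker_mul]

/-! ### Trace preservation -/

theorem krausAD_sum (γ : ℝ) (h0 : 0 ≤ γ) (h1 : γ ≤ 1) (z w : Fin 2) :
    ∑ y : Fin 2, ∑ x : Fin 2, star (krausAD γ y x z) * krausAD γ y x w =
      if z = w then 1 else 0 := by
  have hs : ((Real.sqrt (1 - γ) : ℝ) : ℂ) * ((Real.sqrt (1 - γ) : ℝ) : ℂ) = ((1 - γ : ℝ) : ℂ) := by
    rw [← Complex.ofReal_mul, Real.mul_self_sqrt (by linarith)]
  have hg : ((Real.sqrt γ : ℝ) : ℂ) * ((Real.sqrt γ : ℝ) : ℂ) = ((γ : ℝ) : ℂ) := by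
    rw [← Complex.ofReal_mul, Real.mul_self_sqrt h0]
  fin_cases z <;> fin_cases w <;>
    simp [krausAD, Fin.sum_univ_two, hs, hg]

theorem krausPow_sum (γ : ℝ) (h0 : 0 ≤ γ) (h1 : γ ≤ 1) (n : ℕ) :
    ∑ e, (krausPow γ n e)ᴴ * krausPow γ n e = 1 := by
  ext z w
  have key : ∑ e : Fin n → Fin 2, ∑ v : Fin n → Fin 2,
      ∏ i, (star (krausAD γ (e i) (v i) (z i)) * krausAD γ (e i) (v i) (w i)) =
      ∏ i, ∑ y : Fin 2, ∑ x : Fin 2, star (krausAD γ y x (z i)) * krausAD γ y x (w i) := by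
    have h1' : ∀ e : Fin n → Fin 2, ∑ v : Fin n → Fin 2,
        ∏ i, (star (krausAD γ (e i) (v i) (z i)) * krausAD γ (e i) (v i) (w i)) =
        ∏ i, ∑ x : Fin 2, star (krausAD γ (e i) x (z i)) * krausAD γ (e i) x (w i) := by
      intro e
      rw [Finset.prod_univ_sum, Fintype.piFinset_univ]
    simp_rw [h1']
    rw [Finset.prod_univ_sum, Fintype.piFinset_univ]
  simp only [Matrix.sum_apply, Matrix.mul_apply, conjTranspose_apply, krausPow, Matrix.of_apply]
  simp only [star_prod, ← Finset.prod_mul_distrib]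
  rw [key]
  simp only [krausAD_sum γ h0 h1]
  by_cases hzw : z = w
  · subst hzw
    simp
  · rw [Matrix.one_apply_ne hzw]
    obtain ⟨i, hi⟩ := Function.ne_iff.mp hzw
    exact Finset.prod_eq_zero (Finset.mem_univ i) (by simp [hi])

theorem trace_adPow {γ : ℝ} (h0 : 0 ≤ γ) (h1 : γ ≤ 1) (n : ℕ)
    (ρ : Matrix (Fin n → Fin 2) (Fin n → Fin 2) ℂ) : trace (adPow γ n ρ) = trace ρ := by
  unfold adPow
  rw [trace_sum]
  have : ∀ e, trace (krausPow γ n e * ρ * (krausPow γ n e)ᴴ) =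
      trace ((krausPow γ n e)ᴴ * krausPow γ n e * ρ) := by
    intro e
    rw [Matrix.trace_mul_comm, Matrix.mul_assoc]
  simp_rw [this]
  rw [← trace_sum, ← Finset.sum_mul, krausPow_sum γ h0 h1, Matrix.one_mul]

theorem isHermitian_adPow (γ : ℝ) (n : ℕ) {ρ : Matrix (Fin n → Fin 2) (Fin n → Fin 2) ℂ}
    (hρ : ρ.IsHermitian) : (adPow γ n ρ).IsHermitian := by
  unfold adPow
  unfold Matrix.IsHermitian
  rw [conjTranspose_sum]
  refine Finset.sum_congr rfl fun e _ => ?_
  exact isHermitian_mul_mul_conjTranspose _ hρ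

/-- Entropy of the output of a product input (trace one factors), in bits. -/
theorem vnEntropy_adPow_kronecker {γ : ℝ} (h0 : 0 ≤ γ) (h1 : γ ≤ 1) (a b : ℕ)
    {ρ : Matrix (Fin a → Fin 2) (Fin a → Fin 2) ℂ} {σ : Matrix (Fin b → Fin 2) (Fin b → Fin 2) ℂ}
    (hρ : ρ.IsHermitian) (hσ : σ.IsHermitian) (tρ : trace ρ = 1) (tσ : trace σ = 1) :
    vnEntropy (adPow γ (a + b) (Matrix.reindex (splitE a b) (splitE a b) (ρ ⊗ₖ σ))) =
      vnEntropy (adPow γ a ρ) + vnEntropy (adPow γ b σ) := by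
  rw [adPow_reindex_kronecker]
  unfold vnEntropy
  rw [ent_reindex, ent_kronecker (isHermitian_adPow γ a hρ) (isHermitian_adPow γ b hσ),
    trace_adPow h0 h1, trace_adPow h0 h1, tρ, tσ]
  simp
  ring

/-! ### Product ensembles -/

theorem holevoSet_add {γ : ℝ} (h0 : 0 ≤ γ) (h1 : γ ≤ 1) {a b : ℕ} {x y : ℝ}
    (hx : x ∈ holevoSet γ a) (hy : y ∈ holevoSet γ b) : x + y ∈ holevoSet γ (a + b) := by
  obtain ⟨m, q, ρ, hq, hq1, hρ, rfl⟩ := hx
  obtain ⟨m', q', σ, hq', hq1', hσ, rfl⟩ := hy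
  let idx : Fin m × Fin m' ≃ Fin (m * m') := finProdFinEquiv
  let E := splitE a b
  let ρ' : Fin m × Fin m' → Matrix (Fin (a + b) → Fin 2) (Fin (a + b) → Fin 2) ℂ :=
    fun p => Matrix.reindex E E (ρ p.1 ⊗ₖ σ p.2)
  have hρH : ∀ i, (ρ i).IsHermitian := fun i => (hρ i).1.1
  have hσH : ∀ i, (σ i).IsHermitian := fun i => (hσ i).1.1
  -- the averages
  have hrbar : (∑ i, ((q i : ℝ) : ℂ) • ρ i).IsHermitian := by
    unfold Matrix.IsHermitian
    rw [conjTranspose_sum]
    refine Finset.sum_congr rfl fun i _ => ?_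
    rw [conjTranspose_smul, (hρH i).eq]
    simp
  have hsbar : (∑ i, ((q' i : ℝ) : ℂ) • σ i).IsHermitian := by
    unfold Matrix.IsHermitian
    rw [conjTranspose_sum]
    refine Finset.sum_congr rfl fun i _ => ?_
    rw [conjTranspose_smul, (hσH i).eq]
    simp
  have trbar : trace (∑ i, ((q i : ℝ) : ℂ) • ρ i) = 1 := by
    rw [trace_sum]
    simp only [trace_smul, (hρ _).2, smul_eq_mul, mul_one]
    rw [← Complex.ofReal_sum, hq1]
    simp
  have tsbar : trace (∑ i, ((q' i : ℝ) : ℂ) • σ i) = 1 := by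
    rw [trace_sum]
    simp only [trace_smul, (hσ _).2, smul_eq_mul, mul_one]
    rw [← Complex.ofReal_sum, hq1']
    simp
  refine ⟨m * m', fun c => q (idx.symm c).1 * q' (idx.symm c).2, fun c => ρ' (idx.symm c),
    fun c => mul_nonneg (hq _) (hq' _), ?_, ?_, ?_⟩
  · rw [Equiv.sum_comp idx.symm (fun p => q p.1 * q' p.2), Fintype.sum_prod_type]
    simp_rw [← Finset.mul_sum, hq1', mul_one, hq1]
  · intro c
    refine ⟨((hρ _).1.kronecker (hσ _).1).submatrix _, ?_⟩
    have : trace (ρ' (idx.symm c)) = trace (ρ (idx.symm c).1 ⊗ₖ σ (idx.symm c).2) := by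
      simp only [ρ', Matrix.reindex_apply, trace, Matrix.diag_apply, Matrix.submatrix_apply]
      exact Equiv.sum_comp E.symm (fun p =>
        (ρ (idx.symm c).1 ⊗ₖ σ (idx.symm c).2) p p)
    rw [this, trace_kronecker, (hρ _).2, (hσ _).2, mul_one]
  · unfold holevoQuantity
    have havg : (∑ c, (((q (idx.symm c).1 * q' (idx.symm c).2 : ℝ)) : ℂ) • ρ' (idx.symm c)) =
        Matrix.reindex E E ((∑ i, ((q i : ℝ) : ℂ) • ρ i) ⊗ₖ (∑ i, ((q' i : ℝ) : ℂ) • σ i)) := by
      rw [Equiv.sum_comp idx.symm (fun p => (((q p.1 * q' p.2 : ℝ)) : ℂ) • ρ' p),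
        Fintype.sum_prod_type, kronecker_sum_sum]
      ext z w
      simp [ρ', E, Matrix.sum_apply, mul_left_comm, mul_assoc]
    rw [havg]
    have h_ent := vnEntropy_adPow_kronecker h0 h1 a b hrbar hsbar trbar tsbar
    have h_term : ∀ c, q (idx.symm c).1 * q' (idx.symm c).2 * vnEntropy (adPow γ (a + b) (ρ' (idx.symm c))) =
        q (idx.symm c).1 * q' (idx.symm c).2 *
          (vnEntropy (adPow γ a (ρ (idx.symm c).1)) + vnEntropy (adPow γ b (σ (idx.symm c).2))) := by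
      intro c
      rw [show ρ' (idx.symm c) = _ from rfl,
        vnEntropy_adPow_kronecker h0 h1 a b (hρH _) (hσH _) (hρ _).2 (hσ _).2]
    simp_rw [h_term]
    rw [h_ent]
    rw [Equiv.sum_comp idx.symm (fun p => q p.1 * q' p.2 *
      (vnEntropy (adPow γ a (ρ p.1)) + vnEntropy (adPow γ b (σ p.2)))), Fintype.sum_prod_type]
    have hsplit : ∑ i, ∑ j, q i * q' j * (vnEntropy (adPow γ a (ρ i)) + vnEntropy (adPow γ b (σ j))) =
        ∑ i, q i * vnEntropy (adPow γ a (ρ i)) + ∑ j, q' j * vnEntropy (adPow γ b (σ j)) := by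
      have e1 : ∀ i, ∑ j, q i * q' j * (vnEntropy (adPow γ a (ρ i)) + vnEntropy (adPow γ b (σ j))) =
          q i * vnEntropy (adPow γ a (ρ i)) + q i * ∑ j, q' j * vnEntropy (adPow γ b (σ j)) := by
        intro i
        calc ∑ j, q i * q' j * (vnEntropy (adPow γ a (ρ i)) + vnEntropy (adPow γ b (σ j)))
            = q i * vnEntropy (adPow γ a (ρ i)) * ∑ j, q' j +
                q i * ∑ j, q' j * vnEntropy (adPow γ b (σ j)) := by
              rw [Finset.mul_sum, Finset.mul_sum, ← Finset.sum_add_distrib]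
              exact Finset.sum_congr rfl fun j _ => by ring
          _ = _ := by rw [hq1', mul_one]
      simp_rw [e1]
      rw [Finset.sum_add_distrib, ← Finset.sum_mul, hq1, one_mul]
    rw [hsplit]
    ring

/-- Superadditivity of the Holevo capacity of the tensor powers. -/
theorem chiPow_add_le {γ : ℝ} (h0 : 0 ≤ γ) (h1 : γ ≤ 1) {a b : ℕ} (hab : 1 ≤ a + b) :
    chiPow γ a + chiPow γ b ≤ chiPow γ (a + b) := by
  unfold chiPow
  have hb : BddAbove (holevoSet γ (a + b)) := holevoSet_bddAbove h0 h1 hab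
  have step : ∀ y ∈ holevoSet γ b, sSup (holevoSet γ a) + y ≤ sSup (holevoSet γ (a + b)) := by
    intro y hy
    have : sSup (holevoSet γ a) ≤ sSup (holevoSet γ (a + b)) - y := by
      refine csSup_le (holevoSet_nonempty h0 h1 a) fun x hx => ?_
      have := le_csSup hb (holevoSet_add h0 h1 hx hy)
      linarith
    linarith
  have : sSup (holevoSet γ b) ≤ sSup (holevoSet γ (a + b)) - sSup (holevoSet γ a) := by
    refine csSup_le (holevoSet_nonempty h0 h1 b) fun y hy => ?_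
    have := step y hy
    linarith
  linarith

/-- `n χ(N) ≤ χ(N^{⊗n})`. -/
theorem chiPow_ge {γ : ℝ} (h0 : 0 ≤ γ) (h1 : γ ≤ 1) {n : ℕ} (hn : 1 ≤ n) :
    n * chiPow γ 1 ≤ chiPow γ n := by
  induction n, hn using Nat.le_induction with
  | base => simp
  | succ k hk ih =>
    have := chiPow_add_le h0 h1 (a := k) (b := 1) (by omega)
    push_cast
    linarith

/-- Additivity of the Holevo capacity: `χ(N^{⊗n}) = n χ(N)`. -/
theorem chiPow_eq {γ : ℝ} (h0 : 0 ≤ γ) (h1 : γ ≤ 1) {n : ℕ} (hn : 1 ≤ n) :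
    chiPow γ n = n * chiPow γ 1 :=
  le_antisymm (chiPow_le h0 h1 hn) (chiPow_ge h0 h1 hn)

end

end Vale.Agent.Lib.P358
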