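import Vale.Agent.Lib.P358.GSingle
import Vale.Agent.Lib.P358.Product

/-!
# Superadditivity, general `ν` (P358 library): JOB G13

Same proofs as in `Product.lean` (reuse `ent_kronecker`, `kronecker_sum_sum`, ...), for `krausPowG`, `gadPow`, `holevoSetG`, `chiPowG`.
-/

namespace Vale.Agent.Lib.P358

open Matrix Real Finset
open scoped ComplexOrder Kronecker

noncomputable section

/-! ### The channel on product inputs -/

theorem krausPowG_split (γ ν : ℝ) (a b : ℕ) (e : Fin a → Fin 4) (e' : Fin b → Fin 4) :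
    krausPowG γ ν (a + b) (Fin.appendEquiv a b (e, e')) =
      Matrix.reindex (splitE a b) (splitE a b) (krausPowG γ ν a e ⊗ₖ krausPowG γ ν b e') := by
  ext z w
  obtain ⟨⟨z₁, z₂⟩, rfl⟩ := (splitE a b).surjective z
  obtain ⟨⟨w₁, w₂⟩, rfl⟩ := (splitE a b).surjective w
  simp [krausPowG, Fin.prod_univ_add, Fin.appendEquiv]

theorem gadPow_reindex_kronecker (γ ν : ℝ) (a b : ℕ)
    (ρ : Matrix (Fin a → Fin 2) (Fin a → Fin 2) ℂ) (σ : Matrix (Fin b → Fin 2) (Fin b → Fin 2) ℂ) :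
    gadPow γ ν (a + b) (Matrix.reindex (splitE a b) (splitE a b) (ρ ⊗ₖ σ)) =
      Matrix.reindex (splitE a b) (splitE a b) (gadPow γ ν a ρ ⊗ₖ gadPow γ ν b σ) := by
  unfold gadPow
  rw [kronecker_sum_sum, ← Equiv.sum_comp (Fin.appendEquiv a b : (Fin a → Fin 4) × (Fin b → Fin 4) ≃ _),
    Fintype.sum_prod_type]
  have : ∀ (F : (Fin a → Fin 4) → (Fin b → Fin 4) →
        Matrix ((Fin a → Fin 2) × (Fin b → Fin 2)) ((Fin a → Fin 2) × (Fin b → Fin 2)) ℂ),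
      Matrix.reindex (splitE a b) (splitE a b) (∑ i, ∑ j, F i j) =
        ∑ i, ∑ j, Matrix.reindex (splitE a b) (splitE a b) (F i j) := by
    intro F
    ext z w
    simp [Matrix.sum_apply]
  rw [this]
  refine Finset.sum_congr rfl fun e _ => Finset.sum_congr rfl fun e' _ => ?_
  rw [krausPowG_split]
  simp only [Matrix.reindex_apply, conjTranspose_submatrix, submatrix_mul_equiv]
  rw [conjTranspose_kronecker, ← mul_kronecker_mul, ← mul_kronecker_mul]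

/-! ### Trace preservation -/

theorem krausGAD_sum (γ ν : ℝ) (h0 : 0 ≤ γ) (h1 : γ ≤ 1) (n0 : 0 ≤ ν) (n1 : ν ≤ 1) (z w : Fin 2) :
    ∑ y : Fin 4, ∑ x : Fin 2, star (krausGAD γ ν y x z) * krausGAD γ ν y x w =
      if z = w then 1 else 0 := by
  have hs : ((Real.sqrt (1 - γ) : ℝ) : ℂ) * ((Real.sqrt (1 - γ) : ℝ) : ℂ) = 1 - (γ : ℂ) := by
    rw [← Complex.ofReal_mul, Real.mul_self_sqrt (by linarith)]; push_cast; ring
  have hg : ((Real.sqrt γ : ℝ) : ℂ) * ((Real.sqrt γ : ℝ) : ℂ) = (γ : ℂ) := by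
    rw [← Complex.ofReal_mul, Real.mul_self_sqrt h0]
  have hn : ((Real.sqrt (1 - ν) : ℝ) : ℂ) * ((Real.sqrt (1 - ν) : ℝ) : ℂ) = 1 - (ν : ℂ) := by
    rw [← Complex.ofReal_mul, Real.mul_self_sqrt (by linarith)]; push_cast; ring
  have hm : ((Real.sqrt ν : ℝ) : ℂ) * ((Real.sqrt ν : ℝ) : ℂ) = (ν : ℂ) := by
    rw [← Complex.ofReal_mul, Real.mul_self_sqrt n0]
  fin_cases z <;> fin_cases w <;>
    simp [krausGAD, Fin.sum_univ_two, Fin.sum_univ_four]
  · linear_combination hn + (((Real.sqrt (1 - γ) : ℝ) : ℂ) * ((Real.sqrt (1 - γ) : ℝ) : ℂ)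
      + ((Real.sqrt γ : ℝ) : ℂ) * ((Real.sqrt γ : ℝ) : ℂ)) * hm + (ν : ℂ) * (hs + hg)
  · linear_combination (((Real.sqrt (1 - γ) : ℝ) : ℂ) * ((Real.sqrt (1 - γ) : ℝ) : ℂ)
      + ((Real.sqrt γ : ℝ) : ℂ) * ((Real.sqrt γ : ℝ) : ℂ)) * hn + (1 - (ν : ℂ)) * (hs + hg) + hm

theorem krausPowG_sum (γ ν : ℝ) (h0 : 0 ≤ γ) (h1 : γ ≤ 1) (n0 : 0 ≤ ν) (n1 : ν ≤ 1) (n : ℕ) :
    ∑ e, (krausPowG γ ν n e)ᴴ * krausPowG γ ν n e = 1 := by
  ext z w
  have key : ∑ e : Fin n → Fin 4, ∑ v : Fin n → Fin 2,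
      ∏ i, (star (krausGAD γ ν (e i) (v i) (z i)) * krausGAD γ ν (e i) (v i) (w i)) =
      ∏ i, ∑ y : Fin 4, ∑ x : Fin 2, star (krausGAD γ ν y x (z i)) * krausGAD γ ν y x (w i) := by
    have h1' : ∀ e : Fin n → Fin 4, ∑ v : Fin n → Fin 2,
        ∏ i, (star (krausGAD γ ν (e i) (v i) (z i)) * krausGAD γ ν (e i) (v i) (w i)) =
        ∏ i, ∑ x : Fin 2, star (krausGAD γ ν (e i) x (z i)) * krausGAD γ ν (e i) x (w i) := by
      intro e
      rw [Finset.prod_univ_sum, Fintype.piFinset_univ]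
    simp_rw [h1']
    rw [Finset.prod_univ_sum, Fintype.piFinset_univ]
  simp only [Matrix.sum_apply, Matrix.mul_apply, conjTranspose_apply, krausPowG, Matrix.of_apply]
  simp only [star_prod, ← Finset.prod_mul_distrib]
  rw [key]
  simp only [krausGAD_sum γ ν h0 h1 n0 n1]
  by_cases hzw : z = w
  · subst hzw
    simp
  · rw [Matrix.one_apply_ne hzw]
    obtain ⟨i, hi⟩ := Function.ne_iff.mp hzw
    exact Finset.prod_eq_zero (Finset.mem_univ i) (by simp [hi])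

theorem trace_gadPow {γ ν : ℝ} (h0 : 0 ≤ γ) (h1 : γ ≤ 1) (n0 : 0 ≤ ν) (n1 : ν ≤ 1) (n : ℕ)
    (ρ : Matrix (Fin n → Fin 2) (Fin n → Fin 2) ℂ) : trace (gadPow γ ν n ρ) = trace ρ := by
  unfold gadPow
  rw [trace_sum]
  have : ∀ e, trace (krausPowG γ ν n e * ρ * (krausPowG γ ν n e)ᴴ) =
      trace ((krausPowG γ ν n e)ᴴ * krausPowG γ ν n e * ρ) := by
    intro e
    rw [Matrix.trace_mul_comm, Matrix.mul_assoc]
  simp_rw [this]
  rw [← trace_sum, ← Finset.sum_mul, krausPowG_sum γ ν h0 h1 n0 n1, Matrix.one_mul]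

theorem isHermitian_gadPow (γ ν : ℝ) (n : ℕ) {ρ : Matrix (Fin n → Fin 2) (Fin n → Fin 2) ℂ}
    (hρ : ρ.IsHermitian) : (gadPow γ ν n ρ).IsHermitian := by
  unfold gadPow
  unfold Matrix.IsHermitian
  rw [conjTranspose_sum]
  refine Finset.sum_congr rfl fun e _ => ?_
  exact isHermitian_mul_mul_conjTranspose _ hρ

/-- Entropy of the output of a product input (trace one factors), in bits. -/
theorem vnEntropy_gadPow_kronecker {γ ν : ℝ} (h0 : 0 ≤ γ) (h1 : γ ≤ 1) (n0 : 0 ≤ ν) (n1 : ν ≤ 1)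
    (a b : ℕ)
    {ρ : Matrix (Fin a → Fin 2) (Fin a → Fin 2) ℂ} {σ : Matrix (Fin b → Fin 2) (Fin b → Fin 2) ℂ}
    (hρ : ρ.IsHermitian) (hσ : σ.IsHermitian) (tρ : trace ρ = 1) (tσ : trace σ = 1) :
    vnEntropy (gadPow γ ν (a + b) (Matrix.reindex (splitE a b) (splitE a b) (ρ ⊗ₖ σ))) =
      vnEntropy (gadPow γ ν a ρ) + vnEntropy (gadPow γ ν b σ) := by
  rw [gadPow_reindex_kronecker]
  unfold vnEntropy
  rw [ent_reindex, ent_kronecker (isHermitian_gadPow γ ν a hρ) (isHermitian_gadPow γ ν b hσ),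
    trace_gadPow h0 h1 n0 n1, trace_gadPow h0 h1 n0 n1, tρ, tσ]
  simp
  ring

/-! ### Product ensembles -/

theorem holevoSetG_add {γ ν : ℝ} (h0 : 0 ≤ γ) (h1 : γ ≤ 1) (n0 : 0 ≤ ν) (n1 : ν ≤ 1) {a b : ℕ}
    {x y : ℝ} (hx : x ∈ holevoSetG γ ν a) (hy : y ∈ holevoSetG γ ν b) :
    x + y ∈ holevoSetG γ ν (a + b) := by
  obtain ⟨m, q, ρ, hq, hq1, hρ, rfl⟩ := hx
  obtain ⟨m', q', σ, hq', hq1', hσ, rfl⟩ := hy
  let idx : Fin m × Fin m' ≃ Fin (m * m') := finProdFinEquiv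
  let E := splitE a b
  let ρ' : Fin m × Fin m' → Matrix (Fin (a + b) → Fin 2) (Fin (a + b) → Fin 2) ℂ :=
    fun p => Matrix.reindex E E (ρ p.1 ⊗ₖ σ p.2)
  have hρH : ∀ i, (ρ i).IsHermitian := fun i => (hρ i).1.1
  have hσH : ∀ i, (σ i).IsHermitian := fun i => (hσ i).1.1
  -- the averages
  have hrbar : (∑ i, ((q i : ℝ) : ℂ) • ρ i).IsHermitian := by
    unfold Matrix.IsHermitian
    rw [conjTranspose_sum]
    refine Finset.sum_congr rfl fun i _ => ?_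
    rw [conjTranspose_smul, (hρH i).eq]
    simp
  have hsbar : (∑ i, ((q' i : ℝ) : ℂ) • σ i).IsHermitian := by
    unfold Matrix.IsHermitian
    rw [conjTranspose_sum]
    refine Finset.sum_congr rfl fun i _ => ?_
    rw [conjTranspose_smul, (hσH i).eq]
    simp
  have trbar : trace (∑ i, ((q i : ℝ) : ℂ) • ρ i) = 1 := by
    rw [trace_sum]
    simp only [trace_smul, (hρ _).2, smul_eq_mul, mul_one]
    rw [← Complex.ofReal_sum, hq1]
    simp
  have tsbar : trace (∑ i, ((q' i : ℝ) : ℂ) • σ i) = 1 := by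
    rw [trace_sum]
    simp only [trace_smul, (hσ _).2, smul_eq_mul, mul_one]
    rw [← Complex.ofReal_sum, hq1']
    simp
  refine ⟨m * m', fun c => q (idx.symm c).1 * q' (idx.symm c).2, fun c => ρ' (idx.symm c),
    fun c => mul_nonneg (hq _) (hq' _), ?_, ?_, ?_⟩
  · rw [Equiv.sum_comp idx.symm (fun p => q p.1 * q' p.2), Fintype.sum_prod_type]
    simp_rw [← Finset.mul_sum, hq1', mul_one, hq1]
  · intro c
    refine ⟨((hρ _).1.kronecker (hσ _).1).submatrix _, ?_⟩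
    have : trace (ρ' (idx.symm c)) = trace (ρ (idx.symm c).1 ⊗ₖ σ (idx.symm c).2) := by
      simp only [ρ', Matrix.reindex_apply, trace, Matrix.diag_apply, Matrix.submatrix_apply]
      exact Equiv.sum_comp E.symm (fun p =>
        (ρ (idx.symm c).1 ⊗ₖ σ (idx.symm c).2) p p)
    rw [this, trace_kronecker, (hρ _).2, (hσ _).2, mul_one]
  · unfold holevoQuantityG
    have havg : (∑ c, (((q (idx.symm c).1 * q' (idx.symm c).2 : ℝ)) : ℂ) • ρ' (idx.symm c)) =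
        Matrix.reindex E E ((∑ i, ((q i : ℝ) : ℂ) • ρ i) ⊗ₖ (∑ i, ((q' i : ℝ) : ℂ) • σ i)) := by
      rw [Equiv.sum_comp idx.symm (fun p => (((q p.1 * q' p.2 : ℝ)) : ℂ) • ρ' p),
        Fintype.sum_prod_type, kronecker_sum_sum]
      ext z w
      simp [ρ', E, Matrix.sum_apply, mul_left_comm, mul_assoc]
    rw [havg]
    have h_ent := vnEntropy_gadPow_kronecker h0 h1 n0 n1 a b hrbar hsbar trbar tsbar
    have h_term : ∀ c, q (idx.symm c).1 * q' (idx.symm c).2 * vnEntropy (gadPow γ ν (a + b) (ρ' (idx.symm c))) =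
        q (idx.symm c).1 * q' (idx.symm c).2 *
          (vnEntropy (gadPow γ ν a (ρ (idx.symm c).1)) + vnEntropy (gadPow γ ν b (σ (idx.symm c).2))) := by
      intro c
      rw [show ρ' (idx.symm c) = _ from rfl,
        vnEntropy_gadPow_kronecker h0 h1 n0 n1 a b (hρH _) (hσH _) (hρ _).2 (hσ _).2]
    simp_rw [h_term]
    rw [h_ent]
    rw [Equiv.sum_comp idx.symm (fun p => q p.1 * q' p.2 *
      (vnEntropy (gadPow γ ν a (ρ p.1)) + vnEntropy (gadPow γ ν b (σ p.2)))), Fintype.sum_prod_type]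
    have hsplit : ∑ i, ∑ j, q i * q' j * (vnEntropy (gadPow γ ν a (ρ i)) + vnEntropy (gadPow γ ν b (σ j))) =
        ∑ i, q i * vnEntropy (gadPow γ ν a (ρ i)) + ∑ j, q' j * vnEntropy (gadPow γ ν b (σ j)) := by
      have e1 : ∀ i, ∑ j, q i * q' j * (vnEntropy (gadPow γ ν a (ρ i)) + vnEntropy (gadPow γ ν b (σ j))) =
          q i * vnEntropy (gadPow γ ν a (ρ i)) + q i * ∑ j, q' j * vnEntropy (gadPow γ ν b (σ j)) := by
        intro i
        calc ∑ j, q i * q' j * (vnEntropy (gadPow γ ν a (ρ i)) + vnEntropy (gadPow γ ν b (σ j)))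
            = q i * vnEntropy (gadPow γ ν a (ρ i)) * ∑ j, q' j +
                q i * ∑ j, q' j * vnEntropy (gadPow γ ν b (σ j)) := by
              rw [Finset.mul_sum, Finset.mul_sum, ← Finset.sum_add_distrib]
              exact Finset.sum_congr rfl fun j _ => by ring
          _ = _ := by rw [hq1', mul_one]
      simp_rw [e1]
      rw [Finset.sum_add_distrib, ← Finset.sum_mul, hq1, one_mul]
    rw [hsplit]
    ring

/-- Superadditivity of the Holevo capacity of the tensor powers. -/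
theorem chiPowG_add_le {γ ν : ℝ} (h0 : 0 ≤ γ) (h1 : γ ≤ 1) (n0 : 0 ≤ ν) (n1 : ν ≤ 1) {a b : ℕ}
    (hab : 1 ≤ a + b) :
    chiPowG γ ν a + chiPowG γ ν b ≤ chiPowG γ ν (a + b) := by
  unfold chiPowG
  have hb : BddAbove (holevoSetG γ ν (a + b)) := holevoSetG_bddAbove h0 h1 n0 n1 hab
  have step : ∀ y ∈ holevoSetG γ ν b, sSup (holevoSetG γ ν a) + y ≤ sSup (holevoSetG γ ν (a + b)) := by
    intro y hy
    have : sSup (holevoSetG γ ν a) ≤ sSup (holevoSetG γ ν (a + b)) - y := by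
      refine csSup_le (holevoSetG_nonempty γ ν a) fun x hx => ?_
      have := le_csSup hb (holevoSetG_add h0 h1 n0 n1 hx hy)
      linarith
    linarith
  have : sSup (holevoSetG γ ν b) ≤ sSup (holevoSetG γ ν (a + b)) - sSup (holevoSetG γ ν a) := by
    refine csSup_le (holevoSetG_nonempty γ ν b) fun y hy => ?_
    have := step y hy
    linarith
  linarith

theorem chiPowG_ge {γ ν : ℝ} (hγ0 : 0 ≤ γ) (hγ1 : γ ≤ 1) (hν0 : 0 ≤ ν) (hν1 : ν ≤ 1) {n : ℕ}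
    (hn : 1 ≤ n) : (n : ℝ) * chiPowG γ ν 1 ≤ chiPowG γ ν n := by
  induction n, hn using Nat.le_induction with
  | base => simp
  | succ k hk ih =>
    have := chiPowG_add_le hγ0 hγ1 hν0 hν1 (a := k) (b := 1) (by omega)
    push_cast
    linarith

theorem chiPowG_eq {γ ν : ℝ} (hγ0 : 0 ≤ γ) (hγ1 : γ ≤ 1) (hν0 : 0 ≤ ν) (hν1 : ν ≤ 1) {n : ℕ}
    (hn : 1 ≤ n) : chiPowG γ ν n = n * chiPowG γ ν 1 :=
  le_antisymm (chiPowG_le hγ0 hγ1 hν0 hν1 hn) (chiPowG_ge hγ0 hγ1 hν0 hν1 hn)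

end

end Vale.Agent.Lib.P358
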