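import Vale.Agent.Lib.P358.Holevo

/-!
# The single-letter ensemble and the main bound (P358 library)

`single_letter_mem`: `n = 1`, `m = 2`, `q = (1/2, 1/2)`, pure states with amplitudes
`ψ_± = (√(1-w), ±√w)` on `Fin 1 → Fin 2`; the average is `diag(1-w, w)`, the output of the average is
`diag(1-(1-γ)w, (1-γ)w)` (entropy `h₂((1-γ)w)`); the output of `ψ_±` has trace `1`, determinant `γ(1-γ)w²`,
so its characteristic polynomial is `(X - lamP γ (1-w) w)(X - lamM γ (1-w) w)` and `ent = scal γ (1-w) w`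
(`ent_of_charpoly`).
-/

namespace Vale.Agent.Lib.P358

open Matrix Real Finset
open scoped ComplexOrder

noncomputable section

/-- `2 × 2` Hermitian entropy through trace and determinant. -/
private theorem ent_fin_two {M : Matrix (Fin 2) (Fin 2) ℂ} (h : M.IsHermitian) (a b : ℝ)
    (htr : M.trace = ((a + b : ℝ) : ℂ)) (hdet : M.det = ((a * b : ℝ) : ℂ)) :
    ent M = negMulLog a + negMulLog b := by
  have key := ent_of_charpoly h ![a, b] (by
    rw [Matrix.charpoly_fin_two, htr, hdet, Fin.prod_univ_two]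
    simp only [Matrix.cons_val_zero, Matrix.cons_val_one, Complex.ofReal_add, Complex.ofReal_mul,
      Polynomial.C_add, Polynomial.C_mul]
    ring)
  simpa [Fin.sum_univ_two] using key

private def e12 : (Fin 1 → Fin 2) ≃ Fin 2 := Equiv.funUnique (Fin 1) (Fin 2)

private theorem e12_symm_zero (i : Fin 2) : (e12.symm i) 0 = i := rfl

private theorem reindex_kraus (γ : ℝ) (f : Fin 1 → Fin 2) :
    (krausPow γ 1 f).submatrix e12.symm e12.symm = krausAD γ (f 0) := by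
  ext i j
  simp [krausPow, e12_symm_zero]

private theorem sum_fin_one_fun {M : Type*} [AddCommMonoid M] (g : (Fin 1 → Fin 2) → M) :
    ∑ f, g f = ∑ k : Fin 2, g (e12.symm k) :=
  (Equiv.sum_comp e12.symm g).symm

/-- The one-qubit channel in `Fin 2` coordinates. -/
private theorem reindex_adPow_one (γ : ℝ) (ρ : Matrix (Fin 1 → Fin 2) (Fin 1 → Fin 2) ℂ) :
    Matrix.reindex e12 e12 (adPow γ 1 ρ) =
      ∑ k : Fin 2, krausAD γ k * (ρ.submatrix e12.symm e12.symm) * (krausAD γ k)ᴴ := by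
  have hrw : Matrix.reindex e12 e12 (adPow γ 1 ρ) = (adPow γ 1 ρ).submatrix e12.symm e12.symm := rfl
  rw [hrw, adPow, sum_fin_one_fun]
  have hk : ∀ k : Fin 2, (krausPow γ 1 (e12.symm k) * ρ * (krausPow γ 1 (e12.symm k))ᴴ).submatrix
      e12.symm e12.symm = krausAD γ k * (ρ.submatrix e12.symm e12.symm) * (krausAD γ k)ᴴ := by
    intro k
    have h3 := reindex_kraus γ (e12.symm k)
    rw [e12_symm_zero] at h3
    rw [← h3, Matrix.conjTranspose_submatrix, Matrix.submatrix_mul_equiv,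
      Matrix.submatrix_mul_equiv]
  simp only [← hk]
  ext i j
  simp [Matrix.sum_apply]

private theorem ad_two {γ : ℝ} (h0 : 0 ≤ γ) (h1 : γ ≤ 1) (a b c d : ℂ) :
    ∑ k : Fin 2, krausAD γ k * !![a, b; c, d] * (krausAD γ k)ᴴ =
      !![a + (γ : ℂ) * d, ((Real.sqrt (1 - γ) : ℝ) : ℂ) * b;
         ((Real.sqrt (1 - γ) : ℝ) : ℂ) * c, ((1 - γ : ℝ) : ℂ) * d] := by
  have hs1 : (((Real.sqrt (1 - γ) : ℝ) : ℂ)) * ((Real.sqrt (1 - γ) : ℝ) : ℂ) = ((1 - γ : ℝ) : ℂ) := by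
    rw [← Complex.ofReal_mul, Real.mul_self_sqrt (by linarith)]
  have hs2 : (((Real.sqrt γ : ℝ) : ℂ)) * ((Real.sqrt γ : ℝ) : ℂ) = (γ : ℂ) := by
    rw [← Complex.ofReal_mul, Real.mul_self_sqrt h0]
  rw [Fin.sum_univ_two]
  have hK0 : krausAD γ 0 = !![1, 0; 0, ((Real.sqrt (1 - γ) : ℝ) : ℂ)] := rfl
  have hK1 : krausAD γ 1 = !![0, ((Real.sqrt γ : ℝ) : ℂ); 0, 0] := rfl
  have hK0' : (!![1, 0; 0, ((Real.sqrt (1 - γ) : ℝ) : ℂ)] : Matrix (Fin 2) (Fin 2) ℂ)ᴴ =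
      !![1, 0; 0, ((Real.sqrt (1 - γ) : ℝ) : ℂ)] := by
    ext i j
    fin_cases i <;> fin_cases j <;> simp [Matrix.conjTranspose_apply]
  have hK1' : (!![0, ((Real.sqrt γ : ℝ) : ℂ); 0, 0] : Matrix (Fin 2) (Fin 2) ℂ)ᴴ =
      !![0, 0; ((Real.sqrt γ : ℝ) : ℂ), 0] := by
    ext i j
    fin_cases i <;> fin_cases j <;> simp [Matrix.conjTranspose_apply]
  rw [hK0, hK1, hK0', hK1']
  simp only [Matrix.mul_fin_two]
  ext i j
  fin_cases i <;> fin_cases j <;> simp [Matrix.add_apply]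
  · linear_combination d * hs2
  · ring
  · have hc : ((1 - γ : ℝ) : ℂ) = 1 - (γ : ℂ) := by push_cast; ring
    rw [hc] at hs1
    linear_combination d * hs1

/-- Hermitian matrix with real entries. -/
private theorem isHerm_real (A t D : ℝ) :
    (!![(A : ℂ), (t : ℂ); (t : ℂ), (D : ℂ)]).IsHermitian := by
  ext i j
  fin_cases i <;> fin_cases j <;> simp [Matrix.conjTranspose_apply]

private theorem disc_bounds {γ : ℝ} (h0 : 0 ≤ γ) (h1 : γ ≤ 1) {w : ℝ} (hw : w ∈ Set.Icc (0 : ℝ) 1) :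
    0 ≤ 1 - 4 * (γ * (1 - γ)) * w ^ 2 ∧ 1 - 4 * (γ * (1 - γ)) * w ^ 2 ≤ 1 := by
  have hγ : 0 ≤ γ * (1 - γ) := mul_nonneg h0 (by linarith)
  have hw2 : w ^ 2 ≤ 1 := by nlinarith [hw.1, hw.2]
  have hw3 : 0 ≤ w ^ 2 := by positivity
  have hγ2 : 4 * (γ * (1 - γ)) ≤ 1 := by nlinarith [sq_nonneg (2 * γ - 1)]
  constructor
  · nlinarith
  · nlinarith

private theorem lam_formulas (γ w : ℝ) :
    lamP γ (1 - w) w = (1 + Real.sqrt (1 - 4 * (γ * (1 - γ)) * w ^ 2)) / 2 ∧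
    lamM γ (1 - w) w = (1 - Real.sqrt (1 - 4 * (γ * (1 - γ)) * w ^ 2)) / 2 := by
  have h : (1 - w) + w = 1 := by ring
  simp only [lamP, lamM, h, one_pow]
  simp

/-- The pure state matrices in `Fin 2` coordinates. -/
private def rho2 (w s : ℝ) : Matrix (Fin 2) (Fin 2) ℂ :=
  !![((1 - w : ℝ) : ℂ), ((s * (Real.sqrt (1 - w) * Real.sqrt w) : ℝ) : ℂ);
     ((s * (Real.sqrt (1 - w) * Real.sqrt w) : ℝ) : ℂ), (w : ℂ)]

private theorem rho2_eq {w s : ℝ} (hw : w ∈ Set.Icc (0 : ℝ) 1) (hs : s * s = 1) :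
    rho2 w s = vecMulVec ![((Real.sqrt (1 - w) : ℝ) : ℂ), ((s * Real.sqrt w : ℝ) : ℂ)]
      (star ![((Real.sqrt (1 - w) : ℝ) : ℂ), ((s * Real.sqrt w : ℝ) : ℂ)]) := by
  have h1 : ((Real.sqrt (1 - w) : ℝ) : ℂ) * ((Real.sqrt (1 - w) : ℝ) : ℂ) = ((1 - w : ℝ) : ℂ) := by
    rw [← Complex.ofReal_mul, Real.mul_self_sqrt (by linarith [hw.2])]
  have h2' : ((s * Real.sqrt w : ℝ) : ℂ) * ((s * Real.sqrt w : ℝ) : ℂ) = (w : ℂ) := by
    rw [← Complex.ofReal_mul]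
    have : s * Real.sqrt w * (s * Real.sqrt w) = (s * s) * (Real.sqrt w * Real.sqrt w) := by ring
    rw [this, hs, Real.mul_self_sqrt hw.1, one_mul]
  ext i j
  fin_cases i <;> fin_cases j <;> simp [rho2, vecMulVec_apply]
  · simpa using h1.symm
  · ring
  · ring
  · push_cast at h2'
    linear_combination -h2'

private theorem rho2_density {w s : ℝ} (hw : w ∈ Set.Icc (0 : ℝ) 1) (hs : s * s = 1) :
    IsDensity ((rho2 w s).submatrix e12 e12) := by
  constructor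
  · rw [rho2_eq hw hs]
    exact (Matrix.posSemidef_vecMulVec_self_star _).submatrix e12
  · have : trace ((rho2 w s).submatrix e12 e12) = trace (rho2 w s) := by
      simp only [Matrix.trace, Matrix.diag_apply, Matrix.submatrix_apply]
      exact Equiv.sum_comp e12 (fun i => rho2 w s i i)
    rw [this]
    simp [rho2, Matrix.trace_fin_two]

private theorem ent_out_pure {γ : ℝ} (h0 : 0 ≤ γ) (h1 : γ ≤ 1) {w s : ℝ}
    (hw : w ∈ Set.Icc (0 : ℝ) 1) (hs : s * s = 1) :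
    ent (adPow γ 1 ((rho2 w s).submatrix e12 e12)) = scal γ (1 - w) w := by
  rw [← ent_reindex e12, reindex_adPow_one]
  have hsub : ((rho2 w s).submatrix e12 e12).submatrix e12.symm e12.symm = rho2 w s := by
    ext i j; simp
  rw [hsub, rho2, ad_two h0 h1]
  set t : ℝ := Real.sqrt (1 - γ) * (s * (Real.sqrt (1 - w) * Real.sqrt w)) with ht
  have hM : !![((1 - w : ℝ) : ℂ) + (γ : ℂ) * (w : ℂ),
        ((Real.sqrt (1 - γ) : ℝ) : ℂ) * ((s * (Real.sqrt (1 - w) * Real.sqrt w) : ℝ) : ℂ);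
        ((Real.sqrt (1 - γ) : ℝ) : ℂ) * ((s * (Real.sqrt (1 - w) * Real.sqrt w) : ℝ) : ℂ),
        ((1 - γ : ℝ) : ℂ) * (w : ℂ)] =
      !![((1 - w + γ * w : ℝ) : ℂ), (t : ℂ); (t : ℂ), (((1 - γ) * w : ℝ) : ℂ)] := by
    ext i j
    fin_cases i <;> fin_cases j <;> simp [ht]
  rw [hM]
  obtain ⟨hd0, hd1⟩ := disc_bounds h0 h1 hw
  obtain ⟨hP, hM'⟩ := lam_formulas γ w
  have hsq := Real.mul_self_sqrt hd0
  have ht2 : t * t = (1 - γ) * ((1 - w) * w) := by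
    have e1 := Real.mul_self_sqrt (show 0 ≤ 1 - γ by linarith)
    have e2 := Real.mul_self_sqrt (show 0 ≤ 1 - w by linarith [hw.2])
    have e3 := Real.mul_self_sqrt hw.1
    have : t * t = (Real.sqrt (1 - γ) * Real.sqrt (1 - γ)) * (s * s) *
        ((Real.sqrt (1 - w) * Real.sqrt (1 - w)) * (Real.sqrt w * Real.sqrt w)) := by
      rw [ht]; ring
    rw [this, e1, e2, e3, hs]; ring
  unfold scal
  refine ent_fin_two (isHerm_real _ _ _) _ _ ?_ ?_
  · rw [Matrix.trace_fin_two, hP, hM']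
    simp only [Matrix.of_apply, Matrix.cons_val', Matrix.cons_val_zero, Matrix.cons_val_one,
      Matrix.cons_val_fin_one]
    rw [← Complex.ofReal_add]
    congr 1
    ring
  · rw [Matrix.det_fin_two, hP, hM']
    simp only [Matrix.of_apply, Matrix.cons_val', Matrix.cons_val_zero, Matrix.cons_val_one,
      Matrix.cons_val_fin_one]
    rw [← Complex.ofReal_mul, ← Complex.ofReal_mul, ← Complex.ofReal_sub]
    congr 1
    rw [ht2]
    have : (1 + Real.sqrt (1 - 4 * (γ * (1 - γ)) * w ^ 2)) / 2 *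
        ((1 - Real.sqrt (1 - 4 * (γ * (1 - γ)) * w ^ 2)) / 2) =
        (1 - Real.sqrt (1 - 4 * (γ * (1 - γ)) * w ^ 2) * Real.sqrt (1 - 4 * (γ * (1 - γ)) * w ^ 2)) / 4 := by
      ring
    rw [this, hsq]
    ring

private theorem ent_out_avg {γ : ℝ} (h0 : 0 ≤ γ) (h1 : γ ≤ 1) {w : ℝ} :
    ent (adPow γ 1 (!![((1 - w : ℝ) : ℂ), 0; 0, (w : ℂ)].submatrix e12 e12)) =
      h2 ((1 - γ) * w) := by
  rw [← ent_reindex e12, reindex_adPow_one]
  have hsub : (!![((1 - w : ℝ) : ℂ), 0; 0, (w : ℂ)].submatrix e12 e12).submatrix e12.symm e12.symm =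
      !![((1 - w : ℝ) : ℂ), 0; 0, (w : ℂ)] := by
    ext i j; simp
  rw [hsub, ad_two h0 h1]
  have hM : !![((1 - w : ℝ) : ℂ) + (γ : ℂ) * (w : ℂ),
        ((Real.sqrt (1 - γ) : ℝ) : ℂ) * 0;
        ((Real.sqrt (1 - γ) : ℝ) : ℂ) * 0,
        ((1 - γ : ℝ) : ℂ) * (w : ℂ)] =
      !![((1 - (1 - γ) * w : ℝ) : ℂ), ((0 : ℝ) : ℂ); ((0 : ℝ) : ℂ), (((1 - γ) * w : ℝ) : ℂ)] := by
    ext i j
    fin_cases i <;> fin_cases j <;> simp
    ring
  rw [hM, h2, add_comm (negMulLog ((1 - γ) * w))]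
  refine ent_fin_two (isHerm_real _ _ _) _ _ ?_ ?_
  · rw [Matrix.trace_fin_two]
    simp
  · rw [Matrix.det_fin_two]
    simp

theorem single_letter_mem {γ : ℝ} (h0 : 0 ≤ γ) (h1 : γ ≤ 1) {w : ℝ} (hw : w ∈ Set.Icc (0 : ℝ) 1) :
    (h2 ((1 - γ) * w) - scal γ (1 - w) w) / Real.log 2 ∈ holevoSet γ 1 := by
  refine ⟨2, ![1 / 2, 1 / 2],
    ![(rho2 w 1).submatrix e12 e12, (rho2 w (-1)).submatrix e12 e12], ?_, ?_, ?_, ?_⟩
  · intro a; fin_cases a <;> simp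
  · simp [Fin.sum_univ_two]; norm_num
  · intro a
    fin_cases a
    · exact rho2_density hw (by norm_num)
    · exact rho2_density hw (by norm_num)
  · have havg : ∑ a, (((![1 / 2, 1 / 2] : Fin 2 → ℝ) a : ℝ) : ℂ) •
        (![(rho2 w 1).submatrix e12 e12, (rho2 w (-1)).submatrix e12 e12] :
          Fin 2 → Matrix (Fin 1 → Fin 2) (Fin 1 → Fin 2) ℂ) a =
        !![((1 - w : ℝ) : ℂ), 0; 0, (w : ℂ)].submatrix e12 e12 := by
      rw [Fin.sum_univ_two]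
      ext i j
      simp only [Matrix.add_apply, Matrix.smul_apply, Matrix.submatrix_apply, Matrix.cons_val_zero,
        Matrix.cons_val_one, smul_eq_mul, rho2]
      generalize e12 i = i'
      generalize e12 j = j'
      fin_cases i' <;> fin_cases j' <;> simp <;> ring
    rw [holevoQuantity, havg, Fin.sum_univ_two]
    simp only [Matrix.cons_val_zero, Matrix.cons_val_one, vnEntropy]
    rw [ent_out_avg h0 h1, ent_out_pure h0 h1 hw (by norm_num), ent_out_pure h0 h1 hw (by norm_num)]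
    ring

private theorem negMulLog_le_one_sub {x : ℝ} (hx : 0 ≤ x) : negMulLog x ≤ 1 - x := by
  rcases hx.eq_or_lt with rfl | hx
  · simp
  · have h := Real.one_sub_inv_le_log_of_pos hx
    have : x * (1 - x⁻¹) ≤ x * Real.log x := mul_le_mul_of_nonneg_left h hx.le
    have h2' : x * (1 - x⁻¹) = x - 1 := by field_simp
    rw [Real.negMulLog]
    linarith

private theorem single_value_le {γ : ℝ} (h0 : 0 ≤ γ) (h1 : γ ≤ 1) {w : ℝ}
    (hw : w ∈ Set.Icc (0 : ℝ) 1) : h2 ((1 - γ) * w) - scal γ (1 - w) w ≤ 1 := by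
  obtain ⟨hd0, hd1⟩ := disc_bounds h0 h1 hw
  obtain ⟨hP, hM'⟩ := lam_formulas γ w
  have hs0 := Real.sqrt_nonneg (1 - 4 * (γ * (1 - γ)) * w ^ 2)
  have hs1 : Real.sqrt (1 - 4 * (γ * (1 - γ)) * w ^ 2) ≤ 1 := by
    calc Real.sqrt (1 - 4 * (γ * (1 - γ)) * w ^ 2) ≤ Real.sqrt 1 := Real.sqrt_le_sqrt hd1
      _ = 1 := Real.sqrt_one
  have hscal : 0 ≤ scal γ (1 - w) w := by
    unfold scal
    rw [hP, hM']
    exact add_nonneg (Real.negMulLog_nonneg (by linarith) (by linarith))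
      (Real.negMulLog_nonneg (by linarith) (by linarith))
  have ht0 : 0 ≤ (1 - γ) * w := mul_nonneg (by linarith) hw.1
  have ht1 : (1 - γ) * w ≤ 1 := by nlinarith [hw.1, hw.2]
  have h3 := negMulLog_le_one_sub ht0
  have h4 := negMulLog_le_one_sub (show 0 ≤ 1 - (1 - γ) * w by linarith)
  rw [h2]
  linarith

theorem holevoSet_bddAbove {γ : ℝ} (h0 : 0 ≤ γ) (h1 : γ ≤ 1) {n : ℕ} (hn : 1 ≤ n) :
    BddAbove (holevoSet γ n) := by
  refine ⟨n * (1 / Real.log 2), ?_⟩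
  rintro χ ⟨m, q, ρ, hq, hq1, hρ, rfl⟩
  obtain ⟨w, hw, hle⟩ := holevo_le h0 h1 hn q ρ hq hq1 hρ
  refine hle.trans ?_
  have hlog : 0 < Real.log 2 := Real.log_pos (by norm_num)
  apply mul_le_mul_of_nonneg_left _ (Nat.cast_nonneg n)
  exact div_le_div_of_nonneg_right (single_value_le h0 h1 hw) hlog.le

theorem holevoSet_nonempty {γ : ℝ} (_h0 : 0 ≤ γ) (_h1 : γ ≤ 1) (n : ℕ) : (holevoSet γ n).Nonempty := by
  classical
  let v : (Fin n → Fin 2) → ℂ := fun z => if z = fun _ => 0 then 1 else 0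
  refine ⟨_, 1, fun _ => 1, fun _ => vecMulVec v (star v), ?_, ?_, ?_, rfl⟩
  · intro _; norm_num
  · simp
  · intro _
    refine ⟨Matrix.posSemidef_vecMulVec_self_star v, ?_⟩
    rw [Matrix.trace_vecMulVec]
    simp [v, dotProduct, Finset.sum_ite_eq']

/-- **Main theorem**: additivity of the Holevo capacity of amplitude damping channels,
upper bound direction. -/
theorem chiPow_le {γ : ℝ} (h0 : 0 ≤ γ) (h1 : γ ≤ 1) {n : ℕ} (hn : 1 ≤ n) :
    chiPow γ n ≤ n * chiPow γ 1 := by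
  refine csSup_le (holevoSet_nonempty h0 h1 n) ?_
  rintro χ ⟨m, q, ρ, hq, hq1, hρ, rfl⟩
  obtain ⟨w, hw, hle⟩ := holevo_le h0 h1 hn q ρ hq hq1 hρ
  refine hle.trans ?_
  apply mul_le_mul_of_nonneg_left _ (Nat.cast_nonneg n)
  exact le_csSup (holevoSet_bddAbove h0 h1 le_rfl) (single_letter_mem h0 h1 hw)

/-- `adPow γ 1` is the amplitude damping channel: entries of the output. -/
theorem adPow_one_entries {γ : ℝ} (h0 : 0 ≤ γ) (h1 : γ ≤ 1)
    (ρ : Matrix (Fin 1 → Fin 2) (Fin 1 → Fin 2) ℂ) :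
    adPow γ 1 ρ (fun _ => 0) (fun _ => 0) =
        ρ (fun _ => 0) (fun _ => 0) + (γ : ℂ) * ρ (fun _ => 1) (fun _ => 1) ∧
    adPow γ 1 ρ (fun _ => 0) (fun _ => 1) =
        ((Real.sqrt (1 - γ) : ℝ) : ℂ) * ρ (fun _ => 0) (fun _ => 1) ∧
    adPow γ 1 ρ (fun _ => 1) (fun _ => 0) =
        ((Real.sqrt (1 - γ) : ℝ) : ℂ) * ρ (fun _ => 1) (fun _ => 0) ∧
    adPow γ 1 ρ (fun _ => 1) (fun _ => 1) = ((1 - γ : ℝ) : ℂ) * ρ (fun _ => 1) (fun _ => 1) := by
  have h := reindex_adPow_one γ ρ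
  rw [Matrix.eta_fin_two (ρ.submatrix e12.symm e12.symm), ad_two h0 h1] at h
  have hrw : Matrix.reindex e12 e12 (adPow γ 1 ρ) = (adPow γ 1 ρ).submatrix e12.symm e12.symm := rfl
  rw [hrw] at h
  refine ⟨?_, ?_, ?_, ?_⟩
  · exact congrFun (congrFun h 0) 0
  · exact congrFun (congrFun h 0) 1
  · exact congrFun (congrFun h 1) 0
  · exact congrFun (congrFun h 1) 1

/-- The explicit value of the pure-state output entropy. -/
theorem scal_normal_eq (γ w : ℝ) :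
    scal γ (1 - w) w = h2 ((1 + Real.sqrt (1 - 4 * γ * (1 - γ) * w ^ 2)) / 2) := by
  obtain ⟨h1, h2'⟩ := lam_formulas γ w
  have e : 4 * (γ * (1 - γ)) * w ^ 2 = 4 * γ * (1 - γ) * w ^ 2 := by ring
  rw [e] at h1 h2'
  unfold scal h2
  rw [h1, h2']
  congr 2
  ring

end

end Vale.Agent.Lib.P358
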