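import Vale.Agent.Lib.P358.GHolevo
import Vale.Agent.Lib.P358.Single

/-!
# The single-letter ensemble and the main bound, general `ν` (P358 library): JOB G12

Same proofs as in `Single.lean`.  `single_letter_memG`: `n = 1`, `m = 2`, `q = (1/2, 1/2)`, pure states with amplitudes
`ψ_± = (√(1-w), ±√w)` on `Fin 1 → Fin 2`; the average is `diag(1-w, w)`, the output of the average is
`diag(1-t, t)`, `t = (1-γ) w + γ ν`, entropy `h₂(t)`; the output of `ψ_±` has trace `1`, determinant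
`gadDet γ ν (1-w) w` (the channel is `[[(1-νγ)ρ₀₀+(1-ν)γ ρ₁₁, √(1-γ) ρ₀₁], [., νγ ρ₀₀ + (1-(1-ν)γ) ρ₁₁]]`), so
`ent = gadScal γ ν (1-w) w`.
-/

namespace Vale.Agent.Lib.P358

open Matrix Real Finset
open scoped ComplexOrder

noncomputable section

/-- `2 × 2` Hermitian entropy through trace and determinant. -/
private theorem ent_fin_two {M : Matrix (Fin 2) (Fin 2) ℂ} (h : M.IsHermitian) (a b : ℝ)
    (htr : M.trace = ((a + b : ℝ) : ℂ)) (hdet : M.det = ((a * b : ℝ) : ℂ)) :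
    ent M = negMulLog a + negMulLog b := by
  have key := ent_of_charpoly h ![a, b] (by
    rw [Matrix.charpoly_fin_two, htr, hdet, Fin.prod_univ_two]
    simp only [Matrix.cons_val_zero, Matrix.cons_val_one, Complex.ofReal_add, Complex.ofReal_mul,
      Polynomial.C_add, Polynomial.C_mul]
    ring)
  simpa [Fin.sum_univ_two] using key

private def e12 : (Fin 1 → Fin 2) ≃ Fin 2 := Equiv.funUnique (Fin 1) (Fin 2)

private def e14 : (Fin 1 → Fin 4) ≃ Fin 4 := Equiv.funUnique (Fin 1) (Fin 4)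

private theorem e12_symm_zero (i : Fin 2) : (e12.symm i) 0 = i := rfl

private theorem e14_symm_zero (i : Fin 4) : (e14.symm i) 0 = i := rfl

private theorem reindex_kraus (γ ν : ℝ) (f : Fin 1 → Fin 4) :
    (krausPowG γ ν 1 f).submatrix e12.symm e12.symm = krausGAD γ ν (f 0) := by
  ext i j
  simp [krausPowG, e12_symm_zero]

private theorem sum_fin_one_fun {M : Type*} [AddCommMonoid M] (g : (Fin 1 → Fin 4) → M) :
    ∑ f, g f = ∑ k : Fin 4, g (e14.symm k) :=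
  (Equiv.sum_comp e14.symm g).symm

/-- The one-qubit channel in `Fin 2` coordinates. -/
private theorem reindex_gadPow_one (γ ν : ℝ) (ρ : Matrix (Fin 1 → Fin 2) (Fin 1 → Fin 2) ℂ) :
    Matrix.reindex e12 e12 (gadPow γ ν 1 ρ) =
      ∑ k : Fin 4, krausGAD γ ν k * (ρ.submatrix e12.symm e12.symm) * (krausGAD γ ν k)ᴴ := by
  have hrw : Matrix.reindex e12 e12 (gadPow γ ν 1 ρ) =
      (gadPow γ ν 1 ρ).submatrix e12.symm e12.symm := rfl
  rw [hrw, gadPow, sum_fin_one_fun]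
  have hk : ∀ k : Fin 4,
      (krausPowG γ ν 1 (e14.symm k) * ρ * (krausPowG γ ν 1 (e14.symm k))ᴴ).submatrix
      e12.symm e12.symm = krausGAD γ ν k * (ρ.submatrix e12.symm e12.symm) * (krausGAD γ ν k)ᴴ := by
    intro k
    have h3 := reindex_kraus γ ν (e14.symm k)
    rw [e14_symm_zero] at h3
    rw [← h3, Matrix.conjTranspose_submatrix, Matrix.submatrix_mul_equiv,
      Matrix.submatrix_mul_equiv]
  simp only [← hk]
  ext i j
  simp [Matrix.sum_apply]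

private theorem gad_two {γ ν : ℝ} (hγ0 : 0 ≤ γ) (hγ1 : γ ≤ 1) (hν0 : 0 ≤ ν) (hν1 : ν ≤ 1)
    (a b c d : ℂ) :
    ∑ k : Fin 4, krausGAD γ ν k * !![a, b; c, d] * (krausGAD γ ν k)ᴴ =
      !![((1 - ν * γ : ℝ) : ℂ) * a + (((1 - ν) * γ : ℝ) : ℂ) * d, ((Real.sqrt (1 - γ) : ℝ) : ℂ) * b;
         ((Real.sqrt (1 - γ) : ℝ) : ℂ) * c, ((ν * γ : ℝ) : ℂ) * a + ((1 - (1 - ν) * γ : ℝ) : ℂ) * d] := by
  have e1 := Real.mul_self_sqrt (show 0 ≤ 1 - ν by linarith)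
  have e2 := Real.mul_self_sqrt (show 0 ≤ 1 - γ by linarith)
  have e3 := Real.mul_self_sqrt hγ0
  have e4 := Real.mul_self_sqrt hν0
  set s := Real.sqrt (1 - ν) with hs
  set g := Real.sqrt (1 - γ) with hg
  set t := Real.sqrt γ with ht
  set r := Real.sqrt ν with hr
  have c1 : (s : ℂ) * (s : ℂ) = 1 - (ν : ℂ) := by
    rw [← Complex.ofReal_mul, e1]; push_cast; ring
  have c2 : (g : ℂ) * (g : ℂ) = 1 - (γ : ℂ) := by
    rw [← Complex.ofReal_mul, e2]; push_cast; ring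
  have c3 : (t : ℂ) * (t : ℂ) = (γ : ℂ) := by
    rw [← Complex.ofReal_mul, e3]
  have c4 : (r : ℂ) * (r : ℂ) = (ν : ℂ) := by
    rw [← Complex.ofReal_mul, e4]
  rw [Fin.sum_univ_four]
  have hK0 : krausGAD γ ν 0 = !![(s : ℂ), 0; 0, (s : ℂ) * (g : ℂ)] := by
    simp [krausGAD, hs, hg]
  have hK1 : krausGAD γ ν 1 = !![0, (s : ℂ) * (t : ℂ); 0, 0] := by
    simp [krausGAD, hs, ht]
  have hK2 : krausGAD γ ν 2 = !![(r : ℂ) * (g : ℂ), 0; 0, (r : ℂ)] := by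
    simp [krausGAD, hr, hg]
  have hK3 : krausGAD γ ν 3 = !![0, 0; (r : ℂ) * (t : ℂ), 0] := by
    simp [krausGAD, hr, ht]
  rw [hK0, hK1, hK2, hK3]
  have hc0 : (!![(s : ℂ), 0; 0, (s : ℂ) * (g : ℂ)] : Matrix (Fin 2) (Fin 2) ℂ)ᴴ =
      !![(s : ℂ), 0; 0, (s : ℂ) * (g : ℂ)] := by
    ext i j
    fin_cases i <;> fin_cases j <;> simp [Matrix.conjTranspose_apply]
  have hc1 : (!![0, (s : ℂ) * (t : ℂ); 0, 0] : Matrix (Fin 2) (Fin 2) ℂ)ᴴ =
      !![0, 0; (s : ℂ) * (t : ℂ), 0] := by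
    ext i j
    fin_cases i <;> fin_cases j <;> simp [Matrix.conjTranspose_apply]
  have hc2 : (!![(r : ℂ) * (g : ℂ), 0; 0, (r : ℂ)] : Matrix (Fin 2) (Fin 2) ℂ)ᴴ =
      !![(r : ℂ) * (g : ℂ), 0; 0, (r : ℂ)] := by
    ext i j
    fin_cases i <;> fin_cases j <;> simp [Matrix.conjTranspose_apply]
  have hc3 : (!![0, 0; (r : ℂ) * (t : ℂ), 0] : Matrix (Fin 2) (Fin 2) ℂ)ᴴ =
      !![0, (r : ℂ) * (t : ℂ); 0, 0] := by
    ext i j
    fin_cases i <;> fin_cases j <;> simp [Matrix.conjTranspose_apply]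
  rw [hc0, hc1, hc2, hc3]
  simp only [Matrix.mul_fin_two]
  ext i j
  fin_cases i <;> fin_cases j <;> simp [Matrix.add_apply]
  · linear_combination (a + d * t * t) * c1 + (1 - (ν : ℂ)) * d * c3 + (r * r) * a * c2 +
      a * (1 - (γ : ℂ)) * c4
  · linear_combination b * g * c1 + b * g * c4
  · linear_combination c * g * c1 + c * g * c4
  · linear_combination d * (g * g) * c1 + (1 - (ν : ℂ)) * d * c2 + d * c4 + a * (t * t) * c4 +
      a * (ν : ℂ) * c3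

/-- Hermitian matrix with real entries. -/
private theorem isHerm_real (A t D : ℝ) :
    (!![(A : ℂ), (t : ℂ); (t : ℂ), (D : ℂ)]).IsHermitian := by
  ext i j
  fin_cases i <;> fin_cases j <;> simp [Matrix.conjTranspose_apply]

/-- `gadDet` of the normalized input is the determinant of the output, and is at most `1/4`. -/
private theorem det_le {γ ν w : ℝ} (hγ1 : γ ≤ 1) (hw : w ∈ Set.Icc (0 : ℝ) 1) :
    0 ≤ 1 - 4 * gadDet γ ν (1 - w) w := by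
  set A := (1 - ν * γ) * (1 - w) + (1 - ν) * γ * w with hA
  set D := ν * γ * (1 - w) + (1 - (1 - ν) * γ) * w with hD
  have h1 : A + D = 1 := by rw [hA, hD]; ring
  have h2 : gadDet γ ν (1 - w) w = A * D - (1 - γ) * ((1 - w) * w) := by
    rw [hA, hD]; unfold gadDet; ring
  have h3 : 0 ≤ (1 - γ) * ((1 - w) * w) :=
    mul_nonneg (by linarith) (mul_nonneg (by linarith [hw.2]) hw.1)
  rw [h2]
  have hD' : D = 1 - A := by linarith
  rw [hD']
  nlinarith [sq_nonneg (2 * A - 1)]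

private theorem det_nonneg {γ ν w : ℝ} (hγ0 : 0 ≤ γ) (hγ1 : γ ≤ 1) (hν0 : 0 ≤ ν) (hν1 : ν ≤ 1) :
    0 ≤ gadDet γ ν (1 - w) w := by
  rw [gadDet_normal]
  have h1 : 0 ≤ γ * (1 - γ) * (w - ν) ^ 2 :=
    mul_nonneg (mul_nonneg hγ0 (by linarith)) (sq_nonneg _)
  have h2 : 0 ≤ γ * ν * (1 - ν) := mul_nonneg (mul_nonneg hγ0 hν0) (by linarith)
  linarith

private theorem lam_formulas (γ ν w : ℝ) :
    gadScal γ ν (1 - w) w =
      negMulLog ((1 + Real.sqrt (1 - 4 * gadDet γ ν (1 - w) w)) / 2) +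
        negMulLog ((1 - Real.sqrt (1 - 4 * gadDet γ ν (1 - w) w)) / 2) := by
  have h : (1 - w) + w = 1 := by ring
  simp only [gadScal, h, one_pow]

/-- The pure state matrices in `Fin 2` coordinates. -/
private def rho2 (w s : ℝ) : Matrix (Fin 2) (Fin 2) ℂ :=
  !![((1 - w : ℝ) : ℂ), ((s * (Real.sqrt (1 - w) * Real.sqrt w) : ℝ) : ℂ);
     ((s * (Real.sqrt (1 - w) * Real.sqrt w) : ℝ) : ℂ), (w : ℂ)]

private theorem rho2_eq {w s : ℝ} (hw : w ∈ Set.Icc (0 : ℝ) 1) (hs : s * s = 1) :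
    rho2 w s = vecMulVec ![((Real.sqrt (1 - w) : ℝ) : ℂ), ((s * Real.sqrt w : ℝ) : ℂ)]
      (star ![((Real.sqrt (1 - w) : ℝ) : ℂ), ((s * Real.sqrt w : ℝ) : ℂ)]) := by
  have h1 : ((Real.sqrt (1 - w) : ℝ) : ℂ) * ((Real.sqrt (1 - w) : ℝ) : ℂ) = ((1 - w : ℝ) : ℂ) := by
    rw [← Complex.ofReal_mul, Real.mul_self_sqrt (by linarith [hw.2])]
  have h2' : ((s * Real.sqrt w : ℝ) : ℂ) * ((s * Real.sqrt w : ℝ) : ℂ) = (w : ℂ) := by
    rw [← Complex.ofReal_mul]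
    have : s * Real.sqrt w * (s * Real.sqrt w) = (s * s) * (Real.sqrt w * Real.sqrt w) := by ring
    rw [this, hs, Real.mul_self_sqrt hw.1, one_mul]
  ext i j
  fin_cases i <;> fin_cases j <;> simp [rho2, vecMulVec_apply]
  · simpa using h1.symm
  · ring
  · ring
  · push_cast at h2'
    linear_combination -h2'

private theorem rho2_density {w s : ℝ} (hw : w ∈ Set.Icc (0 : ℝ) 1) (hs : s * s = 1) :
    IsDensity ((rho2 w s).submatrix e12 e12) := by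
  constructor
  · rw [rho2_eq hw hs]
    exact (Matrix.posSemidef_vecMulVec_self_star _).submatrix e12
  · have : trace ((rho2 w s).submatrix e12 e12) = trace (rho2 w s) := by
      simp only [Matrix.trace, Matrix.diag_apply, Matrix.submatrix_apply]
      exact Equiv.sum_comp e12 (fun i => rho2 w s i i)
    rw [this]
    simp [rho2, Matrix.trace_fin_two]

private theorem ent_out_pure {γ ν : ℝ} (hγ0 : 0 ≤ γ) (hγ1 : γ ≤ 1) (hν0 : 0 ≤ ν) (hν1 : ν ≤ 1)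
    {w s : ℝ} (hw : w ∈ Set.Icc (0 : ℝ) 1) (hs : s * s = 1) :
    ent (gadPow γ ν 1 ((rho2 w s).submatrix e12 e12)) = gadScal γ ν (1 - w) w := by
  rw [← ent_reindex e12, reindex_gadPow_one]
  have hsub : ((rho2 w s).submatrix e12 e12).submatrix e12.symm e12.symm = rho2 w s := by
    ext i j; simp
  rw [hsub, rho2, gad_two hγ0 hγ1 hν0 hν1]
  set t : ℝ := Real.sqrt (1 - γ) * (s * (Real.sqrt (1 - w) * Real.sqrt w)) with ht
  set A : ℝ := (1 - ν * γ) * (1 - w) + (1 - ν) * γ * w with hA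
  set D : ℝ := ν * γ * (1 - w) + (1 - (1 - ν) * γ) * w with hD
  have hM : !![((1 - ν * γ : ℝ) : ℂ) * ((1 - w : ℝ) : ℂ) + (((1 - ν) * γ : ℝ) : ℂ) * (w : ℂ),
        ((Real.sqrt (1 - γ) : ℝ) : ℂ) * ((s * (Real.sqrt (1 - w) * Real.sqrt w) : ℝ) : ℂ);
        ((Real.sqrt (1 - γ) : ℝ) : ℂ) * ((s * (Real.sqrt (1 - w) * Real.sqrt w) : ℝ) : ℂ),
        ((ν * γ : ℝ) : ℂ) * ((1 - w : ℝ) : ℂ) + ((1 - (1 - ν) * γ : ℝ) : ℂ) * (w : ℂ)] =
      !![(A : ℂ), (t : ℂ); (t : ℂ), (D : ℂ)] := by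
    ext i j
    fin_cases i <;> fin_cases j <;> simp [ht, hA, hD]
  rw [hM]
  have hd0 := det_le (ν := ν) hγ1 hw
  have hsq := Real.mul_self_sqrt hd0
  have ht2 : t * t = (1 - γ) * ((1 - w) * w) := by
    have e1 := Real.mul_self_sqrt (show 0 ≤ 1 - γ by linarith)
    have e2 := Real.mul_self_sqrt (show 0 ≤ 1 - w by linarith [hw.2])
    have e3 := Real.mul_self_sqrt hw.1
    have : t * t = (Real.sqrt (1 - γ) * Real.sqrt (1 - γ)) * (s * s) *
        ((Real.sqrt (1 - w) * Real.sqrt (1 - w)) * (Real.sqrt w * Real.sqrt w)) := by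
      rw [ht]; ring
    rw [this, e1, e2, e3, hs]; ring
  rw [lam_formulas]
  refine ent_fin_two (isHerm_real _ _ _) _ _ ?_ ?_
  · rw [Matrix.trace_fin_two]
    simp only [Matrix.of_apply, Matrix.cons_val', Matrix.cons_val_zero, Matrix.cons_val_one,
      Matrix.cons_val_fin_one]
    rw [← Complex.ofReal_add]
    congr 1
    rw [hA, hD]
    ring
  · rw [Matrix.det_fin_two]
    simp only [Matrix.of_apply, Matrix.cons_val', Matrix.cons_val_zero, Matrix.cons_val_one,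
      Matrix.cons_val_fin_one]
    rw [← Complex.ofReal_mul, ← Complex.ofReal_mul, ← Complex.ofReal_sub]
    congr 1
    rw [ht2]
    have : (1 + Real.sqrt (1 - 4 * gadDet γ ν (1 - w) w)) / 2 *
        ((1 - Real.sqrt (1 - 4 * gadDet γ ν (1 - w) w)) / 2) =
        (1 - Real.sqrt (1 - 4 * gadDet γ ν (1 - w) w) *
          Real.sqrt (1 - 4 * gadDet γ ν (1 - w) w)) / 4 := by
      ring
    rw [this, hsq, hA, hD]
    unfold gadDet
    ring

private theorem ent_out_avg {γ ν : ℝ} (hγ0 : 0 ≤ γ) (hγ1 : γ ≤ 1) (hν0 : 0 ≤ ν) (hν1 : ν ≤ 1)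
    {w : ℝ} :
    ent (gadPow γ ν 1 (!![((1 - w : ℝ) : ℂ), 0; 0, (w : ℂ)].submatrix e12 e12)) =
      h2 ((1 - γ) * w + γ * ν) := by
  rw [← ent_reindex e12, reindex_gadPow_one]
  have hsub : (!![((1 - w : ℝ) : ℂ), 0; 0, (w : ℂ)].submatrix e12 e12).submatrix e12.symm e12.symm =
      !![((1 - w : ℝ) : ℂ), 0; 0, (w : ℂ)] := by
    ext i j; simp
  rw [hsub, gad_two hγ0 hγ1 hν0 hν1]
  have hM : !![((1 - ν * γ : ℝ) : ℂ) * ((1 - w : ℝ) : ℂ) + (((1 - ν) * γ : ℝ) : ℂ) * (w : ℂ),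
        ((Real.sqrt (1 - γ) : ℝ) : ℂ) * 0;
        ((Real.sqrt (1 - γ) : ℝ) : ℂ) * 0,
        ((ν * γ : ℝ) : ℂ) * ((1 - w : ℝ) : ℂ) + ((1 - (1 - ν) * γ : ℝ) : ℂ) * (w : ℂ)] =
      !![((1 - ((1 - γ) * w + γ * ν) : ℝ) : ℂ), ((0 : ℝ) : ℂ);
        ((0 : ℝ) : ℂ), (((1 - γ) * w + γ * ν : ℝ) : ℂ)] := by
    ext i j
    fin_cases i <;> fin_cases j <;> simp <;> ring
  rw [hM, h2, add_comm (negMulLog ((1 - γ) * w + γ * ν))]
  refine ent_fin_two (isHerm_real _ _ _) _ _ ?_ ?_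
  · rw [Matrix.trace_fin_two]
    simp
  · rw [Matrix.det_fin_two]
    simp

theorem single_letter_memG {γ ν : ℝ} (hγ0 : 0 ≤ γ) (hγ1 : γ ≤ 1) (hν0 : 0 ≤ ν) (hν1 : ν ≤ 1) {w : ℝ}
    (hw : w ∈ Set.Icc (0 : ℝ) 1) :
    (h2 ((1 - γ) * w + γ * ν) - gadScal γ ν (1 - w) w) / Real.log 2 ∈ holevoSetG γ ν 1 := by
  refine ⟨2, ![1 / 2, 1 / 2],
    ![(rho2 w 1).submatrix e12 e12, (rho2 w (-1)).submatrix e12 e12], ?_, ?_, ?_, ?_⟩
  · intro a; fin_cases a <;> simp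
  · simp [Fin.sum_univ_two]; norm_num
  · intro a
    fin_cases a
    · exact rho2_density hw (by norm_num)
    · exact rho2_density hw (by norm_num)
  · have havg : ∑ a, (((![1 / 2, 1 / 2] : Fin 2 → ℝ) a : ℝ) : ℂ) •
        (![(rho2 w 1).submatrix e12 e12, (rho2 w (-1)).submatrix e12 e12] :
          Fin 2 → Matrix (Fin 1 → Fin 2) (Fin 1 → Fin 2) ℂ) a =
        !![((1 - w : ℝ) : ℂ), 0; 0, (w : ℂ)].submatrix e12 e12 := by
      rw [Fin.sum_univ_two]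
      ext i j
      simp only [Matrix.add_apply, Matrix.smul_apply, Matrix.submatrix_apply, Matrix.cons_val_zero,
        Matrix.cons_val_one, smul_eq_mul, rho2]
      generalize e12 i = i'
      generalize e12 j = j'
      fin_cases i' <;> fin_cases j' <;> simp <;> ring
    rw [holevoQuantityG, havg, Fin.sum_univ_two]
    simp only [Matrix.cons_val_zero, Matrix.cons_val_one, vnEntropy]
    rw [ent_out_avg hγ0 hγ1 hν0 hν1, ent_out_pure hγ0 hγ1 hν0 hν1 hw (by norm_num),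
      ent_out_pure hγ0 hγ1 hν0 hν1 hw (by norm_num)]
    ring

private theorem negMulLog_le_one_sub {x : ℝ} (hx : 0 ≤ x) : negMulLog x ≤ 1 - x := by
  rcases hx.eq_or_lt with rfl | hx
  · simp
  · have h := Real.one_sub_inv_le_log_of_pos hx
    have : x * (1 - x⁻¹) ≤ x * Real.log x := mul_le_mul_of_nonneg_left h hx.le
    have h2' : x * (1 - x⁻¹) = x - 1 := by field_simp
    rw [Real.negMulLog]
    linarith

private theorem single_value_le {γ ν : ℝ} (hγ0 : 0 ≤ γ) (hγ1 : γ ≤ 1) (hν0 : 0 ≤ ν) (hν1 : ν ≤ 1)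
    {w : ℝ} (hw : w ∈ Set.Icc (0 : ℝ) 1) :
    h2 ((1 - γ) * w + γ * ν) - gadScal γ ν (1 - w) w ≤ 1 := by
  have hd0 := det_le (ν := ν) hγ1 hw
  have hd1 := det_nonneg (w := w) hγ0 hγ1 hν0 hν1
  have hs0 := Real.sqrt_nonneg (1 - 4 * gadDet γ ν (1 - w) w)
  have hs1 : Real.sqrt (1 - 4 * gadDet γ ν (1 - w) w) ≤ 1 := by
    calc Real.sqrt (1 - 4 * gadDet γ ν (1 - w) w) ≤ Real.sqrt 1 :=
          Real.sqrt_le_sqrt (by linarith)
      _ = 1 := Real.sqrt_one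
  have hscal : 0 ≤ gadScal γ ν (1 - w) w := by
    rw [lam_formulas]
    exact add_nonneg (Real.negMulLog_nonneg (by linarith) (by linarith))
      (Real.negMulLog_nonneg (by linarith) (by linarith))
  have ht0 : 0 ≤ (1 - γ) * w + γ * ν :=
    add_nonneg (mul_nonneg (by linarith) hw.1) (mul_nonneg hγ0 hν0)
  have ht1 : (1 - γ) * w + γ * ν ≤ 1 := by nlinarith [hw.1, hw.2]
  have h3 := negMulLog_le_one_sub ht0
  have h4 := negMulLog_le_one_sub (show 0 ≤ 1 - ((1 - γ) * w + γ * ν) by linarith)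
  rw [h2]
  linarith

theorem holevoSetG_bddAbove {γ ν : ℝ} (hγ0 : 0 ≤ γ) (hγ1 : γ ≤ 1) (hν0 : 0 ≤ ν) (hν1 : ν ≤ 1) {n : ℕ}
    (hn : 1 ≤ n) : BddAbove (holevoSetG γ ν n) := by
  refine ⟨n * (1 / Real.log 2), ?_⟩
  rintro χ ⟨m, q, ρ, hq, hq1, hρ, rfl⟩
  obtain ⟨w, hw, hle⟩ := holevo_leG hγ0 hγ1 hν0 hν1 hn q ρ hq hq1 hρ
  refine hle.trans ?_
  have hlog : 0 < Real.log 2 := Real.log_pos (by norm_num)
  apply mul_le_mul_of_nonneg_left _ (Nat.cast_nonneg n)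
  exact div_le_div_of_nonneg_right (single_value_le hγ0 hγ1 hν0 hν1 hw) hlog.le

theorem holevoSetG_nonempty (γ ν : ℝ) (n : ℕ) : (holevoSetG γ ν n).Nonempty := by
  classical
  let v : (Fin n → Fin 2) → ℂ := fun z => if z = fun _ => 0 then 1 else 0
  refine ⟨_, 1, fun _ => 1, fun _ => vecMulVec v (star v), ?_, ?_, ?_, rfl⟩
  · intro _; norm_num
  · simp
  · intro _
    refine ⟨Matrix.posSemidef_vecMulVec_self_star v, ?_⟩
    rw [Matrix.trace_vecMulVec]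
    simp [v, dotProduct, Finset.sum_ite_eq']

/-- **Main theorem**, upper bound direction. -/
theorem chiPowG_le {γ ν : ℝ} (hγ0 : 0 ≤ γ) (hγ1 : γ ≤ 1) (hν0 : 0 ≤ ν) (hν1 : ν ≤ 1) {n : ℕ}
    (hn : 1 ≤ n) : chiPowG γ ν n ≤ n * chiPowG γ ν 1 := by
  refine csSup_le (holevoSetG_nonempty γ ν n) ?_
  rintro χ ⟨m, q, ρ, hq, hq1, hρ, rfl⟩
  obtain ⟨w, hw, hle⟩ := holevo_leG hγ0 hγ1 hν0 hν1 hn q ρ hq hq1 hρ
  refine hle.trans ?_
  apply mul_le_mul_of_nonneg_left _ (Nat.cast_nonneg n)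
  exact le_csSup (holevoSetG_bddAbove hγ0 hγ1 hν0 hν1 le_rfl) (single_letter_memG hγ0 hγ1 hν0 hν1 hw)

/-- `gadPow γ ν 1` is the generalized amplitude damping channel: entries of the output. -/
theorem gadPow_one_entries {γ ν : ℝ} (hγ0 : 0 ≤ γ) (hγ1 : γ ≤ 1) (hν0 : 0 ≤ ν) (hν1 : ν ≤ 1)
    (ρ : Matrix (Fin 1 → Fin 2) (Fin 1 → Fin 2) ℂ) :
    gadPow γ ν 1 ρ (fun _ => 0) (fun _ => 0) =
        ((1 - ν * γ : ℝ) : ℂ) * ρ (fun _ => 0) (fun _ => 0) +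
          (((1 - ν) * γ : ℝ) : ℂ) * ρ (fun _ => 1) (fun _ => 1) ∧
    gadPow γ ν 1 ρ (fun _ => 0) (fun _ => 1) =
        ((Real.sqrt (1 - γ) : ℝ) : ℂ) * ρ (fun _ => 0) (fun _ => 1) ∧
    gadPow γ ν 1 ρ (fun _ => 1) (fun _ => 0) =
        ((Real.sqrt (1 - γ) : ℝ) : ℂ) * ρ (fun _ => 1) (fun _ => 0) ∧
    gadPow γ ν 1 ρ (fun _ => 1) (fun _ => 1) =
        ((ν * γ : ℝ) : ℂ) * ρ (fun _ => 0) (fun _ => 0) +
          ((1 - (1 - ν) * γ : ℝ) : ℂ) * ρ (fun _ => 1) (fun _ => 1) := by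
  have h := reindex_gadPow_one γ ν ρ
  rw [Matrix.eta_fin_two (ρ.submatrix e12.symm e12.symm), gad_two hγ0 hγ1 hν0 hν1] at h
  have hrw : Matrix.reindex e12 e12 (gadPow γ ν 1 ρ) =
      (gadPow γ ν 1 ρ).submatrix e12.symm e12.symm := rfl
  rw [hrw] at h
  refine ⟨?_, ?_, ?_, ?_⟩
  · exact congrFun (congrFun h 0) 0
  · exact congrFun (congrFun h 0) 1
  · exact congrFun (congrFun h 1) 0
  · exact congrFun (congrFun h 1) 1

end

end Vale.Agent.Lib.P358
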