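import Vale.Agent.Lib.P358.GTrial
import Vale.Agent.Lib.P358.GAnaCross

/-!
# The static inequality (P358 library): JOB G5

Setting: `x = ∑ α`, `y = ∑ β`, `u = tr N₀`, `v = tr N₁`, `a_k = α_k/x`, `c_l = β_l/y`,
`T = gC α β M + gN N₀ N₁`, positive definite.

Paper proof.  By `neg_trace_mul_logm_eq_integral` (`B = T`, `C = gC α β M`, whose trace is `x + y`),
`-re tr(C log T) = ∫₀^∞ (re tr(C (T+s)⁻¹) - (x+y)/(1+s)) ds`.  For `s > 0` use `g_trial` with
`f_k = F(a_k, s)`, `h_l = H(c_l, s)` (`F = gF x y u v`, `H = gH x y u v`) divided suitably: with the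
notation of `GAnaDefs`, since `α_k = x a_k`, `β_l = y c_l`:
`α_k (2 f_k - (s + α_k + ν_k) f_k²) = E₀(a_k, s) - ν_k L₀(a_k, s)`, `ν_k = (N₀)_kk`
(and `E₀ y x v u`, `L₀ y x v u` for the second block, with `μ_l = (N₁)_ll`), therefore the integrand is
at least
`G(s) = ∑_k (E₀(a_k,s) - x a_k/(1+s) - ν_k L₀(a_k,s)) + ∑_l (E₁(c_l,s) - y c_l/(1+s) - μ_l L₁(c_l,s))
  - 2 ∑_{kl} ‖M_kl‖² F(a_k,s) H(c_l,s)`,
where `∑ a_k = ∑ c_l = 1`.  By `gE0_integral`, `gL0_integral` (and the same at the swapped parameters):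
`∫ G = I₀ + x ∑ η(a_k) - u λ₀ + I₁ + y ∑ η(c_l) - v λ₁ - 2 ∑_{kl} ‖M_kl‖² ∫ F(a_k,s) H(c_l,s) ds`
(`∑ ν_k = u`, `∑ μ_l = v`).  By `gCross_bound`, `∫ F(a_k,·) H(c_l,·) ≤ κ₀/a_k + κ₁/c_l`, and by Bessel
(`g_bessel_col`, `g_bessel_row`; `‖M_kl‖²/a_k = x ‖M_kl‖²/α_k`):
`∑_{kl} ‖M_kl‖²/a_k = x ∑_l ∑_k ‖M_kl‖²/α_k ≤ x ∑_l β_l = x y`, likewise `∑_{kl} ‖M_kl‖²/c_l ≤ x y`.
So the last term is at least `- 2 x y (κ₀ + κ₁) = - 2 x y J`, and `gQ_eq` gives
`∫ G ≥ Q + x ∑ η(a_k) + y ∑ η(c_l)`.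
-/
namespace Vale.Agent.Lib.P358

open Matrix Real Finset
open scoped ComplexOrder

noncomputable section

variable {ι : Type*} [Fintype ι] [DecidableEq ι]

omit [Fintype ι] [DecidableEq ι] in
private lemma posDef_diag_re_pos [Fintype ι] {N : Matrix ι ι ℂ} (h : N.PosDef) (k : ι) : 0 < (N k k).re := by
  have := h.diag_pos (i := k)
  exact (Complex.pos_iff.mp this).1

omit [DecidableEq ι] in
private lemma trace_re_eq (N : Matrix ι ι ℂ) : (trace N).re = ∑ k, (N k k).re := by
  rw [trace, Complex.re_sum]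
  rfl

private lemma trace_gC_re (α β : ι → ℝ) (M : Matrix ι ι ℂ) :
    (trace (gC α β M)).re = ∑ k, α k + ∑ l, β l := by
  unfold gC
  simp [trace, Fintype.sum_sum_type, Complex.add_re, Complex.re_sum]

open MeasureTheory Set in
/-- **The static inequality.** -/
theorem g_static [Nonempty ι] (α β : ι → ℝ) (M N₀ N₁ : Matrix ι ι ℂ) (hα : ∀ k, 0 < α k)
    (hβ : ∀ l, 0 < β l) (hC : (gC α β M).PosSemidef) (h₀ : N₀.PosDef) (h₁ : N₁.PosDef) :
    gQ (∑ k, α k) (∑ l, β l) (trace N₀).re (trace N₁).re +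
        (∑ k, α k) * ∑ k, negMulLog (α k / ∑ k, α k) +
        (∑ l, β l) * ∑ l, negMulLog (β l / ∑ l, β l) ≤
      -(trace (gC α β M * logm (gC α β M + gN N₀ N₁))).re := by
  classical
  have hxpos : 0 < ∑ k, α k := Finset.sum_pos (fun k _ => hα k) Finset.univ_nonempty
  have hypos : 0 < ∑ l, β l := Finset.sum_pos (fun k _ => hβ k) Finset.univ_nonempty
  have hν : ∀ k, 0 < (N₀ k k).re := posDef_diag_re_pos h₀
  have hμ : ∀ k, 0 < (N₁ k k).re := posDef_diag_re_pos h₁
  have hupos : 0 < (trace N₀).re := by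
    rw [trace_re_eq]
    exact Finset.sum_pos (fun k _ => hν k) Finset.univ_nonempty
  have hvpos : 0 < (trace N₁).re := by
    rw [trace_re_eq]
    exact Finset.sum_pos (fun k _ => hμ k) Finset.univ_nonempty
  have hsumν : ∑ k, (N₀ k k).re = (trace N₀).re := (trace_re_eq N₀).symm
  have hsumμ : ∑ k, (N₁ k k).re = (trace N₁).re := (trace_re_eq N₁).symm
  have htrC := trace_gC_re α β M
  set x := ∑ k, α k with hxdef
  set y := ∑ l, β l with hydef
  set u := (trace N₀).re with hudef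
  set v := (trace N₁).re with hvdef
  set a : ι → ℝ := fun k => α k / x with ha
  set c : ι → ℝ := fun l => β l / y with hc
  have hapos : ∀ k, 0 < a k := fun k => div_pos (hα k) hxpos
  have hcpos : ∀ k, 0 < c k := fun k => div_pos (hβ k) hypos
  have hasum : ∑ k, a k = 1 := by
    simp only [ha]
    rw [← Finset.sum_div, div_self hxpos.ne']
  have hcsum : ∑ k, c k = 1 := by
    simp only [hc]
    rw [← Finset.sum_div, div_self hypos.ne']
  have hxa : ∀ k, x * a k = α k := fun k => by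
    simp only [ha]
    field_simp
  have hyc : ∀ k, y * c k = β k := fun k => by
    simp only [hc]
    field_simp
  have hT : (gC α β M + gN N₀ N₁).PosDef := Matrix.PosDef.posSemidef_add hC (gN_posDef h₀ h₁)
  obtain ⟨hint, heq⟩ := neg_trace_mul_logm_eq_integral hT (gC α β M)
  rw [htrC] at hint heq
  rw [heq]
  -- the lower bound integrand
  set A : ι → ℝ → ℝ := fun k s => (gE0 x y u v (a k) s - x * a k / (1 + s)) -
    (N₀ k k).re * gL0 x y u v (a k) s with hA
  set B : ι → ℝ → ℝ := fun l s => (gE0 y x v u (c l) s - y * c l / (1 + s)) -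
    (N₁ l l).re * gL0 y x v u (c l) s with hB
  set Cr : ι → ι → ℝ → ℝ := fun k l s => ‖M k l‖ ^ 2 * (gF x y u v (a k) s * gH x y u v (c l) s) with hCr
  have hAint : ∀ k, IntegrableOn (A k) (Ioi 0) := fun k =>
    (gE0_integrable hxpos hypos hupos hvpos (hapos k)).sub
      ((gL0_integrable hxpos hypos hupos hvpos (hapos k)).const_mul _)
  have hBint : ∀ k, IntegrableOn (B k) (Ioi 0) := fun k =>
    (gE0_integrable hypos hxpos hvpos hupos (hcpos k)).sub
      ((gL0_integrable hypos hxpos hvpos hupos (hcpos k)).const_mul _)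
  have hCrint : ∀ k l, IntegrableOn (Cr k l) (Ioi 0) := fun k l =>
    (gCross_integrable hxpos hypos hupos hvpos (hapos k) (hcpos l)).const_mul _
  have hAval : ∀ k, ∫ s in Ioi (0 : ℝ), A k s =
      a k * gI0 x y u v + x * negMulLog (a k) - (N₀ k k).re * gLam0 x y u v := fun k => by
    simp only [hA]
    rw [integral_sub (gE0_integrable hxpos hypos hupos hvpos (hapos k))
      ((gL0_integrable hxpos hypos hupos hvpos (hapos k)).const_mul _), integral_const_mul,
      gE0_integral hxpos hypos hupos hvpos (hapos k), gL0_integral hxpos hypos hupos hvpos (hapos k)]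
  have hBval : ∀ k, ∫ s in Ioi (0 : ℝ), B k s =
      c k * gI0 y x v u + y * negMulLog (c k) - (N₁ k k).re * gLam0 y x v u := fun k => by
    simp only [hB]
    rw [integral_sub (gE0_integrable hypos hxpos hvpos hupos (hcpos k))
      ((gL0_integrable hypos hxpos hvpos hupos (hcpos k)).const_mul _), integral_const_mul,
      gE0_integral hypos hxpos hvpos hupos (hcpos k), gL0_integral hypos hxpos hvpos hupos (hcpos k)]
  set G : ℝ → ℝ := fun s => ∑ k, A k s + ∑ l, B l s - 2 * ∑ k, ∑ l, Cr k l s with hG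
  have hSA : IntegrableOn (fun s => ∑ k, A k s) (Ioi 0) := integrable_finsetSum _ fun k _ => hAint k
  have hSB : IntegrableOn (fun s => ∑ k, B k s) (Ioi 0) := integrable_finsetSum _ fun k _ => hBint k
  have hSC : IntegrableOn (fun s => ∑ k, ∑ l, Cr k l s) (Ioi 0) :=
    integrable_finsetSum _ fun k _ => integrable_finsetSum _ fun l _ => hCrint k l
  have hGint : IntegrableOn G (Ioi 0) := (hSA.add hSB).sub (hSC.const_mul 2)
  -- the pointwise bound
  have hpt : ∀ s ∈ Ioi (0 : ℝ), G s ≤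
      (trace (gC α β M * (gC α β M + gN N₀ N₁ + (s : ℂ) • (1 : Matrix (ι ⊕ ι) (ι ⊕ ι) ℂ))⁻¹)).re -
        (x + y) / (1 + s) := by
    intro s hs
    have hs0 : 0 < s := hs
    have htrial := g_trial α β M N₀ N₁ hC h₀ h₁ hs0 (fun k => gF x y u v (a k) s)
      (fun l => gH x y u v (c l) s)
    refine le_trans (le_of_eq ?_) (sub_le_sub_right htrial _)
    have e1 : ∑ k, A k s = ∑ k, α k * (2 * gF x y u v (a k) s -
        (s + α k + (N₀ k k).re) * gF x y u v (a k) s ^ 2) - x / (1 + s) := by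
      have : x / (1 + s) = ∑ k, x * a k / (1 + s) := by
        rw [← Finset.sum_div, ← Finset.mul_sum, hasum, mul_one]
      rw [this, ← Finset.sum_sub_distrib]
      refine Finset.sum_congr rfl fun k _ => ?_
      simp only [hA, gE0, gL0, hxa]
      ring
    have e2 : ∑ l, B l s = ∑ l, β l * (2 * gH x y u v (c l) s -
        (s + β l + (N₁ l l).re) * gH x y u v (c l) s ^ 2) - y / (1 + s) := by
      have : y / (1 + s) = ∑ k, y * c k / (1 + s) := by
        rw [← Finset.sum_div, ← Finset.mul_sum, hcsum, mul_one]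
      rw [this, ← Finset.sum_sub_distrib]
      refine Finset.sum_congr rfl fun k _ => ?_
      simp only [hB, gE0, gL0, hyc, gH]
      ring
    simp only [hG]
    rw [e1, e2, add_div]
    simp only [hCr]
    ring
  have hmono := setIntegral_mono_on hGint hint measurableSet_Ioi hpt
  refine le_trans ?_ hmono
  -- the value of the integral of `G`
  have hGval : ∫ s in Ioi (0 : ℝ), G s =
      gI0 x y u v + x * ∑ k, negMulLog (a k) - u * gLam0 x y u v +
      (gI0 y x v u + y * ∑ k, negMulLog (c k) - v * gLam0 y x v u) -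
      2 * ∑ k, ∑ l, ‖M k l‖ ^ 2 * ∫ s in Ioi (0 : ℝ), gF x y u v (a k) s * gH x y u v (c l) s := by
    simp only [hG]
    have hAB : IntegrableOn (fun s => ∑ k, A k s + ∑ k, B k s) (Ioi 0) := hSA.add hSB
    rw [integral_sub hAB (hSC.const_mul 2), integral_add hSA hSB, integral_const_mul,
      integral_finsetSum _ fun k _ => hAint k, integral_finsetSum _ fun k _ => hBint k,
      integral_finsetSum _ fun k _ => integrable_finsetSum _ fun l _ => hCrint k l]
    simp only [hAval, hBval]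
    have h3 : ∀ k, ∫ s in Ioi (0 : ℝ), ∑ l, Cr k l s =
        ∑ l, ‖M k l‖ ^ 2 * ∫ s in Ioi (0 : ℝ), gF x y u v (a k) s * gH x y u v (c l) s := fun k => by
      rw [integral_finsetSum _ fun l _ => hCrint k l]
      refine Finset.sum_congr rfl fun l _ => ?_
      simp only [hCr]
      rw [integral_const_mul]
    simp only [h3]
    rw [Finset.sum_sub_distrib, Finset.sum_add_distrib, Finset.sum_sub_distrib, Finset.sum_add_distrib,
      ← Finset.sum_mul, ← Finset.sum_mul, ← Finset.sum_mul, ← Finset.sum_mul, ← Finset.mul_sum,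
      ← Finset.mul_sum, hasum, hcsum, hsumν, hsumμ]
    ring
  rw [hGval, gQ_eq hxpos hypos hupos hvpos]
  -- the cross terms
  obtain ⟨κ₀, κ₁, hκ₀, hκ₁, hκs, hκb⟩ := gCross_bound hxpos hypos hupos hvpos
  have hbessel1 : ∑ k, ∑ l, ‖M k l‖ ^ 2 / a k ≤ x * y := by
    have : ∑ k, ∑ l, ‖M k l‖ ^ 2 / a k = x * ∑ l, ∑ k, ‖M k l‖ ^ 2 / α k := by
      rw [Finset.sum_comm, Finset.mul_sum]
      refine Finset.sum_congr rfl fun l _ => ?_
      rw [Finset.mul_sum]
      refine Finset.sum_congr rfl fun k _ => ?_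
      simp only [ha]
      field_simp
    rw [this]
    refine mul_le_mul_of_nonneg_left ?_ hxpos.le
    exact Finset.sum_le_sum fun l _ => g_bessel_col α β M hC l
  have hbessel2 : ∑ k, ∑ l, ‖M k l‖ ^ 2 / c l ≤ x * y := by
    have : ∑ k, ∑ l, ‖M k l‖ ^ 2 / c l = y * ∑ k, ∑ l, ‖M k l‖ ^ 2 / β l := by
      rw [Finset.mul_sum]
      refine Finset.sum_congr rfl fun l _ => ?_
      rw [Finset.mul_sum]
      refine Finset.sum_congr rfl fun k _ => ?_
      simp only [hc]
      field_simp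
    rw [this, mul_comm x y]
    refine mul_le_mul_of_nonneg_left ?_ hypos.le
    exact Finset.sum_le_sum fun l _ => g_bessel_row α β M hC l
  have hcross : ∑ k, ∑ l, ‖M k l‖ ^ 2 * ∫ s in Ioi (0 : ℝ), gF x y u v (a k) s * gH x y u v (c l) s ≤
      x * y * gJ x y u v := by
    calc ∑ k, ∑ l, ‖M k l‖ ^ 2 * ∫ s in Ioi (0 : ℝ), gF x y u v (a k) s * gH x y u v (c l) s
        ≤ ∑ k, ∑ l, (κ₀ * (‖M k l‖ ^ 2 / a k) + κ₁ * (‖M k l‖ ^ 2 / c l)) := by
          refine Finset.sum_le_sum fun k _ => Finset.sum_le_sum fun l _ => ?_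
          have := hκb (a k) (c l) (hapos k) (hcpos l)
          calc _ ≤ ‖M k l‖ ^ 2 * (κ₀ / a k + κ₁ / c l) :=
                mul_le_mul_of_nonneg_left this (by positivity)
            _ = _ := by ring
      _ = κ₀ * ∑ k, ∑ l, ‖M k l‖ ^ 2 / a k + κ₁ * ∑ k, ∑ l, ‖M k l‖ ^ 2 / c l := by
          simp only [Finset.sum_add_distrib, Finset.mul_sum]
      _ ≤ κ₀ * (x * y) + κ₁ * (x * y) :=
          add_le_add (mul_le_mul_of_nonneg_left hbessel1 hκ₀) (mul_le_mul_of_nonneg_left hbessel2 hκ₁)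
      _ = x * y * gJ x y u v := by rw [← hκs]; ring
  nlinarith [hcross]

end

end Vale.Agent.Lib.P358
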