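import Vale.Agent.Lib.P358.EntInt
import Vale.Agent.Lib.P358.EntKlein

/-!
# The trial bound for the resolvent, normal form (P358 library): JOB G4
-/

namespace Vale.Agent.Lib.P358

open Matrix Real Finset
open scoped ComplexOrder

noncomputable section

variable {ι : Type*} [Fintype ι] [DecidableEq ι]

/-- The coherent part `[[diag α, M], [M*, diag β]]`. -/
def gC (α β : ι → ℝ) (M : Matrix ι ι ℂ) : Matrix (ι ⊕ ι) (ι ⊕ ι) ℂ :=
  fromBlocks (diagonal fun k => ((α k : ℝ) : ℂ)) M Mᴴ (diagonal fun l => ((β l : ℝ) : ℂ))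

/-- The incoherent part `diag(N₀, N₁)`. -/
def gN (N₀ N₁ : Matrix ι ι ℂ) : Matrix (ι ⊕ ι) (ι ⊕ ι) ℂ := fromBlocks N₀ 0 0 N₁

theorem gN_posDef {N₀ N₁ : Matrix ι ι ℂ} (h₀ : N₀.PosDef) (h₁ : N₁.PosDef) : (gN N₀ N₁).PosDef := by
  refine Matrix.PosDef.of_dotProduct_mulVec_pos ?_ ?_
  · unfold gN
    exact Matrix.IsHermitian.fromBlocks h₀.isHermitian (by simp) h₁.isHermitian
  · intro x hx
    have hsplit : x = Sum.elim (x ∘ Sum.inl) (x ∘ Sum.inr) := by
      ext i; cases i <;> rfl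
    have e : star x ⬝ᵥ (gN N₀ N₁ *ᵥ x) =
        star (x ∘ Sum.inl) ⬝ᵥ (N₀ *ᵥ (x ∘ Sum.inl)) + star (x ∘ Sum.inr) ⬝ᵥ (N₁ *ᵥ (x ∘ Sum.inr)) := by
      conv_lhs => rw [hsplit]
      unfold gN
      rw [fromBlocks_mulVec]
      simp [dotProduct, Fintype.sum_sum_type]
    rw [e]
    by_cases h1 : x ∘ Sum.inl = 0
    · have h2 : x ∘ Sum.inr ≠ 0 := by
        intro h2
        apply hx
        rw [hsplit, h1, h2]
        ext i; cases i <;> rfl
      rw [h1]
      simpa using h₁.dotProduct_mulVec_pos h2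
    · have p1 := h₀.dotProduct_mulVec_pos h1
      have p2 : 0 ≤ star (x ∘ Sum.inr) ⬝ᵥ (N₁ *ᵥ (x ∘ Sum.inr)) :=
        h₁.posSemidef.dotProduct_mulVec_nonneg _
      exact add_pos_of_pos_of_nonneg p1 p2

theorem trace_psd_mul_psd_re_nonneg {n : Type*} [Fintype n] [DecidableEq n] {A B : Matrix n n ℂ}
    (hA : A.PosSemidef) (hB : B.PosSemidef) : 0 ≤ (trace (A * B)).re := by
  have hH := hA.1
  set W : Matrix n n ℂ := (hH.eigenvectorUnitary : Matrix n n ℂ) with hW
  set a : n → ℝ := hH.eigenvalues with ha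
  have hspec : A = W * diagonal (fun i => ((a i : ℝ) : ℂ)) * Wᴴ := herm_spectral_eq hH
  have ha0 : ∀ i, 0 ≤ a i := fun i => hA.eigenvalues_nonneg i
  set Y : Matrix n n ℂ := W * diagonal (fun i => ((Real.sqrt (a i) : ℝ) : ℂ)) with hY
  have hAY : A = Y * Yᴴ := by
    rw [hspec, hY, conjTranspose_mul, diagonal_conjTranspose]
    have : diagonal (fun i => ((a i : ℝ) : ℂ)) =
        diagonal (fun i => ((Real.sqrt (a i) : ℝ) : ℂ)) *
          diagonal (star fun i => ((Real.sqrt (a i) : ℝ) : ℂ)) := by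
      rw [diagonal_mul_diagonal]
      congr 1
      ext i
      simp only [Pi.star_apply, Complex.star_def, Complex.conj_ofReal]
      rw [← Complex.ofReal_mul, Real.mul_self_sqrt (ha0 i)]
    rw [this]
    simp only [Matrix.mul_assoc]
  have e : trace (A * B) = trace (Yᴴ * B * Y) := by
    rw [hAY, Matrix.mul_assoc, Matrix.trace_mul_comm, Matrix.mul_assoc]
  have hP : (Yᴴ * B * Y).PosSemidef := hB.conjTranspose_mul_mul_same Y
  rw [e]
  exact (Complex.le_def.mp hP.trace_nonneg).1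

theorem trace_trial {n : Type*} [Fintype n] [DecidableEq n] {H C : Matrix n n ℂ} (hH : H.PosDef)
    (hC : C.PosSemidef) (D : n → ℝ) :
    2 * (trace (diagonal (fun i => ((D i : ℝ) : ℂ)) * C)).re -
        (trace (diagonal (fun i => ((D i : ℝ) : ℂ)) * H * diagonal (fun i => ((D i : ℝ) : ℂ)) * C)).re
      ≤ (trace (C * H⁻¹)).re := by
  classical
  set E : Matrix n n ℂ := diagonal (fun i => ((D i : ℝ) : ℂ)) with hE
  have hEh : Eᴴ = E := by
    rw [hE, diagonal_conjTranspose]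
    congr 1
    ext i
    simp
  have hdet : IsUnit H.det := (Matrix.isUnit_iff_isUnit_det _).mp hH.isUnit
  have hHh : Hᴴ = H := hH.isHermitian
  have hinvh : (H⁻¹)ᴴ = H⁻¹ := by
    rw [conjTranspose_nonsing_inv, hHh]
  set R : Matrix n n ℂ := 1 - E * H with hR
  have hB : (R * H⁻¹ * Rᴴ).PosSemidef := hH.inv.posSemidef.mul_mul_conjTranspose_same R
  have hBe : R * H⁻¹ * Rᴴ = H⁻¹ - E - E + E * H * E := by
    have hRh : Rᴴ = 1 - H * E := by
      rw [hR, conjTranspose_sub, conjTranspose_one, conjTranspose_mul, hHh, hEh]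
    rw [hRh, hR]
    have h1 : (1 - E * H) * H⁻¹ = H⁻¹ - E := by
      rw [Matrix.sub_mul, Matrix.one_mul, Matrix.mul_assoc, Matrix.mul_nonsing_inv _ hdet, Matrix.mul_one]
    rw [h1, Matrix.mul_sub, Matrix.mul_one, Matrix.sub_mul,
      ← Matrix.mul_assoc H⁻¹ H E, Matrix.nonsing_inv_mul _ hdet, Matrix.one_mul, Matrix.mul_assoc E H E]
    abel
  have h0 := trace_psd_mul_psd_re_nonneg hC hB
  rw [hBe] at h0
  have e1 : trace (C * (H⁻¹ - E - E + E * H * E)) =
      trace (C * H⁻¹) - trace (E * C) - trace (E * C) + trace (E * H * E * C) := by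
    rw [Matrix.mul_add, Matrix.mul_sub, Matrix.mul_sub, trace_add, trace_sub, trace_sub,
      Matrix.trace_mul_comm C E, Matrix.trace_mul_comm C (E * H * E)]
  rw [e1] at h0
  simp only [Complex.add_re, Complex.sub_re] at h0
  linarith

theorem gC_apply_ll (α β : ι → ℝ) (M : Matrix ι ι ℂ) (k k' : ι) :
    gC α β M (Sum.inl k) (Sum.inl k') = if k = k' then ((α k : ℝ) : ℂ) else 0 := by
  simp [gC, diagonal_apply]

theorem gC_apply_rr (α β : ι → ℝ) (M : Matrix ι ι ℂ) (k k' : ι) :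
    gC α β M (Sum.inr k) (Sum.inr k') = if k = k' then ((β k : ℝ) : ℂ) else 0 := by
  simp [gC, diagonal_apply]

theorem gC_apply_lr (α β : ι → ℝ) (M : Matrix ι ι ℂ) (k l : ι) :
    gC α β M (Sum.inl k) (Sum.inr l) = M k l := by
  simp [gC]

theorem gC_apply_rl (α β : ι → ℝ) (M : Matrix ι ι ℂ) (k l : ι) :
    gC α β M (Sum.inr l) (Sum.inl k) = star (M k l) := by
  simp [gC]

theorem gN_apply_ll (N₀ N₁ : Matrix ι ι ℂ) (k k' : ι) : gN N₀ N₁ (Sum.inl k) (Sum.inl k') = N₀ k k' := by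
  simp [gN]

theorem gN_apply_rr (N₀ N₁ : Matrix ι ι ℂ) (k k' : ι) : gN N₀ N₁ (Sum.inr k) (Sum.inr k') = N₁ k k' := by
  simp [gN]

theorem gN_apply_lr (N₀ N₁ : Matrix ι ι ℂ) (k l : ι) : gN N₀ N₁ (Sum.inl k) (Sum.inr l) = 0 := by
  simp [gN]

theorem gN_apply_rl (N₀ N₁ : Matrix ι ι ℂ) (k l : ι) : gN N₀ N₁ (Sum.inr l) (Sum.inl k) = 0 := by
  simp [gN]

/-- The trial bound. -/
theorem g_trial (α β : ι → ℝ) (M N₀ N₁ : Matrix ι ι ℂ) (hC : (gC α β M).PosSemidef)
    (h₀ : N₀.PosDef) (h₁ : N₁.PosDef) {s : ℝ} (hs : 0 < s) (f h : ι → ℝ) :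
    ∑ k, α k * (2 * f k - (s + α k + (N₀ k k).re) * f k ^ 2) +
        ∑ l, β l * (2 * h l - (s + β l + (N₁ l l).re) * h l ^ 2) -
        2 * ∑ k, ∑ l, ‖M k l‖ ^ 2 * (f k * h l) ≤
      (trace (gC α β M * (gC α β M + gN N₀ N₁ + (s : ℂ) • (1 : Matrix (ι ⊕ ι) (ι ⊕ ι) ℂ))⁻¹)).re := by
  classical
  set C := gC α β M with hCdef
  set H := C + gN N₀ N₁ + (s : ℂ) • (1 : Matrix (ι ⊕ ι) (ι ⊕ ι) ℂ) with hHdef
  have hHpd : H.PosDef := by
    have h1 : (C + gN N₀ N₁).PosDef := Matrix.PosDef.posSemidef_add hC (gN_posDef h₀ h₁)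
    have h2 : ((s : ℂ) • (1 : Matrix (ι ⊕ ι) (ι ⊕ ι) ℂ)).PosDef :=
      Matrix.PosDef.smul Matrix.PosDef.one (by exact_mod_cast hs)
    exact h1.add h2
  set D : ι ⊕ ι → ℝ := Sum.elim f h with hD
  have key := trace_trial hHpd hC D
  refine le_trans (le_of_eq ?_) key
  have t1 : (trace (diagonal (fun i => ((D i : ℝ) : ℂ)) * C)).re = ∑ k, α k * f k + ∑ l, β l * h l := by
    simp only [trace, diag_apply, diagonal_mul, Fintype.sum_sum_type, Complex.re_sum, Complex.add_re]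
    simp only [hD, Sum.elim_inl, Sum.elim_inr, hCdef, gC_apply_ll, gC_apply_rr, if_true]
    simp only [← Complex.ofReal_mul, Complex.ofReal_re]
    congr 1 <;> exact Finset.sum_congr rfl fun i _ => by ring
  have t2 : (trace (diagonal (fun i => ((D i : ℝ) : ℂ)) * H * diagonal (fun i => ((D i : ℝ) : ℂ)) * C)).re =
      ∑ k, α k * ((s + α k + (N₀ k k).re) * f k ^ 2) + ∑ l, β l * ((s + β l + (N₁ l l).re) * h l ^ 2) +
        2 * ∑ k, ∑ l, ‖M k l‖ ^ 2 * (f k * h l) := by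
    have e : trace (diagonal (fun i => ((D i : ℝ) : ℂ)) * H * diagonal (fun i => ((D i : ℝ) : ℂ)) * C) =
        ∑ i, ∑ j, ((D i : ℝ) : ℂ) * H i j * ((D j : ℝ) : ℂ) * C j i := by
      simp only [trace, diag_apply, Matrix.mul_apply, diagonal_apply, ite_mul, zero_mul, mul_ite, mul_zero,
        Finset.sum_ite_eq, Finset.sum_ite_eq', Finset.mem_univ, if_true]
    rw [e]
    have ll : ∀ k k' : ι, (((D (Sum.inl k) : ℝ) : ℂ) * H (Sum.inl k) (Sum.inl k') * ((D (Sum.inl k') : ℝ) : ℂ) *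
        C (Sum.inl k') (Sum.inl k)).re =
        if k = k' then α k * ((s + α k + (N₀ k k).re) * f k ^ 2) else 0 := by
      intro k k'
      by_cases hk : k = k'
      · subst hk
        simp only [hHdef, hCdef, hD, Sum.elim_inl, Matrix.add_apply, Matrix.smul_apply, gC_apply_ll,
          gN_apply_ll, if_true, Matrix.one_apply_eq, smul_eq_mul, mul_one]
        simp only [Complex.mul_re, Complex.mul_im, Complex.add_re, Complex.add_im, Complex.ofReal_re,
          Complex.ofReal_im]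
        ring
      · have hk' : k' ≠ k := fun h => hk h.symm
        simp [hCdef, gC_apply_ll, hk, hk']
    have rr : ∀ k k' : ι, (((D (Sum.inr k) : ℝ) : ℂ) * H (Sum.inr k) (Sum.inr k') * ((D (Sum.inr k') : ℝ) : ℂ) *
        C (Sum.inr k') (Sum.inr k)).re =
        if k = k' then β k * ((s + β k + (N₁ k k).re) * h k ^ 2) else 0 := by
      intro k k'
      by_cases hk : k = k'
      · subst hk
        simp only [hHdef, hCdef, hD, Sum.elim_inr, Matrix.add_apply, Matrix.smul_apply, gC_apply_rr,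
          gN_apply_rr, if_true, Matrix.one_apply_eq, smul_eq_mul, mul_one]
        simp only [Complex.mul_re, Complex.mul_im, Complex.add_re, Complex.add_im, Complex.ofReal_re,
          Complex.ofReal_im]
        ring
      · have hk' : k' ≠ k := fun h => hk h.symm
        simp [hCdef, gC_apply_rr, hk, hk']
    have nrm : ∀ k l : ι, (M k l * star (M k l)).re = ‖M k l‖ ^ 2 := by
      intro k l
      rw [Complex.star_def, Complex.mul_conj, Complex.ofReal_re, Complex.normSq_eq_norm_sq]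
    have lr : ∀ k l : ι, (((D (Sum.inl k) : ℝ) : ℂ) * H (Sum.inl k) (Sum.inr l) * ((D (Sum.inr l) : ℝ) : ℂ) *
        C (Sum.inr l) (Sum.inl k)).re = ‖M k l‖ ^ 2 * (f k * h l) := by
      intro k l
      have hone : (1 : Matrix (ι ⊕ ι) (ι ⊕ ι) ℂ) (Sum.inl k) (Sum.inr l) = 0 := by simp
      simp only [hHdef, hCdef, hD, Sum.elim_inl, Sum.elim_inr, Matrix.add_apply, Matrix.smul_apply,
        gC_apply_lr, gC_apply_rl, gN_apply_lr, hone, smul_zero, add_zero]
      have : ((f k : ℝ) : ℂ) * M k l * ((h l : ℝ) : ℂ) * star (M k l) =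
          ((f k * h l : ℝ) : ℂ) * (M k l * star (M k l)) := by
        push_cast; ring
      rw [this, Complex.re_ofReal_mul, nrm]
      ring
    have rl : ∀ k l : ι, (((D (Sum.inr l) : ℝ) : ℂ) * H (Sum.inr l) (Sum.inl k) * ((D (Sum.inl k) : ℝ) : ℂ) *
        C (Sum.inl k) (Sum.inr l)).re = ‖M k l‖ ^ 2 * (f k * h l) := by
      intro k l
      have hone : (1 : Matrix (ι ⊕ ι) (ι ⊕ ι) ℂ) (Sum.inr l) (Sum.inl k) = 0 := by simp
      simp only [hHdef, hCdef, hD, Sum.elim_inl, Sum.elim_inr, Matrix.add_apply, Matrix.smul_apply,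
        gC_apply_lr, gC_apply_rl, gN_apply_rl, hone, smul_zero, add_zero]
      have : ((h l : ℝ) : ℂ) * star (M k l) * ((f k : ℝ) : ℂ) * M k l =
          ((f k * h l : ℝ) : ℂ) * (M k l * star (M k l)) := by
        push_cast; ring
      rw [this, Complex.re_ofReal_mul, nrm]
      ring
    simp only [Fintype.sum_sum_type, Complex.re_sum, Complex.add_re, ll, rr, lr, rl,
      Finset.sum_add_distrib, Finset.sum_ite_eq, Finset.mem_univ, if_true]
    rw [Finset.sum_comm (f := fun l k => ‖M k l‖ ^ 2 * (f k * h l))]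
    ring
  rw [t1, t2]
  have a1 : ∑ k, α k * (2 * f k - (s + α k + (N₀ k k).re) * f k ^ 2) =
      2 * ∑ k, α k * f k - ∑ k, α k * ((s + α k + (N₀ k k).re) * f k ^ 2) := by
    rw [Finset.mul_sum, ← Finset.sum_sub_distrib]
    exact Finset.sum_congr rfl fun i _ => by ring
  have a2 : ∑ l, β l * (2 * h l - (s + β l + (N₁ l l).re) * h l ^ 2) =
      2 * ∑ l, β l * h l - ∑ l, β l * ((s + β l + (N₁ l l).re) * h l ^ 2) := by
    rw [Finset.mul_sum, ← Finset.sum_sub_distrib]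
    exact Finset.sum_congr rfl fun i _ => by ring
  rw [a1, a2]
  ring

/-- The scalar identity behind the Bessel inequalities. -/
theorem bessel_scalar (m : ℂ) (b : ℝ) :
    (m * (-(star m / ((b : ℝ) : ℂ))) + star (-(star m / ((b : ℝ) : ℂ))) * star m +
      star (-(star m / ((b : ℝ) : ℂ))) * ((b : ℝ) : ℂ) * (-(star m / ((b : ℝ) : ℂ)))).re =
      -(‖m‖ ^ 2 / b) := by
  by_cases hb : b = 0
  · subst hb
    simp
  · have hb' : ((b : ℝ) : ℂ) ≠ 0 := by exact_mod_cast hb
    have hs : star (-(star m / ((b : ℝ) : ℂ))) = -(m / ((b : ℝ) : ℂ)) := by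
      simp
    rw [hs]
    have e : m * (-(star m / ((b : ℝ) : ℂ))) + -(m / ((b : ℝ) : ℂ)) * star m +
        -(m / ((b : ℝ) : ℂ)) * ((b : ℝ) : ℂ) * (-(star m / ((b : ℝ) : ℂ))) =
        -((m * star m) / ((b : ℝ) : ℂ)) := by
      field_simp
      ring
    rw [e, Complex.star_def, Complex.mul_conj, Complex.normSq_eq_norm_sq]
    norm_cast

theorem g_bessel_row (α β : ι → ℝ) (M : Matrix ι ι ℂ) (hC : (gC α β M).PosSemidef) (k : ι) :
    ∑ l, ‖M k l‖ ^ 2 / β l ≤ α k := by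
  classical
  set z : ι ⊕ ι → ℂ := Sum.elim (fun j => if j = k then 1 else 0)
    (fun l => -(star (M k l) / ((β l : ℝ) : ℂ))) with hz
  have h0 := hC.dotProduct_mulVec_nonneg z
  have h1 := (Complex.le_def.mp h0).1
  have e : star z ⬝ᵥ (gC α β M *ᵥ z) = ((α k : ℝ) : ℂ) +
      ∑ l, (M k l * (-(star (M k l) / ((β l : ℝ) : ℂ))) +
        star (-(star (M k l) / ((β l : ℝ) : ℂ))) * star (M k l) +
        star (-(star (M k l) / ((β l : ℝ) : ℂ))) * ((β l : ℝ) : ℂ) *
          (-(star (M k l) / ((β l : ℝ) : ℂ)))) := by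
    simp only [dotProduct, mulVec, Fintype.sum_sum_type, hz, Sum.elim_inl, Sum.elim_inr, Pi.star_apply,
      gC_apply_ll, gC_apply_lr, gC_apply_rl, gC_apply_rr]
    have a1 : ∀ i : ι, star (if i = k then (1 : ℂ) else 0) *
        (∑ x, (if i = x then ((α i : ℝ) : ℂ) else 0) * (if x = k then (1 : ℂ) else 0) +
          ∑ x, M i x * (-(star (M k x) / ((β x : ℝ) : ℂ)))) =
        if i = k then ((α k : ℝ) : ℂ) + ∑ x, M k x * (-(star (M k x) / ((β x : ℝ) : ℂ))) else 0 := by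
      intro i
      by_cases hi : i = k
      · subst hi
        simp
      · simp [hi]
    have a2 : ∀ l : ι, star (-(star (M k l) / ((β l : ℝ) : ℂ))) *
        (∑ x, star (M x l) * (if x = k then (1 : ℂ) else 0) +
          ∑ x, (if l = x then ((β l : ℝ) : ℂ) else 0) * (-(star (M k x) / ((β x : ℝ) : ℂ)))) =
        star (-(star (M k l) / ((β l : ℝ) : ℂ))) * star (M k l) +
        star (-(star (M k l) / ((β l : ℝ) : ℂ))) * ((β l : ℝ) : ℂ) *
          (-(star (M k l) / ((β l : ℝ) : ℂ))) := by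
      intro l
      simp only [mul_ite, mul_one, mul_zero, ite_mul, zero_mul, Finset.sum_ite_eq, Finset.sum_ite_eq',
        Finset.mem_univ, if_true]
      ring
    simp only [a1, a2, Finset.sum_ite_eq', Finset.mem_univ, if_true]
    rw [add_assoc, ← Finset.sum_add_distrib]
    congr 1
    exact Finset.sum_congr rfl fun l _ => by ring
  rw [e, Complex.add_re, Complex.ofReal_re, Complex.re_sum, Complex.zero_re] at h1
  simp only [bessel_scalar] at h1
  rw [Finset.sum_neg_distrib] at h1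
  linarith

theorem g_bessel_col (α β : ι → ℝ) (M : Matrix ι ι ℂ) (hC : (gC α β M).PosSemidef) (l : ι) :
    ∑ k, ‖M k l‖ ^ 2 / α k ≤ β l := by
  classical
  set z : ι ⊕ ι → ℂ := Sum.elim (fun k => -(M k l / ((α k : ℝ) : ℂ)))
    (fun j => if j = l then 1 else 0) with hz
  have h0 := hC.dotProduct_mulVec_nonneg z
  have h1 := (Complex.le_def.mp h0).1
  have e : star z ⬝ᵥ (gC α β M *ᵥ z) = ((β l : ℝ) : ℂ) +
      ∑ k, (star (M k l) * (-(star (star (M k l)) / ((α k : ℝ) : ℂ))) +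
        star (-(star (star (M k l)) / ((α k : ℝ) : ℂ))) * star (star (M k l)) +
        star (-(star (star (M k l)) / ((α k : ℝ) : ℂ))) * ((α k : ℝ) : ℂ) *
          (-(star (star (M k l)) / ((α k : ℝ) : ℂ)))) := by
    simp only [star_star]
    simp only [dotProduct, mulVec, Fintype.sum_sum_type, hz, Sum.elim_inl, Sum.elim_inr, Pi.star_apply,
      gC_apply_ll, gC_apply_lr, gC_apply_rl, gC_apply_rr]
    have a1 : ∀ j : ι, star (if j = l then (1 : ℂ) else 0) *
        (∑ x, star (M x j) * (-(M x l / ((α x : ℝ) : ℂ))) +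
          ∑ x, (if j = x then ((β j : ℝ) : ℂ) else 0) * (if x = l then (1 : ℂ) else 0)) =
        if j = l then ∑ x, star (M x l) * (-(M x l / ((α x : ℝ) : ℂ))) + ((β l : ℝ) : ℂ) else 0 := by
      intro j
      by_cases hj : j = l
      · subst hj
        simp
      · simp [hj]
    have a2 : ∀ k : ι, star (-(M k l / ((α k : ℝ) : ℂ))) *
        (∑ x, (if k = x then ((α k : ℝ) : ℂ) else 0) * (-(M x l / ((α x : ℝ) : ℂ))) +
          ∑ x, M k x * (if x = l then (1 : ℂ) else 0)) =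
        star (-(M k l / ((α k : ℝ) : ℂ))) * M k l +
        star (-(M k l / ((α k : ℝ) : ℂ))) * ((α k : ℝ) : ℂ) * (-(M k l / ((α k : ℝ) : ℂ))) := by
      intro k
      simp only [mul_ite, mul_one, mul_zero, ite_mul, zero_mul, Finset.sum_ite_eq, Finset.sum_ite_eq',
        Finset.mem_univ, if_true]
      ring
    simp only [a1, a2, Finset.sum_ite_eq', Finset.mem_univ, if_true]
    rw [add_comm (∑ k, _) _, add_comm (∑ x, _) ((β l : ℝ) : ℂ), add_assoc, ← Finset.sum_add_distrib]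
    congr 1
    exact Finset.sum_congr rfl fun k _ => by ring
  rw [e, Complex.add_re, Complex.ofReal_re, Complex.re_sum, Complex.zero_re] at h1
  simp only [bessel_scalar, norm_star] at h1
  rw [Finset.sum_neg_distrib] at h1
  linarith

end

end Vale.Agent.Lib.P358
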