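import Vale.Agent.Lib.P358.GCore
import Vale.Agent.Lib.P358.GConv

/-!
# The two-letter inequality for the generalized amplitude damping channel (P358 library): JOB G8

Notation: `e = ν γ`, `q = (1-ν) γ`, `p = 1 - e`, `r = 1 - q`, `κ² = 1 - γ`; then `p r - κ² = q e`.
`P = X₀ X₀*`, `Q = X₁ X₁*`, `K = X₀ X₁*`, `a = tr P`, `b = tr Q`.
The output is `T = [[p P + q Q, κ K], [κ K*, e P + r Q]]`.

`entE` facts: `entE (c • X) = c * entE X` (`c ≥ 0`, `X` Hermitian: `ent_smul`, `negMulLog_mul`),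
`entE X + entE Y ≤ entE (X + Y)` for `X, Y ⪰ 0`: if `tr X + tr Y = 0` trivial (both zero), else with
`t = tr X + tr Y`, `ent_sum_ge` for the convex combination of `X/tr X`, `Y/tr Y` (treat `tr X = 0` or `tr Y = 0`
separately: then the matrix is zero).

Paper proof of `core_gad` for `p > 0`: apply `g_core` with `A = p P`, `M = κ K`, `C = (κ²/p) Q`, `N₀ = q Q`,
`N₁ = e P + (q e/p) Q`.  The block matrix `[[A, M], [M*, C]] = Y Y*`, `Y = [√p X₀ ; (κ/√p) X₁]`, is PSD.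
`C + N₁ = e P + r Q` since `κ²/p + q e/p = r`; `A + N₀ = p P + q Q`.  With `entE` facts:
`E(A) + E(C) + E(N₀) + E(N₁) ≥ (p + e) E(P) + (κ²/p + q + q e/p) E(Q) = E(P) + E(Q)`.
Scalar part: `gScal (p a) (κ² b/p) (q b) (e a + q e b/p) = gadScal γ ν a b` because
`gP = a + b`, `gD = p e a² + 2 q e a b + q r b²`.
So `S(T) ≥ E(P) + E(Q) + gadScal`.

`core_gad` when `p = 0` (iff `γ = ν = 1`): direct from `entE_add`, the output being `diag(0, P + Q)`.
-/

namespace Vale.Agent.Lib.P358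

open Matrix Real Finset Filter Topology
open scoped ComplexOrder

noncomputable section

theorem entE_smul {n : Type*} [Fintype n] [DecidableEq n] {X : Matrix n n ℂ} (hX : X.IsHermitian)
    {c : ℝ} (hc : 0 ≤ c) : entE (((c : ℝ) : ℂ) • X) = c * entE X := by
  unfold entE
  rw [ent_smul hX hc]
  have ht : (trace (((c : ℝ) : ℂ) • X)).re = c * (trace X).re := by
    simp [trace_smul]
  rw [ht, Real.negMulLog_mul]
  ring

private theorem trace_re_nonneg_of_psd {n : Type*} [Fintype n] {X : Matrix n n ℂ}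
    (hX : X.PosSemidef) : 0 ≤ (trace X).re :=
  (Complex.le_def.mp hX.trace_nonneg).1

private theorem eq_zero_of_trace_re {n : Type*} [Fintype n] {X : Matrix n n ℂ}
    (hX : X.PosSemidef) (h : (trace X).re = 0) : X = 0 := by
  have him : (trace X).im = 0 := (Complex.le_def.mp hX.trace_nonneg).2.symm
  have : trace X = 0 := Complex.ext h him
  exact hX.trace_eq_zero_iff.mp this

theorem entE_add {n : Type*} [Fintype n] [DecidableEq n] {X Y : Matrix n n ℂ} (hX : X.PosSemidef)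
    (hY : Y.PosSemidef) : entE X + entE Y ≤ entE (X + Y) := by
  have hxn := trace_re_nonneg_of_psd hX
  have hyn := trace_re_nonneg_of_psd hY
  by_cases hx0 : (trace X).re = 0
  · have : X = 0 := eq_zero_of_trace_re hX hx0
    subst this
    simp [entE, ent_zero]
  by_cases hy0 : (trace Y).re = 0
  · have : Y = 0 := eq_zero_of_trace_re hY hy0
    subst this
    simp [entE, ent_zero]
  have hx : 0 < (trace X).re := lt_of_le_of_ne hxn (Ne.symm hx0)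
  have hy : 0 < (trace Y).re := lt_of_le_of_ne hyn (Ne.symm hy0)
  set x := (trace X).re with hxdef
  set y := (trace Y).re with hydef
  have ht : 0 < x + y := add_pos hx hy
  set p : Fin 2 → ℝ := ![x / (x + y), y / (x + y)] with hp
  set A : Fin 2 → Matrix n n ℂ := ![(((x⁻¹ : ℝ) : ℂ)) • X, (((y⁻¹ : ℝ) : ℂ)) • Y] with hA
  have hinv (r : ℝ) (hr : 0 < r) : (0 : ℂ) ≤ ((r⁻¹ : ℝ) : ℂ) := by
    exact_mod_cast (inv_pos.mpr hr).le
  have hsum := ent_sum_ge p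
    (by intro i; fin_cases i <;> simp [hp] <;> positivity)
    (by simp [hp, Fin.sum_univ_two]; field_simp)
    A (by
      intro i
      fin_cases i
      · exact hX.smul (hinv x hx)
      · exact hY.smul (hinv y hy))
  rw [Fin.sum_univ_two, Fin.sum_univ_two] at hsum
  simp only [hp, hA, Matrix.cons_val_zero, Matrix.cons_val_one] at hsum
  -- the average matrix
  have hZ : ((x / (x + y) : ℝ) : ℂ) • (((x⁻¹ : ℝ) : ℂ) • X) + ((y / (x + y) : ℝ) : ℂ) • (((y⁻¹ : ℝ) : ℂ) • Y)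
      = (((x + y)⁻¹ : ℝ) : ℂ) • (X + Y) := by
    rw [smul_smul, smul_smul, smul_add, ← Complex.ofReal_mul, ← Complex.ofReal_mul]
    have h1 : x / (x + y) * x⁻¹ = (x + y)⁻¹ := by field_simp
    have h2 : y / (x + y) * y⁻¹ = (x + y)⁻¹ := by field_simp
    rw [h1, h2]
  rw [hZ] at hsum
  have hXH := hX.isHermitian
  have hYH := hY.isHermitian
  have hSH := (hX.add hY).isHermitian
  have htr : (trace (X + Y)).re = x + y := by simp [trace_add, hxdef, hydef]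
  -- rewrite each term via `ent_smul`
  have e1 : ent (((x⁻¹ : ℝ) : ℂ) • X) = x⁻¹ * ent X + negMulLog x⁻¹ * x :=
    ent_smul hXH (inv_pos.mpr hx).le
  have e2 : ent (((y⁻¹ : ℝ) : ℂ) • Y) = y⁻¹ * ent Y + negMulLog y⁻¹ * y :=
    ent_smul hYH (inv_pos.mpr hy).le
  have e3 : ent (((((x + y)⁻¹ : ℝ)) : ℂ) • (X + Y)) =
      (x + y)⁻¹ * ent (X + Y) + negMulLog (x + y)⁻¹ * (x + y) := by
    have := ent_smul hSH (c := (x + y)⁻¹) (inv_pos.mpr ht).le
    rw [htr] at this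
    exact this
  rw [e1, e2, e3] at hsum
  have hL (r : ℝ) (hr : 0 < r) : negMulLog r⁻¹ * r = Real.log r := by
    simp only [Real.negMulLog, Real.log_inv]
    field_simp
  rw [hL x hx, hL y hy, hL (x + y) ht] at hsum
  unfold entE
  rw [htr]
  have key := mul_le_mul_of_nonneg_left hsum ht.le
  have lhsEq : (x + y) * (x / (x + y) * (x⁻¹ * ent X + Real.log x) +
      y / (x + y) * (y⁻¹ * ent Y + Real.log y)) =
      ent X + x * Real.log x + (ent Y + y * Real.log y) := by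
    field_simp
  have rhsEq : (x + y) * ((x + y)⁻¹ * ent (X + Y) + Real.log (x + y)) =
      ent (X + Y) + (x + y) * Real.log (x + y) := by
    field_simp
  rw [lhsEq, rhsEq] at key
  simp only [Real.negMulLog]
  linarith

private theorem smul_mul_smul_conj {ι κ : Type*} [Fintype κ] (s t : ℝ) (U V : Matrix ι κ ℂ) :
    (((s : ℝ) : ℂ) • U) * (((t : ℝ) : ℂ) • V)ᴴ = ((s * t : ℝ) : ℂ) • (U * Vᴴ) := by
  rw [conjTranspose_smul, Matrix.smul_mul, Matrix.mul_smul, smul_smul]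
  simp

private theorem scal_eq {γ ν a b : ℝ} (hp : 1 - ν * γ ≠ 0) :
    gScal ((1 - ν * γ) * a) ((1 - γ) / (1 - ν * γ) * b) (((1 - ν) * γ) * b)
      (ν * γ * a + ((1 - ν) * γ * (ν * γ) / (1 - ν * γ)) * b) = gadScal γ ν a b := by
  have h1 : gP ((1 - ν * γ) * a) ((1 - γ) / (1 - ν * γ) * b) (((1 - ν) * γ) * b)
      (ν * γ * a + ((1 - ν) * γ * (ν * γ) / (1 - ν * γ)) * b) = a + b := by
    unfold gP
    field_simp
    ring
  have h2 : gD ((1 - ν * γ) * a) ((1 - γ) / (1 - ν * γ) * b) (((1 - ν) * γ) * b)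
      (ν * γ * a + ((1 - ν) * γ * (ν * γ) / (1 - ν * γ)) * b) = gadDet γ ν a b := by
    unfold gD gadDet
    field_simp
    ring
  unfold gScal gMuP gMuM gadScal
  rw [h1, h2]

/-- **The two-letter inequality** for `A_{γ,ν}`. -/
theorem core_gad {ι κ : Type*} [Fintype ι] [DecidableEq ι] [Fintype κ] [DecidableEq κ]
    (X₀ X₁ : Matrix ι κ ℂ) {γ ν : ℝ} (hγ0 : 0 ≤ γ) (hγ1 : γ ≤ 1) (hν0 : 0 ≤ ν) (hν1 : ν ≤ 1) :
    ent (X₀ * X₀ᴴ) + ent (X₁ * X₁ᴴ) +
        (gadScal γ ν (trace (X₀ * X₀ᴴ)).re (trace (X₁ * X₁ᴴ)).re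
          - negMulLog (trace (X₀ * X₀ᴴ)).re - negMulLog (trace (X₁ * X₁ᴴ)).re) ≤
      ent (fromBlocks
        (((1 - ν * γ : ℝ) : ℂ) • (X₀ * X₀ᴴ) + (((1 - ν) * γ : ℝ) : ℂ) • (X₁ * X₁ᴴ))
        (((Real.sqrt (1 - γ) : ℝ) : ℂ) • (X₀ * X₁ᴴ))
        (((Real.sqrt (1 - γ) : ℝ) : ℂ) • (X₁ * X₀ᴴ))
        (((ν * γ : ℝ) : ℂ) • (X₀ * X₀ᴴ) + ((1 - (1 - ν) * γ : ℝ) : ℂ) • (X₁ * X₁ᴴ))) := by
  have hP : (X₀ * X₀ᴴ).PosSemidef := posSemidef_self_mul_conjTranspose X₀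
  have hQ : (X₁ * X₁ᴴ).PosSemidef := posSemidef_self_mul_conjTranspose X₁
  obtain ⟨P, hPdef⟩ : ∃ P, P = X₀ * X₀ᴴ := ⟨_, rfl⟩
  obtain ⟨Q, hQdef⟩ : ∃ Q, Q = X₁ * X₁ᴴ := ⟨_, rfl⟩
  rw [← hPdef] at hP
  rw [← hQdef] at hQ
  rw [← hPdef, ← hQdef]
  obtain ⟨a, hadef⟩ : ∃ a, a = (trace P).re := ⟨_, rfl⟩
  obtain ⟨b, hbdef⟩ : ∃ b, b = (trace Q).re := ⟨_, rfl⟩
  rw [← hadef, ← hbdef]
  have ha : 0 ≤ a := hadef ▸ trace_re_nonneg_of_psd hP
  have hb : 0 ≤ b := hbdef ▸ trace_re_nonneg_of_psd hQ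
  by_cases hp0 : 1 - ν * γ = 0
  · have hνγ : ν * γ = 1 := by linarith
    have hν : ν = 1 := by nlinarith
    have hγ : γ = 1 := by nlinarith
    subst hν
    subst hγ
    have e1 : gadScal 1 1 a b = negMulLog (a + b) := by
      unfold gadScal gadDet
      have : (a + b) ^ 2 - 4 * ((1 - 1 * 1) * (1 * 1) * a ^ 2 + 2 * ((1 - 1) * 1) * (1 * 1) * a * b +
          (1 - 1) * 1 * (1 - (1 - 1) * 1) * b ^ 2) = (a + b) ^ 2 := by ring
      rw [this, Real.sqrt_sq (add_nonneg ha hb)]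
      have h1 : (a + b + (a + b)) / 2 = a + b := by ring
      have h2 : (a + b - (a + b)) / 2 = 0 := by ring
      rw [h1, h2]
      simp
    have hT : fromBlocks
        (((1 - 1 * 1 : ℝ) : ℂ) • P + (((1 - 1) * 1 : ℝ) : ℂ) • Q)
        (((Real.sqrt (1 - 1) : ℝ) : ℂ) • (X₀ * X₁ᴴ))
        (((Real.sqrt (1 - 1) : ℝ) : ℂ) • (X₁ * X₀ᴴ))
        (((1 * 1 : ℝ) : ℂ) • P + ((1 - (1 - 1) * 1 : ℝ) : ℂ) • Q) =
        fromBlocks (0 : Matrix ι ι ℂ) 0 0 (P + Q) := by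
      norm_num
    rw [hT, ent_fromBlocks_diag (isHermitian_zero) (hP.add hQ).isHermitian, ent_zero, e1]
    have := entE_add hP hQ
    unfold entE at this
    rw [trace_add, Complex.add_re, ← hadef, ← hbdef] at this
    linarith
  have hνγ1 : ν * γ ≤ 1 := by nlinarith
  have hp : 0 < 1 - ν * γ := lt_of_le_of_ne (by linarith) (Ne.symm hp0)
  have hq : 0 ≤ (1 - ν) * γ := mul_nonneg (by linarith) hγ0
  have he : 0 ≤ ν * γ := mul_nonneg hν0 hγ0
  have hk2 : Real.sqrt (1 - γ) * Real.sqrt (1 - γ) = 1 - γ := Real.mul_self_sqrt (by linarith)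
  have hs2 : Real.sqrt (1 - ν * γ) * Real.sqrt (1 - ν * γ) = 1 - ν * γ := Real.mul_self_sqrt hp.le
  have hs0 : Real.sqrt (1 - ν * γ) ≠ 0 := (Real.sqrt_pos.mpr hp).ne'
  obtain ⟨c, hcdef⟩ : ∃ c, c = (1 - γ) / (1 - ν * γ) := ⟨_, rfl⟩
  obtain ⟨d, hddef⟩ : ∃ d, d = (1 - ν) * γ * (ν * γ) / (1 - ν * γ) := ⟨_, rfl⟩
  have hc : 0 ≤ c := hcdef ▸ div_nonneg (by linarith) hp.le
  have hd : 0 ≤ d := hddef ▸ div_nonneg (mul_nonneg hq he) hp.le
  have hcd : c + d = 1 - (1 - ν) * γ := by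
    rw [hcdef, hddef, ← add_div, div_eq_iff hp0]
    ring
  have cplx (t : ℝ) (ht : 0 ≤ t) : (0 : ℂ) ≤ ((t : ℝ) : ℂ) := by exact_mod_cast ht
  obtain ⟨M, hMdef⟩ : ∃ M : Matrix ι ι ℂ, M = ((Real.sqrt (1 - γ) : ℝ) : ℂ) • (X₀ * X₁ᴴ) := ⟨_, rfl⟩
  have hMH : Mᴴ = ((Real.sqrt (1 - γ) : ℝ) : ℂ) • (X₁ * X₀ᴴ) := by
    rw [hMdef, conjTranspose_smul, conjTranspose_mul, conjTranspose_conjTranspose]
    simp
  have hBpsd : (fromBlocks (((1 - ν * γ : ℝ) : ℂ) • P) M Mᴴ ((c : ℂ) • Q)).PosSemidef := by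
    have hY := posSemidef_self_mul_conjTranspose
      (fromRows (((Real.sqrt (1 - ν * γ) : ℝ) : ℂ) • X₀)
        (((Real.sqrt (1 - γ) / Real.sqrt (1 - ν * γ) : ℝ) : ℂ) • X₁))
    have : fromRows (((Real.sqrt (1 - ν * γ) : ℝ) : ℂ) • X₀)
        (((Real.sqrt (1 - γ) / Real.sqrt (1 - ν * γ) : ℝ) : ℂ) • X₁) *
        (fromRows (((Real.sqrt (1 - ν * γ) : ℝ) : ℂ) • X₀)
        (((Real.sqrt (1 - γ) / Real.sqrt (1 - ν * γ) : ℝ) : ℂ) • X₁))ᴴ =
        fromBlocks (((1 - ν * γ : ℝ) : ℂ) • P) M Mᴴ ((c : ℂ) • Q) := by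
      rw [conjTranspose_fromRows_eq_fromCols_conjTranspose, fromRows_mul_fromCols,
        smul_mul_smul_conj, smul_mul_smul_conj, smul_mul_smul_conj, smul_mul_smul_conj, hMH, hMdef,
        hPdef, hQdef, hs2]
      have h1 : Real.sqrt (1 - ν * γ) * (Real.sqrt (1 - γ) / Real.sqrt (1 - ν * γ)) =
          Real.sqrt (1 - γ) := by
        field_simp
      have h2 : Real.sqrt (1 - γ) / Real.sqrt (1 - ν * γ) * Real.sqrt (1 - ν * γ) =
          Real.sqrt (1 - γ) := div_mul_cancel₀ _ hs0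
      have h3 : Real.sqrt (1 - γ) / Real.sqrt (1 - ν * γ) *
          (Real.sqrt (1 - γ) / Real.sqrt (1 - ν * γ)) = c := by
        rw [div_mul_div_comm, hk2, hs2, hcdef]
      rw [h1, h2, h3]
    rw [← this]
    exact hY
  have hN0 : (((((1 - ν) * γ : ℝ)) : ℂ) • Q).PosSemidef := hQ.smul (cplx _ hq)
  have hN1' : (((ν * γ : ℝ) : ℂ) • P).PosSemidef := hP.smul (cplx _ he)
  have hN1'' : ((d : ℂ) • Q).PosSemidef := hQ.smul (cplx _ hd)
  have hcore := g_core M hN0 (hN1'.add hN1'') hBpsd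
  have hAdd : (c : ℂ) • Q + (((ν * γ : ℝ) : ℂ) • P + (d : ℂ) • Q) =
      ((ν * γ : ℝ) : ℂ) • P + ((1 - (1 - ν) * γ : ℝ) : ℂ) • Q := by
    rw [← hcd, Complex.ofReal_add, add_smul]
    abel
  rw [hAdd, hMH, hMdef] at hcore
  have E1 : entE (((1 - ν * γ : ℝ) : ℂ) • P) = (1 - ν * γ) * entE P :=
    entE_smul hP.isHermitian hp.le
  have E2 : entE ((c : ℂ) • Q) = c * entE Q := entE_smul hQ.isHermitian hc
  have E3 : entE (((((1 - ν) * γ : ℝ)) : ℂ) • Q) = (1 - ν) * γ * entE Q :=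
    entE_smul hQ.isHermitian hq
  have E4 : ν * γ * entE P + d * entE Q ≤ entE (((ν * γ : ℝ) : ℂ) • P + (d : ℂ) • Q) := by
    have := entE_add hN1' hN1''
    rwa [entE_smul hP.isHermitian he, entE_smul hQ.isHermitian hd] at this
  have tr (t : ℝ) (Z : Matrix ι ι ℂ) : (trace (((t : ℝ) : ℂ) • Z)).re = t * (trace Z).re := by
    simp [trace_smul]
  have T1 : (trace (((1 - ν * γ : ℝ) : ℂ) • P)).re = (1 - ν * γ) * a := by rw [tr, hadef]
  have T2 : (trace ((c : ℂ) • Q)).re = c * b := by rw [tr, hbdef]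
  have T3 : (trace (((((1 - ν) * γ : ℝ)) : ℂ) • Q)).re = (1 - ν) * γ * b := by rw [tr, hbdef]
  have T4 : (trace (((ν * γ : ℝ) : ℂ) • P + (d : ℂ) • Q)).re = ν * γ * a + d * b := by
    rw [trace_add, Complex.add_re, tr, tr, hadef, hbdef]
  rw [T1, T2, T3, T4, hcdef, hddef, scal_eq hp0, ← hcdef, ← hddef, E1, E2, E3] at hcore
  have hP1 : entE P = ent P - negMulLog a := by rw [entE, hadef]
  have hQ1 : entE Q = ent Q - negMulLog b := by rw [entE, hbdef]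
  have hsumP : (1 - ν * γ) * entE P + ν * γ * entE P = entE P := by ring
  have hsumQ : c * entE Q + (1 - ν) * γ * entE Q + d * entE Q = entE Q := by
    have : c * entE Q + (1 - ν) * γ * entE Q + d * entE Q = (c + d + (1 - ν) * γ) * entE Q := by ring
    rw [this, hcd]
    ring
  linarith

end

end Vale.Agent.Lib.P358
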