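import Vale.Agent.Lib.P358.EntInt
import Vale.Agent.Lib.P358.AnaKern
import Vale.Agent.Lib.P358.AnaRef

/-!
# Trial vector bound for the resolvent of the two-letter block matrix (P358 library)
-/

namespace Vale.Agent.Lib.P358

open Matrix Real Finset
open scoped ComplexOrder

noncomputable section

section Trial

variable {n : Type*} [Fintype n] [DecidableEq n]

/-- Variational lower bound for the resolvent. -/
theorem resolvent_trial {H : Matrix n n ℂ} (hH : H.PosDef) (v w : n → ℂ) :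
    2 * (star v ⬝ᵥ w).re - (star w ⬝ᵥ (H *ᵥ w)).re ≤ (star v ⬝ᵥ (H⁻¹ *ᵥ v)).re := by
  classical
  have hdet : IsUnit H.det := (Matrix.isUnit_iff_isUnit_det _).mp hH.isUnit
  set u := H⁻¹ *ᵥ v with hu
  have hHu : H *ᵥ u = v := by
    rw [hu, Matrix.mulVec_mulVec, Matrix.mul_nonsing_inv _ hdet, Matrix.one_mulVec]
  have hherm : Hᴴ = H := hH.isHermitian
  have key : 0 ≤ (star (w - u) ⬝ᵥ (H *ᵥ (w - u))).re := by
    have := hH.posSemidef.dotProduct_mulVec_nonneg (w - u)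
    have h2 := (Complex.le_def.mp this).1
    simpa using h2
  have e1 : star (w - u) ⬝ᵥ (H *ᵥ (w - u)) =
      star w ⬝ᵥ (H *ᵥ w) - star w ⬝ᵥ v - star u ⬝ᵥ (H *ᵥ w) + star u ⬝ᵥ v := by
    rw [Matrix.mulVec_sub, hHu, star_sub, sub_dotProduct, dotProduct_sub, dotProduct_sub]
    ring
  have e2 : star u ⬝ᵥ (H *ᵥ w) = star v ⬝ᵥ w := by
    have : star u ⬝ᵥ (H *ᵥ w) = (star u ᵥ* H) ⬝ᵥ w := by
      rw [Matrix.dotProduct_mulVec]
    rw [this]
    conv_rhs => rw [← hHu, Matrix.star_mulVec, hherm]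
  have hsw : ∀ a b : n → ℂ, (star a ⬝ᵥ b).re = (star b ⬝ᵥ a).re := by
    intro a b
    have : star a ⬝ᵥ b = star (star b ⬝ᵥ a) := by
      simp [dotProduct, mul_comm]
    rw [this]; simp
  have e3 : (star w ⬝ᵥ v).re = (star v ⬝ᵥ w).re := hsw _ _
  have e4 : (star u ⬝ᵥ v).re = (star v ⬝ᵥ u).re := hsw _ _
  rw [e1, e2] at key
  simp only [Complex.add_re, Complex.sub_re] at key
  rw [e3, e4] at key
  linarith

theorem star_dot_self_re (u : n → ℂ) : (star u ⬝ᵥ u).re = ∑ i, ‖u i‖ ^ 2 := by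
  simp only [dotProduct, Pi.star_apply, Complex.re_sum]
  refine Finset.sum_congr rfl fun i _ => ?_
  rw [Complex.sq_norm, Complex.normSq_apply]
  simp

theorem quad_form (Y : Matrix n n ℂ) (s : ℝ) (w : n → ℂ) :
    (star w ⬝ᵥ ((Y * Yᴴ + (s : ℂ) • (1 : Matrix n n ℂ)) *ᵥ w)).re =
      s * ∑ i, ‖w i‖ ^ 2 + ∑ i, ‖(Yᴴ *ᵥ w) i‖ ^ 2 := by
  rw [Matrix.add_mulVec, Matrix.smul_mulVec, Matrix.one_mulVec, dotProduct_add, ← Matrix.mulVec_mulVec,
    Matrix.dotProduct_mulVec]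
  have h1 : star w ᵥ* Y = star (Yᴴ *ᵥ w) := by
    rw [Matrix.star_mulVec, conjTranspose_conjTranspose]
  rw [h1, Complex.add_re, star_dot_self_re, dotProduct_smul, smul_eq_mul, Complex.mul_re]
  simp only [Complex.ofReal_re, Complex.ofReal_im, zero_mul, sub_zero]
  rw [star_dot_self_re]
  ring

end Trial

section Block

variable {ι : Type*} [Fintype ι] [DecidableEq ι]

/-- The block matrix `[[X, q D], [r D, 0]]`, `D = diag(d)`. -/
def bY (X : Matrix ι ι ℂ) (d : ι → ℝ) (q r : ℝ) : Matrix (ι ⊕ ι) (ι ⊕ ι) ℂ :=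
  fromBlocks X (diagonal fun k => ((q * d k : ℝ) : ℂ)) (diagonal fun k => ((r * d k : ℝ) : ℂ)) 0

theorem bY_conjTranspose (X : Matrix ι ι ℂ) (d : ι → ℝ) (q r : ℝ) :
    (bY X d q r)ᴴ = bY Xᴴ d r q := by
  simp [bY, fromBlocks_conjTranspose, diagonal_conjTranspose]

/-- The trial vector. -/
def trialVec (X : Matrix ι ι ℂ) (d : ι → ℝ) (r s a : ℝ) (k : ι) : ι ⊕ ι → ℂ :=
  Sum.elim (fun i => if i = k then (a : ℂ) else 0)
    (fun l => -((a * r * d l / (s + r ^ 2 * d l ^ 2) : ℝ) : ℂ) * star (X k l))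

theorem conj_mulVec_trialVec (X : Matrix ι ι ℂ) (d : ι → ℝ) (q r s a : ℝ) (k : ι) :
    (bY X d q r)ᴴ *ᵥ trialVec X d r s a k =
      Sum.elim (fun l => ((a - r * d l * (a * r * d l / (s + r ^ 2 * d l ^ 2)) : ℝ) : ℂ) * star (X k l))
        (fun l => ((q * d l : ℝ) : ℂ) * (if l = k then (a : ℂ) else 0)) := by
  rw [bY_conjTranspose, bY, fromBlocks_mulVec]
  ext i
  rcases i with l | l
  · simp [trialVec, mulVec, dotProduct, diagonal_apply]
    ring
  · simp [trialVec, mulVec, dotProduct, diagonal_apply]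

theorem posDef_add_smul_one {n : Type*} [Fintype n] [DecidableEq n] (Y : Matrix n n ℂ) {s : ℝ}
    (hs : 0 < s) : (Y * Yᴴ + (s : ℂ) • (1 : Matrix n n ℂ)).PosDef := by
  refine Matrix.PosDef.posSemidef_add ?_ ?_
  · exact Matrix.posSemidef_self_mul_conjTranspose Y
  · exact Matrix.PosDef.smul Matrix.PosDef.one (by exact_mod_cast hs)

/-- Diagonal lower bound for the resolvent. -/
theorem resolvent_diag_ge (X : Matrix ι ι ℂ) (d : ι → ℝ) (q r : ℝ) {s : ℝ} (hs : 0 < s) (a : ℝ)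
    (k : ι) :
    2 * a - a ^ 2 * (s + q ^ 2 * d k ^ 2 + ∑ l, ‖X k l‖ ^ 2 * (s / (s + r ^ 2 * d l ^ 2))) ≤
      ((bY X d q r * (bY X d q r)ᴴ + (s : ℂ) • (1 : Matrix (ι ⊕ ι) (ι ⊕ ι) ℂ))⁻¹
        (Sum.inl k) (Sum.inl k)).re := by
  classical
  set Y := bY X d q r with hY
  have hH := posDef_add_smul_one Y hs
  have h := resolvent_trial hH (Pi.single (Sum.inl k) 1) (trialVec X d r s a k)
  have e1 : star (Pi.single (Sum.inl k : ι ⊕ ι) (1 : ℂ)) ⬝ᵥ
      ((Y * Yᴴ + (s : ℂ) • (1 : Matrix (ι ⊕ ι) (ι ⊕ ι) ℂ))⁻¹ *ᵥ Pi.single (Sum.inl k) 1) =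
      (Y * Yᴴ + (s : ℂ) • (1 : Matrix (ι ⊕ ι) (ι ⊕ ι) ℂ))⁻¹ (Sum.inl k) (Sum.inl k) := by
    simp [Pi.star_single]
  have e2 : star (Pi.single (Sum.inl k : ι ⊕ ι) (1 : ℂ)) ⬝ᵥ trialVec X d r s a k = (a : ℂ) := by
    simp [Pi.star_single, trialVec]
  rw [e1, e2, quad_form, conj_mulVec_trialVec] at h
  simp only [Complex.ofReal_re] at h
  refine le_trans (le_of_eq ?_) h
  simp only [Fintype.sum_sum_type, Sum.elim_inl, Sum.elim_inr, trialVec]
  have n1 : ∀ i : ι, ‖(if i = k then (a : ℂ) else 0)‖ ^ 2 = if i = k then a ^ 2 else 0 := by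
    intro i
    split_ifs <;> simp
  have n2 : ∀ l : ι, ‖-((a * r * d l / (s + r ^ 2 * d l ^ 2) : ℝ) : ℂ) * star (X k l)‖ ^ 2 =
      (a * r * d l / (s + r ^ 2 * d l ^ 2)) ^ 2 * ‖X k l‖ ^ 2 := by
    intro l
    rw [norm_mul, norm_neg, Complex.norm_real, norm_star, mul_pow, Real.norm_eq_abs, sq_abs]
  have n3 : ∀ l : ι, ‖((a - r * d l * (a * r * d l / (s + r ^ 2 * d l ^ 2)) : ℝ) : ℂ) * star (X k l)‖ ^ 2 =
      (a - r * d l * (a * r * d l / (s + r ^ 2 * d l ^ 2))) ^ 2 * ‖X k l‖ ^ 2 := by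
    intro l
    rw [norm_mul, Complex.norm_real, norm_star, mul_pow, Real.norm_eq_abs, sq_abs]
  have n4 : ∀ l : ι, ‖((q * d l : ℝ) : ℂ) * (if l = k then (a : ℂ) else 0)‖ ^ 2 =
      if l = k then (q * d k) ^ 2 * a ^ 2 else 0 := by
    intro l
    split_ifs with h
    · subst h
      rw [norm_mul, Complex.norm_real, Complex.norm_real, mul_pow, Real.norm_eq_abs, sq_abs,
        Real.norm_eq_abs, sq_abs]
    · simp
  simp only [n1, n2, n3, n4, Finset.sum_ite_eq', Finset.mem_univ, if_true]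
  have key : ∀ l : ι, s * ((a * r * d l / (s + r ^ 2 * d l ^ 2)) ^ 2 * ‖X k l‖ ^ 2) +
      (a - r * d l * (a * r * d l / (s + r ^ 2 * d l ^ 2))) ^ 2 * ‖X k l‖ ^ 2 =
      a ^ 2 * (‖X k l‖ ^ 2 * (s / (s + r ^ 2 * d l ^ 2))) := by
    intro l
    have hpos : s + r ^ 2 * d l ^ 2 ≠ 0 := by positivity
    field_simp
    ring
  have key2 : s * ∑ l, ((a * r * d l / (s + r ^ 2 * d l ^ 2)) ^ 2 * ‖X k l‖ ^ 2) +
      ∑ l, (a - r * d l * (a * r * d l / (s + r ^ 2 * d l ^ 2))) ^ 2 * ‖X k l‖ ^ 2 =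
      a ^ 2 * ∑ l, (‖X k l‖ ^ 2 * (s / (s + r ^ 2 * d l ^ 2))) := by
    rw [Finset.mul_sum, ← Finset.sum_add_distrib, Finset.mul_sum]
    exact Finset.sum_congr rfl fun l _ => key l
  have : 2 * a - a ^ 2 * (s + q ^ 2 * d k ^ 2 + ∑ l, ‖X k l‖ ^ 2 * (s / (s + r ^ 2 * d l ^ 2))) =
      2 * a - (s * (a ^ 2 + ∑ l, ((a * r * d l / (s + r ^ 2 * d l ^ 2)) ^ 2 * ‖X k l‖ ^ 2)) +
        (∑ l, (a - r * d l * (a * r * d l / (s + r ^ 2 * d l ^ 2))) ^ 2 * ‖X k l‖ ^ 2 +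
          (q * d k) ^ 2 * a ^ 2)) := by
    have := key2
    linear_combination this
  rw [this]

/-- The Hermitian matrix `C₀ = diag(D², 0)`. -/
def bC0 (d : ι → ℝ) : Matrix (ι ⊕ ι) (ι ⊕ ι) ℂ :=
  fromBlocks (diagonal fun k => ((d k ^ 2 : ℝ) : ℂ)) 0 0 0

theorem trace_bC0_mul (d : ι → ℝ) (R : Matrix (ι ⊕ ι) (ι ⊕ ι) ℂ) :
    (trace (bC0 d * R)).re = ∑ k, d k ^ 2 * (R (Sum.inl k) (Sum.inl k)).re := by
  rw [trace, Complex.re_sum, Fintype.sum_sum_type]
  have h1 : ∀ k, (bC0 d * R).diag (Sum.inl k) = ((d k ^ 2 : ℝ) : ℂ) * R (Sum.inl k) (Sum.inl k) := by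
    intro k
    simp [bC0, Matrix.mul_apply, Fintype.sum_sum_type, diagonal_apply, Finset.sum_ite_eq]
  have h2 : ∀ k, (bC0 d * R).diag (Sum.inr k) = 0 := by
    intro k
    simp [bC0, Matrix.mul_apply, Fintype.sum_sum_type]
  simp only [h1, h2, Complex.zero_re, Finset.sum_const_zero, add_zero, Complex.re_ofReal_mul]

/-- Derivative direction: `C = Y₁ Y* + Y Y₁*` with `Y₁ = bY 0 d q r`. -/
def bC (X : Matrix ι ι ℂ) (d : ι → ℝ) (q r : ℝ) : Matrix (ι ⊕ ι) (ι ⊕ ι) ℂ :=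
  bY 0 d q r * (bY X d q r)ᴴ + bY X d q r * (bY 0 d q r)ᴴ

/-- The intertwining relation `Y* (Y Y* + s)⁻¹ = (Y* Y + s)⁻¹ Y*`. -/
theorem intertwine {n : Type*} [Fintype n] [DecidableEq n] (Y : Matrix n n ℂ) {s : ℝ} (hs : 0 < s) :
    Yᴴ * (Y * Yᴴ + (s : ℂ) • (1 : Matrix n n ℂ))⁻¹ =
      (Yᴴ * Y + (s : ℂ) • (1 : Matrix n n ℂ))⁻¹ * Yᴴ := by
  have h1 := posDef_add_smul_one Y hs
  have h2 := posDef_add_smul_one Yᴴ hs
  rw [conjTranspose_conjTranspose] at h2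
  have d1 : IsUnit (Y * Yᴴ + (s : ℂ) • (1 : Matrix n n ℂ)).det :=
    (Matrix.isUnit_iff_isUnit_det _).mp h1.isUnit
  have d2 : IsUnit (Yᴴ * Y + (s : ℂ) • (1 : Matrix n n ℂ)).det :=
    (Matrix.isUnit_iff_isUnit_det _).mp h2.isUnit
  have key : (Yᴴ * Y + (s : ℂ) • (1 : Matrix n n ℂ)) * Yᴴ =
      Yᴴ * (Y * Yᴴ + (s : ℂ) • (1 : Matrix n n ℂ)) := by
    simp only [add_mul, mul_add, Matrix.mul_assoc, smul_mul_assoc, mul_smul_comm, one_mul, mul_one]
  calc Yᴴ * (Y * Yᴴ + (s : ℂ) • (1 : Matrix n n ℂ))⁻¹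
      = (Yᴴ * Y + (s : ℂ) • (1 : Matrix n n ℂ))⁻¹ * ((Yᴴ * Y + (s : ℂ) • (1 : Matrix n n ℂ)) * Yᴴ) *
          (Y * Yᴴ + (s : ℂ) • (1 : Matrix n n ℂ))⁻¹ := by
        rw [← Matrix.mul_assoc, Matrix.nonsing_inv_mul _ d2, Matrix.one_mul]
    _ = (Yᴴ * Y + (s : ℂ) • (1 : Matrix n n ℂ))⁻¹ * Yᴴ := by
        rw [key, Matrix.mul_assoc, Matrix.mul_assoc, Matrix.mul_nonsing_inv _ d1, Matrix.mul_one]

theorem trace_bC_mul (X : Matrix ι ι ℂ) (d : ι → ℝ) (q r : ℝ) {s : ℝ} (hs : 0 < s) :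
    (trace (bC X d q r * (bY X d q r * (bY X d q r)ᴴ + (s : ℂ) • (1 : Matrix (ι ⊕ ι) (ι ⊕ ι) ℂ))⁻¹)).re =
      2 * (q ^ 2 * (trace (bC0 d *
            (bY X d q r * (bY X d q r)ᴴ + (s : ℂ) • (1 : Matrix (ι ⊕ ι) (ι ⊕ ι) ℂ))⁻¹)).re +
          r ^ 2 * (trace (bC0 d *
            ((bY X d q r)ᴴ * bY X d q r + (s : ℂ) • (1 : Matrix (ι ⊕ ι) (ι ⊕ ι) ℂ))⁻¹)).re) := by
  set Y := bY X d q r with hY
  set R := (Y * Yᴴ + (s : ℂ) • (1 : Matrix (ι ⊕ ι) (ι ⊕ ι) ℂ))⁻¹ with hR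
  set R' := (Yᴴ * Y + (s : ℂ) • (1 : Matrix (ι ⊕ ι) (ι ⊕ ι) ℂ))⁻¹ with hR'
  have hRH : Rᴴ = R := by
    have := (posDef_add_smul_one Y hs).isHermitian
    rw [hR, Matrix.conjTranspose_nonsing_inv, this.eq]
  set M1 : Matrix (ι ⊕ ι) (ι ⊕ ι) ℂ :=
    fromBlocks 0 (diagonal fun k => ((q * d k : ℝ) : ℂ)) 0 0 with hM1
  set M2 : Matrix (ι ⊕ ι) (ι ⊕ ι) ℂ :=
    fromBlocks 0 0 (diagonal fun k => ((r * d k : ℝ) : ℂ)) 0 with hM2
  have hsplit : bY 0 d q r = M1 + M2 := by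
    simp [bY, hM1, hM2, fromBlocks_add]
  have dg : ∀ t : ℝ, (diagonal fun k => ((t * d k : ℝ) : ℂ)) * (diagonal fun k => ((t * d k : ℝ) : ℂ)) =
      ((t ^ 2 : ℝ) : ℂ) • diagonal fun k => ((d k ^ 2 : ℝ) : ℂ) := by
    intro t
    rw [diagonal_mul_diagonal, ← diagonal_smul]
    congr 1
    ext k
    simp only [Pi.smul_apply, smul_eq_mul]
    push_cast
    ring
  have e1 : M1 * Yᴴ = ((q ^ 2 : ℝ) : ℂ) • bC0 d := by
    rw [hY, bY_conjTranspose, bY, hM1, fromBlocks_multiply, bC0, fromBlocks_smul]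
    simp only [dg, zero_mul, mul_zero, add_zero, zero_add, smul_zero]
  have e2 : Yᴴ * M2 = ((r ^ 2 : ℝ) : ℂ) • bC0 d := by
    rw [hY, bY_conjTranspose, bY, hM2, fromBlocks_multiply, bC0, fromBlocks_smul]
    simp only [dg, zero_mul, mul_zero, add_zero, zero_add, smul_zero]
  have hint : Yᴴ * R = R' * Yᴴ := intertwine Y hs
  have t1 : trace ((M1 + M2) * Yᴴ * R) =
      ((q ^ 2 : ℝ) : ℂ) * trace (bC0 d * R) + ((r ^ 2 : ℝ) : ℂ) * trace (bC0 d * R') := by
    rw [add_mul, add_mul, trace_add, e1, smul_mul_assoc, trace_smul, smul_eq_mul, Matrix.mul_assoc M2,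
      hint, ← Matrix.mul_assoc M2, Matrix.trace_mul_comm (M2 * R'), ← Matrix.mul_assoc, e2,
      smul_mul_assoc, trace_smul, smul_eq_mul]
  have t2 : (trace (Y * (M1 + M2)ᴴ * R)).re = (trace ((M1 + M2) * Yᴴ * R)).re := by
    have h1 : trace (Y * (M1 + M2)ᴴ * R) = star (trace ((M1 + M2) * Yᴴ * R)) := by
      rw [← Matrix.trace_conjTranspose, conjTranspose_mul, conjTranspose_mul, conjTranspose_conjTranspose,
        hRH, Matrix.trace_mul_comm]
    rw [h1]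
    simp
  have hb : bC X d q r = (M1 + M2) * Yᴴ + Y * (M1 + M2)ᴴ := by
    rw [bC, hsplit]
  rw [hb, add_mul, trace_add, Complex.add_re, t2, t1, Complex.add_re, Complex.re_ofReal_mul,
    Complex.re_ofReal_mul]
  ring

/-- The lower bound of `re tr(C R_s)` by the trial vectors. -/
theorem trace_bC_ge (X : Matrix ι ι ℂ) (d : ι → ℝ) (q r : ℝ) {s : ℝ} (hs : 0 < s)
    (a a' : ι → ℝ) :
    2 * (q ^ 2 * ∑ k, d k ^ 2 * (2 * a k - a k ^ 2 * (s + q ^ 2 * d k ^ 2 +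
            ∑ l, ‖X k l‖ ^ 2 * (s / (s + r ^ 2 * d l ^ 2)))) +
        r ^ 2 * ∑ k, d k ^ 2 * (2 * a' k - a' k ^ 2 * (s + r ^ 2 * d k ^ 2 +
            ∑ l, ‖X l k‖ ^ 2 * (s / (s + q ^ 2 * d l ^ 2))))) ≤
      (trace (bC X d q r * (bY X d q r * (bY X d q r)ᴴ + (s : ℂ) • (1 : Matrix (ι ⊕ ι) (ι ⊕ ι) ℂ))⁻¹)).re := by
  rw [trace_bC_mul X d q r hs, trace_bC0_mul, trace_bC0_mul]
  have h1 : ∀ k, d k ^ 2 * (2 * a k - a k ^ 2 * (s + q ^ 2 * d k ^ 2 +
        ∑ l, ‖X k l‖ ^ 2 * (s / (s + r ^ 2 * d l ^ 2)))) ≤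
      d k ^ 2 * ((bY X d q r * (bY X d q r)ᴴ + (s : ℂ) • (1 : Matrix (ι ⊕ ι) (ι ⊕ ι) ℂ))⁻¹
        (Sum.inl k) (Sum.inl k)).re := fun k =>
    mul_le_mul_of_nonneg_left (resolvent_diag_ge X d q r hs (a k) k) (sq_nonneg _)
  have h2 : ∀ k, d k ^ 2 * (2 * a' k - a' k ^ 2 * (s + r ^ 2 * d k ^ 2 +
        ∑ l, ‖X l k‖ ^ 2 * (s / (s + q ^ 2 * d l ^ 2)))) ≤
      d k ^ 2 * (((bY X d q r)ᴴ * bY X d q r + (s : ℂ) • (1 : Matrix (ι ⊕ ι) (ι ⊕ ι) ℂ))⁻¹
        (Sum.inl k) (Sum.inl k)).re := fun k => by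
    have := resolvent_diag_ge Xᴴ d r q hs (a' k) k
    rw [← bY_conjTranspose, conjTranspose_conjTranspose] at this
    simp only [conjTranspose_apply, norm_star] at this
    exact mul_le_mul_of_nonneg_left this (sq_nonneg _)
  have h1' := Finset.sum_le_sum fun k (_ : k ∈ Finset.univ) => h1 k
  have h2' := Finset.sum_le_sum fun k (_ : k ∈ Finset.univ) => h2 k
  have := mul_le_mul_of_nonneg_left h1' (sq_nonneg q)
  have := mul_le_mul_of_nonneg_left h2' (sq_nonneg r)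
  linarith

/-- `Y Y*` is positive definite. -/
theorem bY_posDef (X : Matrix ι ι ℂ) {d : ι → ℝ} {q r : ℝ} (hd : ∀ k, 0 < d k) (hq : 0 < q)
    (hr : 0 < r) : (bY X d q r * (bY X d q r)ᴴ).PosDef := by
  refine Matrix.PosDef.mul_conjTranspose_self _ ?_
  have key : ∀ u : ι ⊕ ι → ℂ, u ᵥ* bY X d q r = 0 → u = 0 := by
    intro u hu
    rw [bY, vecMul_fromBlocks] at hu
    have h1 : ∀ l, u (Sum.inl l) = 0 := by
      intro l
      have := congrFun hu (Sum.inr l)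
      simp [vecMul, dotProduct, diagonal_apply] at this
      rcases this with h | h | h
      · exact h
      · exact absurd h hq.ne'
      · exact absurd h (hd l).ne'
    have h0 : (u ∘ Sum.inl) = 0 := by
      funext l; exact h1 l
    have h2 : ∀ l, u (Sum.inr l) = 0 := by
      intro l
      have := congrFun hu (Sum.inl l)
      rw [h0] at this
      simp [vecMul, dotProduct, diagonal_apply] at this
      rcases this with h | h | h
      · exact h
      · exact absurd h hr.ne'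
      · exact absurd h (hd l).ne'
    funext i
    rcases i with l | l
    · exact h1 l
    · exact h2 l
  intro v w hvw
  have : (v - w) ᵥ* bY X d q r = 0 := by
    rw [Matrix.sub_vecMul]
    exact sub_eq_zero.mpr hvw
  exact sub_eq_zero.mp (key _ this)

theorem trace_fromBlocks' {n m : Type*} [Fintype n] [Fintype m] (A : Matrix n n ℂ) (B : Matrix n m ℂ)
    (C : Matrix m n ℂ) (D : Matrix m m ℂ) : trace (fromBlocks A B C D) = trace A + trace D := by
  simp [trace, Fintype.sum_sum_type]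

theorem trace_bC (X : Matrix ι ι ℂ) (d : ι → ℝ) (q r : ℝ) :
    (trace (bC X d q r)).re = 2 * ((q ^ 2 + r ^ 2) * ∑ k, d k ^ 2) := by
  unfold bC
  rw [bY_conjTranspose, bY_conjTranspose, bY, bY, bY, bY, fromBlocks_multiply, fromBlocks_multiply]
  rw [trace_add, trace_fromBlocks', trace_fromBlocks']
  simp only [zero_mul, mul_zero, add_zero, zero_add, conjTranspose_zero, diagonal_mul_diagonal,
    trace_diagonal, Complex.add_re, Complex.re_sum, ← Complex.ofReal_mul, Complex.ofReal_re]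
  rw [← Finset.sum_add_distrib, ← Finset.sum_add_distrib, Finset.mul_sum, Finset.mul_sum]
  refine Finset.sum_congr rfl fun k _ => ?_
  ring

end Block

section Scalar

variable {ι : Type*} [Fintype ι] [DecidableEq ι]

theorem trial_per1 {x Z Y c s : ℝ} (hx : 0 < x) (hZ : 0 < Z) (hY : 0 < Y) (hc : 0 < c) (hs : 0 < s) :
    2 * trialA x Z Y c s - trialA x Z Y c s ^ 2 * (s + Z * c) =
      trialA x Z Y c s + x * s * c * trialA x Z Y c s ^ 2 / (s + Y * c) := by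
  have hD : (s + Z * c) * (s + Y * c) + x * s * c ≠ 0 := by
    positivity
  have h2 : s + Y * c ≠ 0 := by positivity
  unfold trialA Dc
  field_simp
  ring

theorem trial_per2 {x Z Y c s : ℝ} (hx : 0 < x) (hZ : 0 < Z) (hY : 0 < Y) (hc : 0 < c) (hs : 0 < s) :
    2 * trialB x Z Y c s - trialB x Z Y c s ^ 2 * (s + Y * c) =
      trialB x Z Y c s + x * s * c * trialB x Z Y c s ^ 2 / (s + Z * c) := by
  have hD : (s + Z * c) * (s + Y * c) + x * s * c ≠ 0 := by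
    positivity
  have h2 : s + Z * c ≠ 0 := by positivity
  unfold trialB Dc
  field_simp
  ring

/-- The algebraic rearrangement of the two trial bounds. -/
theorem G_identity {x Z Y : ℝ} (hx : 0 < x) (hZ : 0 < Z) (hY : 0 < Y) (c : ι → ℝ) (hc : ∀ k, 0 < c k)
    (P : ι → ι → ℝ) {s : ℝ} (hs : 0 < s) :
    Z * ∑ k, c k * (2 * trialA x Z Y (c k) s - trialA x Z Y (c k) s ^ 2 * (s + Z * c k +
        ∑ l, P k l * (s / (s + Y * c l)))) +
      Y * ∑ k, c k * (2 * trialB x Z Y (c k) s - trialB x Z Y (c k) s ^ 2 * (s + Y * c k +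
        ∑ l, P l k * (s / (s + Z * c l)))) =
      ∑ k, refPsi x Z Y (c k) s + x * ∑ k, c k * kern x Z Y (c k) (c k) s -
        ∑ k, ∑ l, P k l * kern x Z Y (c k) (c l) s := by
  have h1 : ∀ k, c k * (2 * trialA x Z Y (c k) s - trialA x Z Y (c k) s ^ 2 * (s + Z * c k +
        ∑ l, P k l * (s / (s + Y * c l)))) =
      c k * (trialA x Z Y (c k) s + x * s * c k * trialA x Z Y (c k) s ^ 2 / (s + Y * c k)) -
        ∑ l, c k * trialA x Z Y (c k) s ^ 2 * (P k l * (s / (s + Y * c l))) := by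
    intro k
    rw [← Finset.mul_sum, ← trial_per1 hx hZ hY (hc k) hs]
    ring
  have h2 : ∀ k, c k * (2 * trialB x Z Y (c k) s - trialB x Z Y (c k) s ^ 2 * (s + Y * c k +
        ∑ l, P l k * (s / (s + Z * c l)))) =
      c k * (trialB x Z Y (c k) s + x * s * c k * trialB x Z Y (c k) s ^ 2 / (s + Z * c k)) -
        ∑ l, c k * trialB x Z Y (c k) s ^ 2 * (P l k * (s / (s + Z * c l))) := by
    intro k
    rw [← Finset.mul_sum, ← trial_per2 hx hZ hY (hc k) hs]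
    ring
  simp only [h1, h2]
  rw [Finset.sum_sub_distrib, Finset.sum_sub_distrib]
  have h3 : ∑ k, ∑ l, P k l * kern x Z Y (c k) (c l) s =
      Z * ∑ k, ∑ l, c k * trialA x Z Y (c k) s ^ 2 * (P k l * (s / (s + Y * c l))) +
      Y * ∑ k, ∑ l, c k * trialB x Z Y (c k) s ^ 2 * (P l k * (s / (s + Z * c l))) := by
    rw [Finset.sum_comm (f := fun k l => c k * trialB x Z Y (c k) s ^ 2 * (P l k * (s / (s + Z * c l))))]
    rw [Finset.mul_sum, Finset.mul_sum, ← Finset.sum_add_distrib]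
    refine Finset.sum_congr rfl fun k _ => ?_
    rw [Finset.mul_sum, Finset.mul_sum, ← Finset.sum_add_distrib]
    refine Finset.sum_congr rfl fun l _ => ?_
    unfold kern
    ring
  have h4 : x * ∑ k, c k * kern x Z Y (c k) (c k) s + ∑ k, refPsi x Z Y (c k) s =
      Z * ∑ k, c k * (trialA x Z Y (c k) s + x * s * c k * trialA x Z Y (c k) s ^ 2 / (s + Y * c k)) +
      Y * ∑ k, c k * (trialB x Z Y (c k) s + x * s * c k * trialB x Z Y (c k) s ^ 2 / (s + Z * c k)) := by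
    rw [Finset.mul_sum, Finset.mul_sum, Finset.mul_sum, ← Finset.sum_add_distrib, ← Finset.sum_add_distrib]
    refine Finset.sum_congr rfl fun k _ => ?_
    unfold kern refPsi
    ring
  rw [h3]
  linear_combination (-1 : ℝ) * h4

end Scalar

section Static

open MeasureTheory Set

variable {ι : Type*} [Fintype ι] [DecidableEq ι]

/-- **The static inequality**: with `C = Y₁Y* + Y Y₁*`,
`2 (Q₀ + (Z+Y) Σ η(d_k²)) ≤ -re tr(C log(YY*))`. -/
theorem static_bound (X : Matrix ι ι ℂ) {d : ι → ℝ} {q r x : ℝ} (hd : ∀ k, 0 < d k)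
    (hd1 : ∑ k, d k ^ 2 = 1) (hq : 0 < q) (hr : 0 < r) (hx : 0 < x)
    (hxe : x = ∑ k, ∑ l, ‖X k l‖ ^ 2) :
    2 * (Q0 x (q ^ 2) (r ^ 2) + (q ^ 2 + r ^ 2) * ∑ k, negMulLog (d k ^ 2)) ≤
      -(trace (bC X d q r * logm (bY X d q r * (bY X d q r)ᴴ))).re := by
  set Y := bY X d q r with hY
  set Z' : ℝ := q ^ 2 with hZ'
  set Y' : ℝ := r ^ 2 with hY'
  have hZpos : 0 < Z' := by positivity
  have hYpos : 0 < Y' := by positivity
  set c : ι → ℝ := fun k => d k ^ 2 with hc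
  have hcpos : ∀ k, 0 < c k := fun k => by
    have := hd k
    positivity
  have hc1 : ∑ k, c k = 1 := hd1
  set P : ι → ι → ℝ := fun k l => ‖X k l‖ ^ 2 with hP
  obtain ⟨hint, heq⟩ := neg_trace_mul_logm_eq_integral (bY_posDef X hd hq hr) (bC X d q r)
  rw [heq]
  have htr : (trace (bC X d q r)).re = 2 * (Z' + Y') := by
    rw [trace_bC]
    have : ∑ k, d k ^ 2 = 1 := hd1
    rw [this, mul_one]
  rw [htr] at hint ⊢
  set G : ℝ → ℝ := fun s => 2 * (∑ k, (refPsi x Z' Y' (c k) s - (Z' + Y') * c k / (1 + s)) +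
      x * ∑ k, c k * kern x Z' Y' (c k) (c k) s - ∑ k, ∑ l, P k l * kern x Z' Y' (c k) (c l) s) with hG
  have hGint : IntegrableOn G (Ioi 0) := by
    refine Integrable.const_mul ?_ 2
    refine Integrable.sub (Integrable.add ?_ (Integrable.const_mul ?_ x)) ?_
    · exact integrable_finsetSum _ fun k _ => refPsi_integrable hx hZpos hYpos (hcpos k)
    · exact integrable_finsetSum _ fun k _ =>
        (kern_integrable hx hZpos hYpos (hcpos k) (hcpos k)).const_mul _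
    · exact integrable_finsetSum _ fun k _ => integrable_finsetSum _ fun l _ =>
        (kern_integrable hx hZpos hYpos (hcpos k) (hcpos l)).const_mul _
  have hGval : ∫ s in Ioi (0 : ℝ), G s = 2 * (Q0 x Z' Y' + (Z' + Y') * ∑ k, negMulLog (c k)) := by
    simp only [hG]
    rw [MeasureTheory.integral_const_mul, MeasureTheory.integral_sub, MeasureTheory.integral_add,
      MeasureTheory.integral_const_mul, MeasureTheory.integral_finsetSum, MeasureTheory.integral_finsetSum,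
      MeasureTheory.integral_finsetSum]
    · have h1 : ∀ k ∈ (Finset.univ : Finset ι), ∫ s in Ioi (0 : ℝ), (refPsi x Z' Y' (c k) s - (Z' + Y') * c k / (1 + s)) =
          c k * Q0 x Z' Y' + (Z' + Y') * negMulLog (c k) := fun k _ =>
        refPsi_integral hx hZpos hYpos (hcpos k)
      have h2 : ∀ k ∈ (Finset.univ : Finset ι), ∫ s in Ioi (0 : ℝ), c k * kern x Z' Y' (c k) (c k) s =
          c k * kernConst x Z' Y' := fun k _ => by
        rw [MeasureTheory.integral_const_mul, kern_integral hx hZpos hYpos (hcpos k) (hcpos k)]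
      have h3 : ∀ k ∈ (Finset.univ : Finset ι), ∫ s in Ioi (0 : ℝ), ∑ l, P k l * kern x Z' Y' (c k) (c l) s =
          ∑ l, P k l * kernConst x Z' Y' := fun k _ => by
        rw [MeasureTheory.integral_finsetSum]
        · refine Finset.sum_congr rfl fun l _ => ?_
          rw [MeasureTheory.integral_const_mul, kern_integral hx hZpos hYpos (hcpos k) (hcpos l)]
        · exact fun l _ => (kern_integrable hx hZpos hYpos (hcpos k) (hcpos l)).const_mul _
      rw [Finset.sum_congr rfl h1, Finset.sum_congr rfl h2, Finset.sum_congr rfl h3,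
        Finset.sum_add_distrib, ← Finset.sum_mul, ← Finset.sum_mul, ← Finset.mul_sum, hc1]
      simp only [← Finset.sum_mul]
      have hP1 : ∑ k, ∑ l, P k l = x := hxe.symm
      rw [hP1]
      ring
    · exact fun k _ => integrable_finsetSum _ fun l _ =>
        (kern_integrable hx hZpos hYpos (hcpos k) (hcpos l)).const_mul _
    · exact fun k _ => (kern_integrable hx hZpos hYpos (hcpos k) (hcpos k)).const_mul _
    · exact fun k _ => refPsi_integrable hx hZpos hYpos (hcpos k)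
    · exact integrable_finsetSum _ fun k _ => refPsi_integrable hx hZpos hYpos (hcpos k)
    · exact (integrable_finsetSum _ fun k _ =>
        (kern_integrable hx hZpos hYpos (hcpos k) (hcpos k)).const_mul _).const_mul x
    · exact Integrable.add (integrable_finsetSum _ fun k _ => refPsi_integrable hx hZpos hYpos (hcpos k))
        ((integrable_finsetSum _ fun k _ =>
        (kern_integrable hx hZpos hYpos (hcpos k) (hcpos k)).const_mul _).const_mul x)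
    · exact integrable_finsetSum _ fun k _ => integrable_finsetSum _ fun l _ =>
        (kern_integrable hx hZpos hYpos (hcpos k) (hcpos l)).const_mul _
  rw [← hGval]
  refine MeasureTheory.setIntegral_mono_on hGint hint measurableSet_Ioi ?_
  intro s hs
  have hs0 : 0 < s := hs
  have h := trace_bC_ge X d q r hs0 (fun k => trialA x Z' Y' (c k) s) (fun k => trialB x Z' Y' (c k) s)
  have hGe := G_identity hx hZpos hYpos c hcpos P hs0
  have hcs : ∑ k, (Z' + Y') * c k / (1 + s) = (Z' + Y') / (1 + s) := by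
    rw [← Finset.sum_div, ← Finset.mul_sum, hc1, mul_one]
  simp only [hG]
  rw [Finset.sum_sub_distrib, hcs]
  have h' : 2 * (∑ k, refPsi x Z' Y' (c k) s + x * ∑ k, c k * kern x Z' Y' (c k) (c k) s -
        ∑ k, ∑ l, P k l * kern x Z' Y' (c k) (c l) s) ≤
      (trace (bC X d q r * (Y * Yᴴ + (s : ℂ) • (1 : Matrix (ι ⊕ ι) (ι ⊕ ι) ℂ))⁻¹)).re := by
    rw [← hGe]
    exact h
  have : 2 * (Z' + Y') / (1 + s) = 2 * ((Z' + Y') / (1 + s)) := by ring
  rw [this]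
  linarith

end Static

end

end Vale.Agent.Lib.P358
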